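import Crest.Agent.FP.Ops

/-! Row 191 (S0291), chunk AD1: adding faces, axioms and walks. -/
set_option autoImplicit false
set_option linter.unusedSectionVars false

namespace Crest.Agent.FP

namespace Sys

variable {Γ : Type} [Group Γ] {m : ℕ} {X : Type} [MulAction Γ X] {D : GD Γ m}

theorem ad1_sameT_refl (x : X) : D.SameT x x := ⟨1, D.T.one_mem, one_smul Γ x⟩

theorem ad1_sameT_symm {x y : X} (h : D.SameT x y) : D.SameT y x := by
  obtain ⟨t, ht, rfl⟩ := h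
  exact ⟨t⁻¹, D.T.inv_mem ht, inv_smul_smul t x⟩

theorem ad1_sameT_trans {x y z : X} (h : D.SameT x y) (h' : D.SameT y z) : D.SameT x z := by
  obtain ⟨t, ht, rfl⟩ := h
  obtain ⟨u, hu, rfl⟩ := h'
  exact ⟨u * t, D.T.mul_mem hu ht, by rw [mul_smul]⟩

theorem ad1_one_ne (hm : 3 ≤ m) (k₀ : ZMod m) : k₀ + 1 ≠ k₀ := by
  intro h
  have h1 : ((1 : ℕ) : ZMod m) = 0 := by
    have : k₀ + 1 = k₀ + 0 := by rw [add_zero]; exact h
    simpa using add_left_cancel this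
  rw [ZMod.natCast_eq_zero_iff] at h1
  have := Nat.le_of_dvd (by omega) h1
  omega

theorem ad1_sub_ne (hm : 3 ≤ m) (k₀ : ZMod m) : k₀ - 1 ≠ k₀ := by
  intro h
  have := ad1_one_ne hm (k₀ - 1)
  rw [sub_add_cancel] at this
  exact this h.symm

/-- the copy of an old dart in the new system -/
def ad1L (η : Dart X) : Dart X := ((η.1.1, 2 * η.1.2), η.2)

theorem ad1_anc_L (k₀ : ZMod m) (r : X × ℕ → ZMod m → ℕ) (η : Dart X) :
    anc D k₀ r (ad1L η) = η := by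
  unfold anc ad1L
  rw [if_pos (by simp)]
  simp

theorem ad1_anc_even (k₀ : ZMod m) (r : X × ℕ → ZMod m → ℕ) (x : X) (i : ℕ) (s : Bool) :
    anc D k₀ r ((x, 2 * i), s) = ((x, i), s) := ad1_anc_L k₀ r ((x, i), s)

theorem ad1_anc_even' (k₀ : ZMod m) (r : X × ℕ → ZMod m → ℕ) {η : Dart X} (h : η.1.2 % 2 = 0) :
    anc D k₀ r η = ((η.1.1, η.1.2 / 2), η.2) := by
  unfold anc
  rw [if_pos h]

theorem ad1_anc_odd_true (k₀ : ZMod m) (r : X × ℕ → ZMod m → ℕ) {e : X × ℕ} (h : e.2 % 2 = 1) :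
    anc D k₀ r (e, true) = ((D.h (k₀ + 1) • (D.h k₀)⁻¹ • e.1,
      r ((D.h k₀)⁻¹ • e.1, e.2 / 2) (k₀ + 1)), false) := by
  unfold anc
  rw [if_neg (by simp only; omega), if_pos rfl]

theorem ad1_anc_odd_false (k₀ : ZMod m) (r : X × ℕ → ZMod m → ℕ) {e : X × ℕ} (h : e.2 % 2 = 1) :
    anc D k₀ r (e, false) = ((D.h (k₀ - 1) • (D.h k₀)⁻¹ • e.1,
      r ((D.h k₀)⁻¹ • e.1, e.2 / 2) (k₀ - 1)), true) := by
  unfold anc
  rw [if_neg (by simp only; omega), if_neg (by simp)]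

theorem ad1_L_mem {Y : Sys Γ X m} (k₀ : ZMod m) (W : Set (X × ℕ)) {e : X × ℕ} (he : e ∈ Y.E) :
    (e.1, 2 * e.2) ∈ Y.addE D k₀ W := by
  left
  refine ⟨by simp, ?_⟩
  simpa using he

theorem ad1_anc_mem [NeZero m] (hm : 3 ≤ m) {Y : Sys Γ X m} {k₀ : ZMod m} {W : Set (X × ℕ)}
    {r : X × ℕ → ZMod m → ℕ} (hR : Y.RunOK D k₀ W r) {η : Dart X} (h : η.1 ∈ Y.addE D k₀ W) :
    (anc D k₀ r η).1 ∈ Y.E := by
  rcases h with ⟨h1, h2⟩ | ⟨h1, h2⟩
  · rw [ad1_anc_even' k₀ r h1]; exact h2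
  · obtain ⟨e, s⟩ := η
    cases s with
    | true =>
      rw [ad1_anc_odd_true k₀ r h1]
      exact (hR.run _ h2).1 (k₀ + 1) (ad1_one_ne hm k₀)
    | false =>
      rw [ad1_anc_odd_false k₀ r h1]
      exact (hR.run _ h2).1 (k₀ - 1) (ad1_sub_ne hm k₀)

theorem ad1_anc_T (k₀ : ZMod m) (r : X × ℕ → ZMod m → ℕ) (η : Dart X) :
    D.SameT (D.pos η) (D.pos (anc D k₀ r η)) := by
  rcases Nat.mod_two_eq_zero_or_one η.1.2 with h | h
  · rw [ad1_anc_even' k₀ r h]; exact ad1_sameT_refl _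
  · obtain ⟨e, s⟩ := η
    cases s with
    | true =>
      rw [ad1_anc_odd_true k₀ r h]
      refine ⟨_, D.b_mem k₀, ?_⟩
      simp [GD.pos, GD.a, mul_smul]
    | false =>
      rw [ad1_anc_odd_false k₀ r h]
      refine ⟨_, D.T.inv_mem (D.b_mem (k₀ - 1)), ?_⟩
      simp [GD.pos, GD.a, mul_smul]

theorem ad1_fed_even {Y : Sys Γ X m} (k₀ : ZMod m) (W : Set (X × ℕ)) (r : X × ℕ → ZMod m → ℕ)
    {f : X × ℕ} (h : f.2 % 2 = 0) (k : ZMod m) :
    (Y.addF D k₀ W r).fed D f k = (D.h k • f.1, 2 * Y.fe (f.1, f.2 / 2) k) := by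
  simp only [fed, addF, if_pos h]

theorem ad1_fed_odd {Y : Sys Γ X m} (k₀ : ZMod m) (W : Set (X × ℕ)) (r : X × ℕ → ZMod m → ℕ)
    {f : X × ℕ} (h : f.2 % 2 = 1) {k : ZMod m} (hk : k ≠ k₀) :
    (Y.addF D k₀ W r).fed D f k = (D.h k • f.1, 2 * r (f.1, f.2 / 2) k) := by
  simp only [fed, addF, if_neg (show ¬ f.2 % 2 = 0 by omega), if_neg hk]

theorem ad1_fed_odd_k₀ {Y : Sys Γ X m} (k₀ : ZMod m) (W : Set (X × ℕ)) (r : X × ℕ → ZMod m → ℕ)
    {f : X × ℕ} (h : f.2 % 2 = 1) :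
    (Y.addF D k₀ W r).fed D f k₀ = (D.h k₀ • f.1, f.2) := by
  simp only [fed, addF, if_neg (show ¬ f.2 % 2 = 0 by omega)]
  rw [if_pos trivial]

/-- `ex`: restrict `f` to the old edges, get `g`, extend by `g ∘ anc`; at the new edge use that
the sum of `f` over the new face is `0`. -/
theorem addF_ax [NeZero m] (hm : 3 ≤ m) (Y : Sys Γ X m) (hY : Y.Ax D) (k₀ : ZMod m)
    (W : Set (X × ℕ)) (r : X × ℕ → ZMod m → ℕ) (hR : Y.RunOK D k₀ W r) :
    (Y.addF D k₀ W r).Ax D where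
  V_E := fun η ζ h => h.1
  V_refl := fun η h => ⟨h, h, hY.V_refl _ (ad1_anc_mem hm hR h)⟩
  V_symm := fun η ζ h => ⟨h.2.1, h.1, hY.V_symm _ _ h.2.2⟩
  V_trans := fun η ζ ξ h h' => ⟨h.1, h'.2.1, hY.V_trans _ _ _ h.2.2 h'.2.2⟩
  V_T := fun η ζ h => ad1_sameT_trans (ad1_anc_T k₀ r η)
    (ad1_sameT_trans (hY.V_T _ _ h.2.2) (ad1_sameT_symm (ad1_anc_T k₀ r ζ)))
  Pr_E := fun η h => h.1
  Pr_V := fun η ζ hη h => ⟨h.2.1, hY.Pr_V _ _ hη.2 h.2.2⟩
  Pr_merge := fun η ζ hη hζ h => ⟨hη.1, hζ.1, hY.Pr_merge _ _ hη.2 hζ.2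
    (ad1_sameT_trans (ad1_sameT_symm (ad1_anc_T k₀ r η))
      (ad1_sameT_trans h (ad1_anc_T k₀ r ζ)))⟩
  F_V := by
    intro f hf k
    rcases hf with ⟨h1, h2⟩ | ⟨h1, h2⟩
    · rw [ad1_fed_even k₀ W r h1, ad1_fed_even k₀ W r h1]
      have h3 := hY.F_V _ h2 k
      refine ⟨ad1_L_mem k₀ W (hY.V_E _ _ h3), ad1_L_mem k₀ W (hY.V_E _ _ (hY.V_symm _ _ h3)), ?_⟩
      rw [ad1_anc_even, ad1_anc_even]
      exact h3
    · have hrun := hR.run _ h2
      have hmem : (D.h k₀ • f.1, f.2) ∈ Y.addE D k₀ W := by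
        right
        refine ⟨h1, ?_⟩
        simpa using h2
      by_cases hk : k = k₀
      · subst hk
        rw [ad1_fed_odd_k₀ k W r h1, ad1_fed_odd k W r h1 (ad1_one_ne hm k)]
        have h3 := hrun.1 (k + 1) (ad1_one_ne hm k)
        refine ⟨hmem, ad1_L_mem k W h3, ?_⟩
        rw [ad1_anc_odd_true k r (e := (D.h k • f.1, f.2)) h1, ad1_anc_even]
        simp only [inv_smul_smul]
        exact hY.V_refl _ h3
      · by_cases hk1 : k + 1 = k₀
        · have hk' : k = k₀ - 1 := by rw [← hk1]; ring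
          rw [hk1, ad1_fed_odd k₀ W r h1 hk, ad1_fed_odd_k₀ k₀ W r h1]
          have h3 := hrun.1 k hk
          refine ⟨ad1_L_mem k₀ W h3, hmem, ?_⟩
          rw [ad1_anc_odd_false k₀ r (e := (D.h k₀ • f.1, f.2)) h1, ad1_anc_even]
          simp only [inv_smul_smul]
          rw [← hk']
          exact hY.V_refl _ h3
        · rw [ad1_fed_odd k₀ W r h1 hk, ad1_fed_odd k₀ W r h1 hk1]
          have h3 := hrun.2 k hk hk1
          refine ⟨ad1_L_mem k₀ W (hY.V_E _ _ h3),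
            ad1_L_mem k₀ W (hY.V_E _ _ (hY.V_symm _ _ h3)), ?_⟩
          rw [ad1_anc_even, ad1_anc_even]
          exact h3
  F_inj := by
    intro q j j' k hj hj' h
    have h : ((Y.addF D k₀ W r).fed D (q, j) k).2 = ((Y.addF D k₀ W r).fed D (q, j') k).2 := h
    rcases hj with ⟨h1, h2⟩ | ⟨h1, h2⟩ <;> rcases hj' with ⟨h1', h2'⟩ | ⟨h1', h2'⟩
    · rw [ad1_fed_even k₀ W r h1, ad1_fed_even k₀ W r h1'] at h
      simp only at h h1 h1' h2 h2'
      have h3 := hY.F_inj q (j / 2) (j' / 2) k h2 h2' (by omega)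
      omega
    · rw [ad1_fed_even k₀ W r h1] at h
      by_cases hk : k = k₀
      · subst hk
        rw [ad1_fed_odd_k₀ k W r h1'] at h
        simp only at h h1 h1' h2 h2'
        omega
      · rw [ad1_fed_odd k₀ W r h1' hk] at h
        simp only at h h1 h1' h2 h2'
        exact absurd (by omega) (hR.disj q (j' / 2) (j / 2) k hk h2' h2)
    · rw [ad1_fed_even k₀ W r h1'] at h
      by_cases hk : k = k₀
      · subst hk
        rw [ad1_fed_odd_k₀ k W r h1] at h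
        simp only at h h1 h1' h2 h2'
        omega
      · rw [ad1_fed_odd k₀ W r h1 hk] at h
        simp only at h h1 h1' h2 h2'
        exact absurd (by omega) (hR.disj q (j / 2) (j' / 2) k hk h2 h2')
    · by_cases hk : k = k₀
      · subst hk
        rw [ad1_fed_odd_k₀ k W r h1, ad1_fed_odd_k₀ k W r h1'] at h
        exact h
      · rw [ad1_fed_odd k₀ W r h1 hk, ad1_fed_odd k₀ W r h1' hk] at h
        simp only at h h1 h1' h2 h2'
        have h3 := hR.inj q (j / 2) (j' / 2) k hk h2 h2' (by omega)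
        omega
  J_E := by
    classical
    intro i hi p hp
    have hp' := Finsupp.mapDomain_support hp
    rw [Finset.mem_image] at hp'
    obtain ⟨p', hp', rfl⟩ := hp'
    exact ad1_L_mem k₀ W (hY.J_E i hi p' hp')
  conn := by
    intro S hS hsw hPr η hη
    have key : ∀ η : Dart X, η.1 ∈ Y.E → ad1L η ∈ S := by
      intro η hη
      refine hY.conn {η | ad1L η ∈ S} ?_ ?_ ?_ η hη
      · intro η ζ h hV
        refine hS _ _ h ⟨ad1_L_mem k₀ W (hY.V_E _ _ hV),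
          ad1_L_mem k₀ W (hY.V_E _ _ (hY.V_symm _ _ hV)), ?_⟩
        rw [ad1_anc_L, ad1_anc_L]
        exact hV
      · intro e he s h
        exact hsw _ (ad1_L_mem k₀ W he) s h
      · intro η hη'
        refine hPr ⟨ad1_L_mem k₀ W (hY.Pr_E _ hη'), ?_⟩
        rw [ad1_anc_L]
        exact hη'
    have h1 := ad1_anc_mem hm hR hη
    refine hS _ _ (key (anc D k₀ r η) h1) ⟨ad1_L_mem k₀ W h1, hη, ?_⟩
    rw [ad1_anc_L]
    exact hY.V_refl _ h1
  ex := by
    intro A _ f hI hF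
    have hI' : ∀ i ∈ Y.I, Y.Jev (fun e => f (e.1, 2 * e.2)) i = 0 := by
      intro i hi
      have h0 : ((Y.J i).mapDomain fun p : Γ × ℕ => (p.1, 2 * p.2)).sum
          (fun p n => n • f (p.1 • i.1, p.2)) = 0 := hI i hi
      rw [Finsupp.sum_mapDomain_index (by intro b; simp)
        (by intro b m₁ m₂; simp [add_smul])] at h0
      exact h0
    obtain ⟨g, hgV, hgP, hgE⟩ := hY.ex A (fun e => f (e.1, 2 * e.2)) hI' (by
      intro q hq
      have h1 : (q.1, 2 * q.2) ∈ (Y.addF D k₀ W r).Fs := by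
        left
        refine ⟨by simp, ?_⟩
        simpa using hq
      rw [← hF _ h1]
      refine Finset.sum_congr rfl fun k _ => ?_
      rw [ad1_fed_even k₀ W r (by simp)]
      simp [fed])
    refine ⟨fun η => g (anc D k₀ r η), fun η ζ h => hgV _ _ h.2.2, fun η hη => hgP _ hη.2, ?_⟩
    intro e he
    rcases he with ⟨h1, h2⟩ | ⟨h1, h2⟩
    · have h3 := hgE _ h2
      simp only at h3
      have h4 : 2 * (e.2 / 2) = e.2 := by omega
      rw [h4] at h3
      simp only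
      rw [ad1_anc_even' k₀ r (η := (e, true)) h1, ad1_anc_even' k₀ r (η := (e, false)) h1]
      exact h3
    · simp only
      rw [ad1_anc_odd_true k₀ r h1, ad1_anc_odd_false k₀ r h1]
      set w : X × ℕ := ((D.h k₀)⁻¹ • e.1, e.2 / 2) with hw
      have hrun := hR.run _ h2
      set F : X × ℕ := ((D.h k₀)⁻¹ • e.1, e.2) with hFdef
      have hFs : F ∈ (Y.addF D k₀ W r).Fs := Or.inr ⟨h1, h2⟩
      have hsum := hF F hFs
      let G : ZMod m → A := fun k =>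
        if k = k₀ then g ((D.h (k₀ - 1) • w.1, r w (k₀ - 1)), true) else
          g ((D.h k • w.1, r w k), false)
      have hterm : ∀ k, k ≠ k₀ → f ((Y.addF D k₀ W r).fed D F k) = G (k + 1) - G k := by
        intro k hk
        rw [ad1_fed_odd k₀ W r (f := F) h1 hk]
        have h3 := hgE _ (hrun.1 k hk)
        have h3' : f (D.h k • F.1, 2 * r (F.1, F.2 / 2) k) =
          g ((D.h k • w.1, r w k), true) - g ((D.h k • w.1, r w k), false) := h3
        rw [h3']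
        have h4 : G k = g ((D.h k • w.1, r w k), false) := if_neg hk
        rw [h4]
        congr 1
        by_cases hk1 : k + 1 = k₀
        · have hk' : k = k₀ - 1 := by rw [← hk1]; ring
          have h5 : G (k + 1) = g ((D.h (k₀ - 1) • w.1, r w (k₀ - 1)), true) := if_pos hk1
          rw [h5, hk']
        · have h5 : G (k + 1) = g ((D.h (k + 1) • w.1, r w (k + 1)), false) := if_neg hk1
          rw [h5]
          exact hgV _ _ (hrun.2 k hk hk1)
      have htel : ∑ k : ZMod m, (G (k + 1) - G k) = 0 := by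
        rw [Finset.sum_sub_distrib, sub_eq_zero]
        exact Fintype.sum_equiv (Equiv.addRight (1 : ZMod m)) _ _ (fun k => rfl)
      rw [← Finset.add_sum_erase _ _ (Finset.mem_univ k₀)] at hsum htel
      have hs : ∑ k ∈ Finset.univ.erase k₀, f ((Y.addF D k₀ W r).fed D F k) =
          ∑ k ∈ Finset.univ.erase k₀, (G (k + 1) - G k) :=
        Finset.sum_congr rfl fun k hk => hterm k (Finset.ne_of_mem_erase hk)
      rw [hs, ad1_fed_odd_k₀ k₀ W r (f := F) h1] at hsum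
      have he' : (D.h k₀ • F.1, F.2) = e := by
        simp [hFdef]
      rw [he'] at hsum
      have hfin : f e = G (k₀ + 1) - G k₀ := add_right_cancel (hsum.trans htel.symm)
      rw [hfin]
      have h6 : G k₀ = g ((D.h (k₀ - 1) • w.1, r w (k₀ - 1)), true) := if_pos rfl
      have h7 : G (k₀ + 1) = g ((D.h (k₀ + 1) • w.1, r w (k₀ + 1)), false) :=
        if_neg (ad1_one_ne hm k₀)
      rw [h6, h7]

theorem ad1_isWalk [NeZero m] (Y : Sys Γ X m) (hY : Y.Ax D) (k₀ : ZMod m)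
    (W : Set (X × ℕ)) (r : X × ℕ → ZMod m → ℕ) (L : List (Dart X)) :
    ∀ η ζ : Dart X, Y.IsWalk η L ζ →
      (Y.addF D k₀ W r).IsWalk (ad1L η) (L.map ad1L) (ad1L ζ) := by
  have hV : ∀ η ζ : Dart X, Y.V η ζ → (Y.addF D k₀ W r).V (ad1L η) (ad1L ζ) := by
    intro η ζ hV
    refine ⟨ad1_L_mem k₀ W (hY.V_E _ _ hV), ad1_L_mem k₀ W (hY.V_E _ _ (hY.V_symm _ _ hV)), ?_⟩
    rw [ad1_anc_L, ad1_anc_L]
    exact hV
  induction L with
  | nil => intro η ζ h; exact hV _ _ h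
  | cons p L ih =>
    intro η ζ h
    exact ⟨hV _ _ h.1, ih _ _ h.2⟩

theorem addF_walk [NeZero m] (Y : Sys Γ X m) (hY : Y.Ax D) (k₀ : ZMod m)
    (W : Set (X × ℕ)) (r : X × ℕ → ZMod m → ℕ) (x y : X) (L : List (Dart X))
    (h : Y.PW D x L y) : ∃ L', (Y.addF D k₀ W r).PW D x L' y ∧ L'.length = L.length := by
  obtain ⟨η, ζ, hη, hζ, hx, hy, hw⟩ := h
  refine ⟨L.map ad1L, ⟨ad1L η, ad1L ζ, ?_, ?_, hx, hy, ad1_isWalk Y hY k₀ W r L η ζ hw⟩, by simp⟩
  · refine ⟨ad1_L_mem k₀ W (hY.Pr_E _ hη), ?_⟩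
    rw [ad1_anc_L]; exact hη
  · refine ⟨ad1_L_mem k₀ W (hY.Pr_E _ hζ), ?_⟩
    rw [ad1_anc_L]; exact hζ

end Sys

end Crest.Agent.FP
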