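import Crest.Agent.FP.Ops

/-! Row 191 (S0291): small measurability toolkit (helper59).
`DMf f`: `f` has measurable fibres (to be used for functions with countable range).
`ats x ρ`: the relative dart `ρ` read at the base point `x`. -/
set_option autoImplicit false
set_option linter.unusedSectionVars false

open MeasureTheory

namespace Crest.Agent.FP

section dmf

variable {X A B C : Type*} [MeasurableSpace X]

/-- fibres are measurable -/
def DMf (f : X → A) : Prop := ∀ a, MeasurableSet {x | f x = a}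

theorem DMf.const (a : A) : DMf (fun _ : X => a) := fun b => by
  by_cases h : a = b
  · simp [h]
  · simp [h]

theorem DMf.setOf_mem [Countable A] {f : X → A} (hf : DMf f) {S : A → X → Prop}
    (hS : ∀ a, MeasurableSet {x | S a x}) : MeasurableSet {x | S (f x) x} := by
  have : {x | S (f x) x} = ⋃ a, ({x | f x = a} ∩ {x | S a x}) := by
    ext x
    simp
  rw [this]
  exact MeasurableSet.iUnion fun a => (hf a).inter (hS a)

theorem DMf.bind [Countable A] {f : X → A} (hf : DMf f) {F : A → X → B}
    (hF : ∀ a, DMf (F a)) : DMf (fun x => F (f x) x) := fun b =>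
  hf.setOf_mem (S := fun a x => F a x = b) fun a => hF a b

theorem DMf.comp [Countable A] {f : X → A} (hf : DMf f) (F : A → B) : DMf (fun x => F (f x)) :=
  hf.bind (F := fun a _ => F a) fun a => DMf.const (F a)

theorem DMf.map2 [Countable A] [Countable B] {f : X → A} {g : X → B} (hf : DMf f) (hg : DMf g)
    (F : A → B → C) : DMf (fun x => F (f x) (g x)) :=
  hf.bind (F := fun a x => F a (g x)) fun a => hg.comp (F a)

theorem DMf.sum {ι : Type*} [AddCommMonoid A] [Countable A] (s : Finset ι) {f : ι → X → A}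
    (hf : ∀ i ∈ s, DMf (f i)) : DMf (fun x => ∑ i ∈ s, f i x) := by
  classical
  induction s using Finset.induction_on with
  | empty => simpa using DMf.const (0 : A)
  | insert i s hi ih =>
    have h1 : DMf (fun x => f i x) := hf i (Finset.mem_insert_self _ _)
    have h2 : DMf (fun x => ∑ i ∈ s, f i x) := ih fun j hj => hf j (Finset.mem_insert_of_mem hj)
    have := h1.map2 h2 (fun a b => a + b)
    simpa [Finset.sum_insert hi] using this

/-- the infimum of a measurable family of sets of natural numbers -/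
theorem DMf.inf_nat {P : X → ℕ → Prop} (hP : ∀ n, MeasurableSet {x | P x n}) :
    DMf (fun x => sInf {n | P x n}) := by
  intro n
  have : {x | sInf {n | P x n} = n} =
      ({x | P x n} ∩ ⋂ j, ⋂ (_ : j < n), {x | P x j}ᶜ) ∪
      ({x | n = 0} ∩ ⋂ j, {x | P x j}ᶜ) := by
    ext x
    simp only [Set.mem_union, Set.mem_inter_iff, Set.mem_iInter, Set.mem_compl_iff,
      Set.mem_ofPred_eq]
    constructor
    · intro h
      by_cases hne : {n | P x n}.Nonempty
      · left
        refine ⟨?_, ?_⟩
        · have := Nat.sInf_mem hne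
          rw [h] at this
          exact this
        · intro j hj hPj
          exact absurd (Nat.sInf_le (s := {n | P x n}) hPj) (by rw [h]; omega)
      · right
        rw [Set.not_nonempty_iff_eq_empty] at hne
        refine ⟨?_, ?_⟩
        · rw [← h, hne]
          simp
        · intro j hj
          have : j ∈ {n | P x n} := hj
          rw [hne] at this
          exact this
    · rintro (⟨h1, h2⟩ | ⟨h1, h2⟩)
      · apply le_antisymm
        · exact Nat.sInf_le h1
        · by_contra hlt
          push Not at hlt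
          have := Nat.sInf_mem (s := {n | P x n}) ⟨n, h1⟩
          exact h2 _ hlt this
      · have : {n | P x n} = ∅ := by
          ext j
          simpa using h2 j
        rw [this, h1]
        simp
  rw [this]
  refine MeasurableSet.union ((hP n).inter ?_) (MeasurableSet.inter (.const _) ?_)
  · exact MeasurableSet.iInter fun j => MeasurableSet.iInter fun _ => (hP j).compl
  · exact MeasurableSet.iInter fun j => (hP j).compl

end dmf

section rel

variable {Γ : Type} [Group Γ] {m : ℕ} {X : Type} [MulAction Γ X]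

/-- a relative dart read at `x` -/
def ats (x : X) (ρ : (Γ × ℕ) × Bool) : Dart X := ((ρ.1.1 • x, ρ.1.2), ρ.2)

theorem ats_inj (hfree : ∀ (g : Γ) (x : X), g • x = x → g = 1) (x : X)
    (ρ σ : (Γ × ℕ) × Bool) (h : ats x ρ = ats x σ) : ρ = σ := by
  obtain ⟨⟨g, i⟩, s⟩ := ρ
  obtain ⟨⟨g', i'⟩, s'⟩ := σ
  simp only [ats, Prod.mk.injEq] at h
  obtain ⟨⟨h1, h2⟩, h3⟩ := h
  have : (g'⁻¹ * g) • x = x := by rw [mul_smul, h1, inv_smul_smul]
  have := hfree _ _ this
  rw [inv_mul_eq_one] at this
  rw [this, h2, h3]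

end rel

namespace Sys

variable {Γ : Type} [Group Γ] {m : ℕ} [NeZero m] {X : Type} [MulAction Γ X]
  [MeasurableSpace X] {D : GD Γ m}

theorem Meas.E' (hs : ∀ g : Γ, Measurable fun x : X => g • x) {Y : Sys Γ X m} (hM : Y.Meas)
    (g : Γ) (i : ℕ) : MeasurableSet {x | (g • x, i) ∈ Y.E} := hs g (hM.mE i)

theorem Meas.Fs' (hs : ∀ g : Γ, Measurable fun x : X => g • x) {Y : Sys Γ X m} (hM : Y.Meas)
    (g : Γ) (i : ℕ) : MeasurableSet {x | (g • x, i) ∈ Y.Fs} := hs g (hM.mF i)

theorem Meas.Pr' (hs : ∀ g : Γ, Measurable fun x : X => g • x) {Y : Sys Γ X m} (hM : Y.Meas)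
    (g : Γ) (i : ℕ) (s : Bool) : MeasurableSet {x | ((g • x, i), s) ∈ Y.Pr} := hs g (hM.mPr i s)

theorem Meas.fe' (hs : ∀ g : Γ, Measurable fun x : X => g • x) {Y : Sys Γ X m} (hM : Y.Meas)
    (g : Γ) (i : ℕ) (k : ZMod m) : DMf (fun x : X => Y.fe (g • x, i) k) :=
  fun n => hs g (hM.mfe i k n)

theorem Meas.V' (hs : ∀ g : Γ, Measurable fun x : X => g • x) {Y : Sys Γ X m} (hM : Y.Meas)
    (g g' : Γ) (i j : ℕ) (s t : Bool) :
    MeasurableSet {x | Y.V ((g • x, i), s) ((g' • x, j), t)} := by
  have := hs g (hM.mV (g' * g⁻¹) i j s t)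
  simpa [mul_smul] using this

/-- if two darts are in the relation `V` then they are in the same `Γ`-orbit -/
theorem V_orbit {Y : Sys Γ X m} (hY : Y.Ax D) {η ζ : Dart X} (h : Y.V η ζ) :
    ∃ g : Γ, ζ.1.1 = g • η.1.1 := by
  obtain ⟨t, -, ht⟩ := hY.V_T η ζ h
  obtain ⟨⟨x, i⟩, s⟩ := η
  obtain ⟨⟨y, j⟩, s'⟩ := ζ
  simp only [GD.pos] at ht
  cases s <;> cases s' <;> simp only [Bool.false_eq_true, if_true, if_false] at ht
  · exact ⟨t, ht.symm⟩
  · refine ⟨D.a⁻¹ * t, ?_⟩
    simp only
    rw [mul_smul, ht, inv_smul_smul]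
  · exact ⟨t * D.a, by simp only; rw [mul_smul, ht]⟩
  · refine ⟨D.a⁻¹ * t * D.a, ?_⟩
    simp only
    rw [mul_smul, mul_smul, ht, inv_smul_smul]

end Sys

end Crest.Agent.FP
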