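import Crest.Agent.FP.Ops
import Crest.Agent.FP.MeasTools

/-! Row 191 (S0291), chunk AM: adding faces, measurability and sizes. -/
set_option autoImplicit false
set_option linter.unusedSectionVars false
set_option linter.unusedVariables false

open MeasureTheory
open scoped ENNReal

namespace Crest.Agent.FP

namespace Sys

variable {Γ : Type} [Group Γ] [Countable Γ] {m : ℕ} [NeZero m] {X : Type} [MulAction Γ X]
  [MeasurableSpace X] {D : GD Γ m} {μ : Measure X}

theorem IsRun_meas (hs : ∀ g : Γ, Measurable fun x : X => g • x) {Y : Sys Γ X m} (hM : Y.Meas)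
    (k₀ : ZMod m) (r : ZMod m → ℕ) : MeasurableSet {x | Y.IsRun D k₀ x r} := by
  have : {x | Y.IsRun D k₀ x r} =
      (⋂ k : ZMod m, ({x | k ≠ k₀}ᶜ ∪ {x | (D.h k • x, r k) ∈ Y.E})) ∩
      (⋂ k : ZMod m, ({x | k ≠ k₀}ᶜ ∪ ({x | k + 1 ≠ k₀}ᶜ ∪
        {x | Y.V ((D.h k • x, r k), true) ((D.h (k + 1) • x, r (k + 1)), false)}))) := by
    ext x
    simp only [IsRun, Set.mem_ofPred_eq, Set.mem_inter_iff, Set.mem_iInter, Set.mem_union,
      Set.mem_compl_iff, imp_iff_not_or]
  rw [this]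
  refine MeasurableSet.inter (MeasurableSet.iInter fun k => ?_) (MeasurableSet.iInter fun k => ?_)
  · exact MeasurableSet.union (MeasurableSet.const _).compl (hM.E' hs _ _)
  · exact MeasurableSet.union (MeasurableSet.const _).compl
      (MeasurableSet.union (MeasurableSet.const _).compl (hM.V' hs _ _ _ _ _ _))

theorem Wall_meas (hs : ∀ g : Γ, Measurable fun x : X => g • x)
    (hfree : ∀ (g : Γ) (x : X), g • x = x → g = 1)
    (Y : Sys Γ X m) (hY : Y.Ax D) (hM : Y.Meas) (k₀ : ZMod m) (j : ℕ) :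
    MeasurableSet {x | (x, j) ∈ Y.Wall D k₀} := by
  have : {x | (x, j) ∈ Y.Wall D k₀} = ⋃ r : ZMod m → ℕ, ({x | Y.IsRun D k₀ x r} ∩
      ({x | r (k₀ + 1) = j} ∩ (⋃ i : ℕ,
        ({x | Y.V ((D.h (k₀ - 1) • x, r (k₀ - 1)), true) ((D.h k₀ • x, i), false)} ∩
        {x | Y.V ((D.h k₀ • x, i), true) ((D.h (k₀ + 1) • x, r (k₀ + 1)), false)}))ᶜ)) := by
    ext x
    simp only [Wall, Set.mem_ofPred_eq, Set.mem_inter_iff, Set.mem_iUnion, Set.mem_compl_iff]
  rw [this]
  refine MeasurableSet.iUnion fun r => (IsRun_meas hs hM k₀ r).inter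
    ((MeasurableSet.const _).inter (MeasurableSet.compl (MeasurableSet.iUnion fun i => ?_)))
  exact (hM.V' hs _ _ _ _ _ _).inter (hM.V' hs _ _ _ _ _ _)

theorem rr_meas (hs : ∀ g : Γ, Measurable fun x : X => g • x)
    (hfree : ∀ (g : Γ) (x : X), g • x = x → g = 1)
    (Y : Sys Γ X m) (hY : Y.Ax D) (hM : Y.Meas) (k₀ : ZMod m) (j : ℕ) (k : ZMod m) (n : ℕ) :
    MeasurableSet {x | Y.rr D k₀ (x, j) k = n} := by
  refine DMf.inf_nat (P := fun x n => ∃ r, Y.IsRun D k₀ x r ∧ r (k₀ + 1) = j ∧ r k = n)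
    (fun n => ?_) n
  have : {x | ∃ r, Y.IsRun D k₀ x r ∧ r (k₀ + 1) = j ∧ r k = n} =
      ⋃ r : ZMod m → ℕ, ({x | Y.IsRun D k₀ x r} ∩ {x | r (k₀ + 1) = j ∧ r k = n}) := by
    ext x
    simp only [Set.mem_ofPred_eq, Set.mem_inter_iff, Set.mem_iUnion]
  rw [this]
  exact MeasurableSet.iUnion fun r => (IsRun_meas hs hM k₀ r).inter (MeasurableSet.const _)

/-- the relative dart of `anc` -/
def ancR (D : GD Γ m) (k₀ : ZMod m) (r : X × ℕ → ZMod m → ℕ) (g : Γ) (i : ℕ) (s : Bool) (x : X) :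
    (Γ × ℕ) × Bool :=
  if i % 2 = 0 then ((g, i / 2), s) else
    if s then
      ((D.h (k₀ + 1) * (D.h k₀)⁻¹ * g, r (((D.h k₀)⁻¹ * g) • x, i / 2) (k₀ + 1)), false)
    else
      ((D.h (k₀ - 1) * (D.h k₀)⁻¹ * g, r (((D.h k₀)⁻¹ * g) • x, i / 2) (k₀ - 1)), true)

theorem anc_eq (k₀ : ZMod m) (r : X × ℕ → ZMod m → ℕ) (g : Γ) (i : ℕ) (s : Bool) (x : X) :
    anc D k₀ r ((g • x, i), s) = ats x (ancR D k₀ r g i s x) := by
  unfold anc ancR ats
  by_cases h : i % 2 = 0
  · simp [h]
  · cases s <;> simp [h, mul_smul]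

theorem ancR_meas (hs : ∀ g : Γ, Measurable fun x : X => g • x) (k₀ : ZMod m)
    (r : X × ℕ → ZMod m → ℕ) (hr : ∀ j k n, MeasurableSet {x | r (x, j) k = n})
    (g : Γ) (i : ℕ) (s : Bool) : DMf (ancR D k₀ r g i s : X → (Γ × ℕ) × Bool) := by
  have h1 : ∀ (g : Γ) (i : ℕ) (k : ZMod m), DMf (fun x : X => r (g • x, i) k) :=
    fun g i k n => hs g (hr i k n)
  unfold ancR
  by_cases h : i % 2 = 0
  · simp only [h, if_true]
    exact DMf.const _
  · cases s
    · simp only [h, if_false, Bool.false_eq_true]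
      exact (h1 _ _ _).comp fun n => ((D.h (k₀ - 1) * (D.h k₀)⁻¹ * g, n), true)
    · simp only [h, if_false, if_true]
      exact (h1 _ _ _).comp fun n => ((D.h (k₀ + 1) * (D.h k₀)⁻¹ * g, n), false)

theorem addE_meas (hs : ∀ g : Γ, Measurable fun x : X => g • x) {Y : Sys Γ X m} (hM : Y.Meas)
    (k₀ : ZMod m) (W : Set (X × ℕ)) (hW : ∀ j, MeasurableSet {x | (x, j) ∈ W}) (g : Γ) (i : ℕ) :
    MeasurableSet {x : X | (g • x, i) ∈ Y.addE D k₀ W} := by
  have : {x : X | (g • x, i) ∈ Y.addE D k₀ W} =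
      ({x | i % 2 = 0} ∩ {x | (g • x, i / 2) ∈ Y.E}) ∪
      ({x | i % 2 = 1} ∩ {x | (((D.h k₀)⁻¹ * g) • x, i / 2) ∈ W}) := by
    ext x
    simp [addE, mul_smul]
  rw [this]
  exact ((MeasurableSet.const _).inter (hM.E' hs _ _)).union
    ((MeasurableSet.const _).inter (hs _ (hW _)))

theorem addF_meas (hs : ∀ g : Γ, Measurable fun x : X => g • x)
    (hfree : ∀ (g : Γ) (x : X), g • x = x → g = 1)
    (Y : Sys Γ X m) (hY : Y.Ax D) (hM : Y.Meas) (k₀ : ZMod m)
    (W : Set (X × ℕ)) (r : X × ℕ → ZMod m → ℕ) (hW : ∀ j, MeasurableSet {x | (x, j) ∈ W})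
    (hr : ∀ j k n, MeasurableSet {x | r (x, j) k = n}) (hR : Y.RunOK D k₀ W r) :
    (Y.addF D k₀ W r).Meas where
  mE i := by
    have h1 := addE_meas (D := D) hs hM k₀ W hW 1 i
    simp only [one_smul] at h1
    exact h1
  mV g i j s t := by
    have h1 := addE_meas (D := D) hs hM k₀ W hW 1 i
    have h2 := addE_meas (D := D) hs hM k₀ W hW g j
    simp only [one_smul] at h1
    refine h1.inter (h2.inter ?_)
    have h3 := (ancR_meas (D := D) hs k₀ r hr 1 i s).setOf_mem
      (S := fun ρ x => Y.V (ats x ρ) (anc D k₀ r ((g • x, j), t))) (fun ρ => by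
        have h4 := (ancR_meas (D := D) hs k₀ r hr g j t).setOf_mem
          (S := fun σ x => Y.V (ats x ρ) (ats x σ)) (fun σ => hM.V' hs _ _ _ _ _ _)
        simpa only [← anc_eq] using h4)
    simp only [← anc_eq, one_smul] at h3
    exact h3
  mPr i s := by
    have h1 := addE_meas (D := D) hs hM k₀ W hW 1 i
    simp only [one_smul] at h1
    refine h1.inter ?_
    have h3 := (ancR_meas (D := D) hs k₀ r hr 1 i s).setOf_mem
      (S := fun ρ x => ats x ρ ∈ Y.Pr) (fun ρ => hM.Pr' hs _ _ _)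
    simp only [← anc_eq, one_smul] at h3
    exact h3
  mF i := by
    have : {x : X | (x, i) ∈ (Y.addF D k₀ W r).Fs} =
        ({x | i % 2 = 0} ∩ {x | (x, i / 2) ∈ Y.Fs}) ∪
        ({x | i % 2 = 1} ∩ {x | (x, i / 2) ∈ W}) := by
      ext x
      simp [addF]
    rw [this]
    exact ((MeasurableSet.const _).inter (hM.mF _)).union
      ((MeasurableSet.const _).inter (hW _))
  mfe i k := by
    show DMf (fun x : X => (Y.addF D k₀ W r).fe (x, i) k)
    unfold addF
    by_cases h : i % 2 = 0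
    · simp only [h, if_true]
      have h1 : DMf (fun x : X => Y.fe (x, i / 2) k) := fun n => hM.mfe _ k n
      exact h1.comp fun n => 2 * n
    · simp only [h, if_false]
      by_cases h' : k = k₀
      · simp only [h', if_true]
        exact DMf.const _
      · simp only [h', if_false]
        have h1 : DMf (fun x : X => r (x, i / 2) k) := fun n => hr _ k n
        exact h1.comp fun n => 2 * n
  mI i := hM.mI i
  mJ i := by
    have h1 : DMf (fun x : X => Y.J (x, i)) := fun c => hM.mJ i c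
    exact h1.comp fun c => Finsupp.mapDomain (fun p : Γ × ℕ => (p.1, 2 * p.2)) c

theorem addF_size (hS : Sp D X μ) (Y : Sys Γ X m) (hM : Y.Meas) (k₀ : ZMod m)
    (W : Set (X × ℕ)) (r : X × ℕ → ZMod m → ℕ) (hW : ∀ j, MeasurableSet {x | (x, j) ∈ W}) :
    size μ (Y.addF D k₀ W r).E = size μ Y.E + size μ W ∧
    size μ (Y.addF D k₀ W r).Fs = size μ Y.Fs + size μ W := by
  have key : ∀ f : ℕ → ℝ≥0∞, ∑' i, f i = ∑' i, f (2 * i) + ∑' i, f (2 * i + 1) :=
    fun f => (tsum_even_add_odd ENNReal.summable ENNReal.summable).symm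
  constructor
  · unfold size
    rw [key]
    congr 1
    · refine tsum_congr fun i => ?_
      congr 1
      ext x
      simp [addF, addE]
    · refine tsum_congr fun i => ?_
      have h1 : {x : X | (x, 2 * i + 1) ∈ (Y.addF D k₀ W r).E} =
          (fun x : X => (D.h k₀)⁻¹ • x) ⁻¹' {x | (x, i) ∈ W} := by
        ext x
        have e1 : (2 * i + 1) % 2 = 1 := by omega
        have e2 : (2 * i + 1) / 2 = i := by omega
        simp [addF, addE, e1, e2]
      rw [h1]
      exact (hS.mp _).measure_preimage (hW i).nullMeasurableSet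
  · unfold size
    rw [key]
    congr 1
    · refine tsum_congr fun i => ?_
      congr 1
      ext x
      simp [addF]
    · refine tsum_congr fun i => ?_
      congr 1
      ext x
      have e1 : (2 * i + 1) % 2 = 1 := by omega
      have e2 : (2 * i + 1) / 2 = i := by omega
      simp [addF, e1, e2]

/-- cutting: a measurable subset of `W` of size between `c/2` and `c` -/
theorem exists_cut (hS : Sp D X μ) (W : Set (X × ℕ)) (hW : ∀ j, MeasurableSet {x | (x, j) ∈ W})
    (c : ℝ≥0∞) (hc : c ≠ 0) (hc' : c ≠ ⊤) (h : c ≤ size μ W) :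
    ∃ W' ⊆ W, (∀ j, MeasurableSet {x | (x, j) ∈ W'}) ∧ c / 2 ≤ size μ W' ∧ size μ W' ≤ c := by
  classical
  obtain ⟨n, C, hC, hU, hCle⟩ := hS.atomless (c / 2) (by simpa using hc)
  let P : Finset (ℕ × Fin n) → Set (X × ℕ) := fun F =>
    {e | e ∈ W ∧ ∃ p ∈ F, e.2 = p.1 ∧ e.1 ∈ C p.2}
  have hP : ∀ F j, MeasurableSet {x | (x, j) ∈ P F} := by
    intro F j
    have : {x | (x, j) ∈ P F} = {x | (x, j) ∈ W} ∩ ⋃ p ∈ F, ({x | j = p.1} ∩ C p.2) := by
      ext x
      simp [P]
    rw [this]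
    exact (hW j).inter (Finset.measurableSet_biUnion F fun p _ =>
      (MeasurableSet.const _).inter (hC _))
  have hstep : ∀ F p, size μ (P (insert p F)) ≤ size μ (P F) + c / 2 := by
    intro F p
    have h1 : ∀ i, μ {x | (x, i) ∈ P (insert p F)} ≤
        μ {x | (x, i) ∈ P F} + (if i = p.1 then c / 2 else 0) := by
      intro i
      by_cases hi : i = p.1
      · rw [if_pos hi]
        refine le_trans (measure_mono (t := {x | (x, i) ∈ P F} ∪ C p.2) ?_)
          (le_trans (measure_union_le _ _) (add_le_add le_rfl (hCle _)))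
        rintro x ⟨hx, q, hq, h1, h2⟩
        rw [Finset.mem_insert] at hq
        rcases hq with rfl | hq
        · exact Or.inr h2
        · exact Or.inl ⟨hx, q, hq, h1, h2⟩
      · rw [if_neg hi, add_zero]
        refine measure_mono ?_
        rintro x ⟨hx, q, hq, h1, h2⟩
        rw [Finset.mem_insert] at hq
        rcases hq with rfl | hq
        · exact absurd h1 hi
        · exact ⟨hx, q, hq, h1, h2⟩
    unfold size
    refine le_trans (ENNReal.tsum_le_tsum h1) ?_
    rw [ENNReal.tsum_add, tsum_ite_eq]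
  have hind : ∀ F, size μ (P F) < c / 2 ∨ ∃ F', c / 2 ≤ size μ (P F') ∧ size μ (P F') ≤ c := by
    intro F
    induction F using Finset.induction_on with
    | empty =>
      left
      have : size μ (P ∅) = 0 := by
        unfold size
        simp [P]
      rw [this]
      exact ENNReal.half_pos hc
    | insert p F _ ih =>
      rcases ih with ih | ih
      · by_cases hlt : size μ (P (insert p F)) < c / 2
        · exact Or.inl hlt
        · refine Or.inr ⟨insert p F, not_lt.mp hlt, ?_⟩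
          refine (hstep F p).trans ?_
          calc size μ (P F) + c / 2 ≤ c / 2 + c / 2 := by gcongr
            _ = c := ENNReal.add_halves c
      · exact Or.inr ih
  have hlim : ∃ N : ℕ, c / 2 ≤ ∑ i ∈ Finset.range N, μ {x | (x, i) ∈ W} := by
    have h1 : c / 2 < size μ W := lt_of_lt_of_le (ENNReal.half_lt_self hc hc') h
    unfold size at h1
    rw [ENNReal.tsum_eq_iSup_nat] at h1
    obtain ⟨N, hN⟩ := lt_iSup_iff.mp h1
    exact ⟨N, hN.le⟩
  obtain ⟨N, hN⟩ := hlim
  rcases hind (Finset.range N ×ˢ Finset.univ) with h1 | ⟨F', h1, h2⟩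
  · exfalso
    refine absurd (lt_of_le_of_lt hN (lt_of_le_of_lt ?_ h1)) (lt_irrefl _)
    have h3 : ∀ i ∈ Finset.range N, {x | (x, i) ∈ W} =
        {x | (x, i) ∈ P (Finset.range N ×ˢ Finset.univ)} := by
      intro i hi
      ext x
      simp only [Set.mem_ofPred_eq, P]
      constructor
      · intro hx
        have : x ∈ ⋃ i, C i := by rw [hU]; trivial
        obtain ⟨l, hl⟩ := Set.mem_iUnion.mp this
        exact ⟨hx, (i, l), by simpa using Finset.mem_range.mp hi, rfl, hl⟩
      · exact fun hx => hx.1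
    rw [Finset.sum_congr rfl fun i hi => by rw [h3 i hi]]
    exact ENNReal.sum_le_tsum _
  · exact ⟨P F', fun e he => he.1, hP F', h1, h2⟩

end Sys

end Crest.Agent.FP
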