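import Crest.Agent.FP.Ops

/-! Row 191 (S0291), chunk AD2: runs. -/
set_option autoImplicit false
set_option linter.unusedSectionVars false

namespace Crest.Agent.FP

namespace Sys

variable {Γ : Type} [Group Γ] {m : ℕ} {X : Type} [MulAction Γ X] {D : GD Γ m}

theorem ad2_step [NeZero m] {Y : Sys Γ X m} (hY : Y.Ax D) (hF : Y.Folded) {k₀ : ZMod m} {q : X}
    {r r' : ZMod m → ℕ} (hr : Y.IsRun D k₀ q r) (hr' : Y.IsRun D k₀ q r') {k : ZMod m}
    (hk : k ≠ k₀) (hk1 : k + 1 ≠ k₀) : r k = r' k ↔ r (k + 1) = r' (k + 1) := by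
  have h1 := hr.2 k hk hk1
  have h2 := hr'.2 k hk hk1
  constructor
  · intro h
    rw [← h] at h2
    exact hF _ _ _ _ (hY.V_trans _ _ _ (hY.V_symm _ _ h1) h2)
  · intro h
    rw [← h] at h2
    exact hF _ _ _ _ (hY.V_trans _ _ _ h1 (hY.V_symm _ _ h2))

theorem ad2_ne (hm : 3 ≤ m) {k₀ : ZMod m} {n : ℕ} (hn : n < m - 1) :
    k₀ + 1 + (n : ZMod m) ≠ k₀ := by
  intro h
  have h1 : ((1 + n : ℕ) : ZMod m) = 0 := by
    push_cast
    have : k₀ + (1 + (n : ZMod m)) = k₀ + 0 := by rw [add_zero, ← add_assoc]; exact h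
    exact add_left_cancel this
  rw [ZMod.natCast_eq_zero_iff] at h1
  have := Nat.le_of_dvd (by omega) h1
  omega

theorem ad2_index [NeZero m] (hm : 3 ≤ m) {k₀ k : ZMod m} (hk : k ≠ k₀) :
    ∃ n < m - 1, k = k₀ + 1 + (n : ZMod m) := by
  refine ⟨(k - k₀ - 1).val, ?_, by simp⟩
  have h1 := ZMod.val_lt (k - k₀ - 1)
  by_contra h2
  have h3 : (k - k₀ - 1).val = m - 1 := by omega
  apply hk
  have h4 : ((k - k₀ - 1).val : ZMod m) = ((m - 1 : ℕ) : ZMod m) := by rw [h3]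
  rw [ZMod.natCast_zmod_val, Nat.cast_sub (by omega)] at h4
  simp at h4
  have : k - k₀ = 0 := by
    have := congrArg (· + 1) h4
    simpa using this
  exact sub_eq_zero.mp this

theorem ad2_agree [NeZero m] (hm : 3 ≤ m) {Y : Sys Γ X m} (hY : Y.Ax D) (hF : Y.Folded)
    {k₀ : ZMod m} {q : X} {r r' : ZMod m → ℕ} (hr : Y.IsRun D k₀ q r) (hr' : Y.IsRun D k₀ q r')
    {k : ZMod m} (hk : k ≠ k₀) : r k = r' k ↔ r (k₀ + 1) = r' (k₀ + 1) := by
  obtain ⟨n, hn, rfl⟩ := ad2_index hm hk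
  clear hk
  induction n with
  | zero => simp
  | succ n ih =>
    rw [← ih (by omega)]
    have h1 : k₀ + 1 + ((n + 1 : ℕ) : ZMod m) = k₀ + 1 + (n : ZMod m) + 1 := by push_cast; ring
    rw [h1]
    refine (ad2_step hY hF hr hr' (ad2_ne hm (by omega)) ?_).symm
    rw [← h1]
    exact ad2_ne hm hn

/-- on `Wall` the run is unique (folded), so `rr` is it -/
theorem rr_spec [NeZero m] (hm : 3 ≤ m) (Y : Sys Γ X m) (hY : Y.Ax D) (hF : Y.Folded)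
    (k₀ : ZMod m) (q : X) (j : ℕ) (r : ZMod m → ℕ) (hr : Y.IsRun D k₀ q r) (hj : r (k₀ + 1) = j)
    (k : ZMod m) (hk : k ≠ k₀) : Y.rr D k₀ (q, j) k = r k := by
  have h : {n | ∃ r, Y.IsRun D k₀ q r ∧ r (k₀ + 1) = j ∧ r k = n} = {r k} := by
    ext n
    simp only [Set.mem_setOf_eq, Set.mem_singleton_iff]
    constructor
    · rintro ⟨r', hr', hj', rfl⟩
      exact (ad2_agree hm hY hF hr' hr hk).mpr (hj'.trans hj.symm)
    · rintro rfl
      exact ⟨r, hr, hj, rfl⟩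
  show sInf {n | ∃ r, Y.IsRun D k₀ q r ∧ r (k₀ + 1) = j ∧ r k = n} = r k
  rw [h]
  exact csInf_singleton _

theorem ad2_rr_run [NeZero m] (hm : 3 ≤ m) {Y : Sys Γ X m} (hY : Y.Ax D) (hF : Y.Folded)
    {k₀ : ZMod m} {q : X} {j : ℕ} {r : ZMod m → ℕ} (hr : Y.IsRun D k₀ q r)
    (hj : r (k₀ + 1) = j) : Y.IsRun D k₀ q (Y.rr D k₀ (q, j)) := by
  have h := rr_spec hm Y hY hF k₀ q j r hr hj
  refine ⟨fun k hk => ?_, fun k hk hk1 => ?_⟩
  · rw [h k hk]; exact hr.1 k hk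
  · rw [h k hk, h _ hk1]; exact hr.2 k hk hk1

theorem ad2_one_ne (hm : 3 ≤ m) (k₀ : ZMod m) : k₀ + 1 ≠ k₀ := by
  have := ad2_ne hm (k₀ := k₀) (n := 0) (by omega)
  simpa using this

theorem ad2_sub_ne (hm : 3 ≤ m) (k₀ : ZMod m) : k₀ - 1 ≠ k₀ := by
  intro h
  have := ad2_one_ne hm (k₀ - 1)
  rw [sub_add_cancel] at this
  exact this h.symm

theorem Wall_runOK [NeZero m] (hm : 3 ≤ m) (Y : Sys Γ X m) (hY : Y.Ax D) (hF : Y.Folded)
    (k₀ : ZMod m) (W : Set (X × ℕ)) (hW : W ⊆ Y.Wall D k₀) : Y.RunOK D k₀ W (Y.rr D k₀) where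
  run := by
    rintro ⟨q, j⟩ hw
    obtain ⟨r, hr, hj, -⟩ := hW hw
    exact ad2_rr_run hm hY hF hr hj
  inj := by
    intro q j j' k hk hw hw' h
    obtain ⟨r, hr, hj, -⟩ := hW hw
    obtain ⟨r', hr', hj', -⟩ := hW hw'
    rw [rr_spec hm Y hY hF k₀ q j r hr hj k hk, rr_spec hm Y hY hF k₀ q j' r' hr' hj' k hk,
      ad2_agree hm hY hF hr hr' hk] at h
    have hj : r (k₀ + 1) = j := hj
    have hj' : r' (k₀ + 1) = j' := hj'
    omega
  disj := by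
    intro q j j' k hk hw hf h
    obtain ⟨r, hr, hj, hopen⟩ := hW hw
    have hr' : Y.IsRun D k₀ q (Y.fe (q, j')) :=
      ⟨fun k _ => hY.V_E _ _ (hY.F_V _ hf k), fun k _ _ => hY.F_V _ hf k⟩
    rw [rr_spec hm Y hY hF k₀ q j r hr hj k hk, ad2_agree hm hY hF hr hr' hk] at h
    apply hopen
    refine ⟨Y.fe (q, j') k₀, ?_, ?_⟩
    · have h1 : r (k₀ - 1) = Y.fe (q, j') (k₀ - 1) :=
        (ad2_agree hm hY hF hr hr' (ad2_sub_ne hm k₀)).mpr h
      have h2 := hY.F_V _ hf (k₀ - 1)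
      rw [sub_add_cancel] at h2
      rw [h1]
      exact h2
    · rw [h]
      exact hY.F_V _ hf k₀

end Sys

end Crest.Agent.FP
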