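import Crest.Agent.FP.DiscDet
import Crest.Agent.FP.MeasTools

/-! Row 191 (S0291), chunk DMe: discarding (1,1)-vertices, measurability and sizes. -/
set_option autoImplicit false
set_option linter.unusedSectionVars false

open MeasureTheory
open scoped ENNReal

namespace Crest.Agent.FP

section dme

variable {X : Type} [MeasurableSpace X] {μ : Measure X}

theorem dme_tsum_fibre {B : Type*} [Countable B] {F : X → B} (hF : DMf F) {A : Set X}
    (hA : MeasurableSet A) : ∑' b, μ (A ∩ {x | F x = b}) = μ A := by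
  rw [← measure_iUnion]
  · congr 1
    ext x
    simp
  · intro b b' hb
    refine Set.disjoint_left.2 fun x hx hx' => hb ?_
    have h1 : F x = b := hx.2
    have h2 : F x = b' := hx'.2
    rw [← h1, ← h2]
  · exact fun b => hA.inter (hF b)

variable {Γ : Type} [Group Γ] [MulAction Γ X]

/-- image of a set of edges under a piecewise translation -/
def dmeIm {ι : Type*} (S : Set (X × ℕ)) (l : X × ℕ → ι) (g : ι → Γ) (n : X × ℕ → ℕ) :
    Set (X × ℕ) := {e | ∃ f ∈ S, e = (g (l f) • f.1, n f)}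

theorem dmeIm_fibre {ι : Type*} (S : Set (X × ℕ)) (l : X × ℕ → ι) (g : ι → Γ) (n : X × ℕ → ℕ)
    (i : ℕ) : {x | (x, i) ∈ dmeIm S l g n} =
      ⋃ p : ℕ × ι, {x | (((g p.2)⁻¹ • x, p.1) ∈ S ∧ l ((g p.2)⁻¹ • x, p.1) = p.2) ∧
        n ((g p.2)⁻¹ • x, p.1) = i} := by
  ext x
  simp only [Set.mem_iUnion, Set.mem_ofPred_eq, dmeIm]
  constructor
  · rintro ⟨⟨y, j⟩, hf, he⟩
    simp only [Prod.mk.injEq] at he
    obtain ⟨rfl, rfl⟩ := he
    refine ⟨(j, l (y, j)), ?_⟩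
    simpa using hf
  · rintro ⟨⟨j, a⟩, ⟨h1, h2⟩, h3⟩
    simp only at h1 h2 h3
    refine ⟨_, h1, ?_⟩
    rw [h2, h3, smul_inv_smul]

theorem dmeIm_meas {ι : Type*} [Countable ι] (hs : ∀ g : Γ, Measurable fun x : X => g • x)
    (S : Set (X × ℕ)) (hS : ∀ i, MeasurableSet {x | (x, i) ∈ S})
    (l : X × ℕ → ι) (hl : ∀ j, DMf fun x => l (x, j)) (g : ι → Γ) (n : X × ℕ → ℕ)
    (hn : ∀ j, DMf fun x => n (x, j)) (i : ℕ) :
    MeasurableSet {x | (x, i) ∈ dmeIm S l g n} := by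
  rw [dmeIm_fibre]
  refine MeasurableSet.iUnion fun p => ?_
  exact ((hs _ (hS p.1)).inter (hs _ (hl p.1 p.2))).inter (hs _ (hn p.1 i))

theorem dmeIm_size {ι : Type*} [Countable ι]
    (hmp : ∀ g : Γ, MeasurePreserving (fun x : X => g • x) μ μ)
    (S : Set (X × ℕ)) (hS : ∀ i, MeasurableSet {x | (x, i) ∈ S})
    (l : X × ℕ → ι) (hl : ∀ j, DMf fun x => l (x, j)) (g : ι → Γ) (n : X × ℕ → ℕ)
    (hn : ∀ j, DMf fun x => n (x, j))
    (hinj : ∀ f ∈ S, ∀ f' ∈ S, g (l f) • f.1 = g (l f') • f'.1 → n f = n f' → f = f') :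
    size μ (dmeIm S l g n) = size μ S := by
  have hmeas : ∀ (p : ℕ × ι) (i : ℕ), MeasurableSet
      {y | ((y, p.1) ∈ S ∧ l (y, p.1) = p.2) ∧ n (y, p.1) = i} := fun p i =>
    ((hS p.1).inter (hl p.1 p.2)).inter (hn p.1 i)
  have h1 : ∀ i, μ {x | (x, i) ∈ dmeIm S l g n} =
      ∑' p : ℕ × ι, μ {y | ((y, p.1) ∈ S ∧ l (y, p.1) = p.2) ∧ n (y, p.1) = i} := by
    intro i
    rw [dmeIm_fibre, measure_iUnion]
    · refine tsum_congr fun p => ?_
      exact (hmp (g p.2)⁻¹).measure_preimage (hmeas p i).nullMeasurableSet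
    · rintro ⟨j, a⟩ ⟨j', a'⟩ hne
      refine Set.disjoint_left.2 ?_
      rintro x ⟨⟨h1, h2⟩, h3⟩ ⟨⟨h1', h2'⟩, h3'⟩
      simp only at h1 h2 h3 h1' h2' h3'
      have h4 := hinj _ h1 _ h1' (by rw [h2, h2', smul_inv_smul, smul_inv_smul])
        (by rw [h3, h3'])
      apply hne
      have h5 : j = j' := congrArg Prod.snd h4
      have h6 : a = a' := by rw [← h2, ← h2', h4]
      rw [h5, h6]
    · exact fun p => (hmp (g p.2)⁻¹).measurable (hmeas p i)
  unfold size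
  simp only [h1]
  rw [ENNReal.tsum_comm, ENNReal.tsum_prod']
  refine tsum_congr fun j => ?_
  have h2 : ∀ a : ι, ∑' i : ℕ, μ {y | ((y, j) ∈ S ∧ l (y, j) = a) ∧ n (y, j) = i} =
      μ ({y | (y, j) ∈ S} ∩ {y | l (y, j) = a}) := fun a =>
    dme_tsum_fibre (hn j) ((hS j).inter (hl j a))
  simp only [h2]
  exact dme_tsum_fibre (hl j) (hS j)

end dme

namespace Sys

variable {Γ : Type} [Group Γ] [Countable Γ] {m : ℕ} [NeZero m] {X : Type} [MulAction Γ X]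
  [MeasurableSpace X] {D : GD Γ m} {μ : Measure X}

theorem C11_meas (hSp : Sp D X μ) (Y : Sys Γ X m) (hY : Y.Ax D) (hM : Y.Meas) (i : ℕ)
    (k : ZMod m) : MeasurableSet {x | Y.C11 D (x, i) k} := by
  have hs : ∀ g : Γ, Measurable fun x : X => g • x := fun g => (hSp.mp g).measurable
  have hf : DMf (fun x : X => (Y.fe (x, i) k, Y.fe (x, i) (k + 1))) :=
    DMf.map2 (fun n => hM.mfe i k n) (fun n => hM.mfe i (k + 1) n) fun a b => (a, b)
  have heq : {x | Y.C11 D (x, i) k} = {x | (fun (p : ℕ × ℕ) (x : X) => ((x, i) ∈ Y.Fs ∧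
      ¬ (((D.h k • x, p.1), true) ∈ Y.Pr)) ∧
      ∀ ρ : (Γ × ℕ) × Bool, Y.V ((D.h k • x, p.1), true) ((ρ.1.1 • x, ρ.1.2), ρ.2) →
        (ρ = ((D.h k, p.1), true) ∨ ρ = ((D.h (k + 1), p.2), false)))
        (Y.fe (x, i) k, Y.fe (x, i) (k + 1)) x} := by
    ext x
    simp only [Set.mem_ofPred_eq, C11, fed]
    constructor
    · rintro ⟨h1, h2, h3⟩
      refine ⟨⟨h1, h2⟩, fun ρ hρ => ?_⟩
      rcases h3 _ hρ with h4 | h4
      · left
        exact ats_inj hSp.free x ρ _ h4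
      · right
        exact ats_inj hSp.free x ρ _ h4
    · rintro ⟨⟨h1, h2⟩, h3⟩
      refine ⟨h1, h2, ?_⟩
      rintro ⟨⟨z, n⟩, s⟩ hζ
      obtain ⟨g, hg⟩ := V_orbit hY hζ
      simp only at hg
      rw [← mul_smul] at hg
      subst hg
      rcases h3 ((g * D.h k, n), s) hζ with h4 | h4
      · left
        rw [Prod.mk.injEq, Prod.mk.injEq] at h4
        obtain ⟨⟨h5, h6⟩, h7⟩ := h4
        rw [h5, h6, h7]
      · right
        rw [Prod.mk.injEq, Prod.mk.injEq] at h4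
        obtain ⟨⟨h5, h6⟩, h7⟩ := h4
        rw [h5, h6, h7]
  rw [heq]
  refine hf.setOf_mem (S := fun (p : ℕ × ℕ) (x : X) => ((x, i) ∈ Y.Fs ∧
      ¬ (((D.h k • x, p.1), true) ∈ Y.Pr)) ∧
      ∀ ρ : (Γ × ℕ) × Bool, Y.V ((D.h k • x, p.1), true) ((ρ.1.1 • x, ρ.1.2), ρ.2) →
        (ρ = ((D.h k, p.1), true) ∨ ρ = ((D.h (k + 1), p.2), false))) fun p => ?_
  refine ((hM.mF i).inter (hM.Pr' hs _ _ _).compl).inter ?_
  have : {x : X | ∀ ρ : (Γ × ℕ) × Bool, Y.V ((D.h k • x, p.1), true) ((ρ.1.1 • x, ρ.1.2), ρ.2) →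
        (ρ = ((D.h k, p.1), true) ∨ ρ = ((D.h (k + 1), p.2), false))} =
      ⋂ ρ : (Γ × ℕ) × Bool, {x | Y.V ((D.h k • x, p.1), true) ((ρ.1.1 • x, ρ.1.2), ρ.2)}ᶜ ∪
        {_x : X | ρ = ((D.h k, p.1), true) ∨ ρ = ((D.h (k + 1), p.2), false)} := by
    ext x
    simp only [Set.mem_iInter, Set.mem_union, Set.mem_compl_iff, Set.mem_ofPred_eq]
    refine forall_congr' fun ρ => ?_
    tauto
  change MeasurableSet {x : X | ∀ ρ : (Γ × ℕ) × Bool,
    Y.V ((D.h k • x, p.1), true) ((ρ.1.1 • x, ρ.1.2), ρ.2) →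
        (ρ = ((D.h k, p.1), true) ∨ ρ = ((D.h (k + 1), p.2), false))}
  rw [this]
  refine MeasurableSet.iInter fun ρ => ?_
  exact (hM.V' hs _ _ _ _ _ _).compl.union (.const _)

/-- removed edges of the first kind -/
theorem dme_R1 (Y : Sys Γ X m) (S : Set (X × ℕ)) (κ : X × ℕ → ZMod m) (e : X × ℕ) :
    (∃ f ∈ S, e = Y.fed D f (κ f)) ↔ e ∈ dmeIm S κ D.h (fun f => Y.fe f (κ f)) := Iff.rfl

theorem dme_R2 (Y : Sys Γ X m) (S : Set (X × ℕ)) (κ : X × ℕ → ZMod m) (e : X × ℕ) :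
    (∃ f ∈ S, e = Y.fed D f (κ f + 1)) ↔
      e ∈ dmeIm S κ (fun k => D.h (k + 1)) (fun f => Y.fe f (κ f + 1)) := Iff.rfl

theorem dme_fe (Y : Sys Γ X m) (hM : Y.Meas) (κ : X × ℕ → ZMod m)
    (hκ : ∀ i k, MeasurableSet {x | κ (x, i) = k}) (F : ZMod m → ZMod m) (j : ℕ) :
    DMf fun x : X => Y.fe (x, j) (F (κ (x, j))) :=
  DMf.bind (f := fun x : X => κ (x, j)) (fun k => hκ j k)
    (F := fun k x => Y.fe (x, j) (F k)) fun k n => hM.mfe j (F k) n

theorem dme_keep (Y : Sys Γ X m) (S : Set (X × ℕ)) (κ : X × ℕ → ZMod m) :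
    Y.keepE D S κ = Y.E \ (dmeIm S κ D.h (fun f => Y.fe f (κ f)) ∪
      dmeIm S κ (fun k => D.h (k + 1)) (fun f => Y.fe f (κ f + 1))) := by
  ext e
  simp only [keepE, Set.mem_sdiff, Set.mem_union, ← dme_R1, ← dme_R2, Set.mem_ofPred_eq]
  constructor
  · rintro ⟨h1, h2⟩
    refine ⟨h1, ?_⟩
    rintro (⟨f, hf, h⟩ | ⟨f, hf, h⟩)
    · exact (h2 f hf).1 h
    · exact (h2 f hf).2 h
  · rintro ⟨h1, h2⟩
    refine ⟨h1, fun f hf => ⟨fun h => h2 (Or.inl ⟨f, hf, h⟩), fun h => h2 (Or.inr ⟨f, hf, h⟩)⟩⟩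

theorem dme_ite {A : Type*} {P : X → Prop} [DecidablePred P] (hP : MeasurableSet {x | P x})
    {f g : X → A} (hf : DMf f) (hg : DMf g) : DMf fun x => if P x then f x else g x := by
  intro a
  have : {x | (if P x then f x else g x) = a} =
      ({x | P x} ∩ {x | f x = a}) ∪ ({x | P x}ᶜ ∩ {x | g x = a}) := by
    ext x
    by_cases h : P x
    · simp [h]
    · simp [h]
  rw [this]
  exact (hP.inter (hf a)).union (hP.compl.inter (hg a))

theorem dme_dmap (hSp : Sp D X μ) (Y : Sys Γ X m) (hY : Y.Ax D) (hM : Y.Meas)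
    (S : Set (X × ℕ)) (κ : X × ℕ → ZMod m) (hS : ∀ f ∈ S, Y.C11 D f (κ f))
    (hSm : ∀ i, MeasurableSet {x | (x, i) ∈ S}) (hκ : ∀ i k, MeasurableSet {x | κ (x, i) = k})
    (i : ℕ) : DMf fun x : X => Y.dmap D S κ (x, i) := by
  classical
  have hs : ∀ g : Γ, Measurable fun x : X => g • x := fun g => (hSp.mp g).measurable
  have hR1 : MeasurableSet {x : X | (x, i) ∈ dmeIm S κ D.h (fun f => Y.fe f (κ f))} :=
    dmeIm_meas hs S hSm κ (fun j k => hκ j k) D.h _ (fun j => dme_fe Y hM κ hκ id j) i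
  have hR2 : MeasurableSet
      {x : X | (x, i) ∈ dmeIm S κ (fun k => D.h (k + 1)) (fun f => Y.fe f (κ f + 1))} :=
    dmeIm_meas hs S hSm κ (fun j k => hκ j k) (fun k => D.h (k + 1)) _
      (fun j => dme_fe Y hM κ hκ (fun k => k + 1) j) i
  -- the value in the first case
  have hval : ∀ (j : ℕ) (k : ZMod m), DMf fun x : X =>
      (-∑ k' ∈ Finset.univ.filter (fun k' => k' ≠ k ∧ k' ≠ k + 1),
        Finsupp.single (D.h k' * (D.h k)⁻¹, Y.fe ((D.h k)⁻¹ • x, j) k') (1 : ℤ) :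
        Γ × ℕ →₀ ℤ) := by
    intro j k
    refine DMf.comp (DMf.sum _ fun k' _ => ?_) (fun c => -c)
    exact (hM.fe' hs (D.h k)⁻¹ j k').comp
      (fun n => (Finsupp.single (D.h k' * (D.h k)⁻¹, n) (1 : ℤ) : Γ × ℕ →₀ ℤ))
  intro c
  have heq : {x : X | Y.dmap D S κ (x, i) = c} =
      (⋃ p : ℕ × ZMod m, (({x : X | ((D.h p.2)⁻¹ • x, p.1) ∈ S} ∩
        {x : X | κ ((D.h p.2)⁻¹ • x, p.1) = p.2}) ∩
        {x : X | Y.fe ((D.h p.2)⁻¹ • x, p.1) p.2 = i}) ∩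
        {x : X | (-∑ k' ∈ Finset.univ.filter (fun k' => k' ≠ p.2 ∧ k' ≠ p.2 + 1),
        Finsupp.single (D.h k' * (D.h p.2)⁻¹, Y.fe ((D.h p.2)⁻¹ • x, p.1) k') (1 : ℤ) :
        Γ × ℕ →₀ ℤ) = c}) ∪
      ({x : X | (x, i) ∈ dmeIm S κ D.h (fun f => Y.fe f (κ f))}ᶜ ∩
        (({x : X | (x, i) ∈ dmeIm S κ (fun k => D.h (k + 1)) (fun f => Y.fe f (κ f + 1))} ∩
          {_x : X | (0 : Γ × ℕ →₀ ℤ) = c}) ∪
        ({x : X | (x, i) ∈ dmeIm S κ (fun k => D.h (k + 1)) (fun f => Y.fe f (κ f + 1))}ᶜ ∩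
          {_x : X | (Finsupp.single (1, i) 1 : Γ × ℕ →₀ ℤ) = c}))) := by
    ext x
    simp only [Set.mem_union, Set.mem_inter_iff, Set.mem_iUnion, Set.mem_compl_iff,
      Set.mem_ofPred_eq, ← dme_R1, ← dme_R2]
    by_cases h1 : ∃ f ∈ S, (x, i) = Y.fed D f (κ f)
    · obtain ⟨⟨y, j⟩, hf, he⟩ := h1
      have h1' : ∃ f ∈ S, (x, i) = Y.fed D f (κ f) := ⟨(y, j), hf, he⟩
      have he' := he
      simp only [fed, Prod.mk.injEq] at he'
      obtain ⟨e1, e2⟩ := he'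
      have hy : (D.h (κ (y, j)))⁻¹ • x = y := by rw [e1, inv_smul_smul]
      have hd := dd_dmap_kappa hSp.free Y hY S κ hS hf
      rw [← he] at hd
      constructor
      · intro h
        left
        refine ⟨(j, κ (y, j)), ?_⟩
        have hd' := hd
        rw [h] at hd'
        have h7 : (((D.h (κ (y, j)))⁻¹ • x, j) : X × ℕ) = (y, j) := by rw [hy]
        refine ⟨⟨⟨?_, ?_⟩, ?_⟩, ?_⟩
        · rw [h7]; exact hf
        · rw [h7]
        · rw [h7]; exact e2.symm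
        · simp only [h7]; exact hd'.symm
      · rintro (⟨⟨j', k⟩, ⟨⟨h2, h3⟩, h4⟩, h5⟩ | ⟨h2, -⟩)
        · simp only at h2 h3 h4 h5
          have h6 : (x, i) = Y.fed D ((D.h k)⁻¹ • x, j') (κ ((D.h k)⁻¹ • x, j')) := by
            simp only [fed, h3, h4, smul_inv_smul]
          have hd' := dd_dmap_kappa hSp.free Y hY S κ hS h2
          rw [← h6, h3] at hd'
          rw [hd', h5]
        · exact absurd h1' h2
    · by_cases h2 : ∃ f ∈ S, (x, i) = Y.fed D f (κ f + 1)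
      · have hd : Y.dmap D S κ (x, i) = 0 := by rw [dmap, dif_neg h1, if_pos h2]
        rw [hd]
        constructor
        · intro h
          right
          exact ⟨h1, Or.inl ⟨h2, h⟩⟩
        · rintro (⟨⟨j', k⟩, ⟨⟨h3, h4⟩, h5⟩, h6⟩ | ⟨-, ⟨-, h3⟩ | ⟨h3, -⟩⟩)
          · exfalso
            apply h1
            refine ⟨_, h3, ?_⟩
            simp only at h4 h5
            simp only [fed, h4, h5, smul_inv_smul]
          · exact h3
          · exact absurd h2 h3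
      · have hd : Y.dmap D S κ (x, i) = Finsupp.single (1, i) 1 := by
          rw [dmap, dif_neg h1, if_neg h2]
        rw [hd]
        constructor
        · intro h
          right
          exact ⟨h1, Or.inr ⟨h2, h⟩⟩
        · rintro (⟨⟨j', k⟩, ⟨⟨h3, h4⟩, h5⟩, h6⟩ | ⟨-, ⟨h3, -⟩ | ⟨-, h3⟩⟩)
          · exfalso
            apply h1
            refine ⟨_, h3, ?_⟩
            simp only at h4 h5
            simp only [fed, h4, h5, smul_inv_smul]
          · exact absurd h3 h2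
          · exact h3
  rw [heq]
  refine MeasurableSet.union (MeasurableSet.iUnion fun p => ?_) ?_
  · exact (((hs _ (hSm p.1)).inter (hs _ (hκ p.1 p.2))).inter
      (hM.fe' hs (D.h p.2)⁻¹ p.1 p.2 i)).inter (hval p.1 p.2 c)
  · exact hR1.compl.inter ((hR2.inter (.const _)).union (hR2.compl.inter (.const _)))

theorem disc_meas (hm : 3 ≤ m) (hSp : Sp D X μ) (Y : Sys Γ X m) (hY : Y.Ax D) (hM : Y.Meas)
    (hF : Y.Folded) (S : Set (X × ℕ)) (κ : X × ℕ → ZMod m) (hS : ∀ f ∈ S, Y.C11 D f (κ f))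
    (hSm : ∀ i, MeasurableSet {x | (x, i) ∈ S}) (hκ : ∀ i k, MeasurableSet {x | κ (x, i) = k}) :
    (Y.disc D S κ).Meas := by
  have hs : ∀ g : Γ, Measurable fun x : X => g • x := fun g => (hSp.mp g).measurable
  have hR1 : ∀ i, MeasurableSet {x : X | (x, i) ∈ dmeIm S κ D.h (fun f => Y.fe f (κ f))} :=
    fun i => dmeIm_meas hs S hSm κ (fun j k => hκ j k) D.h _ (fun j => dme_fe Y hM κ hκ id j) i
  have hR2 : ∀ i, MeasurableSet
      {x : X | (x, i) ∈ dmeIm S κ (fun k => D.h (k + 1)) (fun f => Y.fe f (κ f + 1))} :=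
    fun i => dmeIm_meas hs S hSm κ (fun j k => hκ j k) (fun k => D.h (k + 1)) _
      (fun j => dme_fe Y hM κ hκ (fun k => k + 1) j) i
  have hK : ∀ i, MeasurableSet {x : X | (x, i) ∈ Y.keepE D S κ} := by
    intro i
    rw [dme_keep]
    exact (hM.mE i).diff ((hR1 i).union (hR2 i))
  refine ⟨hK, ?_, ?_, ?_, hM.mfe, hM.mI, ?_⟩
  · intro g i j s t
    exact (hK i).inter ((hs g (hK j)).inter (hM.mV g i j s t))
  · intro i s
    exact (hK i).inter (hM.mPr i s)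
  · intro i
    exact (hM.mF i).diff (hSm i)
  · intro i
    change DMf fun x : X => (Y.J (x, i)).sum fun p n =>
      n • (Y.dmap D S κ (p.1 • x, p.2)).mapDomain fun p' => (p'.1 * p.1, p'.2)
    refine DMf.bind (f := fun x : X => Y.J (x, i)) (fun c => hM.mJ i c)
      (F := fun c x => c.sum fun p n =>
        n • (Y.dmap D S κ (p.1 • x, p.2)).mapDomain fun p' => (p'.1 * p.1, p'.2)) fun c => ?_
    refine DMf.sum _ fun p _ => ?_
    have h1 : DMf fun x : X => Y.dmap D S κ (p.1 • x, p.2) := fun c' =>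
      hs p.1 (dme_dmap hSp Y hY hM S κ hS hSm hκ p.2 c')
    exact h1.comp fun d => c p • d.mapDomain fun p' => (p'.1 * p.1, p'.2)

theorem disc_size (hm : 3 ≤ m) (hSp : Sp D X μ) (Y : Sys Γ X m) (hY : Y.Ax D) (hM : Y.Meas)
    (hF : Y.Folded) (S : Set (X × ℕ)) (κ : X × ℕ → ZMod m) (hS : ∀ f ∈ S, Y.C11 D f (κ f))
    (hSm : ∀ i, MeasurableSet {x | (x, i) ∈ S}) (hκ : ∀ i k, MeasurableSet {x | κ (x, i) = k}) :
    size μ (Y.disc D S κ).E + 2 * size μ S = size μ Y.E ∧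
    size μ (Y.disc D S κ).Fs + size μ S = size μ Y.Fs := by
  have hs : ∀ g : Γ, Measurable fun x : X => g • x := fun g => (hSp.mp g).measurable
  set R1 := dmeIm S κ D.h (fun f => Y.fe f (κ f)) with hR1d
  set R2 := dmeIm S κ (fun k => D.h (k + 1)) (fun f => Y.fe f (κ f + 1)) with hR2d
  have hR1 : ∀ i, MeasurableSet {x : X | (x, i) ∈ R1} :=
    fun i => dmeIm_meas hs S hSm κ (fun j k => hκ j k) D.h _ (fun j => dme_fe Y hM κ hκ id j) i
  have hR2 : ∀ i, MeasurableSet {x : X | (x, i) ∈ R2} :=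
    fun i => dmeIm_meas hs S hSm κ (fun j k => hκ j k) (fun k => D.h (k + 1)) _
      (fun j => dme_fe Y hM κ hκ (fun k => k + 1) j) i
  have hs1 : size μ R1 = size μ S := by
    refine dmeIm_size hSp.mp S hSm κ (fun j k => hκ j k) D.h _
      (fun j => dme_fe Y hM κ hκ id j) ?_
    intro f hf f' hf' h1 h2
    have h3 : Y.fed D f (κ f) = Y.fed D f' (κ f') := Prod.ext h1 h2
    exact (dd_C11_uniq hSp.free Y hY (hS f hf).1 (hS f' hf') h3).1
  have hs2 : size μ R2 = size μ S := by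
    refine dmeIm_size hSp.mp S hSm κ (fun j k => hκ j k) (fun k => D.h (k + 1)) _
      (fun j => dme_fe Y hM κ hκ (fun k => k + 1) j) ?_
    intro f hf f' hf' h1 h2
    have h3 : Y.fed D f (κ f + 1) = Y.fed D f' (κ f' + 1) := Prod.ext h1 h2
    exact (dd_C11_uniq1 hSp.free Y hY (hS f hf).1 (hS f' hf') h3).1
  have hdisj : ∀ e, e ∈ R1 → e ∈ R2 → False := by
    rintro e ⟨f, hf, h1⟩ ⟨f', hf', h2⟩
    have h3 : Y.fed D f (κ f) = Y.fed D f' (κ f' + 1) := by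
      have h1' : e = Y.fed D f (κ f) := h1
      have h2' : e = Y.fed D f' (κ f' + 1) := h2
      rw [← h1', ← h2']
    obtain ⟨h4, h5⟩ := dd_C11_uniq1 hSp.free Y hY (hS f hf).1 (hS f' hf') h3
    rw [h4] at h5
    exact dd_one_ne hm (by simpa using h5.symm)
  have hsub1 : R1 ⊆ Y.E := by
    rintro e ⟨f, hf, h1⟩
    have h1' : e = Y.fed D f (κ f) := h1
    rw [h1']
    exact hY.V_E _ _ (hY.F_V f (hS f hf).1 (κ f))
  have hsub2 : R2 ⊆ Y.E := by
    rintro e ⟨f, hf, h1⟩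
    have h1' : e = Y.fed D f (κ f + 1) := h1
    rw [h1']
    exact hY.V_E _ _ (hY.F_V f (hS f hf).1 (κ f + 1))
  constructor
  · rw [two_mul]
    nth_rw 1 [← hs1]
    rw [← hs2]
    change size μ (Y.keepE D S κ) + (size μ R1 + size μ R2) = size μ Y.E
    rw [dme_keep]
    unfold size
    rw [← ENNReal.tsum_add, ← ENNReal.tsum_add]
    refine tsum_congr fun i => ?_
    have h1 : μ {x | (x, i) ∈ R1} + μ {x | (x, i) ∈ R2} =
        μ ({x | (x, i) ∈ R1} ∪ {x | (x, i) ∈ R2}) := by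
      rw [measure_union _ (hR2 i)]
      exact Set.disjoint_left.2 fun x h1 h2 => hdisj _ h1 h2
    rw [h1]
    have h2 : {x | (x, i) ∈ Y.E \ (R1 ∪ R2)} =
        {x | (x, i) ∈ Y.E} \ ({x | (x, i) ∈ R1} ∪ {x | (x, i) ∈ R2}) := rfl
    rw [h2]
    have h3 := measure_sdiff_add_inter (μ := μ) {x | (x, i) ∈ Y.E} ((hR1 i).union (hR2 i))
    rw [Set.inter_eq_self_of_subset_right] at h3
    · exact h3
    · rintro x (hx | hx)
      · exact hsub1 hx
      · exact hsub2 hx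
  · change size μ (Y.Fs \ S) + size μ S = size μ Y.Fs
    unfold size
    rw [← ENNReal.tsum_add]
    refine tsum_congr fun i => ?_
    have h3 := measure_sdiff_add_inter (μ := μ) {x | (x, i) ∈ Y.Fs} (hSm i)
    rw [Set.inter_eq_self_of_subset_right] at h3
    · exact h3
    · intro x hx
      exact (hS _ hx).1

end Sys

end Crest.Agent.FP
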