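import Crest.Agent.FP.Ops

/-! Row 191 (S0291), chunk P: pruning dead ends. -/
set_option autoImplicit false
set_option linter.unusedSectionVars false

open MeasureTheory
open scoped ENNReal

namespace Crest.Agent.FP

namespace Sys

variable {Γ : Type} [Group Γ] {m : ℕ} [NeZero m] {X : Type} [MulAction Γ X] {D : GD Γ m}

theorem prune_V_iff (Y : Sys Γ X m) (η ζ : Dart X) :
    Y.prune.V η ζ ↔ η.1 ∈ Y.liveE ∧ ζ.1 ∈ Y.liveE ∧ Y.V η ζ := Iff.rfl

theorem prune_Pr_iff (Y : Sys Γ X m) (η : Dart X) :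
    η ∈ Y.prune.Pr ↔ η.1 ∈ Y.liveE ∧ η ∈ Y.Pr := Iff.rfl

open Classical in
theorem prune_J_eq (Y : Sys Γ X m) (i : X × ℕ) :
    Y.prune.J i = (Y.J i).filter fun p => (p.1 • i.1, p.2) ∈ Y.liveE := rfl

theorem not_dead_of_V (Y : Sys Γ X m) {η ζ : Dart X} (h : Y.V η ζ) (hne : ζ ≠ η) :
    η ∉ Y.Dead := fun hd => hne (hd.2.2 ζ h)

theorem live_not_dead (Y : Sys Γ X m) {η : Dart X} (h : η.1 ∈ Y.liveE) : η ∉ Y.Dead := by
  obtain ⟨e, s⟩ := η
  cases s
  · exact h.2.2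
  · exact h.2.1

theorem exists_dead_of_not_live (Y : Sys Γ X m) {e : X × ℕ} (he : e ∈ Y.E) (h : e ∉ Y.liveE)
    (s : Bool) : (e, s) ∈ Y.Dead ∨ (e, !s) ∈ Y.Dead := by
  by_contra hc
  push Not at hc
  apply h
  refine ⟨he, ?_, ?_⟩
  · cases s
    · exact hc.2
    · exact hc.1
  · cases s
    · exact hc.1
    · exact hc.2

theorem fed_live (Y : Sys Γ X m) (hY : Y.Ax D) {f : X × ℕ} (hf : f ∈ Y.Fs) (k : ZMod m) :
    Y.fed D f k ∈ Y.liveE := by
  have h1 := hY.F_V f hf k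
  have h2 := hY.V_symm _ _ (hY.F_V f hf (k - 1))
  rw [sub_add_cancel] at h2
  refine ⟨hY.V_E _ _ h1, ?_, ?_⟩
  · exact Y.not_dead_of_V h1 (fun h => by simpa using congrArg Prod.snd h)
  · exact Y.not_dead_of_V h2 (fun h => by simpa using congrArg Prod.snd h)

/-- `conn`: given `S'` for the pruned system use
`S = {η | η.1 ∈ E, (∀ ζ live, V η ζ → ζ ∈ S') ∧ (η dead → ∀ ζ live, V (η.1, !η.2) ζ → ζ ∈ S')}`.
`ex`: extend `f` by `0` on the edges with dead ends. -/
theorem prune_ax (Y : Sys Γ X m) (hY : Y.Ax D) : Y.prune.Ax D where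
  V_E η ζ h := h.1
  V_refl η h := ⟨h, h, hY.V_refl η h.1⟩
  V_symm η ζ h := ⟨h.2.1, h.1, hY.V_symm _ _ h.2.2⟩
  V_trans η ζ ξ h h' := ⟨h.1, h'.2.1, hY.V_trans _ _ _ h.2.2 h'.2.2⟩
  V_T η ζ h := hY.V_T _ _ h.2.2
  Pr_E η h := h.1
  Pr_V η ζ h h' := ⟨h'.2.1, hY.Pr_V _ _ h.2 h'.2.2⟩
  Pr_merge η ζ h h' hT := ⟨h.1, h'.1, hY.Pr_merge _ _ h.2 h'.2 hT⟩
  F_V f hf k := ⟨Y.fed_live hY hf k, Y.fed_live hY hf (k + 1), hY.F_V f hf k⟩
  F_inj := hY.F_inj
  J_E i _ p hp := by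
    classical
    rw [prune_J_eq, Finsupp.support_filter, Finset.mem_filter] at hp
    exact hp.2
  conn S' hV hflip hPr η hη := by
    let S : Set (Dart X) := {η | η.1 ∈ Y.E ∧ (∀ ζ : Dart X, ζ.1 ∈ Y.liveE → Y.V η ζ → ζ ∈ S') ∧
      (η ∈ Y.Dead → ∀ ζ : Dart X, ζ.1 ∈ Y.liveE → Y.V (η.1, !η.2) ζ → ζ ∈ S')}
    have key := hY.conn S ?_ ?_ ?_ η hη.1
    · exact key.2.1 η hη (hY.V_refl η hη.1)
    · intro η ζ hη hηζ
      refine ⟨hY.V_E _ _ (hY.V_symm _ _ hηζ), ?_, ?_⟩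
      · intro ξ hξ hζξ
        exact hη.2.1 ξ hξ (hY.V_trans _ _ _ hηζ hζξ)
      · intro hd
        have e : η = ζ := hd.2.2 η (hY.V_symm _ _ hηζ)
        subst e
        exact hη.2.2 hd
    · intro e he s hs
      by_cases hl : e ∈ Y.liveE
      · have h1 : ((e, s) : Dart X) ∈ S' := hs.2.1 (e, s) hl (hY.V_refl _ he)
        have h2 : ((e, !s) : Dart X) ∈ S' := hflip e hl s h1
        refine ⟨he, ?_, ?_⟩
        · intro ζ hζ hv
          exact hV _ _ h2 ⟨hl, hζ, hv⟩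
        · intro hd
          exact absurd hd (Y.live_not_dead (η := (e, !s)) hl)
      · rcases Y.exists_dead_of_not_live he hl s with hd | hd
        · refine ⟨he, ?_, ?_⟩
          · intro ζ hζ hv
            exact hs.2.2 hd ζ hζ hv
          · intro _ ζ hζ hv
            simp only [Bool.not_not] at hv
            have e1 := hd.2.2 ζ hv
            rw [e1] at hζ
            exact absurd hζ hl
        · refine ⟨he, ?_, ?_⟩
          · intro ζ hζ hv
            have e1 := hd.2.2 ζ hv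
            rw [e1] at hζ
            exact absurd hζ hl
          · intro _ ζ hζ hv
            simp only [Bool.not_not] at hv
            exact hs.2.1 ζ hζ hv
    · intro η hη
      refine ⟨hY.Pr_E η hη, ?_, ?_⟩
      · intro ζ hζ hv
        exact hPr ⟨hζ, hY.Pr_V _ _ hη hv⟩
      · intro hd
        exact absurd hη hd.2.1
  ex A _ f hI hF := by
    classical
    have k1 : ∀ i ∈ Y.I, Y.Jev (fun e => if e ∈ Y.liveE then f e else 0) i = 0 := by
      intro i hi
      have h1 := hI i hi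
      unfold Jev at h1 ⊢
      rw [prune_J_eq, Finsupp.sum_filter_index] at h1
      refine Eq.trans ?_ h1
      unfold Finsupp.sum
      rw [Finsupp.support_filter, Finset.sum_filter]
      refine Finset.sum_congr rfl fun p _ => ?_
      by_cases hp : (p.1 • i.1, p.2) ∈ Y.liveE <;> simp [hp]
    have k2 : ∀ q ∈ Y.Fs, ∑ k : ZMod m,
        (fun e => if e ∈ Y.liveE then f e else 0) (Y.fed D q k) = 0 := by
      intro q hq
      refine Eq.trans ?_ (hF q hq)
      refine Finset.sum_congr rfl fun k _ => ?_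
      exact if_pos (Y.fed_live hY hq k)
    obtain ⟨g, hg1, hg2, hg3⟩ := hY.ex A (fun e => if e ∈ Y.liveE then f e else 0) k1 k2
    refine ⟨g, ?_, ?_, ?_⟩
    · intro η ζ h
      exact hg1 _ _ h.2.2
    · intro η h
      exact hg2 _ h.2
    · intro e he
      have := hg3 e he.1
      rw [if_pos (show e ∈ Y.liveE from he)] at this
      exact this

theorem prune_folded (Y : Sys Γ X m) (hF : Y.Folded) : Y.prune.Folded :=
  fun x i j s h => hF x i j s h.2.2

/-- an edge has at most one dead end (by `conn`) -/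
theorem not_both_dead (Y : Sys Γ X m) (hY : Y.Ax D) (e : X × ℕ) (h1 : (e, true) ∈ Y.Dead)
    (h2 : (e, false) ∈ Y.Dead) : False := by
  have hd : ∀ s : Bool, ((e, s) : Dart X) ∈ Y.Dead := by
    intro s; cases s
    · exact h2
    · exact h1
  have key := hY.conn {η | η.1 ∈ Y.E ∧ η.1 ≠ e} ?_ ?_ ?_ (e, true) h1.1
  · exact key.2 rfl
  · rintro η ⟨ζ1, s⟩ hη hv
    refine ⟨hY.V_E _ _ (hY.V_symm _ _ hv), ?_⟩
    rintro rfl
    have := (hd s).2.2 η (hY.V_symm _ _ hv)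
    exact hη.2 (by rw [this])
  · intro e' he' s hs
    exact ⟨he', hs.2⟩
  · rintro ⟨e', s⟩ hη
    refine ⟨hY.Pr_E _ hη, ?_⟩
    rintro rfl
    exact (hd s).2.1 hη

theorem IsWalk_congr (Y : Sys Γ X m) (hY : Y.Ax D) {η η' ζ : Dart X} (h : Y.V η η')
    {L : List (Dart X)} (hL : Y.IsWalk η' L ζ) : Y.IsWalk η L ζ := by
  cases L with
  | nil => exact hY.V_trans _ _ _ h hL
  | cons p L => exact ⟨hY.V_trans _ _ _ h hL.1, hL.2⟩

theorem IsWalk_congr_right (Y : Sys Γ X m) (hY : Y.Ax D) {ζ ζ' : Dart X} (h : Y.V ζ ζ')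
    {L : List (Dart X)} : ∀ {η : Dart X}, Y.IsWalk η L ζ → Y.IsWalk η L ζ' := by
  induction L with
  | nil => intro η hL; exact hY.V_trans _ _ _ hL h
  | cons p L ih => intro η hL; exact ⟨hL.1, ih hL.2⟩

theorem IsWalk_last (Y : Sys Γ X m) {ζ : Dart X} {L : List (Dart X)} :
    ∀ {η p : Dart X}, Y.IsWalk η (p :: L) ζ → ∃ q ∈ p :: L, Y.V q ζ := by
  induction L with
  | nil => intro η p hL; exact ⟨p, by simp, hL.2⟩
  | cons p' L ih =>
    intro η p hL
    obtain ⟨q, hq, hv⟩ := ih hL.2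
    exact ⟨q, List.mem_cons_of_mem _ hq, hv⟩

theorem IsWalk_prune (Y : Sys Γ X m) {ζ : Dart X} (hζ : ζ.1 ∈ Y.liveE) {L : List (Dart X)} :
    ∀ {η : Dart X}, η.1 ∈ Y.liveE → (∀ p ∈ L, p.1 ∈ Y.liveE) → Y.IsWalk η L ζ →
      Y.prune.IsWalk η L ζ := by
  induction L with
  | nil => intro η hη _ hL; exact ⟨hη, hζ, hL⟩
  | cons p L ih =>
    intro η hη hall hL
    have hp : p.1 ∈ Y.liveE := hall p (by simp)
    exact ⟨⟨hη, hp, hL.1⟩, ih hp (fun q hq => hall q (List.mem_cons_of_mem _ hq)) hL.2⟩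

/-- walks between non-dead darts can be shortened to avoid the edges with dead ends -/
theorem IsWalk_live (Y : Sys Γ X m) (hY : Y.Ax D) (n : ℕ) : ∀ (L : List (Dart X)), L.length ≤ n →
    ∀ (η ζ : Dart X), η ∉ Y.Dead → ζ ∉ Y.Dead → Y.IsWalk η L ζ →
      ∃ L', (∀ p ∈ L', p.1 ∈ Y.liveE) ∧ Y.IsWalk η L' ζ ∧ L'.length ≤ L.length := by
  induction n with
  | zero =>
    intro L hL η ζ _ _ h
    obtain rfl : L = [] := List.length_eq_zero_iff.mp (Nat.le_zero.mp hL)
    exact ⟨[], by simp, h, le_rfl⟩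
  | succ n ih =>
    intro L hL η ζ hη hζ h
    cases L with
    | nil => exact ⟨[], by simp, h, le_rfl⟩
    | cons p L1 =>
      simp only [List.length_cons] at hL ⊢
      have hnd : ((p.1, !p.2) : Dart X) ∉ Y.Dead := by
        intro hd
        have e := hd.2.2 η (hY.V_symm _ _ h.1)
        exact hη (e ▸ hd)
      have hpE : p.1 ∈ Y.E := hY.V_E (p.1, !p.2) η (hY.V_symm _ _ h.1)
      by_cases hp : p ∈ Y.Dead
      · cases L1 with
        | nil => exact absurd (hp.2.2 ζ h.2 ▸ hp) hζ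
        | cons q L2 =>
          have e1 : ((q.1, !q.2) : Dart X) = p := hp.2.2 _ h.2.1
          have e2 : ((p.1, !p.2) : Dart X) = q := by rw [← e1]; simp
          have h1 : Y.V η q := e2 ▸ h.1
          obtain ⟨L', h2, h3, h4⟩ := ih L2 (by simp only [List.length_cons] at hL; omega) η ζ hη hζ
            (Y.IsWalk_congr hY h1 h.2.2)
          exact ⟨L', h2, h3, by simp only [List.length_cons]; omega⟩
      · obtain ⟨L', h2, h3, h4⟩ := ih L1 (by omega) p ζ hp hζ h.2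
        refine ⟨p :: L', ?_, ⟨h.1, h3⟩, by simp only [List.length_cons]; omega⟩
        intro q hq
        rcases List.mem_cons.mp hq with rfl | hq
        · by_contra hl
          rcases Y.exists_dead_of_not_live hpE hl q.2 with hd | hd
          · exact hp hd
          · exact hnd hd
        · exact h2 q hq

theorem sameT_trans {x y z : X} (h : D.SameT x y) (h' : D.SameT y z) : D.SameT x z := by
  obtain ⟨t, ht, rfl⟩ := h
  obtain ⟨t', ht', rfl⟩ := h'
  exact ⟨t' * t, D.T.mul_mem ht' ht, mul_smul _ _ _⟩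

theorem sameT_symm {x y : X} (h : D.SameT x y) : D.SameT y x := by
  obtain ⟨t, ht, rfl⟩ := h
  exact ⟨t⁻¹, D.T.inv_mem ht, inv_smul_smul _ _⟩

/-- shortest walks (at least walks without backtracking) avoid the edges with dead ends -/
theorem prune_walk (Y : Sys Γ X m) (hY : Y.Ax D) (x y : X) (hxy : ¬ D.SameT x y)
    (L : List (Dart X)) (h : Y.PW D x L y) :
    ∃ L', Y.prune.PW D x L' y ∧ L'.length ≤ L.length := by
  obtain ⟨η, ζ, hη, hζ, hx, hy, hw⟩ := h
  obtain ⟨L', h1, h2, h3⟩ := Y.IsWalk_live hY L.length L le_rfl η ζ (fun hd => hd.2.1 hη)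
    (fun hd => hd.2.1 hζ) hw
  refine ⟨L', ?_, h3⟩
  cases L' with
  | nil =>
    exact absurd (sameT_trans (sameT_trans hx (hY.V_T _ _ h2)) (sameT_symm hy)) hxy
  | cons p L' =>
    obtain ⟨q, hq, hv⟩ := Y.IsWalk_last h2
    have hp : p.1 ∈ Y.liveE := h1 p (by simp)
    have hq' : q.1 ∈ Y.liveE := h1 q hq
    refine ⟨(p.1, !p.2), q, ⟨hp, hY.Pr_V _ _ hη h2.1⟩,
      ⟨hq', hY.Pr_V _ _ hζ (hY.V_symm _ _ hv)⟩, sameT_trans hx (hY.V_T _ _ h2.1),
      sameT_trans hy (hY.V_T _ _ (hY.V_symm _ _ hv)), ?_⟩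
    refine Y.IsWalk_prune hq' hp h1 (Y.IsWalk_congr_right hY (hY.V_symm _ _ hv) ?_)
    exact ⟨hY.V_refl _ hp.1, h2.2⟩

variable [Countable Γ] [MeasurableSpace X] {μ : Measure X} {G : Set X} {ε w : ℝ≥0∞}

theorem V_smul (Y : Sys Γ X m) (hY : Y.Ax D) {η ζ : Dart X} (h : Y.V η ζ) :
    ∃ g : Γ, ζ.1.1 = g • η.1.1 := by
  obtain ⟨t, -, ht⟩ := hY.V_T _ _ h
  unfold GD.pos at ht
  split_ifs at ht with h1 h2 h2
  · exact ⟨D.a⁻¹ * t * D.a, by rw [mul_smul, mul_smul, ht, inv_smul_smul]⟩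
  · exact ⟨t * D.a, by rw [mul_smul, ht]⟩
  · exact ⟨D.a⁻¹ * t, by rw [mul_smul, ht, inv_smul_smul]⟩
  · exact ⟨t, ht.symm⟩

theorem Dead_meas (hs : ∀ g : Γ, Measurable fun x : X => g • x)
    (hfree : ∀ (g : Γ) (x : X), g • x = x → g = 1)
    (Y : Sys Γ X m) (hY : Y.Ax D) (hM : Y.Meas) (i : ℕ) (s : Bool) :
    MeasurableSet {x | ((x, i), s) ∈ Y.Dead} := by
  have e : {x | ((x, i), s) ∈ Y.Dead} = {x | (x, i) ∈ Y.E} ∩ {x | ((x, i), s) ∈ Y.Pr}ᶜ ∩
      ⋂ g : Γ, ⋂ j : ℕ, ⋂ t : Bool, {x | (g, j, t) ≠ (1, i, s) →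
        ¬ Y.V ((x, i), s) ((g • x, j), t)} := by
    ext x
    simp only [Set.mem_ofPred_eq, Set.mem_inter_iff, Set.mem_compl_iff, Set.mem_iInter]
    constructor
    · intro h
      refine ⟨⟨h.1, h.2.1⟩, ?_⟩
      intro g j t hne hv
      have := h.2.2 _ hv
      apply hne
      simp only [Prod.mk.injEq] at this ⊢
      exact ⟨hfree g x this.1.1, this.1.2, this.2⟩
    · rintro ⟨⟨h1, h2⟩, h3⟩
      refine ⟨h1, h2, ?_⟩
      rintro ⟨⟨y, j⟩, t⟩ hv
      obtain ⟨g, hg⟩ := Y.V_smul hY hv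
      simp only at hg
      subst hg
      by_contra hne
      refine h3 g j t ?_ hv
      intro he
      simp only [Prod.mk.injEq] at he
      apply hne
      rw [he.1, he.2.1, he.2.2, one_smul]
  rw [e]
  refine ((hM.mE i).inter (hM.mPr i s).compl).inter ?_
  refine MeasurableSet.iInter fun g => MeasurableSet.iInter fun j => MeasurableSet.iInter fun t => ?_
  by_cases h : (g, j, t) ≠ (1, i, s)
  · have e2 : {x | (g, j, t) ≠ (1, i, s) → ¬ Y.V ((x, i), s) ((g • x, j), t)} =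
        {x | Y.V ((x, i), s) ((g • x, j), t)}ᶜ := by
      ext x; simp [h]
    rw [e2]
    exact (hM.mV g i j s t).compl
  · have e2 : {x | (g, j, t) ≠ (1, i, s) → ¬ Y.V ((x, i), s) ((g • x, j), t)} = Set.univ := by
      ext x; simp [h]
    rw [e2]
    exact MeasurableSet.univ

theorem live_meas (hs : ∀ g : Γ, Measurable fun x : X => g • x)
    (hfree : ∀ (g : Γ) (x : X), g • x = x → g = 1)
    (Y : Sys Γ X m) (hY : Y.Ax D) (hM : Y.Meas) (i : ℕ) :
    MeasurableSet {x | (x, i) ∈ Y.liveE} :=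
  (hM.mE i).inter ((Dead_meas hs hfree Y hY hM i true).compl.inter
    (Dead_meas hs hfree Y hY hM i false).compl)

theorem prune_meas (hs : ∀ g : Γ, Measurable fun x : X => g • x)
    (hfree : ∀ (g : Γ) (x : X), g • x = x → g = 1)
    (Y : Sys Γ X m) (hY : Y.Ax D) (hM : Y.Meas) : Y.prune.Meas where
  mE i := live_meas hs hfree Y hY hM i
  mV g i j s t := (live_meas hs hfree Y hY hM i).inter
    (((hs g) (live_meas hs hfree Y hY hM j)).inter (hM.mV g i j s t))
  mPr i s := (live_meas hs hfree Y hY hM i).inter (hM.mPr i s)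
  mF := hM.mF
  mfe := hM.mfe
  mI := hM.mI
  mJ i c := by
    classical
    have e : {x | Y.prune.J (x, i) = c} = ⋃ c0 : Γ × ℕ →₀ ℤ, {x | Y.J (x, i) = c0} ∩
        ⋂ p : Γ × ℕ, {x | (if (p.1 • x, p.2) ∈ Y.liveE then c0 p else 0) = c p} := by
      ext x
      simp only [Set.mem_ofPred_eq, Set.mem_iUnion, Set.mem_inter_iff, Set.mem_iInter]
      constructor
      · intro h
        refine ⟨Y.J (x, i), rfl, fun p => ?_⟩
        rw [← h, prune_J_eq, Finsupp.filter_apply]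
      · rintro ⟨c0, h1, h2⟩
        rw [prune_J_eq, h1]
        ext p
        rw [Finsupp.filter_apply]
        exact h2 p
    rw [e]
    refine MeasurableSet.iUnion fun c0 => (hM.mJ i c0).inter (MeasurableSet.iInter fun p => ?_)
    have hm : MeasurableSet {x : X | (p.1 • x, p.2) ∈ Y.liveE} :=
      (hs p.1) (live_meas hs hfree Y hY hM p.2)
    have e2 : {x : X | (if (p.1 • x, p.2) ∈ Y.liveE then c0 p else 0) = c p} =
        ({x : X | (p.1 • x, p.2) ∈ Y.liveE} ∩ {_x : X | c0 p = c p}) ∪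
        ({x : X | (p.1 • x, p.2) ∈ Y.liveE}ᶜ ∩ {_x : X | 0 = c p}) := by
      ext x
      simp only [Set.mem_ofPred_eq, Set.mem_union, Set.mem_inter_iff, Set.mem_compl_iff]
      by_cases hx : (p.1 • x, p.2) ∈ Y.liveE <;> simp [hx]
    rw [e2]
    exact (hm.inter (MeasurableSet.const _)).union (hm.compl.inter (MeasurableSet.const _))

theorem prune_size (hS : Sp D X μ) (Y : Sys Γ X m) (hY : Y.Ax D) (hM : Y.Meas) :
    size μ Y.prune.E + dsize μ Y.Dead = size μ Y.E := by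
  have hs : ∀ g : Γ, Measurable fun x : X => g • x := fun g => (hS.mp g).measurable
  have hd := fun i s => Dead_meas hs hS.free Y hY hM i s
  unfold size dsize
  rw [← ENNReal.tsum_add]
  refine tsum_congr fun i => ?_
  rw [← measure_union ?_ (hd i true), ← measure_union ?_ ((hd i false).union (hd i true))]
  · congr 1
    ext x
    simp only [Set.mem_union, Set.mem_ofPred_eq]
    constructor
    · rintro (h | h | h)
      · exact h.1
      · exact h.1
      · exact h.1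
    · intro h
      by_cases h1 : ((x, i), true) ∈ Y.Dead
      · exact Or.inr (Or.inr h1)
      · by_cases h2 : ((x, i), false) ∈ Y.Dead
        · exact Or.inr (Or.inl h2)
        · exact Or.inl ⟨h, h1, h2⟩
  · rw [Set.disjoint_left]
    rintro x hx (h | h)
    · exact hx.2.2 h
    · exact hx.2.1 h
  · rw [Set.disjoint_left]
    intro x hx h
    exact Y.not_both_dead hY (x, i) h hx

end Sys

end Crest.Agent.FP
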