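import Crest.Agent.FP.Main
import Crest.Agent.FP.Count
import Crest.Agent.FP.RankApp
import Crest.Agent.FP.DiscMeas
import Crest.Agent.FP.Prune

/-! Row 191 (S0291), chunk B: the barrier.

Sum over all darts `η` of edges of `1/2 + [dead]/2 ≥ [aux] 1/val + [good]/6`, where good = principal or
`val ≥ 3` (also infinite).  Darts of edges of `Ahat` which are not good are at (1,1)-corners:
`2 size Ahat ≤ dsize good + 2 size11` (head darts: `(e, true)` with `e = fed f k`; tail darts). -/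
set_option autoImplicit false

open MeasureTheory
open scoped ENNReal

namespace Crest.Agent.FP

variable {Γ : Type} [Group Γ] [Countable Γ] {m : ℕ} [NeZero m] {X : Type} [MeasurableSpace X]
  [MulAction Γ X] {μ : Measure X} {D : GD Γ m} {G : Set X} {ε w : ℝ≥0∞}

open Classical in
/-- good darts -/
def Sys.Good (Y : Sys Γ X m) : Set (Dart X) :=
  {η | η.1 ∈ Y.E ∧ (η ∈ Y.Pr ∨ 3 ≤ Y.val η)}

omit [Countable Γ] [MeasurableSpace X] in
theorem bar_val_eq (hfree : ∀ (g : Γ) (x : X), g • x = x → g = 1) (Y : Sys Γ X m) (hY : Y.Ax D)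
    (x : X) (i : ℕ) (s : Bool) :
    Y.val ((x, i), s) =
      {p : Γ × ℕ × Bool | Y.V ((x, i), s) ((p.1 • x, p.2.1), p.2.2)}.encard := by
  have hinj : Function.Injective (fun p : Γ × ℕ × Bool => (((p.1 • x, p.2.1), p.2.2) : Dart X)) := by
    rintro ⟨g, j, t⟩ ⟨g', j', t'⟩ h
    simp only [Prod.mk.injEq] at h
    obtain ⟨⟨h1, rfl⟩, rfl⟩ := h
    have h2 : (g'⁻¹ * g) • x = x := by rw [mul_smul, h1, inv_smul_smul]
    have h3 := hfree _ _ h2
    rw [inv_mul_eq_one] at h3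
    rw [h3]
  have himg : {ζ | Y.V ((x, i), s) ζ} =
      (fun p : Γ × ℕ × Bool => (((p.1 • x, p.2.1), p.2.2) : Dart X)) ''
        {p : Γ × ℕ × Bool | Y.V ((x, i), s) ((p.1 • x, p.2.1), p.2.2)} := by
    ext ζ
    simp only [Set.mem_setOf_eq, Set.mem_image]
    constructor
    · intro h
      obtain ⟨t, _, ht⟩ := hY.V_T _ _ h
      obtain ⟨⟨y, j⟩, s'⟩ := ζ
      have : ∃ g : Γ, g • x = y := by
        unfold GD.pos at ht
        cases s <;> cases s' <;> simp only [Bool.false_eq_true, if_true, if_false] at ht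
        · exact ⟨t, ht⟩
        · exact ⟨D.a⁻¹ * t, by rw [mul_smul, ht, inv_smul_smul]⟩
        · exact ⟨t * D.a, by rw [mul_smul, ht]⟩
        · exact ⟨D.a⁻¹ * (t * D.a), by rw [mul_smul, mul_smul, ht, inv_smul_smul]⟩
      obtain ⟨g, rfl⟩ := this
      exact ⟨(g, j, s'), h, rfl⟩
    · rintro ⟨p, hp, rfl⟩
      exact hp
  unfold Sys.val
  rw [himg, hinj.encard_image]

theorem Good_meas (hS : Sp D X μ) (Y : Sys Γ X m) (hY : Y.Ax D) (hM : Y.Meas) (i : ℕ) (s : Bool) :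
    MeasurableSet {x | ((x, i), s) ∈ Y.Good} := by
  have h1 : {x | ((x, i), s) ∈ Y.Good} = {x | (x, i) ∈ Y.E} ∩ ({x | ((x, i), s) ∈ Y.Pr} ∪
      ⋃ t ∈ {t : Finset (Γ × ℕ × Bool) | t.card = 3},
        ⋂ p ∈ t, {x | Y.V ((x, i), s) ((p.1 • x, p.2.1), p.2.2)}) := by
    ext x
    simp only [Sys.Good, Set.mem_setOf_eq, Set.mem_inter_iff, Set.mem_union, Set.mem_iUnion,
      Set.mem_iInter, exists_prop]
    refine and_congr Iff.rfl (or_congr Iff.rfl ?_)
    rw [bar_val_eq hS.free Y hY]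
    constructor
    · intro h
      obtain ⟨t, ht, htc⟩ := Set.exists_subset_encard_eq h
      have hfin : t.Finite := Set.finite_of_encard_eq_coe (k := 3) htc
      refine ⟨hfin.toFinset, ?_, ?_⟩
      · have := hfin.encard_eq_coe_toFinset_card
        rw [htc] at this
        exact_mod_cast this.symm
      · intro p hp
        exact ht ((Set.Finite.mem_toFinset hfin).1 hp)
    · rintro ⟨t, htc, ht⟩
      have h1 : (t : Set (Γ × ℕ × Bool)) ⊆
          {p : Γ × ℕ × Bool | Y.V ((x, i), s) ((p.1 • x, p.2.1), p.2.2)} := fun p hp => ht p hp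
      have h2 := Set.encard_le_encard h1
      rw [Set.encard_coe_eq_coe_finsetCard, htc] at h2
      exact_mod_cast h2
  rw [h1]
  refine (hM.mE i).inter ((hM.mPr i s).union ?_)
  exact MeasurableSet.biUnion (Set.to_countable _)
    fun t _ => MeasurableSet.biInter (Set.to_countable _) fun p _ => hM.mV p.1 i p.2.1 s p.2.2

omit [Group Γ] [Countable Γ] [NeZero m] [MulAction Γ X] in
theorem bar_dsize_union (A B : Set (Dart X)) : dsize μ (A ∪ B) ≤ dsize μ A + dsize μ B := by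
  unfold dsize
  rw [← ENNReal.tsum_add]
  refine ENNReal.tsum_le_tsum fun i => ?_
  calc μ {x | ((x, i), false) ∈ A ∪ B} + μ {x | ((x, i), true) ∈ A ∪ B}
      ≤ (μ {x | ((x, i), false) ∈ A} + μ {x | ((x, i), false) ∈ B}) +
        (μ {x | ((x, i), true) ∈ A} + μ {x | ((x, i), true) ∈ B}) := by
        gcongr <;> exact measure_union_le _ _
    _ = _ := by ring

omit [Group Γ] [Countable Γ] [NeZero m] [MulAction Γ X] in
theorem bar_dsize_mono {A B : Set (Dart X)} (h : A ⊆ B) : dsize μ A ≤ dsize μ B := by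
  unfold dsize
  refine ENNReal.tsum_le_tsum fun i => ?_
  gcongr <;> exact fun x hx => h hx

omit [Countable Γ] [NeZero m] [MeasurableSpace X] in
/-- pointwise weight -/
theorem bar_pt [NeZero m] (Y : Sys Γ X m) (hY : Y.Ax D) (η : Dart X) (hE : η.1 ∈ Y.E)
    (hPr : η ∉ Y.Pr) :
    ((Y.val η : ℝ≥0∞))⁻¹ + (Y.Good.indicator (fun _ => (1 / 6 : ℝ≥0∞)) η) ≤
      1 / 2 + Y.Dead.indicator (fun _ => (1 / 2 : ℝ≥0∞)) η := by
  have hmem : η ∈ {ζ | Y.V η ζ} := hY.V_refl η hE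
  have e16 : (1 / 6 : ℝ≥0∞) ≤ 1 / 2 := by
    rw [ENNReal.div_le_iff (by norm_num) (by norm_num)]
    rw [show (1 / 2 : ℝ≥0∞) * 6 = 3 by
      rw [show (6 : ℝ≥0∞) = 2 * 3 by norm_num, ← mul_assoc, ENNReal.div_mul_cancel (by norm_num)
        (by norm_num), one_mul]]
    norm_num
  by_cases hg : 3 ≤ Y.val η
  · have hgood : η ∈ Y.Good := ⟨hE, Or.inr hg⟩
    rw [Set.indicator_of_mem hgood]
    have h1 : ((Y.val η : ℝ≥0∞))⁻¹ ≤ 1 / 3 := by
      rw [one_div, ENNReal.inv_le_inv]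
      have := ENat.toENNReal_le.2 hg
      simpa using this
    have h2 : (1 / 3 : ℝ≥0∞) + 1 / 6 = 1 / 2 := by
      have h3 : (1 / 3 : ℝ≥0∞) = ENNReal.ofReal (1 / 3) := by
        rw [ENNReal.ofReal_div_of_pos (by norm_num)]; norm_num
      have h6 : (1 / 6 : ℝ≥0∞) = ENNReal.ofReal (1 / 6) := by
        rw [ENNReal.ofReal_div_of_pos (by norm_num)]; norm_num
      have h2' : (1 / 2 : ℝ≥0∞) = ENNReal.ofReal (1 / 2) := by
        rw [ENNReal.ofReal_div_of_pos (by norm_num)]; norm_num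
      rw [h3, h6, h2', ← ENNReal.ofReal_add (by norm_num) (by norm_num)]
      norm_num
    calc ((Y.val η : ℝ≥0∞))⁻¹ + 1 / 6 ≤ 1 / 3 + 1 / 6 := by gcongr
      _ = 1 / 2 := h2
      _ ≤ _ := le_self_add
  · have hgood : η ∉ Y.Good := fun h => by
      rcases h.2 with h | h
      · exact hPr h
      · exact hg h
    rw [Set.indicator_of_notMem hgood, add_zero]
    by_cases h2 : 2 ≤ Y.val η
    · have h1 : ((Y.val η : ℝ≥0∞))⁻¹ ≤ 1 / 2 := by
        rw [one_div, ENNReal.inv_le_inv]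
        have := ENat.toENNReal_le.2 h2
        simpa using this
      exact h1.trans le_self_add
    · have hle : {ζ | Y.V η ζ}.encard ≤ 1 := by
        have h2' : Y.val η < 2 := not_le.1 h2
        have h3 : Y.val η < 1 + 1 := by rwa [one_add_one_eq_two]
        exact Order.le_of_lt_add_one h3
      have hval : Y.val η = 1 := by
        refine le_antisymm hle ?_
        exact Set.one_le_encard_iff_nonempty.2 ⟨η, hmem⟩
      have hdead : η ∈ Y.Dead := by
        refine ⟨hE, hPr, fun ζ hζ => ?_⟩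
        exact Set.encard_le_one_iff.1 hle ζ η hζ hmem
      rw [Set.indicator_of_mem hdead, hval]
      rw [ENNReal.add_halves]
      simp

/-- `|E| + |dead| ≥ Vfin + |good|/6` -/
theorem weight_ineq (hS : Sp D X μ) (Y : Sys Γ X m) (hY : Y.Ax D) (hM : Y.Meas) :
    Y.Vfin μ + dsize μ Y.Good / 6 ≤ size μ Y.E + dsize μ Y.Dead / 2 := by
  have key : ∀ i s, (∫⁻ x in {x | (x, i) ∈ Y.E ∧ ((x, i), s) ∉ Y.Pr},
      ((Y.val ((x, i), s) : ℝ≥0∞))⁻¹ ∂μ) + 1 / 6 * μ {x | ((x, i), s) ∈ Y.Good} ≤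
        1 / 2 * μ {x | (x, i) ∈ Y.E} + 1 / 2 * μ {x | ((x, i), s) ∈ Y.Dead} := by
    intro i s
    have hA : MeasurableSet {x | (x, i) ∈ Y.E ∧ ((x, i), s) ∉ Y.Pr} :=
      (hM.mE i).inter (hM.mPr i s).compl
    have hG := Good_meas hS Y hY hM i s
    rw [← lintegral_indicator hA, ← lintegral_indicator_const hG,
      ← lintegral_indicator_const (hM.mE i),
      ← lintegral_add_right _ (measurable_const.indicator hG)]
    refine le_trans ?_ (add_le_add_right (lintegral_indicator_const_le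
      {x | ((x, i), s) ∈ Y.Dead} (1 / 2 : ℝ≥0∞)) _)
    rw [← lintegral_add_left (measurable_const.indicator (hM.mE i))]
    refine lintegral_mono fun x => ?_
    by_cases hE : (x, i) ∈ Y.E
    · by_cases hP : ((x, i), s) ∈ Y.Pr
      · rw [Set.indicator_of_notMem (by exact fun h => h.2 hP), zero_add]
        rw [Set.indicator_of_mem (s := {x | (x, i) ∈ Y.E}) (by exact hE)]
        refine le_trans (Set.indicator_le_self' (fun _ _ => zero_le) _) ?_
        refine le_trans ?_ le_self_add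
        rw [one_div, one_div]
        exact ENNReal.inv_le_inv.2 (by norm_num)
      · rw [Set.indicator_of_mem (s := {x | (x, i) ∈ Y.E ∧ ((x, i), s) ∉ Y.Pr}) (by exact ⟨hE, hP⟩)]
        rw [Set.indicator_of_mem (s := {x | (x, i) ∈ Y.E}) (by exact hE)]
        exact bar_pt Y hY ((x, i), s) hE hP
    · rw [Set.indicator_of_notMem (by exact fun h => hE h.1), zero_add]
      rw [Set.indicator_of_notMem (by exact fun h => hE h.1)]
      exact zero_le
  have h1 : Y.Vfin μ + dsize μ Y.Good / 6 = ∑' i, ∑ s : Bool,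
      ((∫⁻ x in {x | (x, i) ∈ Y.E ∧ ((x, i), s) ∉ Y.Pr},
      ((Y.val ((x, i), s) : ℝ≥0∞))⁻¹ ∂μ) + 1 / 6 * μ {x | ((x, i), s) ∈ Y.Good}) := by
    unfold Sys.Vfin dsize
    rw [div_eq_mul_inv, mul_comm, ← ENNReal.tsum_mul_left, ← ENNReal.tsum_add]
    refine tsum_congr fun i => ?_
    rw [Finset.sum_add_distrib]
    congr 1
    rw [Fintype.sum_bool, mul_add, one_div, add_comm]
  have h2 : size μ Y.E + dsize μ Y.Dead / 2 = ∑' i, ∑ s : Bool,
      (1 / 2 * μ {x | (x, i) ∈ Y.E} + 1 / 2 * μ {x | ((x, i), s) ∈ Y.Dead}) := by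
    unfold size dsize
    rw [div_eq_mul_inv, mul_comm, ← ENNReal.tsum_mul_left, ← ENNReal.tsum_add]
    refine tsum_congr fun i => ?_
    rw [Finset.sum_add_distrib]
    congr 1
    · rw [Fintype.sum_bool, ← add_mul, ENNReal.add_halves, one_mul]
    · rw [Fintype.sum_bool, mul_add, one_div, add_comm]
  rw [h1, h2]
  exact ENNReal.tsum_le_tsum fun i => Finset.sum_le_sum fun s _ => key i s

/-- `|E| + |dead| ≥ Vfin + |AP|` -/
theorem weight_AP (hS : Sp D X μ) (Y : Sys Γ X m) (hY : Y.Ax D) (hM : Y.Meas) :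
    Y.Vfin μ + μ Y.AP ≤ size μ Y.E + dsize μ Y.Dead / 2 := by
  have key : ∀ i s, (∫⁻ x in {x | (x, i) ∈ Y.E ∧ ((x, i), s) ∉ Y.Pr},
      ((Y.val ((x, i), s) : ℝ≥0∞))⁻¹ ∂μ) + 1 / 2 * μ {x | ((x, i), s) ∈ Y.Pr} ≤
        1 / 2 * μ {x | (x, i) ∈ Y.E} + 1 / 2 * μ {x | ((x, i), s) ∈ Y.Dead} := by
    intro i s
    have hA : MeasurableSet {x | (x, i) ∈ Y.E ∧ ((x, i), s) ∉ Y.Pr} :=
      (hM.mE i).inter (hM.mPr i s).compl
    have hG := hM.mPr i s
    rw [← lintegral_indicator hA, ← lintegral_indicator_const hG,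
      ← lintegral_indicator_const (hM.mE i),
      ← lintegral_add_right _ (measurable_const.indicator hG)]
    refine le_trans ?_ (add_le_add_right (lintegral_indicator_const_le
      {x | ((x, i), s) ∈ Y.Dead} (1 / 2 : ℝ≥0∞)) _)
    rw [← lintegral_add_left (measurable_const.indicator (hM.mE i))]
    refine lintegral_mono fun x => ?_
    by_cases hE : (x, i) ∈ Y.E
    · by_cases hP : ((x, i), s) ∈ Y.Pr
      · rw [Set.indicator_of_notMem (by exact fun h => h.2 hP), zero_add]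
        rw [Set.indicator_of_mem (s := {x | (x, i) ∈ Y.E}) (by exact hE)]
        refine le_trans (Set.indicator_le_self' (fun _ _ => zero_le) _) ?_
        exact le_self_add
      · rw [Set.indicator_of_mem (s := {x | (x, i) ∈ Y.E ∧ ((x, i), s) ∉ Y.Pr}) (by exact ⟨hE, hP⟩)]
        rw [Set.indicator_of_mem (s := {x | (x, i) ∈ Y.E}) (by exact hE)]
        rw [Set.indicator_of_notMem (s := {x | ((x, i), s) ∈ Y.Pr}) (by exact hP), add_zero]
        exact le_trans le_self_add (bar_pt Y hY ((x, i), s) hE hP)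
    · rw [Set.indicator_of_notMem (by exact fun h => hE h.1), zero_add]
      rw [Set.indicator_of_notMem (by exact fun h => hE (hY.Pr_E _ h))]
      exact zero_le
  have hAP : μ Y.AP ≤ ∑' i, ∑ s : Bool, 1 / 2 * μ {x | ((x, i), s) ∈ Y.Pr} := by
    have h0 : Y.AP ⊆ ⋃ i, {x | ((x, i), true) ∈ Y.Pr ∧ ((x, i), false) ∈ Y.Pr} := by
      rintro x ⟨i, hi⟩
      exact Set.mem_iUnion.2 ⟨i, hi⟩
    refine (measure_mono h0).trans ((measure_iUnion_le _).trans ?_)
    refine ENNReal.tsum_le_tsum fun i => ?_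
    rw [Fintype.sum_bool]
    have h1 : μ {x | ((x, i), true) ∈ Y.Pr ∧ ((x, i), false) ∈ Y.Pr} =
        1 / 2 * μ {x | ((x, i), true) ∈ Y.Pr ∧ ((x, i), false) ∈ Y.Pr} +
        1 / 2 * μ {x | ((x, i), true) ∈ Y.Pr ∧ ((x, i), false) ∈ Y.Pr} := by
      rw [← add_mul, ENNReal.add_halves, one_mul]
    rw [h1]
    gcongr
    · exact fun h => h.1
    · exact fun h => h.2
  have h1 : Y.Vfin μ + ∑' i, ∑ s : Bool, 1 / 2 * μ {x | ((x, i), s) ∈ Y.Pr} = ∑' i, ∑ s : Bool,
      ((∫⁻ x in {x | (x, i) ∈ Y.E ∧ ((x, i), s) ∉ Y.Pr},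
      ((Y.val ((x, i), s) : ℝ≥0∞))⁻¹ ∂μ) + 1 / 2 * μ {x | ((x, i), s) ∈ Y.Pr}) := by
    unfold Sys.Vfin
    rw [← ENNReal.tsum_add]
    refine tsum_congr fun i => ?_
    rw [Finset.sum_add_distrib]
  have h2 : size μ Y.E + dsize μ Y.Dead / 2 = ∑' i, ∑ s : Bool,
      (1 / 2 * μ {x | (x, i) ∈ Y.E} + 1 / 2 * μ {x | ((x, i), s) ∈ Y.Dead}) := by
    unfold size dsize
    rw [div_eq_mul_inv, mul_comm, ← ENNReal.tsum_mul_left, ← ENNReal.tsum_add]
    refine tsum_congr fun i => ?_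
    rw [Finset.sum_add_distrib]
    congr 1
    · rw [Fintype.sum_bool, ← add_mul, ENNReal.add_halves, one_mul]
    · rw [Fintype.sum_bool, mul_add, one_div, add_comm]
  calc Y.Vfin μ + μ Y.AP ≤ Y.Vfin μ + ∑' i, ∑ s : Bool, 1 / 2 * μ {x | ((x, i), s) ∈ Y.Pr} := by
        gcongr
    _ ≤ _ := by
        rw [h1, h2]
        exact ENNReal.tsum_le_tsum fun i => Finset.sum_le_sum fun s _ => key i s

/-- the `l`-th edges of a set of faces -/
theorem bar_size_fed (hS : Sp D X μ) (Y : Sys Γ X m) (hM : Y.Meas) (S : Set (X × ℕ))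
    (l : ZMod m) : size μ {e | ∃ f ∈ S, e = Y.fed D f l} ≤ size μ S := by
  unfold size
  have h1 : ∀ i, μ {x | (x, i) ∈ {e | ∃ f ∈ S, e = Y.fed D f l}} ≤
      ∑' j, μ ({y | Y.fe (y, j) l = i} ∩ {y | (y, j) ∈ S}) := by
    intro i
    have h2 : {x | (x, i) ∈ {e | ∃ f ∈ S, e = Y.fed D f l}} ⊆
        ⋃ j, (fun x : X => (D.h l)⁻¹ • x) ⁻¹' ({y | Y.fe (y, j) l = i} ∩ {y | (y, j) ∈ S}) := by
      rintro x ⟨⟨y, j⟩, hf, he⟩
      unfold Sys.fed at he
      rw [Prod.mk.injEq] at he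
      obtain ⟨rfl, hi⟩ := he
      refine Set.mem_iUnion.2 ⟨j, ?_⟩
      show Y.fe ((D.h l)⁻¹ • D.h l • y, j) l = i ∧ ((D.h l)⁻¹ • D.h l • y, j) ∈ S
      rw [inv_smul_smul]
      exact ⟨hi.symm, hf⟩
    refine (measure_mono h2).trans ((measure_iUnion_le _).trans ?_)
    exact ENNReal.tsum_le_tsum fun j => (hS.mp _).measure_preimage_le _
  refine (ENNReal.tsum_le_tsum h1).trans ?_
  rw [ENNReal.tsum_comm]
  refine ENNReal.tsum_le_tsum fun j => ?_
  have h3 : ∀ i, μ ({y | Y.fe (y, j) l = i} ∩ {y | (y, j) ∈ S}) =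
      (μ.restrict {y | (y, j) ∈ S}) {y | Y.fe (y, j) l = i} := fun i =>
    (Measure.restrict_apply (hM.mfe j l i)).symm
  simp only [h3]
  rw [← measure_iUnion (f := fun i : ℕ => {y | Y.fe (y, j) l = i})
    (fun a b hab => Set.disjoint_left.2 fun y hy hy' => hab
    ((show Y.fe (y, j) l = a from hy).symm.trans (show Y.fe (y, j) l = b from hy')))
    (fun i => hM.mfe j l i)]
  refine (measure_mono (Set.subset_univ _)).trans ?_
  rw [Measure.restrict_apply_univ]

/-- good darts versus face edges -/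
theorem good_ge (hm : 3 ≤ m) (hS : Sp D X μ) (Y : Sys Γ X m) (hY : Y.Ax D) (hM : Y.Meas)
    (hF : Y.Folded) :
    2 * size μ (Ahat D Y) ≤ dsize μ Y.Good + 2 * size11 μ D Y := by
  have h0 : dsize μ {η | η.1 ∈ Ahat D Y} = 2 * size μ (Ahat D Y) := by
    unfold dsize size
    rw [← ENNReal.tsum_mul_left]
    refine tsum_congr fun i => ?_
    show μ {x | (x, i) ∈ Ahat D Y} + μ {x | (x, i) ∈ Ahat D Y} = _
    rw [two_mul]
  -- corners
  have hE : ∀ f ∈ Y.Fs, ∀ k, Y.fed D f k ∈ Y.E := fun f hf k => hY.V_E _ _ (hY.F_V f hf k)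
  have hval : ∀ η : Dart X, η ∉ Y.Good → η.1 ∈ Y.E → η ∉ Y.Pr ∧ Y.val η ≤ 2 := by
    intro η h1 h2
    refine ⟨fun h => h1 ⟨h2, Or.inl h⟩, ?_⟩
    have h3 : ¬ 3 ≤ Y.val η := fun h => h1 ⟨h2, Or.inr h⟩
    have h4 : Y.val η < 2 + 1 := by
      rw [two_add_one_eq_three]; exact not_le.1 h3
    exact Order.le_of_lt_add_one h4
  have hpair : ∀ f ∈ Y.Fs, ∀ k, ∀ η : Dart X, Y.V η (Y.fed D f k, true) → Y.val η ≤ 2 →
      ∀ ζ, Y.V η ζ → ζ = (Y.fed D f k, true) ∨ ζ = (Y.fed D f (k + 1), false) := by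
    intro f hf k η h1 h2 ζ hζ
    by_contra hcon
    rw [not_or] at hcon
    have h3 : Y.V η (Y.fed D f (k + 1), false) := hY.V_trans _ _ _ h1 (hY.F_V f hf k)
    have hsub : ({(Y.fed D f k, true), (Y.fed D f (k + 1), false), ζ} : Set (Dart X)) ⊆
        {ζ | Y.V η ζ} := by
      intro ξ hξ
      rcases hξ with rfl | rfl | rfl
      · exact h1
      · exact h3
      · exact hζ
    have hcard : ({(Y.fed D f k, true), (Y.fed D f (k + 1), false), ζ} : Set (Dart X)).encard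
        = 3 := by
      rw [Set.encard_insert_of_notMem, Set.encard_pair (Ne.symm hcon.2)]
      · rfl
      · rintro (h | h)
        · exact absurd (congrArg Prod.snd h) (by simp)
        · exact hcon.1 h.symm
    have h4 := (Set.encard_le_encard hsub).trans h2
    rw [hcard] at h4
    exact absurd h4 (by decide)
  have hsub : {η : Dart X | η.1 ∈ Ahat D Y} ⊆ Y.Good ∪
      ({η | η.2 = true ∧ ∃ k, η.1 ∈ {e | ∃ f ∈ {f | Y.C11 D f k}, e = Y.fed D f k}} ∪
       {η | η.2 = false ∧ ∃ k, η.1 ∈ {e | ∃ f ∈ {f | Y.C11 D f k}, e = Y.fed D f (k + 1)}}) := by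
    rintro ⟨e, s⟩ ⟨f, hf, k, rfl⟩
    by_cases hg : ((Y.fed D f k, s) : Dart X) ∈ Y.Good
    · exact Or.inl hg
    · refine Or.inr ?_
      obtain ⟨hP, hv⟩ := hval _ hg (hE f hf k)
      cases s
      · right
        refine ⟨rfl, k - 1, f, ⟨hf, ?_, ?_⟩, ?_⟩
        · have hV := hY.F_V f hf (k - 1)
          rw [sub_add_cancel] at hV
          exact fun h => hP (hY.Pr_V _ _ h hV)
        · intro ζ hζ
          have hV := hY.F_V f hf (k - 1)
          rw [sub_add_cancel] at hV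
          exact hpair f hf (k - 1) (Y.fed D f k, false) (hY.V_symm _ _ hV) hv ζ
            (hY.V_trans _ _ _ (hY.V_symm _ _ hV) hζ)
        · rw [sub_add_cancel]
      · left
        refine ⟨rfl, k, f, ⟨hf, hP, ?_⟩, rfl⟩
        intro ζ hζ
        exact hpair f hf k (Y.fed D f k, true) (hY.V_refl _ (hE f hf k)) hv ζ hζ
  have hH : dsize μ {η : Dart X | η.2 = true ∧
      ∃ k, η.1 ∈ {e | ∃ f ∈ {f | Y.C11 D f k}, e = Y.fed D f k}} ≤ size11 μ D Y := by
    have h1 : dsize μ {η : Dart X | η.2 = true ∧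
        ∃ k, η.1 ∈ {e | ∃ f ∈ {f | Y.C11 D f k}, e = Y.fed D f k}} =
        size μ {e | ∃ k, e ∈ {e | ∃ f ∈ {f | Y.C11 D f k}, e = Y.fed D f k}} := by
      unfold dsize size
      refine tsum_congr fun i => ?_
      have h2 : {x : X | ((x, i), false) ∈ {η : Dart X | η.2 = true ∧
          ∃ k, η.1 ∈ {e | ∃ f ∈ {f | Y.C11 D f k}, e = Y.fed D f k}}} = ∅ := by
        ext x
        constructor
        · rintro ⟨h, _⟩
          exact absurd h (by simp)
        · exact fun h => h.elim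
      rw [h2, measure_empty, zero_add]
      congr 1
      ext x
      exact ⟨fun h => h.2, fun h => ⟨rfl, h⟩⟩
    rw [h1]
    unfold size11
    have h3 : size μ {e | ∃ k, e ∈ {e | ∃ f ∈ {f | Y.C11 D f k}, e = Y.fed D f k}} ≤
        ∑ k, size μ {e | ∃ f ∈ {f | Y.C11 D f k}, e = Y.fed D f k} := by
      unfold size
      rw [← Summable.tsum_finsetSum fun k _ => ENNReal.summable]
      refine ENNReal.tsum_le_tsum fun i => ?_
      have h4 : {x : X | (x, i) ∈ {e | ∃ k, e ∈ {e | ∃ f ∈ {f | Y.C11 D f k}, e = Y.fed D f k}}} ⊆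
          ⋃ k ∈ (Finset.univ : Finset (ZMod m)),
            {x | (x, i) ∈ {e | ∃ f ∈ {f | Y.C11 D f k}, e = Y.fed D f k}} := by
        rintro x ⟨k, hk⟩
        exact Set.mem_iUnion₂.2 ⟨k, Finset.mem_univ k, hk⟩
      exact (measure_mono h4).trans (measure_biUnion_finset_le _ _)
    exact h3.trans (Finset.sum_le_sum fun k _ => bar_size_fed hS Y hM _ k)
  have hT : dsize μ {η : Dart X | η.2 = false ∧
      ∃ k, η.1 ∈ {e | ∃ f ∈ {f | Y.C11 D f k}, e = Y.fed D f (k + 1)}} ≤ size11 μ D Y := by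
    have h1 : dsize μ {η : Dart X | η.2 = false ∧
        ∃ k, η.1 ∈ {e | ∃ f ∈ {f | Y.C11 D f k}, e = Y.fed D f (k + 1)}} =
        size μ {e | ∃ k, e ∈ {e | ∃ f ∈ {f | Y.C11 D f k}, e = Y.fed D f (k + 1)}} := by
      unfold dsize size
      refine tsum_congr fun i => ?_
      have h2 : {x : X | ((x, i), true) ∈ {η : Dart X | η.2 = false ∧
          ∃ k, η.1 ∈ {e | ∃ f ∈ {f | Y.C11 D f k}, e = Y.fed D f (k + 1)}}} = ∅ := by
        ext x
        constructor
        · rintro ⟨h, _⟩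
          exact absurd h (by simp)
        · exact fun h => h.elim
      rw [h2, measure_empty, add_zero]
      congr 1
      ext x
      exact ⟨fun h => h.2, fun h => ⟨rfl, h⟩⟩
    rw [h1]
    unfold size11
    have h3 : size μ {e | ∃ k, e ∈ {e | ∃ f ∈ {f | Y.C11 D f k}, e = Y.fed D f (k + 1)}} ≤
        ∑ k, size μ {e | ∃ f ∈ {f | Y.C11 D f k}, e = Y.fed D f (k + 1)} := by
      unfold size
      rw [← Summable.tsum_finsetSum fun k _ => ENNReal.summable]
      refine ENNReal.tsum_le_tsum fun i => ?_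
      have h4 : {x : X | (x, i) ∈
          {e | ∃ k, e ∈ {e | ∃ f ∈ {f | Y.C11 D f k}, e = Y.fed D f (k + 1)}}} ⊆
          ⋃ k ∈ (Finset.univ : Finset (ZMod m)),
            {x | (x, i) ∈ {e | ∃ f ∈ {f | Y.C11 D f k}, e = Y.fed D f (k + 1)}} := by
        rintro x ⟨k, hk⟩
        exact Set.mem_iUnion₂.2 ⟨k, Finset.mem_univ k, hk⟩
      exact (measure_mono h4).trans (measure_biUnion_finset_le _ _)
    exact h3.trans (Finset.sum_le_sum fun k _ => bar_size_fed hS Y hM _ (k + 1))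
  calc 2 * size μ (Ahat D Y) = dsize μ {η : Dart X | η.1 ∈ Ahat D Y} := h0.symm
    _ ≤ _ := bar_dsize_mono hsub
    _ ≤ _ := bar_dsize_union _ _
    _ ≤ dsize μ Y.Good + (_ + _) := by gcongr; exact bar_dsize_union _ _
    _ ≤ dsize μ Y.Good + (size11 μ D Y + size11 μ D Y) := by gcongr
    _ = _ := by rw [two_mul]

theorem barrier' (hm : 3 ≤ m) (hS : Sp D X μ) (hw : 9 / 100 + m * w ≤ 1 / 4) (Y : Sys Γ X m)
    (hY : Y.Adm D μ G ε w) :
    size μ Y.Fs ≤ 3 * ε + size11 μ D Y + 2 * dsize μ Y.Dead ∧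
    μ (Y.AP) ≤ ε + size μ Y.Fs + dsize μ Y.Dead := by
  have hr := Sys.rank_ineq hS Y hY.ax hY.meas hY.finE
  have h1 := weight_ineq hS Y hY.ax hY.meas
  have h2 := weight_AP hS Y hY.ax hY.meas
  have h3 := good_ge hm hS Y hY.ax hY.meas hY.folded
  have h4 := faces_le hS Y hY.ax hY.meas hY.Fle hw
  have hI := hY.Ile
  have hEf := hY.finE
  -- finiteness
  have hDle : dsize μ Y.Dead ≤ 2 * size μ Y.E := by
    unfold dsize size
    rw [← ENNReal.tsum_mul_left]
    refine ENNReal.tsum_le_tsum fun i => ?_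
    rw [two_mul]
    gcongr
    · exact fun h => h.1
    · exact fun h => h.1
  have hDf : dsize μ Y.Dead ≠ ⊤ := ne_top_of_le_ne_top (ENNReal.mul_ne_top (by simp) hEf) hDle
  have hVf : Y.Vfin μ ≠ ⊤ := by
    refine ne_top_of_le_ne_top ?_ (le_self_add.trans h1)
    exact ENNReal.add_ne_top.2 ⟨hEf, ENNReal.div_ne_top hDf (by simp)⟩
  have hGf : dsize μ Y.Good ≠ ⊤ := by
    have h5 : dsize μ Y.Good ≤ 2 * size μ Y.E := by
      unfold dsize size
      rw [← ENNReal.tsum_mul_left]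
      refine ENNReal.tsum_le_tsum fun i => ?_
      rw [two_mul]
      gcongr
      · exact fun h => h.1
      · exact fun h => h.1
    exact ne_top_of_le_ne_top (ENNReal.mul_ne_top (by simp) hEf) h5
  by_cases hεf : ε = ⊤
  · subst hεf
    constructor
    · have : (3 : ℝ≥0∞) * ⊤ = ⊤ := ENNReal.mul_top (by simp)
      rw [this, top_add, top_add]
      exact le_top
    · rw [top_add, top_add]
      exact le_top
  have hm0 : (m : ℝ≥0∞) ≠ 0 := by
    have : m ≠ 0 := NeZero.ne m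
    exact_mod_cast this
  have hwf : w ≠ ⊤ := by
    rintro rfl
    rw [ENNReal.mul_top hm0, add_top] at hw
    exact absurd hw (by simp)
  have hFf : size μ Y.Fs ≠ ⊤ := ne_top_of_le_ne_top hwf hY.Fle
  have hIf : size μ Y.I ≠ ⊤ := ne_top_of_le_ne_top hεf hI
  have h11f : size11 μ D Y ≠ ⊤ := by
    unfold size11
    refine (ENNReal.sum_ne_top).2 fun k _ => ?_
    refine ne_top_of_le_ne_top hFf ?_
    unfold size
    exact ENNReal.tsum_le_tsum fun i => measure_mono fun x hx => hx.1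
  have hAf : size μ (Ahat D Y) ≠ ⊤ := by
    have h6 : 2 * size μ (Ahat D Y) ≠ ⊤ := ne_top_of_le_ne_top
      (ENNReal.add_ne_top.2 ⟨hGf, ENNReal.mul_ne_top (by simp) h11f⟩) h3
    intro h
    rw [h, ENNReal.mul_top (by simp)] at h6
    exact h6 rfl
  have hPf : μ Y.AP ≠ ⊤ := by
    refine ne_top_of_le_ne_top ?_ (le_add_self.trans h2)
    exact ENNReal.add_ne_top.2 ⟨hEf, ENNReal.div_ne_top hDf (by simp)⟩
  lift ε to NNReal using hεf
  generalize size μ Y.E = E' at *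
  generalize dsize μ Y.Dead = De at *
  generalize Y.Vfin μ = Vf at *
  generalize dsize μ Y.Good = Go at *
  generalize size μ Y.Fs = Fa at *
  generalize size μ Y.I = Ia at *
  generalize size11 μ D Y = C1 at *
  generalize size μ (Ahat D Y) = Ah at *
  generalize μ Y.AP = Ap at *
  lift E' to NNReal using hEf
  lift De to NNReal using hDf
  lift Vf to NNReal using hVf
  lift Go to NNReal using hGf
  lift Fa to NNReal using hFf
  lift Ia to NNReal using hIf
  lift C1 to NNReal using h11f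
  lift Ah to NNReal using hAf
  lift Ap to NNReal using hPf
  have r1 : (E' : ℝ) ≤ Vf + Fa + Ia := by exact_mod_cast hr
  have r2 : (Ia : ℝ) ≤ ε := by exact_mod_cast hI
  have r3 : (Vf : ℝ) + Go / 6 ≤ E' + De / 2 := by
    have e1 : (Vf : ℝ≥0∞) + Go / 6 = ((Vf + Go / 6 : NNReal) : ℝ≥0∞) := by
      rw [ENNReal.coe_add, ENNReal.coe_div (by norm_num), ENNReal.coe_ofNat]
    have e2 : (E' : ℝ≥0∞) + De / 2 = ((E' + De / 2 : NNReal) : ℝ≥0∞) := by
      rw [ENNReal.coe_add, ENNReal.coe_div (by norm_num), ENNReal.coe_ofNat]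
    rw [e1, e2] at h1
    exact_mod_cast h1
  have r4 : (Vf : ℝ) + Ap ≤ E' + De / 2 := by
    have e2 : (E' : ℝ≥0∞) + De / 2 = ((E' + De / 2 : NNReal) : ℝ≥0∞) := by
      rw [ENNReal.coe_add, ENNReal.coe_div (by norm_num), ENNReal.coe_ofNat]
    rw [e2] at h2
    exact_mod_cast h2
  have r5 : 2 * (Ah : ℝ) ≤ Go + 2 * C1 := by exact_mod_cast h3
  have r6 : (Fa : ℝ) ≤ 1 / 4 * Ah := by
    have e1 : (1 / 4 : ℝ≥0∞) * Ah = ((1 / 4 * Ah : NNReal) : ℝ≥0∞) := by
      rw [ENNReal.coe_mul, ENNReal.coe_div (by norm_num), ENNReal.coe_ofNat, ENNReal.coe_one]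
    rw [e1] at h4
    exact_mod_cast h4
  have p1 : (0 : ℝ) ≤ De := De.2
  constructor
  · have goal : (Fa : ℝ) ≤ 3 * ε + C1 + 2 * De := by linarith
    exact_mod_cast goal
  · have goal : (Ap : ℝ) ≤ ε + Fa + De := by linarith
    exact_mod_cast goal

end Crest.Agent.FP
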