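import Crest.Agent.FP.SpecComb

/-! Row 191 (S0291), spectral package, part 2: Bernoulli shift, Walsh functions, spectral estimate. -/
set_option autoImplicit false

open MeasureTheory
open scoped ENNReal symmDiff

namespace Crest.Agent.FP

/-- fair coin -/
noncomputable def coin : Measure Bool := (2 : ℝ≥0∞)⁻¹ • (Measure.dirac true + Measure.dirac false)

instance coin_prob : IsProbabilityMeasure coin := by
  constructor
  simp only [coin, Measure.smul_apply, Measure.add_apply, measure_univ, smul_eq_mul]
  rw [show (1 : ℝ≥0∞) + 1 = 2 by norm_num]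
  exact ENNReal.inv_mul_cancel (by norm_num) (by norm_num)

theorem coin_singleton (b : Bool) : coin {b} = 2⁻¹ := by
  simp only [coin, Measure.smul_apply, Measure.add_apply, smul_eq_mul,
    Measure.dirac_apply' _ (MeasurableSet.singleton b)]
  cases b <;> simp

theorem coin_map_not : coin.map not = coin := by
  simp only [coin]
  rw [Measure.map_smul, Measure.map_add _ _ (measurable_of_countable not),
    Measure.map_dirac' (measurable_of_countable not), Measure.map_dirac' (measurable_of_countable not)]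
  simp [add_comm]

variable (Γ : Type)

/-- Bernoulli measure -/
noncomputable def bern : Measure (Γ → Bool) := Measure.infinitePi (fun _ => coin)

instance bern_prob : IsProbabilityMeasure (bern Γ) := by
  unfold bern; infer_instance

variable {Γ} [Group Γ]

set_option linter.unusedSectionVars false

/-- shift -/
def sh (g : Γ) (x : Γ → Bool) : Γ → Bool := fun γ => x (g⁻¹ * γ)

theorem sh_one (x : Γ → Bool) : sh 1 x = x := by
  funext γ; simp [sh]

theorem sh_mul (g h : Γ) (x : Γ → Bool) : sh (g * h) x = sh g (sh h x) := by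
  funext γ; simp [sh, mul_assoc]

theorem sh_meas (g : Γ) : Measurable (sh g : (Γ → Bool) → (Γ → Bool)) := by
  unfold sh
  fun_prop

theorem sh_mp (g : Γ) : MeasurePreserving (sh g) (bern Γ) (bern Γ) := by
  refine ⟨sh_meas g, ?_⟩
  have h := Measure.infinitePi_map_piCongrLeft (μ := fun _ : Γ => coin) (Equiv.mulLeft g)
  have h2 : (sh g : (Γ → Bool) → (Γ → Bool)) =
      MeasurableEquiv.piCongrLeft (fun _ : Γ => Bool) (Equiv.mulLeft g) := by
    funext x γ
    have h3 := Equiv.piCongrLeft_apply_apply (fun _ : Γ => Bool) (Equiv.mulLeft g) x (g⁻¹ * γ)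
    simp only [Equiv.coe_mulLeft, mul_inv_cancel_left] at h3
    rw [MeasurableEquiv.coe_piCongrLeft, h3]
    rfl
  rw [h2]
  exact h

/-- Walsh function -/
noncomputable def wal (S : Finset Γ) (x : Γ → Bool) : ℝ := ∏ γ ∈ S, (if x γ then -1 else 1)

theorem wal_empty (x : Γ → Bool) : wal ∅ x = 1 := by simp [wal]

theorem wal_mul_self (S : Finset Γ) (x : Γ → Bool) : wal S x * wal S x = 1 := by
  unfold wal
  rw [← Finset.prod_mul_distrib]
  refine Finset.prod_eq_one fun γ _ => ?_
  split_ifs <;> norm_num

theorem abs_wal (S : Finset Γ) (x : Γ → Bool) : |wal S x| = 1 := by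
  have := wal_mul_self S x
  rw [← abs_mul_abs_self] at this
  have h := abs_nonneg (wal S x)
  nlinarith

open Classical in
theorem wal_mul (S S' : Finset Γ) (x : Γ → Bool) : wal S x * wal S' x = wal (S ∆ S') x := by
  have h1 : wal S x = wal (S \ S') x * wal (S ∩ S') x := by
    unfold wal
    rw [mul_comm, Finset.prod_inter_mul_prod_sdiff]
  have h2 : wal S' x = wal (S' \ S) x * wal (S ∩ S') x := by
    unfold wal
    rw [mul_comm, Finset.inter_comm, Finset.prod_inter_mul_prod_sdiff]
  have h3 : wal (S ∆ S') x = wal (S \ S') x * wal (S' \ S) x := by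
    unfold wal
    rw [Finset.symmDiff_def, Finset.prod_union disjoint_sdiff_sdiff]
  rw [h1, h2, h3]
  have := wal_mul_self (S ∩ S') x
  linear_combination (wal (S \ S') x * wal (S' \ S) x) * this

theorem wal_sh (g : Γ) (S : Finset Γ) (x : Γ → Bool) : wal S (sh g x) = wal (tr g⁻¹ S) x := by
  unfold wal tr
  rw [Finset.prod_map]
  rfl

theorem wal_meas (S : Finset Γ) : Measurable (wal S : (Γ → Bool) → ℝ) := by
  unfold wal
  refine Finset.measurable_prod _ fun γ _ => ?_
  exact (measurable_of_countable (fun b : Bool => if b = true then (-1 : ℝ) else 1)).comp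
    (measurable_pi_apply γ)

theorem wal_int (S : Finset Γ) : Integrable (wal S) (bern Γ) :=
  Integrable.of_bound (wal_meas S).aestronglyMeasurable 1
    (Filter.Eventually.of_forall fun x => by rw [Real.norm_eq_abs, abs_wal])

open Classical in
theorem integral_wal (S : Finset Γ) (hS : S.Nonempty) : ∫ x, wal S x ∂(bern Γ) = 0 := by
  obtain ⟨γ, hγ⟩ := hS
  set fl : (Γ → Bool) → (Γ → Bool) := fun x i => (if i = γ then not else id) (x i) with hfl
  have hm : Measurable fl := by
    refine measurable_pi_lambda _ fun i => ?_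
    exact (measurable_of_countable _).comp (measurable_pi_apply i)
  have h1 : (bern Γ).map fl = bern Γ := by
    have h := Measure.infinitePi_map_pi (μ := fun _ : Γ => coin)
      (f := fun i => (if i = γ then not else id : Bool → Bool))
      (fun i => measurable_of_countable _)
    unfold bern
    rw [hfl, h]
    congr 1
    funext i
    by_cases hi : i = γ
    · simp only [hi, if_true]; exact coin_map_not
    · simp [hi]
  have h2 : ∫ x, wal S x ∂(bern Γ) = ∫ x, wal S (fl x) ∂(bern Γ) := by
    conv_lhs => rw [← h1]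
    exact integral_map hm.aemeasurable (wal_meas S).aestronglyMeasurable
  have h3 : ∀ x, wal S (fl x) = - wal S x := by
    intro x
    unfold wal
    rw [← Finset.mul_prod_erase S _ hγ, ← Finset.mul_prod_erase S (fun γ => if x γ = true then _ else _) hγ]
    have h4 : ∏ y ∈ S.erase γ, (if fl x y = true then (-1 : ℝ) else 1) =
        ∏ y ∈ S.erase γ, (if x y = true then (-1 : ℝ) else 1) := by
      refine Finset.prod_congr rfl fun y hy => ?_
      have : y ≠ γ := Finset.ne_of_mem_erase hy
      simp [hfl, this]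
    rw [h4]
    have h5 : fl x γ = !(x γ) := by simp [hfl]
    rw [h5]
    cases x γ <;> simp
  have h6 : ∫ x, wal S (fl x) ∂(bern Γ) = -∫ x, wal S x ∂(bern Γ) := by
    simp only [h3, integral_neg]
  linarith

open Classical in
theorem integral_wal_mul (S S' : Finset Γ) :
    ∫ x, wal S x * wal S' x ∂(bern Γ) = if S = S' then 1 else 0 := by
  split_ifs with h
  · subst h
    simp [wal_mul_self]
  · simp only [wal_mul]
    refine integral_wal _ ?_
    rw [Finset.nonempty_iff_ne_empty]
    intro h2
    exact h (symmDiff_eq_bot.1 h2)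

/-- finite linear combination of Walsh functions -/
noncomputable def ev (c : Finset Γ →₀ ℝ) (x : Γ → Bool) : ℝ := c.sum fun S r => r * wal S x

theorem ev_add (c d : Finset Γ →₀ ℝ) (x : Γ → Bool) : ev (c + d) x = ev c x + ev d x := by
  classical
  unfold ev
  exact Finsupp.sum_add_index' (fun _ => by simp) (fun _ _ _ => by ring)

theorem ev_smul (r : ℝ) (c : Finset Γ →₀ ℝ) (x : Γ → Bool) : ev (r • c) x = r * ev c x := by
  classical
  unfold ev
  rw [Finsupp.sum_smul_index' (fun _ => by simp), Finsupp.mul_sum]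
  simp [mul_assoc]

theorem ev_single (S : Finset Γ) (r : ℝ) (x : Γ → Bool) :
    ev (Finsupp.single S r) x = r * wal S x := by
  unfold ev
  rw [Finsupp.sum_single_index (by simp)]

theorem ev_sum {ι : Type*} (t : Finset ι) (c : ι → Finset Γ →₀ ℝ) (x : Γ → Bool) :
    ev (∑ i ∈ t, c i) x = ∑ i ∈ t, ev (c i) x := by
  classical
  induction t using Finset.induction_on with
  | empty => simp [ev]
  | insert a t ha ih => rw [Finset.sum_insert ha, Finset.sum_insert ha, ev_add, ih]

theorem ev_meas (c : Finset Γ →₀ ℝ) : Measurable (ev c : (Γ → Bool) → ℝ) := by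
  unfold ev Finsupp.sum
  exact Finset.measurable_sum _ fun S _ => (wal_meas S).const_mul _

theorem ev_sh (g : Γ) (c : Finset Γ →₀ ℝ) (x : Γ → Bool) :
    ev c (sh g x) = ev (c.equivMapDomain (trPerm g⁻¹)) x := by
  unfold ev
  rw [Finsupp.sum_equivMapDomain]
  refine Finsupp.sum_congr fun S _ => ?_
  rw [wal_sh]
  rfl

theorem ev_bound (c : Finset Γ →₀ ℝ) (x : Γ → Bool) : |ev c x| ≤ c.sum fun _ r => |r| := by
  unfold ev Finsupp.sum
  refine (Finset.abs_sum_le_sum_abs _ _).trans (Finset.sum_le_sum fun S _ => ?_)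
  rw [abs_mul, abs_wal, mul_one]

theorem ev_int (c : Finset Γ →₀ ℝ) : Integrable (ev c) (bern Γ) :=
  Integrable.of_bound (ev_meas c).aestronglyMeasurable _
    (Filter.Eventually.of_forall fun x => by rw [Real.norm_eq_abs]; exact ev_bound c x)

theorem ev_sq_int (c : Finset Γ →₀ ℝ) : Integrable (fun x => ev c x ^ 2) (bern Γ) :=
  Integrable.of_bound ((ev_meas c).pow_const 2).aestronglyMeasurable ((c.sum fun _ r => |r|) ^ 2)
    (Filter.Eventually.of_forall fun x => by
      rw [Real.norm_eq_abs, abs_pow]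
      exact pow_le_pow_left₀ (abs_nonneg _) (ev_bound c x) 2)

open Classical in
theorem integral_ev (c : Finset Γ →₀ ℝ) : ∫ x, ev c x ∂(bern Γ) = c ∅ := by
  unfold ev Finsupp.sum
  rw [integral_finsetSum _ fun S _ => (wal_int S).const_mul _]
  have : ∀ S, ∫ x, c S * wal S x ∂(bern Γ) = if S = ∅ then c S else 0 := by
    intro S
    rw [integral_const_mul]
    split_ifs with h
    · subst h; simp [wal_empty]
    · rw [integral_wal S (Finset.nonempty_iff_ne_empty.2 h), mul_zero]
  simp only [this]
  rw [Finset.sum_ite_eq']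
  split_ifs with h
  · rfl
  · exact (Finsupp.notMem_support_iff.1 h).symm

open Classical in
theorem integral_ev_sq (c : Finset Γ →₀ ℝ) :
    ∫ x, ev c x ^ 2 ∂(bern Γ) = ∑ S ∈ c.support, c S ^ 2 := by
  have h1 : ∀ x, ev c x ^ 2 = ∑ S ∈ c.support, ∑ S' ∈ c.support, c S * c S' * (wal S x * wal S' x) := by
    intro x
    unfold ev Finsupp.sum
    rw [sq, Finset.sum_mul_sum]
    refine Finset.sum_congr rfl fun S _ => Finset.sum_congr rfl fun S' _ => by ring
  simp only [h1]
  have hi : ∀ S S' : Finset Γ, Integrable (fun x => c S * c S' * (wal S x * wal S' x)) (bern Γ) := by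
    intro S S'
    refine Integrable.const_mul ?_ _
    simp only [wal_mul]
    exact wal_int _
  rw [integral_finsetSum _ fun S _ => integrable_finsetSum _ fun S' _ => hi S S']
  refine Finset.sum_congr rfl fun S hS => ?_
  rw [integral_finsetSum _ fun S' _ => hi S S']
  have : ∀ S', ∫ x, c S * c S' * (wal S x * wal S' x) ∂(bern Γ) =
      if S = S' then c S * c S' else 0 := by
    intro S'
    rw [integral_const_mul, integral_wal_mul]
    split_ifs <;> simp
  simp only [this]
  rw [Finset.sum_ite_eq, if_pos hS, sq]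

theorem integral_ev_sq' (c : Finset Γ →₀ ℝ) :
    ENNReal.ofReal (∫ x, ev c x ^ 2 ∂(bern Γ)) = ∑' S, ENNReal.ofReal (c S ^ 2) := by
  rw [integral_ev_sq, ENNReal.ofReal_sum_of_nonneg fun _ _ => sq_nonneg _]
  symm
  refine tsum_eq_sum fun S hS => ?_
  rw [Finsupp.notMem_support_iff.1 hS]
  simp

/-! ### cylinder sets -/

variable (Γ) in
/-- sets whose indicator is a finite Walsh sum -/
def cylA : Set (Set (Γ → Bool)) := {A | ∃ c : Finset Γ →₀ ℝ, ∀ x, ev c x = A.indicator 1 x}

open Classical in
theorem ev_mul (c d : Finset Γ →₀ ℝ) : ∃ e : Finset Γ →₀ ℝ, ∀ x : Γ → Bool, ev e x = ev c x * ev d x := by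
  refine ⟨∑ S ∈ c.support, ∑ S' ∈ d.support, Finsupp.single (S ∆ S') (c S * d S'), fun x => ?_⟩
  simp only [ev_sum, ev_single]
  unfold ev Finsupp.sum
  rw [Finset.sum_mul_sum]
  refine Finset.sum_congr rfl fun S _ => Finset.sum_congr rfl fun S' _ => ?_
  rw [← wal_mul]; ring

theorem cylA_alg : IsSetAlgebra (cylA Γ) := by
  have hcompl : ∀ ⦃s : Set (Γ → Bool)⦄, s ∈ cylA Γ → sᶜ ∈ cylA Γ := by
    rintro s ⟨c, hc⟩
    refine ⟨Finsupp.single ∅ 1 + (-1 : ℝ) • c, fun x => ?_⟩
    rw [ev_add, ev_smul, ev_single, hc, wal_empty]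
    by_cases h : x ∈ s
    · simp [h]
    · simp [h]
  refine ⟨⟨0, fun x => by simp [ev]⟩, hcompl, ?_⟩
  intro s t hs ht
  have h1 : s ∪ t = (sᶜ ∩ tᶜ)ᶜ := by
    rw [Set.compl_inter, compl_compl, compl_compl]
  rw [h1]
  apply hcompl
  obtain ⟨c, hc⟩ := hcompl hs
  obtain ⟨d, hd⟩ := hcompl ht
  obtain ⟨e, he⟩ := ev_mul c d
  refine ⟨e, fun x => ?_⟩
  rw [he, hc, hd]
  by_cases h : x ∈ sᶜ <;> by_cases h' : x ∈ tᶜ <;> simp_all

theorem cylA_gen : (MeasurableSpace.pi : MeasurableSpace (Γ → Bool)) =
    MeasurableSpace.generateFrom (cylA Γ) := by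
  apply le_antisymm
  · refine iSup_le fun γ => ?_
    rw [MeasurableSpace.comap_le_iff_le_map]
    intro s _
    change MeasurableSet[MeasurableSpace.generateFrom (cylA Γ)] ((fun x : Γ → Bool => x γ) ⁻¹' s)
    have key : ∀ b : Bool, MeasurableSet[MeasurableSpace.generateFrom (cylA Γ)]
        ((fun x : Γ → Bool => x γ) ⁻¹' {b}) := by
      intro b
      apply MeasurableSpace.measurableSet_generateFrom
      refine ⟨Finsupp.single ∅ (1 / 2) +
        Finsupp.single {γ} (if b = true then -(1 / 2) else (1 / 2)), fun x => ?_⟩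
      rw [ev_add, ev_single, ev_single, wal_empty]
      have h1 : wal {γ} x = if x γ = true then -1 else 1 := by simp [wal]
      rw [h1]
      cases b <;> rcases hx : x γ <;> simp [hx, Set.indicator] <;> norm_num
    have : (fun x : Γ → Bool => x γ) ⁻¹' s = ⋃ b ∈ s, (fun x : Γ → Bool => x γ) ⁻¹' {b} := by
      ext x; simp
    rw [this]
    exact MeasurableSet.biUnion s.to_countable fun b _ => key b
  · refine MeasurableSpace.generateFrom_le ?_
    rintro s ⟨c, hc⟩
    have : s = {x | ev c x = 1} := by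
      ext x
      change x ∈ s ↔ ev c x = 1
      rw [hc]
      by_cases h : x ∈ s <;> simp [h]
    rw [this]
    exact measurableSet_eq_fun (ev_meas c) measurable_const

theorem cylA_dense : (bern Γ).MeasureDense (cylA Γ) :=
  Measure.MeasureDense.of_generateFrom_isSetAlgebra_finite (bern Γ) cylA_alg cylA_gen

/-! ### the spectral estimate -/

variable (φ : FreeGroup (Fin 49) →* Γ) (hφ : Function.Injective φ)

/-- points all of whose 50 translates lie in `A` -/
def all50 (A : Set (Γ → Bool)) : Set (Γ → Bool) :=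
  {x | x ∈ A ∧ ∀ k : Fin 49, sh (φ (FreeGroup.of k)) x ∈ A}

include hφ in
theorem spec_cyl (C : Set (Γ → Bool)) (hC : C ∈ cylA Γ) :
    (bern Γ).real (all50 φ C) ≤ (9 / 100 + (bern Γ).real C) * (bern Γ).real C := by
  classical
  obtain ⟨c, hc⟩ := hC
  have hCm : MeasurableSet C := by
    have : C = {x | ev c x = 1} := by
      ext x
      change x ∈ C ↔ ev c x = 1
      rw [hc]
      by_cases h : x ∈ C <;> simp [h]
    rw [this]
    exact measurableSet_eq_fun (ev_meas c) measurable_const
  set p := (bern Γ).real C with hp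
  have hp1 : c ∅ = p := by
    rw [← integral_ev c]
    simp only [hc]
    rw [integral_indicator_one hCm]
  set f := c.erase ∅ with hf
  have hcf : ∀ x, ev c x = p + ev f x := by
    intro x
    have : c = Finsupp.single ∅ p + f := by
      rw [hf, ← hp1]
      exact (Finsupp.single_add_erase ∅ c).symm
    conv_lhs => rw [this]
    rw [ev_add, ev_single, wal_empty, mul_one]
  -- L² norm of f
  have hf2 : ∫ x, ev f x ^ 2 ∂(bern Γ) = p - p ^ 2 := by
    have h1 : ∀ x, ev f x ^ 2 = ev c x - 2 * p * ev f x - p ^ 2 := by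
      intro x
      have h2 : ev c x ^ 2 = ev c x := by
        rw [hc]
        by_cases h : x ∈ C <;> simp [h]
      have h3 := hcf x
      rw [h3] at h2 ⊢
      nlinarith
    simp only [h1]
    rw [integral_sub, integral_sub, integral_const_mul, integral_ev, integral_ev, hp1]
    · simp [hf]
    · exact ev_int c
    · exact (ev_int f).const_mul _
    · exact (ev_int c).sub ((ev_int f).const_mul _)
    · exact integrable_const _
  set g : Finset Γ →₀ ℝ := ∑ k : Fin 49, f.equivMapDomain (trPerm (φ (FreeGroup.of k))⁻¹) with hg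
  have hgx : ∀ x, ev g x = ∑ k : Fin 49, ev f (sh (φ (FreeGroup.of k)) x) := by
    intro x
    rw [hg, ev_sum]
    exact Finset.sum_congr rfl fun k _ => (ev_sh _ _ _).symm
  have hg2 : ∫ x, ev g x ^ 2 ∂(bern Γ) ≤ 196 * (p - p ^ 2) := by
    rw [← hf2]
    have h1 := tsum_sq_translate_le φ hφ false (fun S => f S) (by simp [hf])
    have h2 : ∀ S, (∑ k : Fin 49, f ((trPerm (φ (FreeGroup.mk [(k, false)]))).symm S)) = g S := by
      intro S
      rw [hg, Finsupp.finsetSum_apply]
      refine Finset.sum_congr rfl fun k _ => ?_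
      rw [Finsupp.equivMapDomain_apply]
      have : (FreeGroup.mk [(k, false)] : FreeGroup (Fin 49)) = (FreeGroup.of k)⁻¹ := rfl
      rw [this, map_inv]
    simp only [h2] at h1
    rw [← integral_ev_sq', ← integral_ev_sq'] at h1
    have h3 : (4 * ((49 : ℕ) : ℝ≥0∞)) = ENNReal.ofReal 196 := by
      rw [ENNReal.ofReal_ofNat]
      norm_num
    rw [h3, ← ENNReal.ofReal_mul (by norm_num)] at h1
    exact (ENNReal.ofReal_le_ofReal_iff (mul_nonneg (by norm_num)
      (integral_nonneg fun x => sq_nonneg _))).1 h1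
  -- pointwise
  have hT : ∀ x ∈ all50 φ C, (50 : ℝ) = 50 * p + (ev f x + ev g x) := by
    rintro x ⟨hx, hx'⟩
    have h0 : p + ev f x = 1 := by rw [← hcf, hc]; simp [hx]
    have h1 : ∀ k : Fin 49, p + ev f (sh (φ (FreeGroup.of k)) x) = 1 := by
      intro k
      rw [← hcf, hc]; simp [hx' k]
    have h2 : ∑ k : Fin 49, (p + ev f (sh (φ (FreeGroup.of k)) x)) = 49 := by
      simp [h1]
    rw [Finset.sum_add_distrib] at h2
    simp only [Finset.sum_const, Finset.card_univ, Fintype.card_fin, nsmul_eq_mul] at h2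
    rw [hgx]
    push_cast at h2
    linarith
  have hBm : MeasurableSet (all50 φ C) := by
    unfold all50
    simp only [Set.ofPred_and, Set.ofPred_forall]
    refine hCm.inter (MeasurableSet.iInter fun k => ?_)
    exact sh_meas _ hCm
  have hmain : (2500 : ℝ) * (bern Γ).real (all50 φ C) ≤
      ∫ x, (50 * p + (ev f x + ev g x)) ^ 2 ∂(bern Γ) := by
    have h1 : ∫ x, (all50 φ C).indicator (fun _ => (2500 : ℝ)) x ∂(bern Γ) =
        2500 * (bern Γ).real (all50 φ C) := by
      rw [integral_indicator_const _ hBm, smul_eq_mul, mul_comm]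
    rw [← h1]
    refine integral_mono_of_nonneg ?_ ?_ ?_
    · exact Filter.Eventually.of_forall fun x => by
        simp only [Pi.zero_apply]
        exact Set.indicator_nonneg (fun _ _ => by norm_num) x
    · have h2 : ∀ x, (50 * p + (ev f x + ev g x)) ^ 2 =
          ev (Finsupp.single ∅ (50 * p) + (f + g)) x ^ 2 := by
        intro x
        rw [ev_add, ev_add, ev_single, wal_empty, mul_one]
      simp only [h2]
      exact ev_sq_int _
    · refine Filter.Eventually.of_forall fun x => ?_
      simp only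
      by_cases hx : x ∈ all50 φ C
      · rw [Set.indicator_of_mem hx, ← hT x hx]; norm_num
      · rw [Set.indicator_of_notMem hx]; positivity
  have hbound : ∫ x, (50 * p + (ev f x + ev g x)) ^ 2 ∂(bern Γ) ≤
      2500 * p ^ 2 + 225 * (p - p ^ 2) := by
    have h1 : ∀ x, (50 * p + (ev f x + ev g x)) ^ 2 ≤
        2500 * p ^ 2 + 100 * p * ev (f + g) x + (15 * ev f x ^ 2 + 15 / 14 * ev g x ^ 2) := by
      intro x
      rw [ev_add]
      nlinarith [sq_nonneg (14 * ev f x - ev g x)]
    have i1 : Integrable (fun x => 2500 * p ^ 2 + 100 * p * ev (f + g) x) (bern Γ) :=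
      (integrable_const _).add ((ev_int _).const_mul _)
    have i2 : Integrable (fun x => 15 * ev f x ^ 2 + 15 / 14 * ev g x ^ 2) (bern Γ) :=
      ((ev_sq_int f).const_mul _).add ((ev_sq_int g).const_mul _)
    have h2 : ∫ x, (50 * p + (ev f x + ev g x)) ^ 2 ∂(bern Γ) ≤
        ∫ x, (2500 * p ^ 2 + 100 * p * ev (f + g) x + (15 * ev f x ^ 2 + 15 / 14 * ev g x ^ 2))
          ∂(bern Γ) := by
      refine integral_mono_of_nonneg (Filter.Eventually.of_forall fun x => sq_nonneg _)
        (i1.add i2) (Filter.Eventually.of_forall h1)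
    refine h2.trans ?_
    rw [integral_add i1 i2, integral_add (integrable_const _) ((ev_int _).const_mul _),
      integral_add ((ev_sq_int f).const_mul _) ((ev_sq_int g).const_mul _),
      integral_const_mul, integral_const_mul, integral_const_mul, integral_const_mul, integral_ev,
      hf2]
    have h3 : (f + g) ∅ = 0 := by
      rw [Finsupp.add_apply, hg, Finsupp.finsetSum_apply]
      have : ∀ k : Fin 49, (f.equivMapDomain (trPerm (φ (FreeGroup.of k))⁻¹)) ∅ = 0 := by
        intro k
        rw [Finsupp.equivMapDomain_apply]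
        have : (trPerm (φ (FreeGroup.of k))⁻¹).symm ∅ = ∅ := by
          change tr _ ∅ = ∅
          simp [tr]
        rw [this]; simp [hf]
      rw [Finset.sum_eq_zero fun k _ => this k]
      simp [hf]
    rw [h3]
    simp only [integral_const, probReal_univ, smul_eq_mul]
    linarith
  nlinarith [measureReal_nonneg (μ := bern Γ) (s := C)]

include hφ in
theorem bern_spec (A : Set (Γ → Bool)) (hA : MeasurableSet A) :
    bern Γ (all50 φ A) ≤ (9 / 100 + bern Γ A) * bern Γ A := by
  have key : ∀ η : ℝ, 0 < η → (bern Γ).real (all50 φ A) ≤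
      (9 / 100 + ((bern Γ).real A + η)) * ((bern Γ).real A + η) + 50 * η := by
    intro η hη
    obtain ⟨C, hC, hAC⟩ := cylA_dense.approx A hA (measure_ne_top _ _) η hη
    have hCm : MeasurableSet C := cylA_dense.measurable C hC
    have hd : (bern Γ).real (A ∆ C) ≤ η := by
      have := ENNReal.toReal_mono ENNReal.ofReal_ne_top hAC.le
      rwa [ENNReal.toReal_ofReal hη.le] at this
    have hsub : all50 φ A ⊆ all50 φ C ∪ ((A ∆ C) ∪
        ⋃ k : Fin 49, (sh (φ (FreeGroup.of k))) ⁻¹' (A ∆ C)) := by
      rintro x ⟨hx, hx'⟩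
      by_cases h : x ∈ all50 φ C
      · exact Or.inl h
      · right
        by_cases h0 : x ∈ C
        · right
          have : ¬ ∀ k : Fin 49, sh (φ (FreeGroup.of k)) x ∈ C := fun h' => h ⟨h0, h'⟩
          push Not at this
          obtain ⟨k, hk⟩ := this
          exact Set.mem_iUnion.2 ⟨k, Or.inl ⟨hx' k, hk⟩⟩
        · left
          exact Or.inl ⟨hx, h0⟩
    have h1 := spec_cyl φ hφ C hC
    have hCA : (bern Γ).real C ≤ (bern Γ).real A + η := by
      have h2 : C ⊆ A ∪ (A ∆ C) := by
        intro x hx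
        by_cases h : x ∈ A
        · exact Or.inl h
        · exact Or.inr (Or.inr ⟨hx, h⟩)
      calc (bern Γ).real C ≤ (bern Γ).real (A ∪ (A ∆ C)) := measureReal_mono h2
        _ ≤ (bern Γ).real A + (bern Γ).real (A ∆ C) := measureReal_union_le _ _
        _ ≤ _ := by linarith
    have hk : ∀ k : Fin 49, (bern Γ).real ((sh (φ (FreeGroup.of k))) ⁻¹' (A ∆ C)) ≤ η := by
      intro k
      rw [(sh_mp _).measureReal_preimage (hA.symmDiff hCm).nullMeasurableSet]
      exact hd
    calc (bern Γ).real (all50 φ A)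
        ≤ (bern Γ).real (all50 φ C ∪ ((A ∆ C) ∪
          ⋃ k : Fin 49, (sh (φ (FreeGroup.of k))) ⁻¹' (A ∆ C))) := measureReal_mono hsub
      _ ≤ (bern Γ).real (all50 φ C) + ((bern Γ).real (A ∆ C) +
          (bern Γ).real (⋃ k : Fin 49, (sh (φ (FreeGroup.of k))) ⁻¹' (A ∆ C))) :=
          (measureReal_union_le _ _).trans (by gcongr; exact measureReal_union_le _ _)
      _ ≤ (9 / 100 + (bern Γ).real C) * (bern Γ).real C + (η + 49 * η) := by
          gcongr
          refine (measureReal_iUnion_fintype_le _).trans ?_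
          refine (Finset.sum_le_sum fun k _ => hk k).trans ?_
          simp
      _ ≤ _ := by
          have := measureReal_nonneg (μ := bern Γ) (s := C)
          nlinarith
  have hreal : (bern Γ).real (all50 φ A) ≤ (9 / 100 + (bern Γ).real A) * (bern Γ).real A := by
    have h1 : Filter.Tendsto (fun η : ℝ => (9 / 100 + ((bern Γ).real A + η)) *
        ((bern Γ).real A + η) + 50 * η) (nhdsWithin 0 (Set.Ioi 0))
        (nhds ((9 / 100 + ((bern Γ).real A + 0)) * ((bern Γ).real A + 0) + 50 * 0)) := by
      apply Filter.Tendsto.mono_left _ nhdsWithin_le_nhds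
      apply Continuous.tendsto
      fun_prop
    have h2 := ge_of_tendsto h1 (Filter.eventually_of_mem self_mem_nhdsWithin fun η hη => key η hη)
    simpa using h2
  rw [measureReal_def, measureReal_def] at hreal
  rw [← ENNReal.ofReal_toReal (measure_ne_top (bern Γ) (all50 φ A)),
    ← ENNReal.ofReal_toReal (measure_ne_top (bern Γ) A)]
  have h9 : (9 / 100 : ℝ≥0∞) = ENNReal.ofReal (9 / 100) := by
    rw [ENNReal.ofReal_div_of_pos (by norm_num)]
    simp
  rw [h9, ← ENNReal.ofReal_add (by norm_num) ENNReal.toReal_nonneg,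
    ← ENNReal.ofReal_mul (by positivity)]
  exact ENNReal.ofReal_le_ofReal hreal

end Crest.Agent.FP
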