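import Mathlib
import Crest.Prelude.Def_Cost

/-! Row 191 (S0291), definitions.

`Γ` a countable group with data `D : GD Γ m` (subgroup `T`, elements `h k`, `k : ZMod m`, `h 0 = 1`,
`b k = h (k+1) (h k)⁻¹`, `a = b 0 = h 1`), acting (genuinely) freely on a probability space `X`.
An *edge* is a point of a subset `E` of `X × ℕ`, `(x,i)` is over `x : X`.
A *dart* `(e, s)` is an end of the edge `e`: `s = false` the tail, `s = true` the head.
The tail of an edge over `x` is at position `x`, the head at position `a • x`; only the `T`-class of the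
position matters.  A system `Y : Sys Γ X m` is a measured graph over the complex
`K/T` (vertices: `T`-classes; edges: points of `X`; faces: points `q` of `X`, with edges over
`h k • q`, `k : ZMod m`) together with some chosen faces, arcs `I` and their chains `J`. -/
set_option autoImplicit false

open MeasureTheory
open scoped ENNReal

namespace Crest.Agent.FP

/-- group data -/
structure GD (Γ : Type) [Group Γ] (m : ℕ) where
  T : Subgroup Γ
  h : ZMod m → Γ
  h_zero : h 0 = 1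
  b_mem : ∀ k, (h (k + 1) * (h k)⁻¹) * (h 1)⁻¹ ∈ T
  b_inj : ∀ k l, h (k + 1) * (h k)⁻¹ = h (l + 1) * (h l)⁻¹ → k = l
  a_not_mem : h 1 ∉ T

/-- a dart: an edge with one of its ends (`false` = tail, `true` = head) -/
abbrev Dart (X : Type) := (X × ℕ) × Bool

namespace GD

variable {Γ : Type} [Group Γ] {m : ℕ} (D : GD Γ m)

/-- the element `a = b 0` -/
def a : Γ := D.h 1

/-- the elements `b k` -/
def b (k : ZMod m) : Γ := D.h (k + 1) * (D.h k)⁻¹

variable {X : Type} [MulAction Γ X]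

/-- same `T`-orbit -/
def SameT (x y : X) : Prop := ∃ t ∈ D.T, t • x = y

/-- position of the end of an edge of `K` -/
def kpos (p : X × Bool) : X := if p.2 then D.a • p.1 else p.1

/-- position of a dart -/
def pos (η : Dart X) : X := if η.2 then D.a • η.1.1 else η.1.1

/-- `KWalk D x L y`: `L` is (the list of steps of) an edge walk in `K/T` from the class of `x` to the
class of `y`; the step `(e, true)` goes forward along the edge `e`, `(e, false)` backward. -/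
def KWalk : X → List (X × Bool) → X → Prop
  | x, [], y => D.SameT x y
  | x, p :: L, y => D.SameT x (D.kpos (p.1, !p.2)) ∧ KWalk (D.kpos p) L y

/-- the `m-1` consecutive edges of the face `q`, index `k` missing, forward -/
def fwdRun (q : X) (k : ZMod m) : List (X × Bool) :=
  (List.range (m - 1)).map fun j => (D.h (k + 1 + (j : ZMod m)) • q, true)

/-- the `m-1` consecutive edges of the face `q`, index `k` missing, backward -/
def bwdRun (q : X) (k : ZMod m) : List (X × Bool) :=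
  (List.range (m - 1)).map fun j => (D.h (k - 1 - (j : ZMod m)) • q, false)

/-- The Dehn property for the action on `X`. -/
def DehnOn (X : Type) [MulAction Γ X] : Prop :=
  ∀ (x : X) (L : List (X × Bool)), D.KWalk x L (D.a • x) →
    L = [(x, true)] ∨
    (∃ A B y d, L = A ++ (y, d) :: (y, !d) :: B) ∨
    (∃ A B q k, L = A ++ D.fwdRun q k ++ B) ∨
    (∃ A B q k, L = A ++ D.bwdRun q k ++ B)

end GD

/-- (pre)system data, see the header -/
structure Sys (Γ X : Type) (m : ℕ) where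
  /-- edges -/
  E : Set (X × ℕ)
  /-- "same vertex" relation on the darts of edges -/
  V : Dart X → Dart X → Prop
  /-- darts attached to principal vertices -/
  Pr : Set (Dart X)
  /-- faces: `(q, j)` is a face over `q` -/
  Fs : Set (X × ℕ)
  /-- the `k`-th edge of the face `(q,j)` is `(h k • q, fe (q,j) k)` -/
  fe : X × ℕ → ZMod m → ℕ
  /-- arcs -/
  I : Set (X × ℕ)
  /-- chain of an arc, relative to its base point: the coefficient of `(g • x, l)` in the chain of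
  `(x,i)` is `J (x,i) (g,l)` -/
  J : X × ℕ → (Γ × ℕ →₀ ℤ)

namespace Sys

variable {Γ : Type} [Group Γ] {m : ℕ} {X : Type} [MulAction Γ X]

/-- the `k`-th edge of a face -/
def fed (D : GD Γ m) (Y : Sys Γ X m) (f : X × ℕ) (k : ZMod m) : X × ℕ := (D.h k • f.1, Y.fe f k)

/-- evaluate a function of edges on the chain of an arc -/
def Jev (Y : Sys Γ X m) {A : Type} [AddCommGroup A] (f : X × ℕ → A) (i : X × ℕ) : A :=
  (Y.J i).sum fun p n => n • f (p.1 • i.1, p.2)

/-- axioms of a (pre)system -/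
structure Ax [NeZero m] (D : GD Γ m) (Y : Sys Γ X m) : Prop where
  V_E : ∀ η ζ, Y.V η ζ → η.1 ∈ Y.E
  V_refl : ∀ η, η.1 ∈ Y.E → Y.V η η
  V_symm : ∀ η ζ, Y.V η ζ → Y.V ζ η
  V_trans : ∀ η ζ ξ, Y.V η ζ → Y.V ζ ξ → Y.V η ξ
  V_T : ∀ η ζ, Y.V η ζ → D.SameT (D.pos η) (D.pos ζ)
  Pr_E : ∀ η ∈ Y.Pr, η.1 ∈ Y.E
  Pr_V : ∀ η ζ, η ∈ Y.Pr → Y.V η ζ → ζ ∈ Y.Pr
  Pr_merge : ∀ η ζ, η ∈ Y.Pr → ζ ∈ Y.Pr → D.SameT (D.pos η) (D.pos ζ) → Y.V η ζ
  F_V : ∀ f ∈ Y.Fs, ∀ k, Y.V (Y.fed D f k, true) (Y.fed D f (k + 1), false)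
  F_inj : ∀ q j j' k, (q, j) ∈ Y.Fs → (q, j') ∈ Y.Fs → Y.fe (q, j) k = Y.fe (q, j') k → j = j'
  J_E : ∀ i ∈ Y.I, ∀ p ∈ (Y.J i).support, (p.1 • i.1, p.2) ∈ Y.E
  /-- every vertex is connected to a principal vertex -/
  conn : ∀ S : Set (Dart X), (∀ η ζ, η ∈ S → Y.V η ζ → ζ ∈ S) →
    (∀ e ∈ Y.E, ∀ s, (e, s) ∈ S → (e, !s) ∈ S) → Y.Pr ⊆ S → ∀ η, η.1 ∈ Y.E → η ∈ S
  /-- the relative cycles are generated by the chains of the arcs and the boundaries of faces,
  in dual form -/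
  ex : ∀ (A : Type) [AddCommGroup A] (f : X × ℕ → A), (∀ i ∈ Y.I, Y.Jev f i = 0) →
    (∀ q ∈ Y.Fs, ∑ k : ZMod m, f (Y.fed D q k) = 0) →
    ∃ g : Dart X → A, (∀ η ζ, Y.V η ζ → g η = g ζ) ∧ (∀ η ∈ Y.Pr, g η = 0) ∧
      ∀ e ∈ Y.E, f e = g (e, true) - g (e, false)

/-- folded: two edges over the same point with a common end (same type) are equal -/
def Folded (Y : Sys Γ X m) : Prop :=
  ∀ x i j s, Y.V ((x, i), s) ((x, j), s) → i = j

/-- measurability of a system -/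
structure Meas [MeasurableSpace X] (Y : Sys Γ X m) : Prop where
  mE : ∀ i, MeasurableSet {x | (x, i) ∈ Y.E}
  mV : ∀ (g : Γ) i j s t, MeasurableSet {x : X | Y.V ((x, i), s) ((g • x, j), t)}
  mPr : ∀ i s, MeasurableSet {x | ((x, i), s) ∈ Y.Pr}
  mF : ∀ i, MeasurableSet {x | (x, i) ∈ Y.Fs}
  mfe : ∀ i k n, MeasurableSet {x | Y.fe (x, i) k = n}
  mI : ∀ i, MeasurableSet {x | (x, i) ∈ Y.I}
  mJ : ∀ i c, MeasurableSet {x | Y.J (x, i) = c}

/-- `Y.IsWalk η L ζ`: walk in `Y` from the vertex of the dart `η` to the vertex of the dart `ζ`;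
a step `p = (e, d)` traverses `e` and arrives at the end `d` of `e`. -/
def IsWalk (Y : Sys Γ X m) : Dart X → List (Dart X) → Dart X → Prop
  | η, [], ζ => Y.V η ζ
  | η, p :: L, ζ => Y.V η (p.1, !p.2) ∧ IsWalk Y p L ζ

/-- `Y.PW D x L y`: `L` is a walk from the principal vertex `[x]` to the principal vertex `[y]` -/
def PW (D : GD Γ m) (Y : Sys Γ X m) (x : X) (L : List (Dart X)) (y : X) : Prop :=
  ∃ η ζ, η ∈ Y.Pr ∧ ζ ∈ Y.Pr ∧ D.SameT x (D.pos η) ∧ D.SameT y (D.pos ζ) ∧ Y.IsWalk η L ζ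

/-- distance from `[x]` to `[a x]` -/
noncomputable def dist (D : GD Γ m) (Y : Sys Γ X m) (x : X) : ℕ :=
  sInf {n | ∃ L, Y.PW D x L (D.a • x) ∧ L.length = n}

/-- points `x` such that an edge over `x` has both ends principal -/
def AP (Y : Sys Γ X m) : Set X :=
  {x | ∃ i, ((x, i), true) ∈ Y.Pr ∧ ((x, i), false) ∈ Y.Pr}

/-- number of darts at the vertex of `η` -/
noncomputable def val (Y : Sys Γ X m) (η : Dart X) : ℕ∞ := {ζ | Y.V η ζ}.encard

/-- dead ends -/
def Dead (Y : Sys Γ X m) : Set (Dart X) := {η | η.1 ∈ Y.E ∧ η ∉ Y.Pr ∧ ∀ ζ, Y.V η ζ → ζ = η}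

/-- the `k`-th corner of the face `f` is a (1,1)-vertex -/
def C11 (D : GD Γ m) (Y : Sys Γ X m) (f : X × ℕ) (k : ZMod m) : Prop :=
  f ∈ Y.Fs ∧ (Y.fed D f k, true) ∉ Y.Pr ∧
    ∀ ζ, Y.V (Y.fed D f k, true) ζ → ζ = (Y.fed D f k, true) ∨ ζ = (Y.fed D f (k + 1), false)

end Sys

section size

variable {X : Type} [MeasurableSpace X]

/-- measure of a set of edges -/
noncomputable def size (μ : Measure X) (S : Set (X × ℕ)) : ℝ≥0∞ := ∑' i, μ {x | (x, i) ∈ S}

/-- measure of a set of darts -/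
noncomputable def dsize (μ : Measure X) (S : Set (Dart X)) : ℝ≥0∞ :=
  ∑' i, (μ {x | ((x, i), false) ∈ S} + μ {x | ((x, i), true) ∈ S})

end size

namespace Sys

variable {Γ : Type} [Group Γ] {m : ℕ} {X : Type} [MulAction Γ X] [MeasurableSpace X]

/-- number of finite auxiliary vertices -/
noncomputable def Vfin (μ : Measure X) (Y : Sys Γ X m) : ℝ≥0∞ :=
  ∑' i, ∑ s : Bool, ∫⁻ x in {x | (x, i) ∈ Y.E ∧ ((x, i), s) ∉ Y.Pr},
    ((Y.val ((x, i), s) : ℝ≥0∞))⁻¹ ∂μ

/-- `∫_G dist` -/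
noncomputable def Uint (D : GD Γ m) (μ : Measure X) (G : Set X) (Y : Sys Γ X m) : ℝ≥0∞ :=
  ∫⁻ x in G, (Y.dist D x : ℝ≥0∞) ∂μ

/-- the class of admissible systems -/
structure Adm [NeZero m] (D : GD Γ m) (μ : Measure X) (G : Set X) (ε w : ℝ≥0∞) (Y : Sys Γ X m) :
    Prop where
  ax : Y.Ax D
  meas : Y.Meas
  folded : Y.Folded
  finE : size μ Y.E ≠ ⊤
  Fle : size μ Y.Fs ≤ w
  Ile : size μ Y.I ≤ ε
  conG : ∀ x ∈ G, ∃ L, Y.PW D x L (D.a • x)
  finU : Y.Uint D μ G ≠ ⊤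

/-- the functional `P0` -/
noncomputable def P0 (μ : Measure X) (Y : Sys Γ X m) : ℝ :=
  (size μ Y.E).toReal - 5 / 4 * (size μ Y.Fs).toReal

end Sys

/-- the standing assumptions on the measured action -/
structure Sp {Γ : Type} [Group Γ] {m : ℕ} (D : GD Γ m) (X : Type) [MeasurableSpace X]
    [MulAction Γ X] (μ : Measure X) : Prop where
  prob : IsProbabilityMeasure μ
  mp : ∀ g : Γ, MeasurePreserving (fun x : X => g • x) μ μ
  free : ∀ (g : Γ) (x : X), g • x = x → g = 1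
  emb : ∃ φ : X → ℝ, Measurable φ ∧ Function.Injective φ
  /-- non-atomicity -/
  atomless : ∀ δ : ℝ≥0∞, δ ≠ 0 → ∃ (n : ℕ) (C : Fin n → Set X), (∀ i, MeasurableSet (C i)) ∧
    (⋃ i, C i) = Set.univ ∧ ∀ i, μ (C i) ≤ δ
  /-- the spectral estimate, constant `0.09 = 0.3^2` -/
  spec : ∀ A : Set X, MeasurableSet A →
    μ {x | ∀ k : ZMod m, D.h k • x ∈ A} ≤ (9 / 100 + μ A) * μ A

end Crest.Agent.FP
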