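import Crest.Agent.FP.GroupDefs

/-! Row 191 (S0291), chunk G2: syllable lemma. -/
set_option autoImplicit false

namespace Crest.Agent.FP

/-- the symmetric embedding `h_k ↦ H_k H_0⁻¹` -/
def sylPhi (m : ℕ) : G0 m →* FreeGroup (ZMod m) :=
  FreeGroup.lift fun k => FreeGroup.of k.1 * (FreeGroup.of 0)⁻¹

theorem sylPhi_hh (m : ℕ) (k : ZMod m) :
    sylPhi m (hh m k) = FreeGroup.of k * (FreeGroup.of 0)⁻¹ := by
  unfold hh
  split_ifs with h
  · subst h; simp
  · simp [sylPhi]

theorem sylPhi_bb (m : ℕ) (k : ZMod m) :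
    sylPhi m (bb m k) = FreeGroup.of (k + 1) * (FreeGroup.of k)⁻¹ := by
  simp only [bb, map_mul, map_inv, sylPhi_hh]
  group

/-- end of a letter -/
def sylE (m : ℕ) (p : ZMod m × Bool) : ZMod m := if p.2 then p.1 + 1 else p.1

/-- start of a letter -/
def sylS (m : ℕ) (p : ZMod m × Bool) : ZMod m := if p.2 then p.1 else p.1 + 1

/-- next letter in a run -/
def sylN (m : ℕ) (p : ZMod m × Bool) : ZMod m × Bool :=
  (if p.2 then p.1 - 1 else p.1 + 1, p.2)

/-- run -/
def sylR (m : ℕ) (p : ZMod m × Bool) (r : ℕ) : List (ZMod m × Bool) :=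
  (List.range r).map fun j : ℕ => (if p.2 then p.1 - (j : ZMod m) else p.1 + (j : ZMod m), p.2)

theorem sylR_succ (m : ℕ) (p : ZMod m × Bool) (r : ℕ) :
    sylR m p (r + 1) = p :: sylR m (sylN m p) r := by
  obtain ⟨k, b⟩ := p
  unfold sylR sylN
  rw [List.range_succ_eq_map, List.map_cons, List.map_map]
  congr 1
  · cases b <;> simp
  · apply List.map_congr_left
    intro j _
    cases b
    · simp [Nat.cast_succ]; ring
    · simp [Nat.cast_succ]; ring

theorem sylPhi_letter (m : ℕ) (p : ZMod m × Bool) :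
    sylPhi m (if p.2 then bb m p.1 else (bb m p.1)⁻¹) =
      FreeGroup.of (sylE m p) * (FreeGroup.of (sylS m p))⁻¹ := by
  obtain ⟨k, b⟩ := p
  cases b <;> simp [sylE, sylS, sylPhi_bb]

/-- if the start of `p` is the end of `q` then either `q` is the inverse of `p` or the next in the
run. -/
theorem syl_next (m : ℕ) (p q : ZMod m × Bool) (h : sylS m p = sylE m q)
    (hpq : p.1 = q.1 → p.2 = q.2) : q = sylN m p := by
  obtain ⟨k, b⟩ := p
  obtain ⟨l, c⟩ := q
  cases b <;> cases c
  · simp [sylS, sylE, sylN] at h ⊢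
    exact h.symm
  · simp [sylS, sylE] at h
    exact absurd (hpq h) (by simp)
  · simp [sylS, sylE] at h
    exact absurd (hpq h) (by simp)
  · simp [sylS, sylE, sylN] at h ⊢
    rw [h]; ring

/-- the final vertex of a run of length `r` starting at the letter `p` -/
def sylF (m : ℕ) (p : ZMod m × Bool) (r : ℕ) : ZMod m :=
  if p.2 then sylE m p - (r : ZMod m) else sylE m p + (r : ZMod m)

theorem sylF_one (m : ℕ) (p : ZMod m × Bool) : sylF m p 1 = sylS m p := by
  obtain ⟨k, b⟩ := p
  cases b <;> simp [sylF, sylE, sylS]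

theorem sylF_succ (m : ℕ) (p : ZMod m × Bool) (r : ℕ) :
    sylF m p (r + 1) = sylF m (sylN m p) r := by
  obtain ⟨k, b⟩ := p
  cases b
  · simp [sylF, sylE, sylN]; ring
  · simp [sylF, sylE, sylN]

theorem sylF_ne (m : ℕ) (p : ZMod m × Bool) (r : ℕ) (h1 : 1 ≤ r) (h2 : r < m) :
    sylE m p ≠ sylF m p r := by
  have hr : (r : ZMod m) ≠ 0 := by
    rw [Ne, ZMod.natCast_eq_zero_iff]
    intro h
    exact absurd (Nat.le_of_dvd (by omega) h) (by omega)
  intro h
  apply hr
  unfold sylF at h
  split_ifs at h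
  · have := sub_eq_self.1 h.symm
    exact this
  · have := add_eq_left.1 h.symm
    exact this

theorem syl_main (m : ℕ) (hm : 3 ≤ m) :
    ∀ (L' : List (ZMod m × Bool)) (p : ZMod m × Bool),
    (hred : (p :: L').IsChain fun p q => p.1 = q.1 → p.2 = q.2) →
    (hR : ∀ A B q, p :: L' ≠ A ++ sylR m q m ++ B) →
    ∃ (r : ℕ) (B : List (ZMod m × Bool)) (W : List (ZMod m × Bool)),
      1 ≤ r ∧ r < m ∧ p :: L' = sylR m p r ++ B ∧
      sylPhi m (((p :: L').map fun p => if p.2 then bb m p.1 else (bb m p.1)⁻¹).prod) =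
        FreeGroup.mk ((sylE m p, true) :: (sylF m p r, false) :: W) ∧
      FreeGroup.IsReduced ((sylE m p, true) :: (sylF m p r, false) :: W) := by
  intro L'
  induction L' with
  | nil =>
    intro p _ _
    refine ⟨1, [], [], le_rfl, by omega, ?_, ?_, ?_⟩
    · simp [sylR_succ]
      simp [sylR]
    · rw [List.map_singleton, List.prod_singleton, sylPhi_letter, sylF_one]
      simp [FreeGroup.of, FreeGroup.mul_mk, FreeGroup.invRev]
    · rw [FreeGroup.isReduced_cons_cons]
      refine ⟨fun h => absurd h (sylF_ne m p 1 le_rfl (by omega)), FreeGroup.IsReduced.singleton⟩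
  | cons q L'' ih =>
    intro p hred hR
    rw [List.isChain_cons_cons] at hred
    obtain ⟨hpq, hred'⟩ := hred
    obtain ⟨r, B, W, hr1, hr2, hB, hprod, hW⟩ := ih q hred' (by
      intro A B q' h
      apply hR (p :: A) B q'
      rw [h]; simp)
    have key : sylPhi m (((p :: q :: L'').map fun p => if p.2 then bb m p.1 else (bb m p.1)⁻¹).prod)
        = FreeGroup.of (sylE m p) * (FreeGroup.of (sylS m p))⁻¹ *
          FreeGroup.mk ((sylE m q, true) :: (sylF m q r, false) :: W) := by
      rw [← hprod, List.map_cons, List.prod_cons, map_mul, sylPhi_letter]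
    by_cases hs : sylS m p = sylE m q
    · have hq := syl_next m p q hs hpq
      have hBB : p :: q :: L'' = sylR m p (r + 1) ++ B := by
        rw [sylR_succ, ← hq, hB]; rfl
      have hrm : r + 1 < m := by
        rcases Nat.lt_or_ge (r + 1) m with h | h
        · exact h
        · have hr : r + 1 = m := by omega
          exfalso
          apply hR [] B p
          rw [hBB, hr]; rfl
      have hF : sylF m p (r + 1) = sylF m q r := by rw [sylF_succ, ← hq]
      refine ⟨r + 1, B, W, by omega, hrm, hBB, ?_, ?_⟩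
      · rw [key, hF, hs]
        have : FreeGroup.mk ((sylE m q, true) :: (sylF m q r, false) :: W)
            = FreeGroup.of (sylE m q) * FreeGroup.mk ((sylF m q r, false) :: W) := by
          simp [FreeGroup.of, FreeGroup.mul_mk]
        rw [this]
        have h2 : FreeGroup.mk ((sylE m p, true) :: (sylF m q r, false) :: W)
            = FreeGroup.of (sylE m p) * FreeGroup.mk ((sylF m q r, false) :: W) := by
          simp [FreeGroup.of, FreeGroup.mul_mk]
        rw [h2]
        group
      · rw [FreeGroup.isReduced_cons_cons] at hW ⊢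
        refine ⟨fun h => absurd h (sylF_ne m p (r + 1) (by omega) hrm), ?_⟩
        rw [hF]
        exact hW.2
    · refine ⟨1, q :: L'', (sylE m q, true) :: (sylF m q r, false) :: W, le_rfl, by omega, ?_,
        ?_, ?_⟩
      · rw [sylR_succ]; simp [sylR]
      · rw [key, sylF_one]
        simp [FreeGroup.of, FreeGroup.mul_mk, FreeGroup.invRev]
      · rw [FreeGroup.isReduced_cons_cons, FreeGroup.isReduced_cons_cons]
        refine ⟨fun h => absurd h (sylF_ne m p 1 le_rfl (by omega)), ?_, hW⟩
        intro h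
        rw [sylF_one] at h
        exact absurd h hs

/-- Syllable lemma: a nonempty word in the `b_k^{±1}` without cancellation and without a full
relator `b_k b_{k-1} ... b_{k-m+1}` (or its inverse) is nontrivial in `Γ₀`.  Proof: group the maximal
blocks inside one face, each is `h_j h_i⁻¹` with `i ≠ j`; consecutive blocks
`h_j h_i⁻¹ h_{j'} h_{i'}⁻¹` have `i ≠ j'`; drop the letters `h_0 = 1`. -/
theorem syllable (m : ℕ) [NeZero m] (hm : 3 ≤ m) (L : List (ZMod m × Bool)) (hne : L ≠ [])
    (hred : L.IsChain fun p q => p.1 = q.1 → p.2 = q.2)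
    (h1 : ¬ ∃ A B k, L = A ++ (List.range m).map (fun j : ℕ => (k - (j : ZMod m), true)) ++ B)
    (h2 : ¬ ∃ A B k, L = A ++ (List.range m).map (fun j : ℕ => (k + (j : ZMod m), false)) ++ B) :
    (L.map fun p => if p.2 then bb m p.1 else (bb m p.1)⁻¹).prod ≠ 1 := by
  obtain ⟨p, L', rfl⟩ := List.exists_cons_of_ne_nil hne
  obtain ⟨r, B, W, _, _, _, hprod, hW⟩ := syl_main m hm L' p hred (by
    rintro A B ⟨k, b⟩ h
    cases b
    · exact h2 ⟨A, B, k, by rw [h]; simp [sylR]⟩
    · exact h1 ⟨A, B, k, by rw [h]; simp [sylR]⟩)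
  intro h
  rw [h, map_one] at hprod
  have := congrArg FreeGroup.toWord hprod
  rw [FreeGroup.toWord_one, FreeGroup.toWord_mk, hW.reduce_eq] at this
  exact absurd this (by simp)

end Crest.Agent.FP
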