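import Crest.Agent.FP.GroupDD
import Crest.Agent.FP.Syllable

/-! Row 191 (S0291), chunk G3: the Dehn property.

Proof of the Dehn property (see ideas row 191): a walk from `[x]` to `[a x]` gives
`a = t_n a^{ε_n} t_{n-1} ... a^{ε_1} t_0`, `t_i = z^{k_i} f_i`.  The `FreeGroup (G0 ⧸ FF)`-component is
`∏ ζ_{G_i F}^{k_i} = 1`, so if some `k_i ≠ 0` then two consecutive nonzero ones have the same
coset, which gives a nonempty sub-walk which is a loop in `Γ₀/F` with all `t_i ∈ F`.  In `Γ₀`:
transitions are reduced alternating words `b_{k1} b_{k2}⁻¹ b_{k3} ...`, so the walk becomes a word in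
`b_k^{±1}` without cancellation; use `syllable`. (Design: helper26.) -/
set_option autoImplicit false

namespace Crest.Agent.FP

namespace DG

variable (m : ℕ)

/-- a letter `b_k` or `b_k⁻¹` -/
def lt (p : ZMod m × Bool) : G0 m := if p.2 then bb m p.1 else (bb m p.1)⁻¹

/-- the product of a time-ordered word (earliest letter first, it is the rightmost factor) -/
def pv : List (ZMod m × Bool) → G0 m
  | [] => 1
  | p :: V => pv V * lt m p

theorem pv_append (V W : List (ZMod m × Bool)) : pv m (V ++ W) = pv m W * pv m V := by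
  induction V with
  | nil => simp [pv]
  | cons p V ih => simp [pv, ih, mul_assoc]

theorem pv_reverse (V : List (ZMod m × Bool)) : (V.reverse.map (lt m)).prod = pv m V := by
  induction V with
  | nil => simp [pv]
  | cons p V ih => simp [pv, ← ih]

theorem lt_not (k : ZMod m) (s : Bool) : lt m (k, !s) * lt m (k, s) = 1 := by
  cases s <;> simp [lt]

/-- alternating word: signs `s, !s, s, ...`, last sign `t` (if empty: `t = !s`) -/
def Alt : Bool → List (ZMod m × Bool) → Bool → Prop
  | s, [], t => t = !s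
  | s, p :: V, t => p.2 = s ∧ Alt (!s) V t

theorem Alt.append {s t t' : Bool} {V W : List (ZMod m × Bool)} (h : Alt m s V t)
    (h' : Alt m (!t) W t') : Alt m s (V ++ W) t' := by
  induction V generalizing s with
  | nil =>
    simp only [Alt] at h
    subst h
    simpa using h'
  | cons p V ih => exact ⟨h.1, ih h.2⟩

/-- inverse word -/
def wi (V : List (ZMod m × Bool)) : List (ZMod m × Bool) := (V.map fun p => (p.1, !p.2)).reverse

theorem pv_wi (V : List (ZMod m × Bool)) : pv m (wi m V) = (pv m V)⁻¹ := by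
  induction V with
  | nil => simp [wi, pv]
  | cons p V ih =>
    have : wi m (p :: V) = wi m V ++ [(p.1, !p.2)] := by simp [wi]
    rw [this, pv_append, ih]
    simp only [pv, one_mul, mul_inv_rev]
    congr 1
    obtain ⟨k, s⟩ := p
    cases s <;> simp [lt]

theorem Alt.wi {s t : Bool} {V : List (ZMod m × Bool)} (h : Alt m s V t) :
    Alt m (!t) (wi m V) (!s) := by
  induction V generalizing s with
  | nil =>
    simp only [Alt] at h
    subst h
    simp [DG.wi, Alt]
  | cons p V ih =>
    have : DG.wi m (p :: V) = DG.wi m V ++ [(p.1, !p.2)] := by simp [DG.wi]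
    rw [this]
    refine Alt.append m (ih h.2) ?_
    obtain ⟨k, s'⟩ := p
    have h1 : s' = s := h.1
    subst h1
    simp [Alt]

/-- every element of `F` has an alternating word -/
theorem alt_of_FF {f : G0 m} (hf : f ∈ FF m) : ∃ V, Alt m false V true ∧ pv m V = f := by
  induction hf using Subgroup.closure_induction with
  | mem x hx =>
    obtain ⟨k, rfl⟩ := hx
    exact ⟨[(0, false), (k, true)], by simp [Alt], by simp [pv, lt]⟩
  | one => exact ⟨[], by simp [Alt], rfl⟩
  | mul x y _ _ hx hy =>
    obtain ⟨V, hV, rfl⟩ := hx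
    obtain ⟨W, hW, rfl⟩ := hy
    exact ⟨W ++ V, Alt.append m hW hV, pv_append m W V⟩
  | inv x _ hx =>
    obtain ⟨V, hV, rfl⟩ := hx
    exact ⟨wi m V, Alt.wi m hV, pv_wi m V⟩

/-- reduction of alternating words -/
theorem alt_reduce {s t : Bool} {V : List (ZMod m × Bool)} (h : Alt m s V t) :
    ∃ V', Alt m s V' t ∧ pv m V' = pv m V ∧ V'.IsChain (fun p q => p.1 ≠ q.1) := by
  induction V generalizing s with
  | nil => exact ⟨[], h, rfl, List.IsChain.nil⟩
  | cons p V ih =>
    obtain ⟨k, s'⟩ := p
    have h1 : s' = s := h.1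
    subst h1
    obtain ⟨V', h2, h3, h4⟩ := ih h.2
    rcases V' with _ | ⟨⟨l, u⟩, V''⟩
    · exact ⟨[(k, s')], ⟨rfl, h2⟩, by simp [pv, ← h3], List.IsChain.singleton _⟩
    · have hu : u = !s' := h2.1
      subst hu
      by_cases hkl : k = l
      · subst hkl
        refine ⟨V'', ?_, ?_, ?_⟩
        · have := h2.2
          rwa [Bool.not_not] at this
        · rw [pv, ← h3, pv, mul_assoc, lt_not, mul_one]
        · exact h4.tail
      · refine ⟨(k, s') :: (l, !s') :: V'', ⟨rfl, h2⟩, by rw [pv, h3, pv], ?_⟩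
        exact List.IsChain.cons_cons hkl h4

/-- transition between directed edges with alternating word `v` -/
def Tr (p q : Gam m × Bool) (v : List (ZMod m × Bool)) : Prop :=
  Alt m p.2 v q.2 ∧ v.IsChain (fun p q => p.1 ≠ q.1) ∧ q.1 = ii m (pv m v) * p.1

theorem Tr.nil {p q : Gam m × Bool} (h : Tr m p q []) : q = (p.1, !p.2) := by
  obtain ⟨h1, -, h3⟩ := h
  simp only [Alt] at h1
  simp only [pv, map_one, one_mul] at h3
  exact Prod.ext h3 h1

/-- walk from the directed edge `p` along `L` to the directed edge `q`, with total word `V` -/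
inductive WW : (Gam m × Bool) → List (Gam m × Bool) → (Gam m × Bool) → List (ZMod m × Bool) → Prop
  | single {p q v} (h : Tr m p q v) : WW p [] q v
  | cons {p p' q v L V} (h : Tr m p p' v) (h' : WW p' L q V) : WW p (p' :: L) q (v ++ V)

theorem WW.pos {p q : Gam m × Bool} {L : List (Gam m × Bool)} {V : List (ZMod m × Bool)}
    (h : WW m p L q V) : q.1 = ii m (pv m V) * p.1 := by
  induction h with
  | single h => exact h.2.2
  | cons h h' ih => rw [ih, h.2.2, pv_append, map_mul, mul_assoc]

/-- no backtracks -/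
def NB (L : List (Gam m × Bool)) : Prop := ∀ A B y d, L ≠ A ++ (y, d) :: (y, !d) :: B

theorem NB.tail {p : Gam m × Bool} {L : List (Gam m × Bool)} (h : NB m (p :: L)) : NB m L := by
  intro A B y d hL
  exact h (p :: A) B y d (by rw [hL]; rfl)

theorem NB.ne_nil {p p' : Gam m × Bool} {L : List (Gam m × Bool)} {v : List (ZMod m × Bool)}
    (h : NB m (p :: p' :: L)) (ht : Tr m p p' v) : v ≠ [] := by
  rintro rfl
  have := ht.nil
  exact h [] L p.1 p.2 (by rw [this]; rfl)

theorem Alt.head {s t : Bool} {c : ZMod m × Bool} {v : List (ZMod m × Bool)}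
    (h : Alt m s (c :: v) t) : c.2 = s := h.1

/-- first sign -/
theorem WW.head {p q : Gam m × Bool} {L : List (Gam m × Bool)} {c : ZMod m × Bool}
    {V : List (ZMod m × Bool)} (h : WW m p L q (c :: V)) (hb : NB m (p :: L)) : c.2 = p.2 := by
  generalize hW : c :: V = W at h
  cases h with
  | single h =>
    subst hW
    exact h.1.1
  | @cons p p' q v L V' h h' =>
    have hv := NB.ne_nil m hb h
    rcases v with _ | ⟨c', v⟩
    · exact absurd rfl hv
    · rw [List.cons_append, List.cons.injEq] at hW
      rw [hW.1]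
      exact h.1.1

/-- last sign of an alternating word -/
theorem Alt.getLast {s t : Bool} {v : List (ZMod m × Bool)} (h : Alt m s v t) :
    ∀ c ∈ v.getLast?, c.2 = t := by
  induction v generalizing s with
  | nil => simp
  | cons p v ih =>
    intro c hc
    rcases v with _ | ⟨p', v'⟩
    · simp only [List.getLast?_singleton, Option.mem_def, Option.some.injEq] at hc
      subst hc
      have h2 : t = !(!s) := h.2
      rw [Bool.not_not] at h2
      rw [h2]
      exact h.1
    · rw [List.getLast?_cons_cons] at hc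
      exact ih h.2 c hc

/-- reducedness -/
def Red (V : List (ZMod m × Bool)) : Prop := V.IsChain fun p q => p.1 = q.1 → p.2 = q.2

theorem WW.red {p q : Gam m × Bool} {L : List (Gam m × Bool)} {V : List (ZMod m × Bool)}
    (h : WW m p L q V) (hb : NB m L) : Red m V := by
  induction h with
  | single h => exact h.2.1.imp fun a b hab hab' => absurd hab' hab
  | @cons p p' q v L V' h h' ih =>
    unfold Red
    rw [List.isChain_append]
    refine ⟨h.2.1.imp fun a b hab hab' => absurd hab' hab, ih hb.tail, ?_⟩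
    intro x hx y hy _
    have h1 := Alt.getLast m h.1 x hx
    rcases V' with _ | ⟨c, V'⟩
    · simp at hy
    · simp only [List.head?_cons, Option.mem_def, Option.some.injEq] at hy
      subst hy
      rw [h1, WW.head m h' hb]

/-- `r` consecutive letters of sign `s`, time order -/
def cons' (s : Bool) : ZMod m → ℕ → List (ZMod m × Bool)
  | _, 0 => []
  | k, r + 1 => (k, s) :: cons' s (if s then k + 1 else k - 1) r

/-- the edges before the letters of `cons'` -/
def ced (s : Bool) : Gam m → ZMod m → ℕ → List (Gam m × Bool)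
  | _, _, 0 => []
  | x, k, r + 1 => (x, s) :: ced s (ii m (lt m (k, s)) * x) (if s then k + 1 else k - 1) r

theorem WW.run0 {q : Gam m × Bool} {s : Bool} (r : ℕ) (hr : r ≠ 0) :
    ∀ (p : Gam m × Bool) (L : List (Gam m × Bool)) (k : ZMod m) (B : List (ZMod m × Bool)),
    WW m p L q (cons' m s k r ++ B) → NB m (p :: L) → s = p.2 →
    ∃ B', p :: L = ced m s p.1 k r ++ B' := by
  induction r with
  | zero => exact absurd rfl hr
  | succ r ih =>
    intro p L k B h hb hs
    obtain ⟨x, s'⟩ := p
    simp only at hs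
    subst hs
    by_cases hr0 : r = 0
    · subst hr0
      exact ⟨L, rfl⟩
    · obtain ⟨r', rfl⟩ := Nat.exists_eq_succ_of_ne_zero hr0
      generalize hW : cons' m s k (r' + 1 + 1) ++ B = W at h
      simp only [cons', List.cons_append] at hW
      cases h with
      | single h =>
        subst hW
        exfalso
        have h1 := h.1.2.1
        simp at h1
      | @cons p p' q v L V' h h' =>
        have hv := NB.ne_nil m hb h
        rcases v with _ | ⟨c', v⟩
        · exact absurd rfl hv
        · rw [List.cons_append, List.cons.injEq] at hW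
          obtain ⟨rfl, hW⟩ := hW
          rcases v with _ | ⟨c'', v⟩
          · rw [List.nil_append] at hW
            obtain ⟨x', s''⟩ := p'
            have h1 : s'' = !(!s) := h.1.2
            rw [Bool.not_not] at h1
            subst h1
            have h2 : x' = ii m (pv m [(k, s'')]) * x := h.2.2
            simp only [pv, one_mul] at h2
            rw [← hW] at h'
            obtain ⟨B', hB'⟩ := ih (by simp) (x', s'') L (if s'' then k + 1 else k - 1) B
              (by simpa only [cons', List.cons_append] using h') hb.tail rfl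
            refine ⟨B', ?_⟩
            rw [hB', h2]
            rfl
          · exfalso
            rw [List.cons_append, List.cons.injEq] at hW
            have h1 := h.1.2.1
            rw [← hW.1] at h1
            simp at h1

theorem Alt.adj {s t : Bool} {A B : List (ZMod m × Bool)} {c c' : ZMod m × Bool}
    (h : Alt m s (A ++ c :: c' :: B) t) : c'.2 = !c.2 := by
  induction A generalizing s with
  | nil =>
    have h1 := h.1
    have h2 := h.2.1
    rw [h1, h2]
  | cons p A ih => exact ih h.2

theorem WW.run {p q : Gam m × Bool} {L : List (Gam m × Bool)} {V : List (ZMod m × Bool)}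
    (h : WW m p L q V) (hb : NB m L) {s : Bool} (r : ℕ) (hr : r ≠ 0)
    (A B : List (ZMod m × Bool)) (k : ZMod m) (hV : V = A ++ (cons' m s k (r + 1) ++ B)) :
    ∃ A' B' x', L = A' ++ ced m s x' (if s then k + 1 else k - 1) r ++ B' := by
  obtain ⟨r', rfl⟩ := Nat.exists_eq_succ_of_ne_zero hr
  induction h generalizing A with
  | single h =>
    exfalso
    rw [hV] at h
    simp only [cons', List.cons_append] at h
    have h1 := Alt.adj m h.1
    simp at h1
  | @cons p p' q v L V' h h' ih =>
    rcases List.append_eq_append_iff.1 hV with ⟨a', ha, hV'⟩ | ⟨c', hc, hC⟩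
    · obtain ⟨A', B', x', hL⟩ := ih hb.tail a' hV'
      exact ⟨p' :: A', B', x', by rw [hL]; rfl⟩
    · rcases c' with _ | ⟨c1, c''⟩
      · obtain ⟨A', B', x', hL⟩ := ih hb.tail [] (by rw [List.nil_append]; exact hC.symm)
        exact ⟨p' :: A', B', x', by rw [hL]; rfl⟩
      · simp only [cons', List.cons_append, List.cons.injEq] at hC
        obtain ⟨rfl, hC⟩ := hC
        rcases c'' with _ | ⟨c2, c''⟩
        · rw [List.nil_append] at hC
          have hs : s = p'.2 := by
            have := Alt.getLast m h.1 (k, s) (by rw [hc]; simp)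
            exact this
          obtain ⟨B', hB'⟩ := WW.run0 m (r' + 1) (by simp) p' L (if s then k + 1 else k - 1) B
            (by simp only [cons', List.cons_append]; rw [hC]; exact h') hb hs
          exact ⟨[], B', p'.1, by rw [hB']; rfl⟩
        · exfalso
          rw [List.cons_append, List.cons.injEq] at hC
          rw [hc, ← hC.1] at h
          have h1 := Alt.adj m h.1
          simp at h1

theorem ced_true (r : ℕ) : ∀ (x : Gam m) (k : ZMod m),
    ced m true x k r = (List.range r).map
      fun j : ℕ => (ii m (hh m (k + (j : ZMod m))) * (ii m (hh m k))⁻¹ * x, true) := by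
  induction r with
  | zero => intro x k; rfl
  | succ r ih =>
    intro x k
    rw [List.range_succ_eq_map, List.map_cons, List.map_map, ced, ih]
    simp only [Nat.cast_zero, add_zero, mul_inv_cancel, one_mul, List.cons.injEq, true_and,
      if_true]
    apply List.map_congr_left
    intro j _
    simp only [Function.comp_apply, Prod.mk.injEq, and_true, lt, if_true, bb, map_mul, map_inv,
      Nat.succ_eq_add_one, Nat.cast_add, Nat.cast_one]
    rw [show k + 1 + (j : ZMod m) = k + ((j : ZMod m) + 1) by ring]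
    group

theorem ced_false (r : ℕ) : ∀ (x : Gam m) (k : ZMod m),
    ced m false x k r = (List.range r).map
      fun j : ℕ => (ii m (hh m (k + 1 - (j : ZMod m))) * (ii m (hh m (k + 1)))⁻¹ * x, false) := by
  induction r with
  | zero => intro x k; rfl
  | succ r ih =>
    intro x k
    rw [List.range_succ_eq_map, List.map_cons, List.map_map, ced, ih]
    simp only [Nat.cast_zero, sub_zero, mul_inv_cancel, one_mul, List.cons.injEq, true_and,
      if_false, Bool.false_eq_true]
    apply List.map_congr_left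
    intro j _
    simp only [Function.comp_apply, Prod.mk.injEq, and_true, lt, if_false, bb, map_mul, map_inv,
      Nat.succ_eq_add_one, Nat.cast_add, Nat.cast_one, Bool.false_eq_true]
    rw [show k - 1 + 1 - (j : ZMod m) = k + 1 - ((j : ZMod m) + 1) by ring, sub_add_cancel]
    group

theorem cons'_true (r : ℕ) : ∀ k : ZMod m,
    cons' m true k r = (List.range r).map fun j : ℕ => (k + (j : ZMod m), true) := by
  induction r with
  | zero => intro k; rfl
  | succ r ih =>
    intro k
    rw [List.range_succ_eq_map, List.map_cons, List.map_map, cons', ih]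
    simp only [Nat.cast_zero, add_zero, List.cons.injEq, true_and, if_true]
    apply List.map_congr_left
    intro j _
    simp only [Function.comp_apply, Prod.mk.injEq, and_true, Nat.succ_eq_add_one, Nat.cast_add,
      Nat.cast_one]
    ring

theorem cons'_false (r : ℕ) : ∀ k : ZMod m,
    cons' m false k r = (List.range r).map fun j : ℕ => (k - (j : ZMod m), false) := by
  induction r with
  | zero => intro k; rfl
  | succ r ih =>
    intro k
    rw [List.range_succ_eq_map, List.map_cons, List.map_map, cons', ih]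
    simp only [Nat.cast_zero, sub_zero, List.cons.injEq, true_and, if_false, Bool.false_eq_true]
    apply List.map_congr_left
    intro j _
    simp only [Function.comp_apply, Prod.mk.injEq, and_true, Nat.succ_eq_add_one, Nat.cast_add,
      Nat.cast_one]
    ring

theorem cast_aux {j : ℕ} (hj : j < m) : ((m - 1 - j : ℕ) : ZMod m) = -1 - (j : ZMod m) := by
  have h : ((m - 1 - j : ℕ) : ZMod m) + (j : ZMod m) + 1 = ((m : ℕ) : ZMod m) := by
    rw [← Nat.cast_add, ← Nat.cast_add_one]
    congr 1
    omega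
  rw [ZMod.natCast_self] at h
  linear_combination h

theorem rev_true (k : ZMod m) :
    ((List.range m).map (fun j : ℕ => (k - (j : ZMod m), true))).reverse
      = cons' m true (k + 1) m := by
  rw [cons'_true]
  apply List.ext_getElem
  · simp
  · intro i h1 h2
    simp only [List.length_reverse, List.length_map, List.length_range] at h1
    simp only [List.getElem_reverse, List.getElem_map, List.getElem_range, List.length_map,
      List.length_range, Prod.mk.injEq, and_true]
    rw [cast_aux m h1]
    ring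

theorem rev_false (k : ZMod m) :
    ((List.range m).map (fun j : ℕ => (k + (j : ZMod m), false))).reverse
      = cons' m false (k - 1) m := by
  rw [cons'_false]
  apply List.ext_getElem
  · simp
  · intro i h1 h2
    simp only [List.length_reverse, List.length_map, List.length_range] at h1
    simp only [List.getElem_reverse, List.getElem_map, List.getElem_range, List.length_map,
      List.length_range, Prod.mk.injEq, and_true]
    rw [cast_aux m h1]
    ring

theorem coe_range (n : ℕ) :
    (do let a ← List.range n; pure (a : ZMod m)) = (List.range n).map (Nat.cast : ℕ → ZMod m) := by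
  rw [List.map_eq_flatMap]
  rfl

/-- no closed walk in `Γ₀` without backtracks and runs -/
theorem closed [NeZero m] (hm : 3 ≤ m) {p : Gam m × Bool} {L : List (Gam m × Bool)}
    {V : List (ZMod m × Bool)} (h : WW m p L p V) (hb : NB m L)
    (hf : ¬ ∃ A B q k, L = A ++ (DD m hm).fwdRun q k ++ B)
    (hw : ¬ ∃ A B q k, L = A ++ (DD m hm).bwdRun q k ++ B) : L = [(p.1, !p.2)] := by
  have hV : V = [] := by
    by_contra hne
    have h1 : pv m V = 1 := by
      have h2 := h.pos
      have h3 : ii m (pv m V) = 1 := by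
        apply mul_right_cancel (b := p.1)
        rw [one_mul]
        exact h2.symm
      exact SemidirectProduct.inr_injective (h3.trans (map_one _).symm)
    have hm1 : m - 1 + 1 = m := by omega
    refine syllable m hm V.reverse (by simpa using hne) ?_ ?_ ?_ ?_
    · rw [List.isChain_reverse]
      exact (h.red m hb).imp fun a b hab hab' => (hab hab'.symm).symm
    · rintro ⟨A, B, k, hV⟩
      have hV' : V = B.reverse ++ (cons' m true (k + 1) (m - 1 + 1) ++ A.reverse) := by
        rw [hm1, ← rev_true, ← List.reverse_reverse V, hV]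
        simp
      obtain ⟨A', B', x', hL⟩ := h.run m hb (m - 1) (by omega) _ _ _ hV'
      apply hf
      refine ⟨A', B', (ii m (hh m (k + 1 + 1)))⁻¹ * x', k + 1, ?_⟩
      rw [hL, if_pos rfl, ced_true]
      congr 2
      unfold GD.fwdRun
      rw [coe_range, List.map_map]
      apply List.map_congr_left
      intro j _
      simp only [DD, smul_eq_mul, mul_assoc, Function.comp_apply]
    · rintro ⟨A, B, k, hV⟩
      have hV' : V = B.reverse ++ (cons' m false (k - 1) (m - 1 + 1) ++ A.reverse) := by
        rw [hm1, ← rev_false, ← List.reverse_reverse V, hV]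
        simp
      obtain ⟨A', B', x', hL⟩ := h.run m hb (m - 1) (by omega) _ _ _ hV'
      apply hw
      refine ⟨A', B', (ii m (hh m (k - 1)))⁻¹ * x', k, ?_⟩
      rw [hL, if_neg (by simp), ced_false]
      congr 2
      unfold GD.bwdRun
      rw [coe_range, List.map_map]
      apply List.map_congr_left
      intro j _
      simp only [DD, smul_eq_mul, mul_assoc, sub_add_cancel, Function.comp_apply]
    · have := pv_reverse m V
      rw [h1] at this
      exact this
  subst hV
  generalize hW : ([] : List (ZMod m × Bool)) = W at h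
  generalize hq : p = q at h
  cases h with
  | single h =>
    subst hq
    subst hW
    have := h.nil
    have h2 := congrArg Prod.snd this
    simp at h2
  | @cons _ p' _ v L V' h h' =>
    subst hq
    have hv := List.append_eq_nil_iff.1 hW.symm
    obtain ⟨rfl, rfl⟩ := hv
    have h1 := h.nil
    generalize hW' : ([] : List (ZMod m × Bool)) = W' at h'
    cases h' with
    | single h' => rw [h1]
    | @cons _ p'' _ v' L V'' h2 h3 =>
      exfalso
      have hv := List.append_eq_nil_iff.1 hW'.symm
      obtain ⟨rfl, rfl⟩ := hv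
      exact NB.ne_nil m hb h2 rfl

/-- position of the end of a directed edge -/
def kp (p : Gam m × Bool) : Gam m := if p.2 then ii m (hh m 1) * p.1 else p.1

/-- walks with transitions in `F` -/
def FW : Gam m → List (Gam m × Bool) → Gam m → Prop
  | x, [], y => ∃ f ∈ FF m, ii m f * x = y
  | x, p :: L, y => (∃ f ∈ FF m, ii m f * x = kp m (p.1, !p.2)) ∧ FW (kp m p) L y

theorem hh_one : hh m 1 = bb m 0 := by simp [bb, hh]

theorem tr_exists (p q : Gam m × Bool) (h : ∃ f ∈ FF m, ii m f * kp m p = kp m (q.1, !q.2)) :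
    ∃ v, Tr m p q v := by
  obtain ⟨f, hf, h⟩ := h
  obtain ⟨V, hV, rfl⟩ := alt_of_FF m hf
  obtain ⟨x, d⟩ := p
  obtain ⟨y, d'⟩ := q
  have h1 : Alt m d ((if d then [((0 : ZMod m), true)] else []) ++ V) true := by
    cases d
    · simpa using hV
    · exact ⟨rfl, hV⟩
  have h2 : Alt m d (((if d then [((0 : ZMod m), true)] else []) ++ V) ++
      (if d' then [] else [((0 : ZMod m), false)])) d' := by
    refine Alt.append m h1 ?_
    cases d' <;> simp [Alt]
  obtain ⟨v, h3, h4, h5⟩ := alt_reduce m h2
  refine ⟨v, h3, h5, ?_⟩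
  simp only at *
  rw [h4, pv_append, pv_append]
  have h6 : ii m (pv m V) * (ii m (pv m (if d then [((0 : ZMod m), true)] else [])) * x)
      = kp m (y, !d') := by
    rw [← h]
    cases d <;> simp [kp, pv, lt, hh_one]
  rw [map_mul, map_mul, mul_assoc, mul_assoc, h6]
  cases d' <;> simp [kp, pv, lt, hh_one]

theorem ww_of_fw (q : Gam m × Bool) (L : List (Gam m × Bool)) :
    ∀ p, FW m (kp m p) L (kp m (q.1, !q.2)) → ∃ V, WW m p L q V := by
  induction L with
  | nil =>
    intro p h
    obtain ⟨v, hv⟩ := tr_exists m p q h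
    exact ⟨v, .single hv⟩
  | cons p' L ih =>
    intro p h
    obtain ⟨v, hv⟩ := tr_exists m p p' h.1
    obtain ⟨V, hV⟩ := ih p' h.2
    exact ⟨v ++ V, .cons hv hV⟩

theorem FW.end_ {L : List (Gam m × Bool)} {y : Gam m} {f : G0 m} (hf : f ∈ FF m) :
    ∀ x, FW m x L y → FW m x L (ii m f * y) := by
  induction L with
  | nil =>
    rintro x ⟨f', hf', h⟩
    exact ⟨f * f', mul_mem hf hf', by rw [map_mul, mul_assoc, h]⟩
  | cons p L ih =>
    rintro x ⟨h1, h2⟩
    exact ⟨h1, ih _ h2⟩

theorem act_of (u g : G0 m) : (act m u) (FreeGroup.of (g : G0 m ⧸ FF m))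
    = FreeGroup.of ((u * g : G0 m) : G0 m ⧸ FF m) := by
  simp [act]

theorem zz_comm {f : G0 m} (hf : f ∈ FF m) : ii m f * zz m = zz m * ii m f := by
  have h : (act m f) (FreeGroup.of ((1 : G0 m) : G0 m ⧸ FF m))
      = FreeGroup.of ((1 : G0 m) : G0 m ⧸ FF m) := by
    rw [act_of]
    congr 1
    exact QuotientGroup.eq.2 (by simpa using inv_mem hf)
  have h2 := SemidirectProduct.inl_aut (φ := act m) f (FreeGroup.of ((1 : G0 m) : G0 m ⧸ FF m))
  rw [h] at h2
  unfold zz ii
  nth_rewrite 2 [h2]
  rw [mul_assoc, ← map_mul, inv_mul_cancel, map_one, mul_one]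

theorem tt_decomp {t : Gam m} (ht : t ∈ TT m) : ∃ (k : ℤ) (f : G0 m), f ∈ FF m ∧
    t = zz m ^ k * ii m f := by
  have hc : ∀ f ∈ FF m, ∀ k : ℤ, ii m f * zz m ^ k = zz m ^ k * ii m f := fun f hf k =>
    ((show Commute (ii m f) (zz m) from zz_comm m hf).zpow_right k).eq
  induction ht using Subgroup.closure_induction with
  | mem x hx =>
    rcases hx with hx | ⟨f, hf, rfl⟩
    · rw [Set.mem_singleton_iff] at hx
      subst hx
      exact ⟨1, 1, one_mem _, by simp⟩
    · exact ⟨0, f, hf, by simp⟩
  | one => exact ⟨0, 1, one_mem _, by simp⟩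
  | mul x y _ _ hx hy =>
    obtain ⟨k, f, hf, rfl⟩ := hx
    obtain ⟨l, g, hg, rfl⟩ := hy
    refine ⟨k + l, f * g, mul_mem hf hg, ?_⟩
    rw [zpow_add, map_mul, mul_assoc, ← mul_assoc (ii m f), hc f hf]
    simp only [mul_assoc]
  | inv x _ hx =>
    obtain ⟨k, f, hf, rfl⟩ := hx
    refine ⟨-k, f⁻¹, inv_mem hf, ?_⟩
    rw [mul_inv_rev, ← map_inv, ← zpow_neg, hc _ (inv_mem hf)]

/-- the reduced word of `ν` starts with `(c, b)` -/
def Hd (ν : FreeGroup (G0 m ⧸ FF m)) (c : G0 m ⧸ FF m) (b : Bool) : Prop :=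
  ∃ W, FreeGroup.IsReduced ((c, b) :: W) ∧ ν = FreeGroup.mk ((c, b) :: W)

theorem Hd.ne_one {ν : FreeGroup (G0 m ⧸ FF m)} {c : G0 m ⧸ FF m} {b : Bool} (h : Hd m ν c b) :
    ν ≠ 1 := by
  classical
  obtain ⟨W, h1, rfl⟩ := h
  intro h2
  have h3 := congrArg FreeGroup.toWord h2
  rw [FreeGroup.toWord_mk, h1.reduce_eq, FreeGroup.toWord_one] at h3
  simp at h3

theorem Hd.act {ν : FreeGroup (G0 m ⧸ FF m)} {u g : G0 m} {b : Bool}
    (h : Hd m ν (g : G0 m ⧸ FF m) b) :
    Hd m (act m u ν) ((u * g : G0 m) : G0 m ⧸ FF m) b := by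
  obtain ⟨W, h1, rfl⟩ := h
  refine ⟨W.map (fun p => (u • p.1, p.2)), ?_, ?_⟩
  · have h2 : FreeGroup.IsReduced
        (((((g : G0 m) : G0 m ⧸ FF m), b) :: W).map (fun p => (u • p.1, p.2))) := by
      unfold FreeGroup.IsReduced at *
      rw [List.isChain_map]
      refine h1.imp ?_
      intro p q hpq hpq'
      exact hpq (smul_left_cancel u hpq')
    simpa using h2
  · show FreeGroup.map (MulAction.toPerm u) (FreeGroup.mk _) = _
    rw [FreeGroup.map.mk]
    rfl

theorem Hd.mul {ν : FreeGroup (G0 m ⧸ FF m)} {c c' : G0 m ⧸ FF m} {b b' : Bool}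
    (h : Hd m ν c b) (hcc : c = c' → b = b') : Hd m (FreeGroup.mk [(c', b')] * ν) c' b' := by
  obtain ⟨W, h1, rfl⟩ := h
  refine ⟨(c, b) :: W, ?_, ?_⟩
  · unfold FreeGroup.IsReduced at *
    exact List.IsChain.cons_cons (fun h => (hcc h.symm).symm) h1
  · rw [FreeGroup.mul_mk]
    rfl

theorem Hd.single (c' : G0 m ⧸ FF m) (b' : Bool) : Hd m (FreeGroup.mk [(c', b')]) c' b' :=
  ⟨[], List.IsChain.singleton _, rfl⟩

theorem Hd.pow {ν : FreeGroup (G0 m ⧸ FF m)} {c' : G0 m ⧸ FF m} {b' : Bool}
    (h : ν = 1 ∨ ∃ c b, Hd m ν c b ∧ c ≠ c') (n : ℕ) :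
    Hd m (FreeGroup.mk [(c', b')] ^ (n + 1) * ν) c' b' := by
  induction n with
  | zero =>
    rw [zero_add, pow_one]
    rcases h with rfl | ⟨c, b, h, hc⟩
    · rw [mul_one]
      exact Hd.single m c' b'
    · exact h.mul m (fun h => absurd h hc)
  | succ n ih =>
    rw [pow_succ', mul_assoc]
    exact ih.mul m (fun _ => rfl)

theorem Hd.zpow {ν : FreeGroup (G0 m ⧸ FF m)} {c' : G0 m ⧸ FF m}
    (h : ν = 1 ∨ ∃ c b, Hd m ν c b ∧ c ≠ c') {k : ℤ} (hk : k ≠ 0) :
    ∃ b', Hd m (FreeGroup.of c' ^ k * ν) c' b' := by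
  rcases lt_or_gt_of_ne hk with hk | hk
  · refine ⟨false, ?_⟩
    obtain ⟨n, hn⟩ : ∃ n : ℕ, k = -(((n + 1 : ℕ)) : ℤ) := ⟨k.natAbs - 1, by omega⟩
    have h1 : FreeGroup.of c' ^ k = FreeGroup.mk [(c', false)] ^ (n + 1) := by
      rw [hn, zpow_neg, zpow_natCast, ← inv_pow]
      rfl
    rw [h1]
    exact Hd.pow m h n
  · refine ⟨true, ?_⟩
    obtain ⟨n, hn⟩ : ∃ n : ℕ, k = (((n + 1 : ℕ)) : ℤ) := ⟨k.natAbs - 1, by omega⟩
    have h1 : FreeGroup.of c' ^ k = FreeGroup.mk [(c', true)] ^ (n + 1) := by
      rw [hn, zpow_natCast]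
      rfl
    rw [h1]
    exact Hd.pow m h n

theorem left_aux (k : ℤ) (u : G0 m) (g : Gam m) :
    (zz m ^ k * (ii m u * g)).left
      = FreeGroup.of ((1 : G0 m) : G0 m ⧸ FF m) ^ k * act m u g.left := by
  have h1 : zz m ^ k = SemidirectProduct.inl (FreeGroup.of ((1 : G0 m) : G0 m ⧸ FF m) ^ k) := by
    unfold zz
    rw [map_zpow]
  rw [h1]
  simp only [ii, SemidirectProduct.mul_left, SemidirectProduct.left_inl,
    SemidirectProduct.right_inl, SemidirectProduct.left_inr, SemidirectProduct.right_inr, map_one,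
    one_mul, MulAut.one_apply]

/-- elimination of `z` -/
theorem zelim [NeZero m] (hm : 3 ≤ m) (y : Gam m) (L : List (Gam m × Bool)) :
    ∀ x, (DD m hm).KWalk x L y → ∃ g : Gam m, x = g * y ∧
      ((FW m x L y ∧ g.left = 1) ∨
      (∃ A M B p p', L = A ++ (M ++ B) ∧ M ≠ [] ∧ FW m p M p' ∧ ∃ f ∈ FF m, ii m f * p' = p) ∨
      (∃ (b : Bool) (w : Gam m) (u : G0 m) (M L1 : List (Gam m × Bool)), L = M ++ L1 ∧
        FW m x M w ∧ x = ii m u * w ∧ Hd m g.left (u : G0 m ⧸ FF m) b)) := by
  induction L with
  | nil =>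
    rintro x ⟨t, ht, h⟩
    obtain ⟨k, f, hf, hkf⟩ := tt_decomp m (inv_mem ht : t⁻¹ ∈ TT m)
    have hx : x = zz m ^ k * (ii m f * 1) * y := by
      rw [mul_one, ← hkf, ← h, smul_eq_mul, inv_mul_cancel_left]
    refine ⟨zz m ^ k * (ii m f * 1), hx, ?_⟩
    rw [left_aux]
    by_cases hk : k = 0
    · left
      subst hk
      refine ⟨⟨f⁻¹, inv_mem hf, ?_⟩, by simp⟩
      rw [hx, map_inv]
      simp
    · right; right
      obtain ⟨b, hb⟩ := Hd.zpow m (ν := act m f (1 : Gam m).left)
        (c' := ((1 : G0 m) : G0 m ⧸ FF m)) (Or.inl (by simp)) hk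
      exact ⟨b, x, 1, [], [], rfl, ⟨1, one_mem _, by simp⟩, by simp, hb⟩
  | cons p L ih =>
    rintro x ⟨⟨t, ht, h⟩, h'⟩
    obtain ⟨k, f, hf, hkf⟩ := tt_decomp m (inv_mem ht : t⁻¹ ∈ TT m)
    obtain ⟨g, hg, hcases⟩ := ih _ h'
    have he : ∃ e : G0 m, kp m (p.1, !p.2) = ii m e * kp m p := by
      obtain ⟨z, d⟩ := p
      cases d
      · exact ⟨hh m 1, by simp [kp]⟩
      · exact ⟨(hh m 1)⁻¹, by simp [kp]⟩
    obtain ⟨e, he⟩ := he
    have hkp : (DD m hm).kpos p = kp m p := rfl
    have hkp' : (DD m hm).kpos (p.1, !p.2) = kp m (p.1, !p.2) := rfl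
    rw [hkp] at hg hcases
    rw [hkp'] at h
    have hx0 : x = zz m ^ k * (ii m f * kp m (p.1, !p.2)) := by
      rw [← h, smul_eq_mul, ← mul_assoc, ← hkf, inv_mul_cancel_left]
    have hx : x = zz m ^ k * (ii m (f * e) * g) * y := by
      rw [hx0, he, hg, map_mul]
      simp only [mul_assoc]
    refine ⟨zz m ^ k * (ii m (f * e) * g), hx, ?_⟩
    rw [left_aux]
    -- a transition in `F`
    have hF : FW m (ii m f * kp m (p.1, !p.2)) [] (kp m (p.1, !p.2)) :=
      ⟨f⁻¹, inv_mem hf, by rw [map_inv, inv_mul_cancel_left]⟩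
    rcases hcases with ⟨h1, h2⟩ | ⟨A, M, B, q, q', h1, h2, h3, h4⟩ |
      ⟨b, w, u, M, L1, h1, h2, h3, h4⟩
    · by_cases hk : k = 0
      · left
        subst hk
        rw [zpow_zero, one_mul] at hx0
        refine ⟨⟨?_, h1⟩, by simp [h2]⟩
        rw [hx0]
        exact hF
      · right; right
        obtain ⟨b, hb⟩ := Hd.zpow m (ν := act m (f * e) g.left)
          (c' := ((1 : G0 m) : G0 m ⧸ FF m)) (Or.inl (by simp [h2])) hk
        exact ⟨b, x, 1, [], p :: L, rfl, ⟨1, one_mem _, by simp⟩, by simp, hb⟩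
    · right; left
      exact ⟨p :: A, M, B, q, q', by rw [h1]; rfl, h2, h3, h4⟩
    · have h5 := h4.act m (u := f * e)
      by_cases hk : k = 0
      · right; right
        subst hk
        rw [zpow_zero, one_mul] at hx0
        refine ⟨b, w, f * e * u, p :: M, L1, by rw [h1]; rfl, ⟨?_, h2⟩, ?_, ?_⟩
        · rw [hx0]
          exact hF
        · rw [hx0, he, h3, map_mul, map_mul]
          simp only [mul_assoc]
        · rw [zpow_zero, one_mul]
          exact h5
      · by_cases hc : ((f * e * u : G0 m) : G0 m ⧸ FF m) = ((1 : G0 m) : G0 m ⧸ FF m)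
        · right; left
          have hu : f * e * u ∈ FF m := by
            have := QuotientGroup.eq.1 hc.symm
            simpa using this
          have hu' : e * u ∈ FF m := by
            have := mul_mem (inv_mem hf) hu
            rwa [mul_assoc, inv_mul_cancel_left] at this
          refine ⟨[], p :: M, L1, kp m (p.1, !p.2), w, by rw [h1]; rfl, by simp,
            ⟨⟨1, one_mem _, by simp⟩, h2⟩, e * u, hu', ?_⟩
          rw [he, h3, map_mul, mul_assoc]
        · right; right
          obtain ⟨b', hb'⟩ := Hd.zpow m (ν := act m (f * e) g.left)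
            (c' := ((1 : G0 m) : G0 m ⧸ FF m)) (Or.inr ⟨_, _, h5, hc⟩) hk
          exact ⟨b', x, 1, [], p :: L, rfl, ⟨1, one_mem _, by simp⟩, by simp, hb'⟩

end DG

/-- the Dehn property for the left multiplication action of `Gam m` on itself -/
theorem dehn_Gam (m : ℕ) [NeZero m] (hm : 3 ≤ m) : (DD m hm).DehnOn (Gam m) := by
  intro x L hL
  by_cases hb : ∃ A B y d, L = A ++ (y, d) :: (y, !d) :: B
  · exact Or.inr (Or.inl hb)
  by_cases hf : ∃ A B q k, L = A ++ (DD m hm).fwdRun q k ++ B
  · exact Or.inr (Or.inr (Or.inl hf))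
  by_cases hw : ∃ A B q k, L = A ++ (DD m hm).bwdRun q k ++ B
  · exact Or.inr (Or.inr (Or.inr hw))
  left
  have ha : (DD m hm).a • x = ii m (hh m 1) * x := rfl
  rw [ha] at hL
  obtain ⟨g, hg, hc⟩ := DG.zelim m hm _ L x hL
  rcases hc with ⟨h1, h2⟩ | ⟨A, M, B, p, p', h1, h2, h3, f, hf1, hf2⟩ |
    ⟨b, w, u, M, L1, h1, h2, h3, h4⟩
  · obtain ⟨V, hV⟩ := DG.ww_of_fw m (x, false) L (x, false) h1
    exact DG.closed m hm hV (fun A B y d h => hb ⟨A, B, y, d, h⟩) hf hw
  · exfalso
    rcases M with _ | ⟨q, M⟩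
    · exact h2 rfl
    obtain ⟨⟨f', hf', h4⟩, h5⟩ := h3
    have h6 : DG.FW m (DG.kp m q) M (DG.kp m (q.1, !q.2)) := by
      rw [← h4, ← hf2, ← mul_assoc, ← map_mul]
      exact DG.FW.end_ m (mul_mem hf' hf1) _ h5
    obtain ⟨V, hV⟩ := DG.ww_of_fw m q M q h6
    have h7 := DG.closed m hm hV ?_ ?_ ?_
    · apply hb
      refine ⟨A, B, q.1, q.2, ?_⟩
      rw [h1, h7]
      rfl
    · intro A' B' y d h
      apply hb
      refine ⟨A ++ q :: A', B' ++ B, y, d, ?_⟩
      rw [h1, h]
      simp
    · rintro ⟨A', B', y, d, h⟩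
      apply hf
      refine ⟨A ++ q :: A', B' ++ B, y, d, ?_⟩
      rw [h1, h]
      simp
    · rintro ⟨A', B', y, d, h⟩
      apply hw
      refine ⟨A ++ q :: A', B' ++ B, y, d, ?_⟩
      rw [h1, h]
      simp
  · exfalso
    have h5 : g = ii m (hh m 1)⁻¹ := by
      rw [← mul_assoc] at hg
      have h6 : g * ii m (hh m 1) = 1 := by
        apply mul_right_cancel (b := x)
        rw [one_mul]
        exact hg.symm
      rw [map_inv]
      exact eq_inv_of_mul_eq_one_left h6
    apply h4.ne_one
    rw [h5]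
    rfl

end Crest.Agent.FP
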