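import Crest.Agent.FP.Ops

/-! Row 191 (S0291), chunk DD: discarding (1,1)-vertices, deterministic part. -/
set_option autoImplicit false

namespace Crest.Agent.FP

namespace Sys

variable {Γ : Type} [Group Γ] {m : ℕ} [NeZero m] {X : Type} [MulAction Γ X] {D : GD Γ m}

theorem dd_sameT_refl (x : X) : D.SameT x x := ⟨1, D.T.one_mem, one_smul _ _⟩

theorem dd_sameT_symm {x y : X} (h : D.SameT x y) : D.SameT y x := by
  obtain ⟨t, ht, rfl⟩ := h
  exact ⟨t⁻¹, D.T.inv_mem ht, inv_smul_smul _ _⟩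

theorem dd_sameT_trans {x y z : X} (h : D.SameT x y) (h' : D.SameT y z) : D.SameT x z := by
  obtain ⟨t, ht, rfl⟩ := h
  obtain ⟨s, hs, rfl⟩ := h'
  exact ⟨s * t, D.T.mul_mem hs ht, mul_smul _ _ _⟩

/-- strong uniqueness at a (1,1)-corner -/
theorem dd_C11_uniq (hfree : ∀ (g : Γ) (x : X), g • x = x → g = 1)
    (Y : Sys Γ X m) (hY : Y.Ax D) {f f' : X × ℕ}
    (hf' : f' ∈ Y.Fs) {k k' : ZMod m} (h : Y.C11 D f k)
    (he : Y.fed D f' k' = Y.fed D f k) : f' = f ∧ k' = k := by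
  obtain ⟨hf, hP, hc⟩ := h
  have h1 := hY.F_V f' hf' k'
  rw [he] at h1
  rcases hc _ h1 with h2 | h2
  · exact absurd (congrArg Prod.snd h2) (by simp)
  · have h3 : Y.fed D f' (k'+1) = Y.fed D f (k+1) := congrArg Prod.fst h2
    have e1 : D.h k' • f'.1 = D.h k • f.1 := congrArg Prod.fst he
    have e2 : D.h (k'+1) • f'.1 = D.h (k+1) • f.1 := congrArg Prod.fst h3
    have e3 : (D.h (k'+1) * (D.h k')⁻¹) • (D.h k • f.1) =
        (D.h (k+1) * (D.h k)⁻¹) • (D.h k • f.1) := by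
      rw [← e1, mul_smul, inv_smul_smul, e2, e1, mul_smul, inv_smul_smul]
    have e3' : ((D.h (k+1) * (D.h k)⁻¹)⁻¹ * (D.h (k'+1) * (D.h k')⁻¹)) • (D.h k • f.1) =
        (D.h k • f.1) := by
      rw [mul_smul, e3, inv_smul_smul]
    have e4 : k' = k := by
      apply D.b_inj
      have := hfree _ _ e3'
      exact (inv_mul_eq_one.1 this).symm
    subst e4
    have e5 : f'.1 = f.1 := smul_left_cancel _ e1
    have e6 : Y.fe f' k' = Y.fe f k' := congrArg Prod.snd he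
    obtain ⟨q, j⟩ := f
    obtain ⟨q', j'⟩ := f'
    simp only at e5
    subst e5
    have := hY.F_inj _ _ _ _ hf' hf e6
    subst this
    exact ⟨rfl, rfl⟩

theorem dd_C11_uniq1 (hfree : ∀ (g : Γ) (x : X), g • x = x → g = 1)
    (Y : Sys Γ X m) (hY : Y.Ax D) {f f' : X × ℕ}
    (hf' : f' ∈ Y.Fs) {k k' : ZMod m} (h : Y.C11 D f k)
    (he : Y.fed D f' k' = Y.fed D f (k + 1)) : f' = f ∧ k' = k + 1 := by
  have h1 := hY.F_V f' hf' (k' - 1)
  rw [sub_add_cancel, he] at h1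
  have h2 := hY.F_V f h.1 k
  have h3 := hY.V_trans _ _ _ h2 (hY.V_symm _ _ h1)
  rcases h.2.2 _ h3 with h4 | h4
  · have h5 : Y.fed D f' (k' - 1) = Y.fed D f k := congrArg Prod.fst h4
    obtain ⟨h6, h7⟩ := dd_C11_uniq hfree Y hY hf' h h5
    exact ⟨h6, by rw [← h7, sub_add_cancel]⟩
  · exact absurd (congrArg Prod.snd h4) (by simp)

/-- a face contains an edge adjacent to a (1,1)-corner only if it is the face of the corner -/
theorem C11_unique (hm : 3 ≤ m) (hfree : ∀ (g : Γ) (x : X), g • x = x → g = 1)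
    (Y : Sys Γ X m) (hY : Y.Ax D) (hF : Y.Folded) (f f' : X × ℕ)
    (hf' : f' ∈ Y.Fs) (k k' : ZMod m) (h : Y.C11 D f k)
    (he : Y.fed D f' k' = Y.fed D f k ∨ Y.fed D f' k' = Y.fed D f (k + 1)) : f' = f := by
  rcases he with he | he
  · exact (dd_C11_uniq hfree Y hY hf' h he).1
  · exact (dd_C11_uniq1 hfree Y hY hf' h he).1

theorem disc_folded (Y : Sys Γ X m) (hF : Y.Folded) (S : Set (X × ℕ)) (κ : X × ℕ → ZMod m) :
    (Y.disc D S κ).Folded := by
  intro x i j s h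
  exact hF x i j s h.2.2

theorem dd_one_ne (hm : 3 ≤ m) : (1 : ZMod m) ≠ 0 := by
  haveI : Fact (1 < m) := ⟨by omega⟩
  exact one_ne_zero

theorem dd_two_ne (hm : 3 ≤ m) : (2 : ZMod m) ≠ 0 := by
  intro h
  have h2 : ((2 : ℕ) : ZMod m) = 0 := by exact_mod_cast h
  rw [ZMod.natCast_eq_zero_iff] at h2
  have := Nat.le_of_dvd (by norm_num) h2
  omega

section
variable (hm : 3 ≤ m) (hfree : ∀ (g : Γ) (x : X), g • x = x → g = 1)
    (Y : Sys Γ X m) (hY : Y.Ax D) (S : Set (X × ℕ))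
    (κ : X × ℕ → ZMod m) (hS : ∀ f ∈ S, Y.C11 D f (κ f))

include hfree hY hS

theorem dd_keep_other {f : X × ℕ} (hf : f ∈ S) {k : ZMod m} (h0 : k ≠ κ f) (h1 : k ≠ κ f + 1) :
    Y.fed D f k ∈ Y.keepE D S κ := by
  refine ⟨hY.V_E _ _ (hY.F_V f (hS f hf).1 k), fun f' hf' => ⟨fun h => ?_, fun h => ?_⟩⟩
  · obtain ⟨rfl, h3⟩ := dd_C11_uniq hfree Y hY (hS f hf).1 (hS f' hf') h
    exact h0 h3
  · obtain ⟨rfl, h3⟩ := dd_C11_uniq1 hfree Y hY (hS f hf).1 (hS f' hf') h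
    exact h1 h3

theorem dd_keep_face {f : X × ℕ} (hf : f ∈ Y.Fs) (hfS : f ∉ S) (k : ZMod m) :
    Y.fed D f k ∈ Y.keepE D S κ := by
  refine ⟨hY.V_E _ _ (hY.F_V f hf k), fun f' hf' => ⟨fun h => ?_, fun h => ?_⟩⟩
  · obtain ⟨rfl, h3⟩ := dd_C11_uniq hfree Y hY hf (hS f' hf') h
    exact hfS hf'
  · obtain ⟨rfl, h3⟩ := dd_C11_uniq1 hfree Y hY hf (hS f' hf') h
    exact hfS hf'

end

open Classical in
/-- retraction of darts -/
noncomputable def ddrho (D : GD Γ m) (Y : Sys Γ X m) (S : Set (X × ℕ)) (κ : X × ℕ → ZMod m)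
    (η : Dart X) : Dart X :=
  if h : ∃ f ∈ S, η.1 = Y.fed D f (κ f) then
    (if η.2 then (Y.fed D h.choose (κ h.choose + 2), false)
      else (Y.fed D h.choose (κ h.choose - 1), true))
  else if h : ∃ f ∈ S, η.1 = Y.fed D f (κ f + 1) then
    (Y.fed D h.choose (κ h.choose + 2), false)
  else η

section
variable (hm : 3 ≤ m) (hfree : ∀ (g : Γ) (x : X), g • x = x → g = 1)
    (Y : Sys Γ X m) (hY : Y.Ax D) (S : Set (X × ℕ))
    (κ : X × ℕ → ZMod m) (hS : ∀ f ∈ S, Y.C11 D f (κ f))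

include hfree hY hS in
theorem ddrho_true {f : X × ℕ} (hf : f ∈ S) :
    ddrho D Y S κ (Y.fed D f (κ f), true) = (Y.fed D f (κ f + 2), false) := by
  have h : ∃ f' ∈ S, (Y.fed D f (κ f), true).1 = Y.fed D f' (κ f') := ⟨f, hf, rfl⟩
  have h2 : f = h.choose :=
    (dd_C11_uniq hfree Y hY (hS f hf).1 (hS _ h.choose_spec.1) h.choose_spec.2).1
  rw [ddrho, dif_pos h, ← h2]
  simp

include hfree hY hS in
theorem ddrho_false {f : X × ℕ} (hf : f ∈ S) :
    ddrho D Y S κ (Y.fed D f (κ f), false) = (Y.fed D f (κ f - 1), true) := by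
  have h : ∃ f' ∈ S, (Y.fed D f (κ f), false).1 = Y.fed D f' (κ f') := ⟨f, hf, rfl⟩
  have h2 : f = h.choose :=
    (dd_C11_uniq hfree Y hY (hS f hf).1 (hS _ h.choose_spec.1) h.choose_spec.2).1
  rw [ddrho, dif_pos h, ← h2]
  simp

include hm hfree hY hS in
theorem ddrho_one {f : X × ℕ} (hf : f ∈ S) (s : Bool) :
    ddrho D Y S κ (Y.fed D f (κ f + 1), s) = (Y.fed D f (κ f + 2), false) := by
  have h0 : ¬ ∃ f' ∈ S, (Y.fed D f (κ f + 1), s).1 = Y.fed D f' (κ f') := by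
    rintro ⟨f', hf', h⟩
    obtain ⟨rfl, h3⟩ := dd_C11_uniq hfree Y hY (hS f hf).1 (hS f' hf') h
    exact dd_one_ne hm (by simpa using h3)
  have h : ∃ f' ∈ S, (Y.fed D f (κ f + 1), s).1 = Y.fed D f' (κ f' + 1) := ⟨f, hf, rfl⟩
  have h2 : f = h.choose :=
    (dd_C11_uniq1 hfree Y hY (hS f hf).1 (hS _ h.choose_spec.1) h.choose_spec.2).1
  rw [ddrho, dif_neg h0, dif_pos h, ← h2]

theorem ddrho_keep {η : Dart X} (h : η.1 ∈ Y.keepE D S κ) : ddrho D Y S κ η = η := by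
  have h0 : ¬ ∃ f' ∈ S, η.1 = Y.fed D f' (κ f') := by
    rintro ⟨f', hf', h'⟩
    exact (h.2 f' hf').1 h'
  have h1 : ¬ ∃ f' ∈ S, η.1 = Y.fed D f' (κ f' + 1) := by
    rintro ⟨f', hf', h'⟩
    exact (h.2 f' hf').2 h'
  rw [ddrho, dif_neg h0, dif_neg h1]

theorem dd_cases {e : X × ℕ} (he : e ∈ Y.E) : e ∈ Y.keepE D S κ ∨
    (∃ f ∈ S, e = Y.fed D f (κ f)) ∨ (∃ f ∈ S, e = Y.fed D f (κ f + 1)) := by
  by_cases h1 : ∃ f ∈ S, e = Y.fed D f (κ f)
  · exact Or.inr (Or.inl h1)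
  by_cases h2 : ∃ f ∈ S, e = Y.fed D f (κ f + 1)
  · exact Or.inr (Or.inr h2)
  · left
    push Not at h1 h2
    exact ⟨he, fun f hf => ⟨h1 f hf, h2 f hf⟩⟩

include hm hfree hY hS in
theorem dd_keep_m1 {f : X × ℕ} (hf : f ∈ S) : Y.fed D f (κ f - 1) ∈ Y.keepE D S κ := by
  apply dd_keep_other hfree Y hY S κ hS hf
  · intro h
    exact dd_one_ne hm (by simpa using h)
  · intro h
    apply dd_two_ne hm
    have : κ f - 1 = κ f + 1 := h
    linear_combination (-1 : ZMod m) * this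

include hm hfree hY hS in
theorem dd_keep_p2 {f : X × ℕ} (hf : f ∈ S) : Y.fed D f (κ f + 2) ∈ Y.keepE D S κ := by
  apply dd_keep_other hfree Y hY S κ hS hf
  · intro h
    exact dd_two_ne hm (by simpa using h)
  · intro h
    apply dd_one_ne hm
    linear_combination h

include hm hfree hY hS in
theorem ddrho_mem {η : Dart X} (h : η.1 ∈ Y.E) : (ddrho D Y S κ η).1 ∈ Y.keepE D S κ := by
  obtain ⟨e, s⟩ := η
  rcases dd_cases Y S κ h with h1 | ⟨f, hf, h1⟩ | ⟨f, hf, h1⟩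
  · rw [ddrho_keep Y S κ h1]; exact h1
  · simp only at h1
    subst h1
    cases s
    · rw [ddrho_false hfree Y hY S κ hS hf]
      exact dd_keep_m1 hm hfree Y hY S κ hS hf
    · rw [ddrho_true hfree Y hY S κ hS hf]
      exact dd_keep_p2 hm hfree Y hY S κ hS hf
  · simp only at h1
    subst h1
    rw [ddrho_one hm hfree Y hY S κ hS hf]
    exact dd_keep_p2 hm hfree Y hY S κ hS hf

include hm hfree hY hS in
/-- either `η` is at a discarded corner or `ρ η` is related to `η` -/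
theorem ddrho_V {η : Dart X} (h : η.1 ∈ Y.E) : Y.V η (ddrho D Y S κ η) ∨
    ∃ f ∈ S, (η = (Y.fed D f (κ f), true) ∨ η = (Y.fed D f (κ f + 1), false)) ∧
      ddrho D Y S κ η = (Y.fed D f (κ f + 2), false) := by
  obtain ⟨e, s⟩ := η
  rcases dd_cases Y S κ h with h1 | ⟨f, hf, h1⟩ | ⟨f, hf, h1⟩
  · rw [ddrho_keep Y S κ h1]; exact Or.inl (hY.V_refl _ h)
  · simp only at h1
    subst h1
    cases s
    · rw [ddrho_false hfree Y hY S κ hS hf]
      left
      have := hY.F_V f (hS f hf).1 (κ f - 1)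
      rw [sub_add_cancel] at this
      exact hY.V_symm _ _ this
    · right
      exact ⟨f, hf, Or.inl rfl, ddrho_true hfree Y hY S κ hS hf⟩
  · simp only at h1
    subst h1
    cases s
    · right
      exact ⟨f, hf, Or.inr rfl, ddrho_one hm hfree Y hY S κ hS hf _⟩
    · left
      rw [ddrho_one hm hfree Y hY S κ hS hf]
      have := hY.F_V f (hS f hf).1 (κ f + 1)
      rw [add_assoc, one_add_one_eq_two] at this
      exact this

include hY hS in
/-- the corner is a class -/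
theorem dd_corner {f : X × ℕ} (hf : f ∈ S) {η ζ : Dart X}
    (h : η = (Y.fed D f (κ f), true) ∨ η = (Y.fed D f (κ f + 1), false)) (hV : Y.V η ζ) :
    ζ = (Y.fed D f (κ f), true) ∨ ζ = (Y.fed D f (κ f + 1), false) := by
  apply (hS f hf).2.2
  rcases h with rfl | rfl
  · exact hV
  · exact hY.V_trans _ _ _ (hY.F_V f (hS f hf).1 (κ f)) hV

include hm hfree hY hS in
theorem ddrho_corner {f : X × ℕ} (hf : f ∈ S) {η : Dart X}
    (h : η = (Y.fed D f (κ f), true) ∨ η = (Y.fed D f (κ f + 1), false)) :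
    ddrho D Y S κ η = (Y.fed D f (κ f + 2), false) := by
  rcases h with rfl | rfl
  · exact ddrho_true hfree Y hY S κ hS hf
  · exact ddrho_one hm hfree Y hY S κ hS hf _

include hm hfree hY hS in
/-- `ρ` is compatible with `V` -/
theorem ddrho_VV {η ζ : Dart X} (h : Y.V η ζ) :
    Y.V (ddrho D Y S κ η) (ddrho D Y S κ ζ) := by
  have hη := hY.V_E _ _ h
  have hζ := hY.V_E _ _ (hY.V_symm _ _ h)
  rcases ddrho_V hm hfree Y hY S κ hS hη with h1 | ⟨f, hf, h1, h2⟩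
  · rcases ddrho_V hm hfree Y hY S κ hS hζ with h3 | ⟨f, hf, h3, h4⟩
    · exact hY.V_trans _ _ _ (hY.V_symm _ _ h1) (hY.V_trans _ _ _ h h3)
    · have h5 := dd_corner Y hY S κ hS hf h3 (hY.V_symm _ _ h)
      rw [ddrho_corner hm hfree Y hY S κ hS hf h5, h4]
      exact hY.V_refl _ (dd_keep_p2 hm hfree Y hY S κ hS hf).1
  · have h5 := dd_corner Y hY S κ hS hf h1 h
    rw [ddrho_corner hm hfree Y hY S κ hS hf h5, h2]
    exact hY.V_refl _ (dd_keep_p2 hm hfree Y hY S κ hS hf).1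

include hm hfree hY hS in
theorem ddrho_VV' {η ζ : Dart X} (h : Y.V η ζ) :
    (Y.disc D S κ).V (ddrho D Y S κ η) (ddrho D Y S κ ζ) :=
  ⟨ddrho_mem hm hfree Y hY S κ hS (hY.V_E _ _ h),
    ddrho_mem hm hfree Y hY S κ hS (hY.V_E _ _ (hY.V_symm _ _ h)),
    ddrho_VV hm hfree Y hY S κ hS h⟩

include hm hfree hY hS in
theorem ddrho_Pr {η : Dart X} (h : η ∈ Y.Pr) :
    Y.V η (ddrho D Y S κ η) ∧ ddrho D Y S κ η ∈ (Y.disc D S κ).Pr := by
  have hη := hY.Pr_E _ h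
  rcases ddrho_V hm hfree Y hY S κ hS hη with h1 | ⟨f, hf, h1, h2⟩
  · exact ⟨h1, ddrho_mem hm hfree Y hY S κ hS hη, hY.Pr_V _ _ h h1⟩
  · exfalso
    apply (hS f hf).2.1
    rcases h1 with rfl | rfl
    · exact h
    · exact hY.Pr_V _ _ h (hY.V_symm _ _ (hY.F_V f (hS f hf).1 (κ f)))

end

/-! ### walks -/

/-- `V` is an equivalence relation on the darts of edges -/
structure DDV (Y : Sys Γ X m) : Prop where
  V_E : ∀ η ζ, Y.V η ζ → η.1 ∈ Y.E
  V_refl : ∀ η, η.1 ∈ Y.E → Y.V η η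
  V_symm : ∀ η ζ, Y.V η ζ → Y.V ζ η
  V_trans : ∀ η ζ ξ, Y.V η ζ → Y.V ζ ξ → Y.V η ξ

theorem dd_DDV (Y : Sys Γ X m) (hY : Y.Ax D) : Y.DDV := ⟨hY.V_E, hY.V_refl, hY.V_symm, hY.V_trans⟩

theorem dd_walk_left (Y : Sys Γ X m) (hY : Y.DDV) {η η' ζ : Dart X} {L : List (Dart X)}
    (h : Y.V η' η) (hL : Y.IsWalk η L ζ) : Y.IsWalk η' L ζ := by
  cases L with
  | nil => exact hY.V_trans _ _ _ h hL
  | cons p L => exact ⟨hY.V_trans _ _ _ h hL.1, hL.2⟩

theorem dd_walk_append (Y : Sys Γ X m) (hY : Y.DDV) {η ζ ξ : Dart X} {L L' : List (Dart X)}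
    (hL : Y.IsWalk η L ζ) (hL' : Y.IsWalk ζ L' ξ) : Y.IsWalk η (L ++ L') ξ := by
  induction L generalizing η with
  | nil => exact dd_walk_left Y hY hL hL'
  | cons p L ih => exact ⟨hL.1, ih hL.2⟩

theorem dd_walk_reverse (Y : Sys Γ X m) (hY : Y.DDV) {η ζ : Dart X} {L : List (Dart X)}
    (hL : Y.IsWalk η L ζ) : ∃ L', Y.IsWalk ζ L' η ∧ L'.length = L.length := by
  induction L generalizing η with
  | nil => exact ⟨[], hY.V_symm _ _ hL, rfl⟩
  | cons p L ih =>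
    obtain ⟨L', h1, h2⟩ := ih hL.2
    refine ⟨L' ++ [(p.1, !p.2)], dd_walk_append Y hY h1 ⟨?_, hY.V_symm _ _ hL.1⟩, by simp [h2]⟩
    have : (p.1, !p.2).1 ∈ Y.E := hY.V_E _ _ (hY.V_symm _ _ hL.1)
    have h3 := hY.V_refl p this
    simpa using h3

theorem dd_walk_sat (Y : Sys Γ X m) (hY : Y.DDV) (S : Set (Dart X))
    (h1 : ∀ η ζ, η ∈ S → Y.V η ζ → ζ ∈ S)
    (h2 : ∀ e ∈ Y.E, ∀ s, (e, s) ∈ S → (e, !s) ∈ S) {η ζ : Dart X} {L : List (Dart X)}
    (hL : Y.IsWalk η L ζ) (hη : η ∈ S) : ζ ∈ S := by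
  induction L generalizing η with
  | nil => exact h1 _ _ hη hL
  | cons p L ih =>
    apply ih hL.2
    have h3 := h1 _ _ hη hL.1
    have h4 : (p.1, !p.2).1 ∈ Y.E := hY.V_E _ _ (hY.V_symm _ _ hL.1)
    have h5 := h2 _ h4 _ h3
    simpa using h5

theorem dd_disc_DDV (Y : Sys Γ X m) (hY : Y.Ax D) (S : Set (X × ℕ)) (κ : X × ℕ → ZMod m) :
    (Y.disc D S κ).DDV where
  V_E := fun _ _ h => h.1
  V_refl := fun η h => ⟨h, h, hY.V_refl _ h.1⟩
  V_symm := fun _ _ h => ⟨h.2.1, h.1, hY.V_symm _ _ h.2.2⟩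
  V_trans := fun _ _ _ h h' => ⟨h.1, h'.2.1, hY.V_trans _ _ _ h.2.2 h'.2.2⟩

section
variable (hm : 3 ≤ m) (hfree : ∀ (g : Γ) (x : X), g • x = x → g = 1)
    (Y : Sys Γ X m) (hY : Y.Ax D) (S : Set (X × ℕ))
    (κ : X × ℕ → ZMod m) (hS : ∀ f ∈ S, Y.C11 D f (κ f))

theorem dd_cast_ne {j : ℕ} (h0 : 0 < j) (h1 : j < m) : (j : ZMod m) ≠ 0 := by
  intro h
  rw [ZMod.natCast_eq_zero_iff] at h
  have := Nat.le_of_dvd h0 h
  omega

include hfree hY hS in
theorem dd_keep_j {f : X × ℕ} (hf : f ∈ S) {j : ℕ} (hj : j + 3 ≤ m) :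
    Y.fed D f (κ f + 2 + j) ∈ Y.keepE D S κ := by
  apply dd_keep_other hfree Y hY S κ hS hf
  · intro h
    apply dd_cast_ne (m := m) (j := j + 2) (by omega) (by omega)
    push_cast
    linear_combination h
  · intro h
    apply dd_cast_ne (m := m) (j := j + 1) (by omega) (by omega)
    push_cast
    linear_combination h

include hfree hY hS in
theorem dd_fwd {f : X × ℕ} (hf : f ∈ S) (j : ℕ) (hj : j + 3 ≤ m) :
    ∃ L, (Y.disc D S κ).IsWalk (Y.fed D f (κ f + 2), false) L (Y.fed D f (κ f + 2 + j), true) ∧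
      L.length = j + 1 := by
  have hV := dd_disc_DDV Y hY S κ
  induction j with
  | zero =>
    refine ⟨[(Y.fed D f (κ f + 2), true)], ⟨?_, ?_⟩, rfl⟩
    · apply hV.V_refl
      have := dd_keep_j hfree Y hY S κ hS hf (j := 0) hj
      rw [Nat.cast_zero, add_zero] at this
      exact this
    · have := hV.V_refl (Y.fed D f (κ f + 2 + (0 : ℕ)), true)
        (dd_keep_j hfree Y hY S κ hS hf (j := 0) hj)
      rw [Nat.cast_zero, add_zero] at this ⊢
      exact this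
  | succ j ih =>
    obtain ⟨L, h1, h2⟩ := ih (by omega)
    refine ⟨L ++ [(Y.fed D f (κ f + 2 + ((j + 1 : ℕ) : ZMod m)), true)],
      dd_walk_append _ hV h1 ⟨?_, ?_⟩, by simp [h2]⟩
    · refine ⟨dd_keep_j hfree Y hY S κ hS hf (by omega), dd_keep_j hfree Y hY S κ hS hf hj, ?_⟩
      have := hY.F_V f (hS f hf).1 (κ f + 2 + j)
      simp only [Bool.not_true]
      push_cast
      rw [← add_assoc]
      exact this
    · exact hV.V_refl _ (dd_keep_j hfree Y hY S κ hS hf hj)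

include hm hfree hY hS in
/-- the walk replacing the removed edge `κ f` -/
theorem dd_fwd' {f : X × ℕ} (hf : f ∈ S) (d : Bool) :
    ∃ L, (Y.disc D S κ).IsWalk (ddrho D Y S κ (Y.fed D f (κ f), !d)) L
      (ddrho D Y S κ (Y.fed D f (κ f), d)) ∧ L.length ≤ m := by
  have hV := dd_disc_DDV Y hY S κ
  obtain ⟨L, h1, h2⟩ := dd_fwd hfree Y hY S κ hS hf (m - 3) (by omega)
  have h3 : κ f + 2 + ((m - 3 : ℕ) : ZMod m) = κ f - 1 := by
    have : ((m - 3 : ℕ) : ZMod m) = (m : ZMod m) - 3 := by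
      rw [Nat.cast_sub hm]; simp
    rw [this, ZMod.natCast_self]; ring
  rw [h3] at h1
  cases d
  · simp only [Bool.not_false]
    rw [ddrho_true hfree Y hY S κ hS hf, ddrho_false hfree Y hY S κ hS hf]
    exact ⟨L, h1, by omega⟩
  · simp only [Bool.not_true]
    rw [ddrho_true hfree Y hY S κ hS hf, ddrho_false hfree Y hY S κ hS hf]
    obtain ⟨L', h4, h5⟩ := dd_walk_reverse _ hV h1
    exact ⟨L', h4, by omega⟩

open Classical in
include hm hfree hY hS in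
theorem dd_step (p : Dart X) (hp : p.1 ∈ Y.E) :
    ∃ L, (Y.disc D S κ).IsWalk (ddrho D Y S κ (p.1, !p.2)) L (ddrho D Y S κ p) ∧
      L.length ≤ 1 + m * (if (∃ f ∈ S, p.1 = Y.fed D f (κ f)) then 1 else 0) := by
  have hV := dd_disc_DDV Y hY S κ
  obtain ⟨e, d⟩ := p
  rcases dd_cases Y S κ hp with h1 | ⟨f, hf, h1⟩ | ⟨f, hf, h1⟩
  · rw [ddrho_keep Y S κ (η := (e, d)) h1, ddrho_keep Y S κ (η := (e, !d)) h1]
    exact ⟨[(e, d)], ⟨hV.V_refl _ h1, hV.V_refl _ h1⟩, by simp⟩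
  · simp only at h1
    subst h1
    obtain ⟨L, h2, h3⟩ := dd_fwd' hm hfree Y hY S κ hS hf d
    refine ⟨L, h2, ?_⟩
    rw [if_pos ⟨f, hf, rfl⟩]
    omega
  · simp only at h1
    subst h1
    rw [ddrho_one hm hfree Y hY S κ hS hf, ddrho_one hm hfree Y hY S κ hS hf]
    exact ⟨[], hV.V_refl _ (dd_keep_p2 hm hfree Y hY S κ hS hf), by simp⟩

open Classical in
include hm hfree hY hS in
theorem dd_walk {η ζ : Dart X} {L : List (Dart X)} (h : Y.IsWalk η L ζ) :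
    ∃ L', (Y.disc D S κ).IsWalk (ddrho D Y S κ η) L' (ddrho D Y S κ ζ) ∧
      L'.length ≤ L.length + m * L.countP (fun p => ∃ f ∈ S, p.1 = Y.fed D f (κ f)) := by
  have hV := dd_disc_DDV Y hY S κ
  induction L generalizing η with
  | nil => exact ⟨[], ddrho_VV' hm hfree Y hY S κ hS h, by simp⟩
  | cons p L ih =>
    obtain ⟨L1, h1, h2⟩ := ih h.2
    have hp : (p.1, !p.2).1 ∈ Y.E := hY.V_E _ _ (hY.V_symm _ _ h.1)
    obtain ⟨L2, h3, h4⟩ := dd_step hm hfree Y hY S κ hS p hp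
    refine ⟨L2 ++ L1, dd_walk_left _ hV (ddrho_VV' hm hfree Y hY S κ hS h.1)
      (dd_walk_append _ hV h3 h1), ?_⟩
    rw [List.length_append, List.length_cons, List.countP_cons, mul_add]
    simp only [decide_eq_true_eq]
    omega

end

/-! ### chains -/

section chains

/-- evaluation of chains -/
noncomputable def ddev {A : Type} [AddCommGroup A] (F : X × ℕ → A) (x : X) :
    (Γ × ℕ →₀ ℤ) →+ A :=
  Finsupp.liftAddHom fun p => zmultiplesHom A (F (p.1 • x, p.2))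

theorem ddev_apply {A : Type} [AddCommGroup A] (F : X × ℕ → A) (x : X) (c : Γ × ℕ →₀ ℤ) :
    ddev F x c = c.sum fun p n => n • F (p.1 • x, p.2) := by
  rw [ddev, Finsupp.liftAddHom_apply]
  rfl

theorem ddev_single {A : Type} [AddCommGroup A] (F : X × ℕ → A) (x : X) (p : Γ × ℕ) (n : ℤ) :
    ddev F x (Finsupp.single p n) = n • F (p.1 • x, p.2) := by
  rw [ddev_apply, Finsupp.sum_single_index (by simp)]

theorem ddev_mapDomain {A : Type} [AddCommGroup A] (F : X × ℕ → A) (x : X) (g : Γ)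
    (c : Γ × ℕ →₀ ℤ) :
    ddev F x (c.mapDomain fun p' => (p'.1 * g, p'.2)) = ddev F (g • x) c := by
  rw [ddev_apply, ddev_apply, Finsupp.sum_mapDomain_index (by simp) (by intros; rw [add_smul])]
  simp only [mul_smul]

variable (hm : 3 ≤ m) (hfree : ∀ (g : Γ) (x : X), g • x = x → g = 1)
    (Y : Sys Γ X m) (hY : Y.Ax D) (S : Set (X × ℕ))
    (κ : X × ℕ → ZMod m) (hS : ∀ f ∈ S, Y.C11 D f (κ f))

include hfree hY hS in
theorem dd_dmap_kappa {f : X × ℕ} (hf : f ∈ S) :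
    Y.dmap D S κ (Y.fed D f (κ f)) =
      -∑ k ∈ Finset.univ.filter (fun k => k ≠ κ f ∧ k ≠ κ f + 1),
      Finsupp.single (D.h k * (D.h (κ f))⁻¹, Y.fe f k) (1 : ℤ) := by
  have h : ∃ f' ∈ S, Y.fed D f (κ f) = Y.fed D f' (κ f') := ⟨f, hf, rfl⟩
  have h2 : f = h.choose :=
    (dd_C11_uniq hfree Y hY (hS f hf).1 (hS _ h.choose_spec.1) h.choose_spec.2).1
  rw [dmap, dif_pos h, ← h2]

include hm hfree hY hS in
theorem dd_dmap_one {f : X × ℕ} (hf : f ∈ S) :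
    Y.dmap D S κ (Y.fed D f (κ f + 1)) = 0 := by
  have h0 : ¬ ∃ f' ∈ S, Y.fed D f (κ f + 1) = Y.fed D f' (κ f') := by
    rintro ⟨f', hf', h⟩
    obtain ⟨rfl, h3⟩ := dd_C11_uniq hfree Y hY (hS f hf).1 (hS f' hf') h
    exact dd_one_ne hm (by simpa using h3)
  have h : ∃ f' ∈ S, Y.fed D f (κ f + 1) = Y.fed D f' (κ f' + 1) := ⟨f, hf, rfl⟩
  rw [dmap, dif_neg h0, if_pos h]

theorem dd_dmap_keep {e : X × ℕ} (h : e ∈ Y.keepE D S κ) :
    Y.dmap D S κ e = Finsupp.single (1, e.2) 1 := by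
  have h0 : ¬ ∃ f' ∈ S, e = Y.fed D f' (κ f') := by
    rintro ⟨f', hf', h'⟩
    exact (h.2 f' hf').1 h'
  have h1 : ¬ ∃ f' ∈ S, e = Y.fed D f' (κ f' + 1) := by
    rintro ⟨f', hf', h'⟩
    exact (h.2 f' hf').2 h'
  rw [dmap, dif_neg h0, if_neg h1]

open Classical in
include hm hfree hY hS in
theorem dd_dmap_supp {e : X × ℕ} (he : e ∈ Y.E) (p : Γ × ℕ) (hp : p ∈ (Y.dmap D S κ e).support) :
    (p.1 • e.1, p.2) ∈ Y.keepE D S κ := by
  rcases dd_cases Y S κ he with h1 | ⟨f, hf, h1⟩ | ⟨f, hf, h1⟩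
  · rw [dd_dmap_keep Y S κ h1] at hp
    have := Finsupp.support_single_subset hp
    simp only [Finset.mem_singleton] at this
    subst this
    simpa using h1
  · subst h1
    rw [dd_dmap_kappa hfree Y hY S κ hS hf] at hp
    rw [Finsupp.support_neg] at hp
    have h3 := Finsupp.support_finsetSum hp
    simp only [Finset.mem_biUnion, Finset.mem_filter, Finset.mem_univ, true_and] at h3
    obtain ⟨k, ⟨hk0, hk1⟩, h4⟩ := h3
    have := Finsupp.support_single_subset h4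
    simp only [Finset.mem_singleton] at this
    subst this
    have h5 := dd_keep_other hfree Y hY S κ hS hf hk0 hk1
    simpa [fed, mul_smul] using h5
  · subst h1
    rw [dd_dmap_one hm hfree Y hY S κ hS hf] at hp
    simp at hp

theorem dd_J' (i : X × ℕ) : (Y.disc D S κ).J i = (Y.J i).sum fun p n =>
    n • (Y.dmap D S κ (p.1 • i.1, p.2)).mapDomain fun p' => (p'.1 * p.1, p'.2) := rfl

/-- pull back of a function -/
noncomputable def ddpull {A : Type} [AddCommGroup A] (D : GD Γ m) (Y : Sys Γ X m)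
    (S : Set (X × ℕ)) (κ : X × ℕ → ZMod m) (F : X × ℕ → A) (e : X × ℕ) : A :=
  ddev F e.1 (Y.dmap D S κ e)

theorem dd_Jev {A : Type} [AddCommGroup A] (F : X × ℕ → A) (i : X × ℕ) :
    (Y.disc D S κ).Jev F i = Y.Jev (ddpull D Y S κ F) i := by
  have h1 : (Y.disc D S κ).Jev F i = ddev F i.1 ((Y.disc D S κ).J i) := by
    rw [ddev_apply]; rfl
  rw [h1, dd_J', map_finsuppSum]
  unfold Jev
  apply Finsupp.sum_congr
  intro p _
  rw [map_zsmul, ddev_mapDomain]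
  rfl

theorem ddpull_keep {A : Type} [AddCommGroup A] (F : X × ℕ → A) {e : X × ℕ}
    (h : e ∈ Y.keepE D S κ) : ddpull D Y S κ F e = F e := by
  rw [ddpull, dd_dmap_keep Y S κ h, ddev_single]
  simp

include hfree hY hS in
theorem ddpull_kappa {A : Type} [AddCommGroup A] (F : X × ℕ → A) {f : X × ℕ} (hf : f ∈ S) :
    ddpull D Y S κ F (Y.fed D f (κ f)) =
      -∑ k ∈ Finset.univ.filter (fun k => k ≠ κ f ∧ k ≠ κ f + 1), F (Y.fed D f k) := by
  rw [ddpull, dd_dmap_kappa hfree Y hY S κ hS hf, map_neg, map_sum]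
  congr 1
  apply Finset.sum_congr rfl
  intro k _
  rw [ddev_single]
  simp [fed, mul_smul]

include hm hfree hY hS in
theorem ddpull_one {A : Type} [AddCommGroup A] (F : X × ℕ → A) {f : X × ℕ} (hf : f ∈ S) :
    ddpull D Y S κ F (Y.fed D f (κ f + 1)) = 0 := by
  rw [ddpull, dd_dmap_one hm hfree Y hY S κ hS hf, map_zero]

end chains

/-- retraction of darts: `(e_κ, tail) ↦ (e_{κ-1}, head)`, `(e_κ, head), (e_{κ+1}, _) ↦
(e_{κ+2}, tail)`. -/
theorem disc_ax (hm : 3 ≤ m) (hfree : ∀ (g : Γ) (x : X), g • x = x → g = 1)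
    (Y : Sys Γ X m) (hY : Y.Ax D) (hF : Y.Folded) (S : Set (X × ℕ))
    (κ : X × ℕ → ZMod m) (hS : ∀ f ∈ S, Y.C11 D f (κ f)) : (Y.disc D S κ).Ax D where
  V_E := fun _ _ h => h.1
  V_refl := fun η h => ⟨h, h, hY.V_refl _ h.1⟩
  V_symm := fun _ _ h => ⟨h.2.1, h.1, hY.V_symm _ _ h.2.2⟩
  V_trans := fun _ _ _ h h' => ⟨h.1, h'.2.1, hY.V_trans _ _ _ h.2.2 h'.2.2⟩
  V_T := fun _ _ h => hY.V_T _ _ h.2.2
  Pr_E := fun _ h => h.1
  Pr_V := fun _ _ h h' => ⟨h'.2.1, hY.Pr_V _ _ h.2 h'.2.2⟩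
  Pr_merge := fun _ _ h h' h'' => ⟨h.1, h'.1, hY.Pr_merge _ _ h.2 h'.2 h''⟩
  F_V := fun f hf k => ⟨dd_keep_face hfree Y hY S κ hS hf.1 hf.2 k,
    dd_keep_face hfree Y hY S κ hS hf.1 hf.2 (k + 1), hY.F_V f hf.1 k⟩
  F_inj := fun q j j' k h h' h'' => hY.F_inj q j j' k h.1 h'.1 h''
  J_E := by
    classical
    intro i hi p hp
    rw [dd_J'] at hp
    have h1 := Finsupp.support_sum hp
    simp only [Finset.mem_biUnion] at h1
    obtain ⟨p0, h2, h3⟩ := h1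
    have h4 := Finsupp.support_smul h3
    have h5 := Finsupp.mapDomain_support h4
    simp only [Finset.mem_image] at h5
    obtain ⟨p1, h6, rfl⟩ := h5
    have h7 := dd_dmap_supp hm hfree Y hY S κ hS (hY.J_E i hi p0 h2) p1 h6
    simp only [mul_smul]
    exact h7
  conn := by
    intro T h1 h2 h3 η hη
    have hV := dd_disc_DDV Y hY S κ
    have h4 := hY.conn {η | η.1 ∈ Y.E ∧ ddrho D Y S κ η ∈ T}
      (fun η ζ h h' => ⟨hY.V_E _ _ (hY.V_symm _ _ h'),
        h1 _ _ h.2 (ddrho_VV' hm hfree Y hY S κ hS h')⟩)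
      (fun e he s h => by
        refine ⟨he, ?_⟩
        obtain ⟨L, h5, -⟩ := dd_step hm hfree Y hY S κ hS (e, !s) he
        simp only [Bool.not_not] at h5
        exact dd_walk_sat _ hV T h1 h2 h5 h.2)
      (fun η hη => ⟨hY.Pr_E _ hη, h3 (ddrho_Pr hm hfree Y hY S κ hS hη).2⟩) η hη.1
    have h5 := h4.2
    rwa [ddrho_keep Y S κ hη] at h5
  ex := by
    intro A _ F hI hFs
    obtain ⟨g, hg1, hg2, hg3⟩ := hY.ex A (ddpull D Y S κ F)
      (fun i hi => by rw [← dd_Jev]; exact hI i hi)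
      (fun q hq => by
        by_cases hqS : q ∈ S
        · have e1 : κ q ≠ κ q + 1 := by
            intro h
            exact dd_one_ne hm (by simpa using h.symm)
          have e2 : ∑ k ∈ Finset.univ.filter (fun k => ¬ (k ≠ κ q ∧ k ≠ κ q + 1)),
              ddpull D Y S κ F (Y.fed D q k) =
              ddpull D Y S κ F (Y.fed D q (κ q)) + ddpull D Y S κ F (Y.fed D q (κ q + 1)) := by
            rw [← Finset.sum_pair (f := fun k => ddpull D Y S κ F (Y.fed D q k)) e1]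
            apply Finset.sum_congr _ (fun _ _ => rfl)
            ext k
            simp only [Finset.mem_filter, Finset.mem_univ, true_and, Finset.mem_insert,
              Finset.mem_singleton]
            tauto
          rw [← Finset.sum_filter_add_sum_filter_not Finset.univ
            (fun k => k ≠ κ q ∧ k ≠ κ q + 1), e2,
            ddpull_kappa hfree Y hY S κ hS F hqS, ddpull_one hm hfree Y hY S κ hS F hqS, add_zero]
          rw [add_neg_eq_zero]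
          apply Finset.sum_congr rfl
          intro k hk
          simp only [Finset.mem_filter, Finset.mem_univ, true_and] at hk
          exact ddpull_keep Y S κ F (dd_keep_other hfree Y hY S κ hS hqS hk.1 hk.2)
        · rw [← hFs q ⟨hq, hqS⟩]
          apply Finset.sum_congr rfl
          intro k _
          exact ddpull_keep Y S κ F (dd_keep_face hfree Y hY S κ hS hq hqS k))
    refine ⟨g, fun η ζ h => hg1 _ _ h.2.2, fun η h => hg2 _ h.2, fun e he => ?_⟩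
    rw [← hg3 e he.1, ddpull_keep Y S κ F he]

open Classical in
theorem disc_walk (hm : 3 ≤ m) (hfree : ∀ (g : Γ) (x : X), g • x = x → g = 1)
    (Y : Sys Γ X m) (hY : Y.Ax D) (hF : Y.Folded) (S : Set (X × ℕ))
    (κ : X × ℕ → ZMod m) (hS : ∀ f ∈ S, Y.C11 D f (κ f)) (x y : X) (L : List (Dart X))
    (h : Y.PW D x L y) : ∃ L', (Y.disc D S κ).PW D x L' y ∧
      L'.length ≤ L.length + m * L.countP (fun p => ∃ f ∈ S, p.1 = Y.fed D f (κ f)) := by
  obtain ⟨η, ζ, h1, h2, h3, h4, h5⟩ := h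
  obtain ⟨L', h6, h7⟩ := dd_walk hm hfree Y hY S κ hS h5
  obtain ⟨h8, h9⟩ := ddrho_Pr hm hfree Y hY S κ hS h1
  obtain ⟨h10, h11⟩ := ddrho_Pr hm hfree Y hY S κ hS h2
  exact ⟨L', ⟨_, _, h9, h11, dd_sameT_trans h3 (hY.V_T _ _ h8),
    dd_sameT_trans h4 (hY.V_T _ _ h10), h6⟩, h7⟩

end Sys

end Crest.Agent.FP
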