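import Crest.Agent.FP.Ops

/-! Row 191 (S0291), chunk DM: measurability of walks, distance; measurable choice of geodesics. -/
set_option autoImplicit false

open MeasureTheory
open scoped ENNReal

namespace Crest.Agent.FP

/-- a list of relative darts, read at the base point `x` -/
def atx {Γ X : Type} [Group Γ] [MulAction Γ X] (x : X) (L : List ((Γ × ℕ) × Bool)) :
    List (Dart X) :=
  L.map fun p => ((p.1.1 • x, p.1.2), p.2)

namespace DM

/-- a relative dart read at `x` -/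
def rd {Γ X : Type} [Group Γ] [MulAction Γ X] (x : X) (p : (Γ × ℕ) × Bool) : Dart X :=
  ((p.1.1 • x, p.1.2), p.2)

/-- flip a dart -/
def fl {A : Type} (p : A × Bool) : A × Bool := (p.1, !p.2)

section
variable {Γ : Type} [Group Γ] {m : ℕ} {X : Type} [MulAction Γ X] {D : GD Γ m}

theorem fl_rd (x : X) (p : (Γ × ℕ) × Bool) : ((rd x p).1, !(rd x p).2) = rd x (fl p) := rfl

theorem sameT_iff (hfree : ∀ (g : Γ) (x : X), g • x = x → g = 1) (x : X) (g g' : Γ) :
    D.SameT (g • x) (g' • x) ↔ g' * g⁻¹ ∈ D.T := by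
  constructor
  · rintro ⟨t, ht, h⟩
    have h1 : (g'⁻¹ * t * g) • x = x := by
      rw [mul_smul, mul_smul, h, inv_smul_smul]
    have h2 := hfree _ _ h1
    have h3 : t = g' * g⁻¹ := by
      have : g' * (g'⁻¹ * t * g) * g⁻¹ = g' * 1 * g⁻¹ := by rw [h2]
      simpa [mul_assoc] using this
    rwa [← h3]
  · intro h
    exact ⟨_, h, by rw [← mul_smul]; simp⟩

theorem orb_of_sameT {x y : X} (h : D.SameT x y) {z : X} (hz : ∃ g : Γ, x = g • z) :
    ∃ g : Γ, y = g • z := by
  obtain ⟨t, -, ht⟩ := h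
  obtain ⟨g, hg⟩ := hz
  exact ⟨t * g, by rw [mul_smul, ← hg, ht]⟩

theorem orb_of_sameT' {x y : X} (h : D.SameT x y) {z : X} (hz : ∃ g : Γ, y = g • z) :
    ∃ g : Γ, x = g • z := by
  obtain ⟨t, -, ht⟩ := h
  obtain ⟨g, hg⟩ := hz
  exact ⟨t⁻¹ * g, by rw [mul_smul, ← hg, ← ht, inv_smul_smul]⟩

theorem rd_of_pos (x : X) (η : Dart X) (h : ∃ g : Γ, D.pos η = g • x) :
    ∃ p : (Γ × ℕ) × Bool, η = rd x p := by
  obtain ⟨g, hg⟩ := h
  obtain ⟨⟨y, i⟩, s⟩ := η
  cases s
  · refine ⟨((g, i), false), ?_⟩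
    simp only [GD.pos] at hg
    simp [rd, ← hg]
  · refine ⟨((D.a⁻¹ * g, i), true), ?_⟩
    simp only [GD.pos, if_true] at hg
    simp only [rd, Prod.mk.injEq, and_true]
    rw [mul_smul, ← hg, inv_smul_smul]

theorem pos_rd (x : X) (p : (Γ × ℕ) × Bool) :
    D.pos (rd x p) = (if p.2 then D.a * p.1.1 else p.1.1) • x := by
  obtain ⟨⟨g, i⟩, s⟩ := p
  cases s
  · simp [GD.pos, rd]
  · simp [GD.pos, rd, mul_smul]

theorem orb_pos_rd (x : X) (p : (Γ × ℕ) × Bool) : ∃ g : Γ, D.pos (rd x p) = g • x :=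
  ⟨_, pos_rd x p⟩

theorem V_rel [NeZero m] (Y : Sys Γ X m) (hY : Y.Ax D) (x : X) {η ζ : Dart X} (h : Y.V η ζ)
    (hη : ∃ p : (Γ × ℕ) × Bool, η = rd x p) : ∃ p : (Γ × ℕ) × Bool, ζ = rd x p := by
  obtain ⟨p, rfl⟩ := hη
  exact rd_of_pos (D := D) x ζ (orb_of_sameT (hY.V_T _ _ h) (orb_pos_rd x p))

theorem rd_flip (x : X) (η : Dart X) (h : ∃ p : (Γ × ℕ) × Bool, (η.1, !η.2) = rd x p) :
    ∃ p : (Γ × ℕ) × Bool, η = rd x p := by
  obtain ⟨p, hp⟩ := h
  refine ⟨fl p, ?_⟩
  have h1 := congrArg Prod.fst hp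
  have h2 := congrArg Prod.snd hp
  simp only [rd] at h1 h2
  ext1
  · exact h1
  · simp only [rd, fl, ← h2, Bool.not_not]

theorem walk_rel [NeZero m] (Y : Sys Γ X m) (hY : Y.Ax D) (x : X) (L : List (Dart X)) :
    ∀ (η ζ : Dart X), (∃ p : (Γ × ℕ) × Bool, η = rd x p) → Y.IsWalk η L ζ →
      ∃ L' : List ((Γ × ℕ) × Bool), L = atx x L' := by
  induction L with
  | nil => intro η ζ _ _; exact ⟨[], rfl⟩
  | cons p L ih =>
    intro η ζ hη h
    obtain ⟨h1, h2⟩ := h
    obtain ⟨q, hq⟩ := rd_flip x p (V_rel Y hY x h1 hη)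
    obtain ⟨L', hL'⟩ := ih p ζ ⟨q, hq⟩ h2
    exact ⟨q :: L', by rw [hL', hq]; rfl⟩

theorem walk_end_rel [NeZero m] (Y : Sys Γ X m) (hY : Y.Ax D) (x : X) (L : List (Dart X)) :
    ∀ (η ζ : Dart X), (∃ p : (Γ × ℕ) × Bool, η = rd x p) → Y.IsWalk η L ζ →
      ∃ p : (Γ × ℕ) × Bool, ζ = rd x p := by
  induction L with
  | nil => intro η ζ hη h; exact V_rel Y hY x h hη
  | cons p L ih =>
    intro η ζ hη h
    obtain ⟨h1, h2⟩ := h
    exact ih p ζ (rd_flip x p (V_rel Y hY x h1 hη)) h2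

theorem PW_iff (hfree : ∀ (g : Γ) (x : X), g • x = x → g = 1) (Y : Sys Γ X m) (x : X)
    (g : Γ) (L : List (Dart X)) :
    Y.PW D x L (g • x) ↔ ∃ p q : (Γ × ℕ) × Bool, rd x p ∈ Y.Pr ∧ rd x q ∈ Y.Pr ∧
      ((if p.2 then D.a * p.1.1 else p.1.1) ∈ D.T) ∧
      ((if q.2 then D.a * q.1.1 else q.1.1) * g⁻¹ ∈ D.T) ∧ Y.IsWalk (rd x p) L (rd x q) := by
  constructor
  · rintro ⟨η, ζ, h1, h2, h3, h4, h5⟩
    obtain ⟨p, rfl⟩ := rd_of_pos (D := D) x η (orb_of_sameT h3 ⟨1, (one_smul _ _).symm⟩)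
    obtain ⟨q, rfl⟩ := rd_of_pos (D := D) x ζ (orb_of_sameT h4 ⟨g, rfl⟩)
    refine ⟨p, q, h1, h2, ?_, ?_, h5⟩
    · have : D.SameT ((1 : Γ) • x) ((if p.2 then D.a * p.1.1 else p.1.1) • x) := by
        rw [one_smul, ← pos_rd]; exact h3
      rw [sameT_iff hfree] at this
      simpa using this
    · rw [pos_rd, sameT_iff hfree] at h4
      exact h4
  · rintro ⟨p, q, h1, h2, h3, h4, h5⟩
    refine ⟨_, _, h1, h2, ?_, ?_, h5⟩
    · have : D.SameT ((1 : Γ) • x) ((if p.2 then D.a * p.1.1 else p.1.1) • x) := by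
        rw [sameT_iff hfree]; simpa using h3
      rw [one_smul, ← pos_rd] at this; exact this
    · rw [pos_rd, sameT_iff hfree]
      exact h4

end

section
variable {Γ : Type} [Group Γ] {m : ℕ} {X : Type} [MulAction Γ X]
  [MeasurableSpace X] {D : GD Γ m}

omit [MulAction Γ X] in
theorem meas_ex {ι : Type} [Countable ι] {p : ι → X → Prop} (h : ∀ i, MeasurableSet {x | p i x}) :
    MeasurableSet {x | ∃ i, p i x} := by
  have : {x | ∃ i, p i x} = ⋃ i, {x | p i x} := by ext x; simp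
  rw [this]
  exact MeasurableSet.iUnion h

omit [MulAction Γ X] in
theorem meas_all {ι : Type} [Countable ι] {p : ι → X → Prop} (h : ∀ i, MeasurableSet {x | p i x}) :
    MeasurableSet {x | ∀ i, p i x} := by
  have : {x | ∀ i, p i x} = ⋂ i, {x | p i x} := by ext x; simp
  rw [this]
  exact MeasurableSet.iInter h

omit [MulAction Γ X] in
theorem meas_and {p q : X → Prop} (h : MeasurableSet {x | p x}) (h' : MeasurableSet {x | q x}) :
    MeasurableSet {x | p x ∧ q x} := h.inter h'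

omit [MulAction Γ X] in
theorem meas_not {p : X → Prop} (h : MeasurableSet {x | p x}) :
    MeasurableSet {x | ¬ p x} := h.compl

omit [MulAction Γ X] in
theorem meas_const_imp {c : Prop} {p : X → Prop} (h : MeasurableSet {x | p x}) :
    MeasurableSet {x | c → p x} := by
  by_cases hc : c <;> simp [hc, h]

omit [MulAction Γ X] in
theorem meas_const_and {c : Prop} {p : X → Prop} (h : MeasurableSet {x | p x}) :
    MeasurableSet {x | c ∧ p x} := by
  by_cases hc : c <;> simp [hc, h]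

theorem V_meas (hs : ∀ g : Γ, Measurable fun x : X => g • x) (Y : Sys Γ X m) (hM : Y.Meas)
    (p q : (Γ × ℕ) × Bool) : MeasurableSet {x : X | Y.V (rd x p) (rd x q)} := by
  have h := hs p.1.1 (hM.mV (q.1.1 * p.1.1⁻¹) p.1.2 q.1.2 p.2 q.2)
  convert h using 1
  ext x
  simp only [Set.mem_ofPred_eq, Set.mem_preimage, rd]
  rw [← mul_smul]
  simp

theorem Pr_meas (hs : ∀ g : Γ, Measurable fun x : X => g • x) (Y : Sys Γ X m) (hM : Y.Meas)
    (p : (Γ × ℕ) × Bool) : MeasurableSet {x : X | rd x p ∈ Y.Pr} :=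
  hs p.1.1 (hM.mPr p.1.2 p.2)

theorem walk_meas (hs : ∀ g : Γ, Measurable fun x : X => g • x) (Y : Sys Γ X m) (hM : Y.Meas)
    (L : List ((Γ × ℕ) × Bool)) : ∀ (p q : (Γ × ℕ) × Bool),
    MeasurableSet {x : X | Y.IsWalk (rd x p) (atx x L) (rd x q)} := by
  induction L with
  | nil => intro p q; exact V_meas hs Y hM p q
  | cons r L ih =>
    intro p q
    exact (V_meas hs Y hM p (fl r)).inter (ih r q)

end

end DM

namespace Sys

variable {Γ : Type} [Group Γ] [Countable Γ] {m : ℕ} [NeZero m] {X : Type} [MulAction Γ X]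
  [MeasurableSpace X] {D : GD Γ m} {μ : Measure X}

/-- every walk from `[x]` to `[g x]` is `atx x` of a relative list -/
theorem PW_rel (Y : Sys Γ X m) (hY : Y.Ax D) (x : X) (g : Γ) (L : List (Dart X))
    (h : Y.PW D x L (g • x)) : ∃ L' : List ((Γ × ℕ) × Bool), L = atx x L' := by
  obtain ⟨η, ζ, h1, h2, h3, h4, h5⟩ := h
  exact DM.walk_rel Y hY x L η ζ
    (DM.rd_of_pos (D := D) x η (DM.orb_of_sameT h3 ⟨1, (one_smul _ _).symm⟩)) h5

theorem PW_meas (hs : ∀ g : Γ, Measurable fun x : X => g • x)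
    (hfree : ∀ (g : Γ) (x : X), g • x = x → g = 1)
    (Y : Sys Γ X m) (hY : Y.Ax D) (hM : Y.Meas) (g : Γ) (L : List ((Γ × ℕ) × Bool)) :
    MeasurableSet {x : X | Y.PW D x (atx x L) (g • x)} := by
  simp only [DM.PW_iff hfree]
  refine DM.meas_ex fun p => DM.meas_ex fun q => ?_
  refine (DM.Pr_meas hs Y hM p).inter ((DM.Pr_meas hs Y hM q).inter ?_)
  exact DM.meas_const_and (DM.meas_const_and (DM.walk_meas hs Y hM L p q))

theorem dist_meas (hs : ∀ g : Γ, Measurable fun x : X => g • x)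
    (hfree : ∀ (g : Γ) (x : X), g • x = x → g = 1)
    (Y : Sys Γ X m) (hY : Y.Ax D) (hM : Y.Meas) : Measurable fun x => Y.dist D x := by
  classical
  have hP : ∀ n : ℕ, MeasurableSet {x : X | ∃ L, Y.PW D x L (D.a • x) ∧ L.length = n} := by
    intro n
    have h1 : {x : X | ∃ L, Y.PW D x L (D.a • x) ∧ L.length = n} =
        {x : X | ∃ L : List ((Γ × ℕ) × Bool), L.length = n ∧
          Y.PW D x (atx x L) (D.a • x)} := by
      ext x
      constructor
      · rintro ⟨L, h, hL⟩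
        obtain ⟨L', rfl⟩ := PW_rel Y hY x D.a L h
        exact ⟨L', by simpa [atx] using hL, h⟩
      · rintro ⟨L, hL, h⟩
        exact ⟨_, h, by simpa [atx] using hL⟩
    rw [h1]
    exact DM.meas_ex fun L => DM.meas_const_and (PW_meas hs hfree Y hY hM D.a L)
  refine measurable_to_countable' fun n => ?_
  have h2 : (fun x => Y.dist D x) ⁻¹' {n} =
      {x | (∃ L, Y.PW D x L (D.a • x) ∧ L.length = n) ∧
        ∀ k < n, ¬ ∃ L, Y.PW D x L (D.a • x) ∧ L.length = k} ∪
      {x | n = 0 ∧ ∀ k, ¬ ∃ L, Y.PW D x L (D.a • x) ∧ L.length = k} := by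
    ext x
    simp only [Set.mem_preimage, Set.mem_singleton_iff, Set.mem_union, Set.mem_ofPred_eq]
    constructor
    · intro h
      by_cases hne : ∃ k, ∃ L, Y.PW D x L (D.a • x) ∧ L.length = k
      · left
        have h3 : Y.dist D x ∈ {n | ∃ L, Y.PW D x L (D.a • x) ∧ L.length = n} :=
          Nat.sInf_mem hne
        rw [h] at h3
        refine ⟨h3, fun k hk hk' => ?_⟩
        have : Y.dist D x ≤ k := Nat.sInf_le hk'
        omega
      · right
        refine ⟨?_, fun k hk => hne ⟨k, hk⟩⟩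
        rw [← h]
        unfold dist
        rw [Nat.sInf_eq_zero]
        right
        ext k
        simp only [Set.mem_ofPred_eq, Set.mem_empty_iff_false, iff_false]
        exact fun hk => hne ⟨k, hk⟩
    · rintro (⟨h1, h3⟩ | ⟨rfl, h1⟩)
      · have h4 : Y.dist D x ≤ n := Nat.sInf_le h1
        have h5 : Y.dist D x ∈ {n | ∃ L, Y.PW D x L (D.a • x) ∧ L.length = n} :=
          Nat.sInf_mem ⟨n, h1⟩
        by_contra hne
        exact h3 _ (lt_of_le_of_ne h4 hne) h5
      · unfold dist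
        rw [Nat.sInf_eq_zero]
        right
        ext k
        simp only [Set.mem_ofPred_eq, Set.mem_empty_iff_false, iff_false]
        exact h1 k
  rw [h2]
  refine MeasurableSet.union ?_ ?_
  · exact DM.meas_and (hP n)
      (DM.meas_all fun k => DM.meas_const_imp (DM.meas_not (hP k)))
  · exact DM.meas_const_and (DM.meas_all fun k => DM.meas_not (hP k))

theorem AP_meas (hs : ∀ g : Γ, Measurable fun x : X => g • x)
    (hfree : ∀ (g : Γ) (x : X), g • x = x → g = 1)
    (Y : Sys Γ X m) (hY : Y.Ax D) (hM : Y.Meas) : MeasurableSet Y.AP :=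
  DM.meas_ex fun i => (hM.mPr i true).inter (hM.mPr i false)

/-- measurable choice of shortest walks -/
theorem exists_geo (hs : ∀ g : Γ, Measurable fun x : X => g • x)
    (hfree : ∀ (g : Γ) (x : X), g • x = x → g = 1)
    (Y : Sys Γ X m) (hY : Y.Ax D) (hM : Y.Meas) :
    ∃ γ : X → List ((Γ × ℕ) × Bool), (∀ L, MeasurableSet {x | γ x = L}) ∧
      ∀ x, (∃ L, Y.PW D x L (D.a • x)) →
        Y.PW D x (atx x (γ x)) (D.a • x) ∧ (γ x).length = Y.dist D x := by
  classical
  let _ : Encodable (List ((Γ × ℕ) × Bool)) := Encodable.ofCountable _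
  let P : ℕ → X → Prop := fun n x => ∃ L : List ((Γ × ℕ) × Bool), Encodable.encode L = n ∧
    Y.PW D x (atx x L) (D.a • x) ∧ L.length = Y.dist D x
  let P' : List ((Γ × ℕ) × Bool) → X → Prop := fun L x =>
    Y.PW D x (atx x L) (D.a • x) ∧ L.length = Y.dist D x
  have hP' : ∀ L, MeasurableSet {x | P' L x} := by
    intro L
    refine DM.meas_and (PW_meas hs hfree Y hY hM D.a L) ?_
    have := dist_meas hs hfree Y hY hM (measurableSet_singleton L.length)
    have h2 : {x | L.length = Y.dist D x} = (fun x => Y.dist D x) ⁻¹' {L.length} := by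
      ext x
      simp only [Set.mem_ofPred_eq, Set.mem_preimage, Set.mem_singleton_iff]
      exact eq_comm
    rw [h2]
    exact this
  -- `L` is the chosen list at `x`
  let Q : List ((Γ × ℕ) × Bool) → X → Prop := fun L x =>
    P' L x ∧ ∀ L', Encodable.encode L' < Encodable.encode L → ¬ P' L' x
  have hQ : ∀ L, MeasurableSet {x | Q L x} := by
    intro L
    exact DM.meas_and (hP' L) (DM.meas_all fun L' =>
      DM.meas_const_imp (DM.meas_not (hP' L')))
  have huniq : ∀ L L' x, Q L x → Q L' x → L = L' := by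
    intro L L' x h h'
    apply Encodable.encode_injective
    by_contra hne
    rcases lt_or_gt_of_ne hne with h1 | h1
    · exact h'.2 L h1 h.1
    · exact h.2 L' h1 h'.1
  have hex : ∀ x, (∃ L, P' L x) → ∃ L, Q L x := by
    intro x hx
    obtain ⟨L, hL, hmin⟩ := WellFounded.has_min (measure
      (Encodable.encode : List ((Γ × ℕ) × Bool) → ℕ)).wf {L | P' L x} hx
    exact ⟨L, hL, fun L' h1 h2 => hmin L' h2 h1⟩
  refine ⟨fun x => if h : ∃ L, Q L x then h.choose else [], ?_, ?_⟩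
  · intro L
    have : {x : X | (if h : ∃ L, Q L x then h.choose else []) = L} =
        {x | Q L x} ∪ {x | L = [] ∧ ∀ L', ¬ Q L' x} := by
      ext x
      simp only [Set.mem_ofPred_eq, Set.mem_union]
      by_cases h : ∃ L, Q L x
      · rw [dif_pos h]
        constructor
        · intro h1
          left
          rw [← h1]
          exact h.choose_spec
        · rintro (h1 | ⟨-, h1⟩)
          · exact huniq _ _ x h.choose_spec h1
          · exact absurd h.choose_spec (h1 _)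
      · rw [dif_neg h]
        constructor
        · intro h1
          exact Or.inr ⟨h1.symm, fun L' hL' => h ⟨L', hL'⟩⟩
        · rintro (h1 | ⟨h1, -⟩)
          · exact absurd ⟨L, h1⟩ h
          · exact h1.symm
    rw [this]
    exact (hQ L).union (DM.meas_const_and (DM.meas_all fun L' => DM.meas_not (hQ L')))
  · intro x hx
    have h1 : ∃ L, P' L x := by
      have hne : ∃ k, ∃ L, Y.PW D x L (D.a • x) ∧ L.length = k := by
        obtain ⟨L, hL⟩ := hx
        exact ⟨_, L, hL, rfl⟩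
      obtain ⟨L, hL, hl⟩ := Nat.sInf_mem hne
      obtain ⟨L', rfl⟩ := PW_rel Y hY x D.a L hL
      refine ⟨L', hL, ?_⟩
      have h3 : (atx x L').length = L'.length := by simp [atx]
      rw [← h3]
      exact hl
    have h2 := hex x h1
    simp only [dif_pos h2]
    exact h2.choose_spec.1

end Sys

end Crest.Agent.FP
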