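import Crest.Agent.FP.Layer

/-! Row 191 (S0291), chunk C2: number of faces. -/
set_option autoImplicit false

open MeasureTheory
open scoped ENNReal

namespace Crest.Agent.FP

variable {Γ : Type} [Group Γ] [Countable Γ] {m : ℕ} [NeZero m] {X : Type} [MeasurableSpace X]
  [MulAction Γ X] {μ : Measure X} {D : GD Γ m}

/-- edges of faces -/
def Ahat (D : GD Γ m) (Y : Sys Γ X m) : Set (X × ℕ) := {e | ∃ f ∈ Y.Fs, ∃ k, e = Y.fed D f k}

omit [Countable Γ] [NeZero m] [MeasurableSpace X] in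
private theorem Ahat_eq_aux (Y : Sys Γ X m) (i : ℕ) :
    {x | (x, i) ∈ Ahat D Y} = ⋃ k : ZMod m, ⋃ j : ℕ,
      (fun x : X => (D.h k)⁻¹ • x) ⁻¹' ({x | (x, j) ∈ Y.Fs} ∩ {x | Y.fe (x, j) k = i}) := by
  ext x
  simp only [Set.mem_setOf_eq, Ahat, Set.mem_iUnion, Set.mem_preimage, Set.mem_inter_iff]
  constructor
  · rintro ⟨⟨q, j⟩, hf, k, hk⟩
    simp only [Sys.fed, Prod.mk.injEq] at hk
    refine ⟨k, j, ?_⟩
    have : (D.h k)⁻¹ • x = q := by rw [hk.1, inv_smul_smul]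
    rw [this]
    exact ⟨hf, hk.2.symm⟩
  · rintro ⟨k, j, hf, hk⟩
    refine ⟨((D.h k)⁻¹ • x, j), hf, k, ?_⟩
    simp only [Sys.fed, smul_inv_smul, hk]

theorem Ahat_meas (hS : Sp D X μ) (Y : Sys Γ X m) (hY : Y.Ax D) (hM : Y.Meas) (i : ℕ) :
    MeasurableSet {x | (x, i) ∈ Ahat D Y} := by
  rw [Ahat_eq_aux]
  refine MeasurableSet.iUnion fun k => MeasurableSet.iUnion fun j => ?_
  exact (hS.mp (D.h k)⁻¹).measurable ((hM.mF j).inter (hM.mfe j k i))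

theorem size_Ahat_le (hS : Sp D X μ) (Y : Sys Γ X m) (hY : Y.Ax D) (hM : Y.Meas) :
    size μ (Ahat D Y) ≤ m * size μ Y.Fs := by
  have h1 : ∀ i, μ {x | (x, i) ∈ Ahat D Y} ≤
      ∑' k : ZMod m, ∑' j : ℕ, μ ({x | (x, j) ∈ Y.Fs} ∩ {x | Y.fe (x, j) k = i}) := by
    intro i
    rw [Ahat_eq_aux]
    refine (measure_iUnion_le _).trans (ENNReal.tsum_le_tsum fun k => ?_)
    refine (measure_iUnion_le _).trans (ENNReal.tsum_le_tsum fun j => ?_)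
    exact ((hS.mp (D.h k)⁻¹).measure_preimage
      ((hM.mF j).inter (hM.mfe j k i)).nullMeasurableSet).le
  have h2 : ∀ (k : ZMod m) (j : ℕ),
      ∑' i : ℕ, μ ({x | (x, j) ∈ Y.Fs} ∩ {x | Y.fe (x, j) k = i}) = μ {x | (x, j) ∈ Y.Fs} := by
    intro k j
    rw [← measure_iUnion]
    · congr 1
      ext x
      simp
    · intro a b hab
      rw [Function.onFun, Set.disjoint_left]
      rintro x ⟨-, hx⟩ ⟨-, hx'⟩
      exact hab (hx.symm.trans hx')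
    · exact fun i => (hM.mF j).inter (hM.mfe j k i)
  calc size μ (Ahat D Y) ≤
      ∑' i : ℕ, ∑' k : ZMod m, ∑' j : ℕ, μ ({x | (x, j) ∈ Y.Fs} ∩ {x | Y.fe (x, j) k = i}) :=
        ENNReal.tsum_le_tsum h1
    _ = ∑' k : ZMod m, ∑' i : ℕ, ∑' j : ℕ, μ ({x | (x, j) ∈ Y.Fs} ∩ {x | Y.fe (x, j) k = i}) :=
        ENNReal.tsum_comm
    _ = ∑' k : ZMod m, ∑' j : ℕ, ∑' i : ℕ, μ ({x | (x, j) ∈ Y.Fs} ∩ {x | Y.fe (x, j) k = i}) :=
        tsum_congr fun k => ENNReal.tsum_comm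
    _ = ∑' k : ZMod m, size μ Y.Fs := by
        refine tsum_congr fun k => ?_
        simp only [h2, size]
    _ = m * size μ Y.Fs := by
        rw [tsum_fintype, Finset.sum_const, Finset.card_univ, ZMod.card, nsmul_eq_mul]

/-- `|F| ≤ |Ahat| / 4` -/
theorem faces_le (hS : Sp D X μ) (Y : Sys Γ X m) (hY : Y.Ax D) (hM : Y.Meas) {w : ℝ≥0∞}
    (hF : size μ Y.Fs ≤ w) (hw : 9 / 100 + m * w ≤ 1 / 4) :
    size μ Y.Fs ≤ 1 / 4 * size μ (Ahat D Y) := by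
  have h1 : μ {x | ∃ j, (x, j) ∈ Ahat D Y} ≤ m * w := by
    have : {x | ∃ j, (x, j) ∈ Ahat D Y} = ⋃ j, {x | (x, j) ∈ Ahat D Y} := by
      ext x; simp
    rw [this]
    calc μ (⋃ j, {x | (x, j) ∈ Ahat D Y}) ≤ ∑' j, μ {x | (x, j) ∈ Ahat D Y} :=
          measure_iUnion_le _
      _ = size μ (Ahat D Y) := rfl
      _ ≤ m * size μ Y.Fs := size_Ahat_le hS Y hY hM
      _ ≤ m * w := by gcongr
  have h2 := layer_cake hS Y.Fs (Ahat D Y) hM.mF (Ahat_meas hS Y hY hM) (by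
    intro q k
    have hinj : Set.InjOn (fun j => Y.fe (q, j) k) {j | (q, j) ∈ Y.Fs} := by
      intro j hj j' hj' hjj
      exact hY.F_inj q j j' k hj hj' hjj
    rw [← hinj.encard_image]
    refine Set.encard_le_encard ?_
    rintro _ ⟨j, hj, rfl⟩
    exact ⟨(q, j), hj, k, rfl⟩) (m * w) h1
  exact h2.trans (by gcongr)

end Crest.Agent.FP
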