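import Crest.Agent.FP.Ops

/-! Row 191 (S0291), chunk FD: folding, deterministic part. -/
set_option autoImplicit false
set_option linter.unusedSectionVars false

namespace Crest.Agent.FP

namespace Sys

variable {Γ : Type} [Group Γ] {m : ℕ} {X : Type} [MulAction Γ X] {D : GD Γ m}

/-! ### the relation `SameT` -/

theorem fd_sameT_refl (x : X) : D.SameT x x := ⟨1, D.T.one_mem, one_smul Γ x⟩

theorem fd_sameT_symm {x y : X} (h : D.SameT x y) : D.SameT y x := by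
  obtain ⟨t, ht, rfl⟩ := h
  exact ⟨t⁻¹, D.T.inv_mem ht, inv_smul_smul t x⟩

theorem fd_sameT_trans {x y z : X} (h : D.SameT x y) (h' : D.SameT y z) : D.SameT x z := by
  obtain ⟨t, ht, rfl⟩ := h
  obtain ⟨u, hu, rfl⟩ := h'
  exact ⟨u * t, D.T.mul_mem hu ht, by rw [mul_smul]⟩

/-! ### the relation `Fr` -/

theorem fd_Fr_E [NeZero m] {Y : Sys Γ X m} (hY : Y.Ax D) {η ζ : Dart X} (h : Y.Fr η ζ) :
    η.1 ∈ Y.E ∧ ζ.1 ∈ Y.E := by
  induction h with
  | base h => exact ⟨hY.V_E _ _ h, hY.V_E _ _ (hY.V_symm _ _ h)⟩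
  | symm _ ih => exact ⟨ih.2, ih.1⟩
  | trans _ _ ih1 ih2 => exact ⟨ih1.1, ih2.2⟩
  | fold h1 h2 _ _ => exact ⟨h1, h2⟩

theorem fd_Fr_T [NeZero m] {Y : Sys Γ X m} (hY : Y.Ax D) {η ζ : Dart X} (h : Y.Fr η ζ) :
    D.SameT (D.pos η) (D.pos ζ) := by
  induction h with
  | base h => exact hY.V_T _ _ h
  | symm _ ih => exact fd_sameT_symm ih
  | trans _ _ ih1 ih2 => exact fd_sameT_trans ih1 ih2
  | fold h1 h2 _ _ => exact fd_sameT_refl _

/-- tails related iff heads related -/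
theorem fd_Fr_any {Y : Sys Γ X m} {x : X} {i j : ℕ} (hi : (x, i) ∈ Y.E) (hj : (x, j) ∈ Y.E)
    {s : Bool} (h : Y.Fr ((x, i), s) ((x, j), s)) (t : Bool) : Y.Fr ((x, i), t) ((x, j), t) := by
  by_cases hst : t = s
  · subst hst; exact h
  · have : t = !s := by cases s <;> cases t <;> simp_all
    subst this
    exact Fr.fold hi hj h

/-! ### representatives -/

theorem fd_rep_fst (Y : Sys Γ X m) (e : X × ℕ) : (Y.rep e).1 = e.1 := rfl

theorem fd_rep_spec [NeZero m] {Y : Sys Γ X m} (hY : Y.Ax D) {e : X × ℕ} (he : e ∈ Y.E) :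
    Y.rep e ∈ Y.E ∧ Y.Fr (e, true) (Y.rep e, true) := by
  have hne : {j | (e.1, j) ∈ Y.E ∧ Y.Fr (e, true) ((e.1, j), true)}.Nonempty :=
    ⟨e.2, he, Fr.base (hY.V_refl _ he)⟩
  exact Nat.sInf_mem hne

theorem fd_rep_Fr [NeZero m] {Y : Sys Γ X m} (hY : Y.Ax D) {e : X × ℕ} (he : e ∈ Y.E) (s : Bool) :
    Y.Fr (e, s) (Y.rep e, s) :=
  fd_Fr_any (x := e.1) (i := e.2) (j := (Y.rep e).2) he (fd_rep_spec hY he).1
    (fd_rep_spec hY he).2 s

theorem fd_rep_mem [NeZero m] {Y : Sys Γ X m} (hY : Y.Ax D) {e : X × ℕ} (he : e ∈ Y.E) :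
    Y.rep e ∈ Y.repE := by
  refine ⟨(fd_rep_spec hY he).1, fun j hj hjE hfr => ?_⟩
  have h1 : Y.Fr (e, true) ((e.1, j), true) := Fr.trans (fd_rep_spec hY he).2 hfr
  have h2 : (Y.rep e).2 ≤ j := Nat.sInf_le ⟨hjE, h1⟩
  omega

theorem fd_rep_eq_of_Fr [NeZero m] {Y : Sys Γ X m} (hY : Y.Ax D) {x : X} {i j : ℕ} {s : Bool}
    (h : Y.Fr ((x, i), s) ((x, j), s)) : Y.rep (x, i) = Y.rep (x, j) := by
  have hE := fd_Fr_E hY h
  have h' := fd_Fr_any hE.1 hE.2 h true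
  have : {k | (x, k) ∈ Y.E ∧ Y.Fr ((x, i), true) ((x, k), true)} =
      {k | (x, k) ∈ Y.E ∧ Y.Fr ((x, j), true) ((x, k), true)} := by
    ext k
    exact ⟨fun hk => ⟨hk.1, Fr.trans (Fr.symm h') hk.2⟩, fun hk => ⟨hk.1, Fr.trans h' hk.2⟩⟩
  simp only [rep]
  rw [this]

theorem fd_rep_of_mem [NeZero m] {Y : Sys Γ X m} (hY : Y.Ax D) {e : X × ℕ} (he : e ∈ Y.repE) :
    Y.rep e = e := by
  have h1 := fd_rep_spec hY he.1
  have h2 : (Y.rep e).2 ≤ e.2 := Nat.sInf_le ⟨he.1, Fr.base (hY.V_refl _ he.1)⟩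
  rcases h2.lt_or_eq with h3 | h3
  · exact absurd h1.2 (he.2 _ h3 h1.1)
  · exact Prod.ext rfl h3

theorem fold_folded (Y : Sys Γ X m) : (Y.fold D).Folded := by
  intro x i j s h
  have hi : (x, i) ∈ Y.repE := h.1
  have hj : (x, j) ∈ Y.repE := h.2.1
  have hfr : Y.Fr ((x, i), true) ((x, j), true) := fd_Fr_any hi.1 hj.1 h.2.2 true
  rcases lt_trichotomy i j with hij | hij | hij
  · exact absurd (Fr.symm hfr) (hj.2 i hij hi.1)
  · exact hij
  · exact absurd hfr (hi.2 j hij hj.1)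

/-! ### faces -/

theorem fd_fed_E [NeZero m] {Y : Sys Γ X m} (hY : Y.Ax D) {f : X × ℕ} (hf : f ∈ Y.Fs)
    (k : ZMod m) : Y.fed D f k ∈ Y.E := hY.V_E _ _ (hY.F_V f hf k)

/-- two faces over the same point with a related edge have all edges related -/
theorem fd_face_Fr [NeZero m] {Y : Sys Γ X m} (hY : Y.Ax D) {q : X} {j j' : ℕ}
    (hf : (q, j) ∈ Y.Fs) (hf' : (q, j') ∈ Y.Fs) {k : ZMod m}
    (h : Y.Fr (Y.fed D (q, j) k, true) (Y.fed D (q, j') k, true)) (l : ZMod m) :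
    Y.Fr (Y.fed D (q, j) l, true) (Y.fed D (q, j') l, true) := by
  have step : ∀ k : ZMod m, Y.Fr (Y.fed D (q, j) k, true) (Y.fed D (q, j') k, true) →
      Y.Fr (Y.fed D (q, j) (k + 1), true) (Y.fed D (q, j') (k + 1), true) := by
    intro k hk
    have h1 : Y.Fr (Y.fed D (q, j) (k + 1), false) (Y.fed D (q, j') (k + 1), false) :=
      Fr.trans (Fr.symm (Fr.base (hY.F_V _ hf k))) (Fr.trans hk (Fr.base (hY.F_V _ hf' k)))
    exact Fr.fold (fd_fed_E hY hf (k + 1)) (fd_fed_E hY hf' (k + 1)) h1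
  have all : ∀ n : ℕ, Y.Fr (Y.fed D (q, j) (k + n), true) (Y.fed D (q, j') (k + n), true) := by
    intro n
    induction n with
    | zero => simpa using h
    | succ n ih =>
      have := step _ ih
      simpa [add_assoc] using this
  have := all (l - k).val
  simpa using this

theorem fd_face_rep [NeZero m] {Y : Sys Γ X m} (hY : Y.Ax D) {q : X} {j j' : ℕ}
    (hf : (q, j) ∈ Y.Fs) (hf' : (q, j') ∈ Y.Fs) {k : ZMod m}
    (h : Y.Fr (Y.fed D (q, j) k, true) (Y.fed D (q, j') k, true)) (l : ZMod m) :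
    Y.rep (Y.fed D (q, j) l) = Y.rep (Y.fed D (q, j') l) :=
  fd_rep_eq_of_Fr hY (fd_face_Fr hY hf hf' h l)

theorem fd_fed_fold (Y : Sys Γ X m) (f : X × ℕ) (k : ZMod m) :
    (Y.fold D).fed D f k = Y.rep (Y.fed D f k) := rfl

/-- if `F_V` is known at one index the class of the edge with given index determines the face -/
theorem fd_Fr_of_rep [NeZero m] {Y : Sys Γ X m} (hY : Y.Ax D) {e e' : X × ℕ} (he : e ∈ Y.E)
    (he' : e' ∈ Y.E) (h : Y.rep e = Y.rep e') (s : Bool) : Y.Fr (e, s) (e', s) :=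
  Fr.trans (fd_rep_Fr hY he s) (h ▸ Fr.symm (fd_rep_Fr hY he' s))

/-- `ex`: given `f` on the folded system, pull back by `rep`, get `g` from `Y.ex`; `g` is
`Fr`-invariant by induction.  `conn`: pull back the set along `rep`. -/
theorem fold_ax [NeZero m] (Y : Sys Γ X m) (hY : Y.Ax D) : (Y.fold D).Ax D where
  V_E := fun η ζ h => h.1
  V_refl := fun η h => ⟨h, h, Fr.base (hY.V_refl _ h.1)⟩
  V_symm := fun η ζ h => ⟨h.2.1, h.1, Fr.symm h.2.2⟩
  V_trans := fun η ζ ξ h h' => ⟨h.1, h'.2.1, Fr.trans h.2.2 h'.2.2⟩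
  V_T := fun η ζ h => fd_Fr_T hY h.2.2
  Pr_E := fun η h => h.1
  Pr_V := by
    rintro η ζ ⟨h1, ξ, hξ, h2⟩ h
    exact ⟨h.2.1, ξ, hξ, Fr.trans (Fr.symm h.2.2) h2⟩
  Pr_merge := by
    rintro η ζ ⟨h1, ξ, hξ, h2⟩ ⟨h1', ξ', hξ', h2'⟩ h
    refine ⟨h1, h1', Fr.trans h2 (Fr.trans (Fr.base (hY.Pr_merge _ _ hξ hξ' ?_)) (Fr.symm h2'))⟩
    exact fd_sameT_trans (fd_sameT_symm (fd_Fr_T hY h2)) (fd_sameT_trans h (fd_Fr_T hY h2'))
  F_V := by
    intro f hf k
    rw [fd_fed_fold, fd_fed_fold]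
    have e1 := fd_fed_E hY hf.1 k
    have e2 := fd_fed_E hY hf.1 (k + 1)
    exact ⟨fd_rep_mem hY e1, fd_rep_mem hY e2, Fr.trans (Fr.symm (fd_rep_Fr hY e1 true))
      (Fr.trans (Fr.base (hY.F_V f hf.1 k)) (fd_rep_Fr hY e2 false))⟩
  F_inj := by
    intro q j j' k hj hj' h
    have h0 : Y.rep (Y.fed D (q, j) k) = Y.rep (Y.fed D (q, j') k) := Prod.ext rfl h
    have h1 := fd_Fr_of_rep hY (fd_fed_E hY hj.1 k) (fd_fed_E hY hj'.1 k) h0 true
    have h2 := fd_face_Fr hY hj.1 hj'.1 h1 0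
    rcases lt_trichotomy j j' with hij | hij | hij
    · exact absurd (Fr.symm h2) (hj'.2 j hij hj.1)
    · exact hij
    · exact absurd h2 (hj.2 j' hij hj'.1)
  J_E := by
    classical
    intro i hi p hp
    have hp' := Finsupp.mapDomain_support hp
    rw [Finset.mem_image] at hp'
    obtain ⟨p', hp', rfl⟩ := hp'
    exact fd_rep_mem hY (hY.J_E i hi p' hp')
  conn := by
    intro S hS hsw hPr η hη
    have key := hY.conn {η | (Y.rep η.1, η.2) ∈ S} ?_ ?_ ?_ η hη.1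
    · have key' : (Y.rep η.1, η.2) ∈ S := key
      rw [fd_rep_of_mem hY hη] at key'
      exact key'
    · intro η ζ h hV
      have e1 := hY.V_E _ _ hV
      have e2 := hY.V_E _ _ (hY.V_symm _ _ hV)
      exact hS _ _ h ⟨fd_rep_mem hY e1, fd_rep_mem hY e2, Fr.trans (Fr.symm (fd_rep_Fr hY e1 η.2))
        (Fr.trans (Fr.base hV) (fd_rep_Fr hY e2 ζ.2))⟩
    · intro e he s h
      exact hsw _ (fd_rep_mem hY he) s h
    · intro η hη'
      have e1 := hY.Pr_E _ hη'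
      exact hPr ⟨fd_rep_mem hY e1, η, hη', Fr.symm (fd_rep_Fr hY e1 η.2)⟩
  ex := by
    intro A _ f hI hF
    have hF' : ∀ n : ℕ, ∀ q : X, (q, n) ∈ Y.Fs →
        ∑ k : ZMod m, f (Y.rep (Y.fed D (q, n) k)) = 0 := by
      intro n
      induction n using Nat.strong_induction_on with
      | _ n ih =>
        intro q hq
        by_cases hq' : (q, n) ∈ (Y.fold D).Fs
        · exact hF _ hq'
        · have : ∃ j < n, (q, j) ∈ Y.Fs ∧
              Y.Fr (Y.fed D (q, n) 0, true) (Y.fed D (q, j) 0, true) := by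
            by_contra hcon
            push Not at hcon
            exact hq' ⟨hq, fun j hj hjF => hcon j hj hjF⟩
          obtain ⟨j, hj, hjF, hfr⟩ := this
          rw [← ih j hj q hjF]
          refine Finset.sum_congr rfl fun k _ => ?_
          rw [fd_face_rep hY hq hjF hfr k]
    have hI' : ∀ i ∈ Y.I, Y.Jev (fun e => f (Y.rep e)) i = 0 := by
      intro i hi
      have h0 : ((Y.J i).mapDomain fun p : Γ × ℕ => (p.1, (Y.rep (p.1 • i.1, p.2)).2)).sum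
          (fun p n => n • f (p.1 • i.1, p.2)) = 0 := hI i hi
      rw [Finsupp.sum_mapDomain_index (by intro b; simp)
        (by intro b m₁ m₂; simp [add_smul])] at h0
      exact h0
    obtain ⟨g, hgV, hgP, hgE⟩ := hY.ex A (fun e => f (Y.rep e)) hI' (fun q hq => hF' q.2 q.1 hq)
    have hFr : ∀ η ζ, Y.Fr η ζ → g η = g ζ := by
      intro η ζ h
      induction h with
      | base h => exact hgV _ _ h
      | symm _ ih => exact ih.symm
      | trans _ _ ih1 ih2 => exact ih1.trans ih2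
      | @fold x i j s h1 h2 h3 ih =>
        have e1 := hgE _ h1
        have e2 := hgE _ h2
        have e3 : Y.rep (x, i) = Y.rep (x, j) := fd_rep_eq_of_Fr hY h3
        simp only [e3] at e1
        rw [e1] at e2
        cases s with
        | true =>
          rw [ih] at e2
          simpa using e2
        | false =>
          rw [ih] at e2
          simpa using e2
    refine ⟨g, fun η ζ h => hFr _ _ h.2.2, ?_, ?_⟩
    · rintro η ⟨_, ζ, hζ, h⟩
      rw [hFr _ _ h, hgP _ hζ]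
    · intro e he
      have := hgE e he.1
      simpa only [fd_rep_of_mem hY he] using this

theorem fd_isWalk [NeZero m] (Y : Sys Γ X m) (hY : Y.Ax D) (L : List (Dart X)) :
    ∀ (η ζ : Dart X), Y.IsWalk η L ζ →
      (Y.fold D).IsWalk (Y.rep η.1, η.2) (L.map fun p => (Y.rep p.1, p.2)) (Y.rep ζ.1, ζ.2) := by
  have hV : ∀ η ζ : Dart X, Y.V η ζ → (Y.fold D).V (Y.rep η.1, η.2) (Y.rep ζ.1, ζ.2) := by
    intro η ζ hV
    have e1 := hY.V_E _ _ hV
    have e2 := hY.V_E _ _ (hY.V_symm _ _ hV)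
    exact ⟨fd_rep_mem hY e1, fd_rep_mem hY e2, Fr.trans (Fr.symm (fd_rep_Fr hY e1 η.2))
        (Fr.trans (Fr.base hV) (fd_rep_Fr hY e2 ζ.2))⟩
  induction L with
  | nil => intro η ζ h; exact hV _ _ h
  | cons p L ih =>
    intro η ζ h
    exact ⟨hV _ _ h.1, ih _ _ h.2⟩

theorem fold_walk [NeZero m] (Y : Sys Γ X m) (hY : Y.Ax D) (x y : X) (L : List (Dart X))
    (h : Y.PW D x L y) : ∃ L', (Y.fold D).PW D x L' y ∧ L'.length = L.length := by
  obtain ⟨η, ζ, hη, hζ, hx, hy, hw⟩ := h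
  refine ⟨L.map fun p => (Y.rep p.1, p.2), ⟨(Y.rep η.1, η.2), (Y.rep ζ.1, ζ.2), ?_, ?_, hx, hy,
    fd_isWalk Y hY L η ζ hw⟩, by simp⟩
  · have e1 := hY.Pr_E _ hη
    exact ⟨fd_rep_mem hY e1, η, hη, Fr.symm (fd_rep_Fr hY e1 η.2)⟩
  · have e1 := hY.Pr_E _ hζ
    exact ⟨fd_rep_mem hY e1, ζ, hζ, Fr.symm (fd_rep_Fr hY e1 ζ.2)⟩

end Sys

end Crest.Agent.FP
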