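import Crest.Agent.FP.Faces

/-! Row 191 (S0291), chunk C3: the effect of folding on `P0`. -/
set_option autoImplicit false

open MeasureTheory
open scoped ENNReal

namespace Crest.Agent.FP

variable {Γ : Type} [Group Γ] [Countable Γ] {m : ℕ} [NeZero m] {X : Type} [MeasurableSpace X]
  [MulAction Γ X] {μ : Measure X} {D : GD Γ m}

/-- counting non-minimal elements of classes -/
private theorem fdr_count {A B : Set ℕ} {R S : ℕ → ℕ → Prop} {φ : ℕ → ℕ}
    (hφ : ∀ a ∈ A, φ a ∈ B) (hinj : ∀ a ∈ A, ∀ b ∈ A, φ a = φ b → a = b)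
    (hRS : ∀ a ∈ A, ∀ b ∈ A, (R a b ↔ S (φ a) (φ b)))
    (Rs : ∀ a b, R a b → R b a) (Rt : ∀ a b c, R a b → R b c → R a c)
    (Ss : ∀ a b, S a b → S b a) :
    {a | a ∈ A ∧ ∃ b < a, b ∈ A ∧ R a b}.encard ≤ {a | a ∈ B ∧ ∃ b < a, b ∈ B ∧ S a b}.encard := by
  classical
  -- the least element of the class of `a`
  set mn : ℕ → ℕ := fun a => sInf {b | b ∈ A ∧ R a b} with hmn
  have hmn_mem : ∀ a ∈ A, R a a → mn a ∈ A ∧ R a (mn a) := fun a ha haa =>
    Nat.sInf_mem (s := {b | b ∈ A ∧ R a b}) ⟨a, ha, haa⟩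
  have hmn_le : ∀ a b, b ∈ A → R a b → mn a ≤ b := fun a b hb hab => Nat.sInf_le ⟨hb, hab⟩
  set ψ : ℕ → ℕ := fun a =>
    if ∃ b < φ a, b ∈ B ∧ S (φ a) b then φ a else φ (mn a) with hψ
  have hdom : ∀ a, a ∈ A ∧ (∃ b < a, b ∈ A ∧ R a b) → R a a ∧ mn a < a := by
    rintro a ⟨ha, b, hb, hbA, hab⟩
    have haa : R a a := Rt _ _ _ hab (Rs _ _ hab)
    exact ⟨haa, lt_of_le_of_lt (hmn_le a b hbA hab) hb⟩
  refine Set.encard_le_encard_of_injOn (f := ψ) ?_ ?_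
  · rintro a ha
    obtain ⟨haa, hlt⟩ := hdom a ha
    have ha' := ha.1
    by_cases h : ∃ b < φ a, b ∈ B ∧ S (φ a) b
    · simp only [hψ, if_pos h]
      exact ⟨hφ a ha', h⟩
    · simp only [hψ, if_neg h]
      obtain ⟨h1, h2⟩ := hmn_mem a ha' haa
      have h3 : S (φ (mn a)) (φ a) := Ss _ _ ((hRS a ha' _ h1).1 h2)
      refine ⟨hφ _ h1, φ a, ?_, hφ a ha', h3⟩
      push Not at h
      rcases lt_trichotomy (φ a) (φ (mn a)) with hlt' | heq | hgt
      · exact hlt'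
      · exact absurd (hinj _ ha' _ h1 heq) (by omega)
      · exact absurd (Ss _ _ h3) (h _ hgt (hφ _ h1))
  · intro a ha a' ha' hEq
    obtain ⟨haa, hlt⟩ := hdom a ha
    obtain ⟨haa', hlt'⟩ := hdom a' ha'
    obtain ⟨m1, m2⟩ := hmn_mem a ha.1 haa
    obtain ⟨m1', m2'⟩ := hmn_mem a' ha'.1 haa'
    -- the minimal element of a class is not a nonminimal element
    have key : ∀ c, (c ∈ A ∧ ∃ b < c, b ∈ A ∧ R c b) → ∀ d, (d ∈ A ∧ ∃ b < d, b ∈ A ∧ R d b) →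
        c ≠ mn d := by
      rintro c ⟨hc, b, hb, hbA, hcb⟩ d hd rfl
      obtain ⟨hdd, -⟩ := hdom d hd
      obtain ⟨-, n2⟩ := hmn_mem d hd.1 hdd
      have := hmn_le d b hbA (Rt _ _ _ n2 hcb)
      omega
    by_cases h : ∃ b < φ a, b ∈ B ∧ S (φ a) b <;> by_cases h' : ∃ b < φ a', b ∈ B ∧ S (φ a') b
    · simp only [hψ, if_pos h, if_pos h'] at hEq
      exact hinj _ ha.1 _ ha'.1 hEq
    · simp only [hψ, if_pos h, if_neg h'] at hEq
      exact absurd (hinj _ ha.1 _ m1' hEq) (key a ha a' ha')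
    · simp only [hψ, if_neg h, if_pos h'] at hEq
      exact absurd (hinj _ ha'.1 _ m1 hEq.symm) (key a' ha' a ha)
    · simp only [hψ, if_neg h, if_neg h'] at hEq
      have e := hinj _ m1 _ m1' hEq
      have hR : R a a' := Rt _ _ _ m2 (Rs _ _ (e ▸ m2'))
      have hS := (hRS a ha.1 a' ha'.1).1 hR
      push Not at h h'
      rcases lt_trichotomy (φ a) (φ a') with hlt' | heq | hgt
      · exact absurd (Ss _ _ hS) (h' _ hlt' (hφ _ ha.1))
      · exact hinj _ ha.1 _ ha'.1 heq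
      · exact absurd hS (h _ hgt (hφ _ ha'.1))

omit [Countable Γ] [NeZero m] [MeasurableSpace X] in
private theorem fdr_E {Y : Sys Γ X m} [NeZero m] (hY : Y.Ax D) {f : X × ℕ} (hf : f ∈ Y.Fs)
    (k : ZMod m) : Y.fed D f k ∈ Y.E :=
  hY.V_E _ _ (hY.F_V f hf k)

omit [Countable Γ] [NeZero m] [MeasurableSpace X] in
/-- related faces are related at all edges -/
private theorem fdr_step {Y : Sys Γ X m} [NeZero m] (hY : Y.Ax D) {q : X} {i j : ℕ}
    (hi : (q, i) ∈ Y.Fs) (hj : (q, j) ∈ Y.Fs) (k : ZMod m)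
    (h : Y.Fr (Y.fed D (q, i) k, true) (Y.fed D (q, j) k, true)) :
    Y.Fr (Y.fed D (q, i) (k + 1), true) (Y.fed D (q, j) (k + 1), true) := by
  have h1 := Sys.Fr.base (hY.F_V _ hi k)
  have h2 := Sys.Fr.base (hY.F_V _ hj k)
  have h3 : Y.Fr (Y.fed D (q, i) (k + 1), false) (Y.fed D (q, j) (k + 1), false) :=
    (h1.symm.trans h).trans h2
  exact Sys.Fr.fold (x := D.h (k + 1) • q) (i := Y.fe (q, i) (k + 1)) (j := Y.fe (q, j) (k + 1))
    (s := false) (fdr_E hY hi (k + 1)) (fdr_E hY hj (k + 1)) h3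

omit [Countable Γ] [NeZero m] [MeasurableSpace X] in
private theorem fdr_all {Y : Sys Γ X m} [NeZero m] (hY : Y.Ax D) {q : X} {i j : ℕ}
    (hi : (q, i) ∈ Y.Fs) (hj : (q, j) ∈ Y.Fs) (k l : ZMod m)
    (h : Y.Fr (Y.fed D (q, i) k, true) (Y.fed D (q, j) k, true)) :
    Y.Fr (Y.fed D (q, i) l, true) (Y.fed D (q, j) l, true) := by
  have key : ∀ n : ℕ, Y.Fr (Y.fed D (q, i) (k + n), true) (Y.fed D (q, j) (k + n), true) := by
    intro n
    induction n with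
    | zero => simpa using h
    | succ n ih =>
      have := fdr_step hY hi hj _ ih
      rw [Nat.cast_succ, ← add_assoc]
      exact this
  have := key (l - k).val
  rw [ZMod.natCast_zmod_val] at this
  simpa using this

/-- the non-minimal edges of faces -/
private def fdrS (D : GD Γ m) (Y : Sys Γ X m) : Set (X × ℕ) :=
  {e | e ∈ Ahat D Y ∧ ∃ j < e.2, (e.1, j) ∈ Ahat D Y ∧ Y.Fr (e, true) ((e.1, j), true)}

private theorem fdr_size_mono {A B : Set (X × ℕ)} (h : A ⊆ B) : size μ A ≤ size μ B :=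
  ENNReal.tsum_le_tsum fun i => measure_mono fun x hx => h hx

private theorem fdr_size_diff {A B : Set (X × ℕ)} (h : B ⊆ A)
    (hB : ∀ i, MeasurableSet {x | (x, i) ∈ B}) : size μ A = size μ B + size μ (A \ B) := by
  unfold size
  rw [← ENNReal.tsum_add]
  refine tsum_congr fun i => ?_
  have := measure_inter_add_sdiff (μ := μ) {x | (x, i) ∈ A} (hB i)
  rw [← this]
  congr 1
  congr 1
  ext x
  exact ⟨fun hx => hx.2, fun hx => ⟨h hx, hx⟩⟩

/-- the faces lost in folding: `size (Fs \ Fs') ≤ 1/4 * size (E \ E')`.  For each `q, k` the number of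
non-minimal faces over `q` is at most the number of non-minimal (in their class among `Ahat`)
edges of `Ahat` over `h k • q`. -/
theorem fold_drop (hS : Sp D X μ) (Y : Sys Γ X m) (hY : Y.Ax D) (hM : Y.Meas)
    (hM' : (Y.fold D).Meas) (hFr : ∀ (g : Γ) (i j : ℕ) (s t : Bool),
      MeasurableSet {x : X | Y.Fr ((x, i), s) ((g • x, j), t)})
    (hE : size μ Y.E ≠ ⊤) {w : ℝ≥0∞}
    (hF : size μ Y.Fs ≤ w) (hw : 9 / 100 + m * w ≤ 1 / 4) :
    size μ (Y.Fs \ (Y.fold D).Fs) ≤ 1 / 4 * size μ (Y.E \ (Y.fold D).E) := by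
  have hmA := Ahat_meas hS Y hY hM
  have hSm : ∀ i, MeasurableSet {x | (x, i) ∈ fdrS D Y} := by
    intro i
    have e : {x | (x, i) ∈ fdrS D Y} = {x | (x, i) ∈ Ahat D Y} ∩
        ⋃ j : ℕ, ⋃ _ : j < i, ({x | (x, j) ∈ Ahat D Y} ∩
          {x | Y.Fr ((x, i), true) (((1 : Γ) • x, j), true)}) := by
      ext x
      simp only [fdrS, Set.mem_ofPred_eq, Set.mem_inter_iff, Set.mem_iUnion, one_smul, exists_prop]
    rw [e]
    exact (hmA i).inter (MeasurableSet.iUnion fun j => MeasurableSet.iUnion fun _ =>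
      (hmA j).inter (hFr 1 i j true true))
  have hcount : ∀ q k, {j | (q, j) ∈ Y.Fs \ (Y.fold D).Fs}.encard ≤
      {j | (D.h k • q, j) ∈ fdrS D Y}.encard := by
    intro q k
    have h := fdr_count (A := {j | (q, j) ∈ Y.Fs}) (B := {j | (D.h k • q, j) ∈ Ahat D Y})
      (R := fun i j => Y.Fr (Y.fed D (q, i) 0, true) (Y.fed D (q, j) 0, true))
      (S := fun i j => Y.Fr ((D.h k • q, i), true) ((D.h k • q, j), true))
      (φ := fun j => Y.fe (q, j) k)
      (fun j hj => ⟨(q, j), hj, k, rfl⟩)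
      (fun i hi j hj hij => hY.F_inj q i j k hi hj hij)
      (fun i hi j hj => ⟨fun h => fdr_all hY hi hj 0 k h, fun h => fdr_all hY hi hj k 0 h⟩)
      (fun _ _ h => h.symm) (fun _ _ _ h h' => h.trans h') (fun _ _ h => h.symm)
    refine le_trans (Set.encard_le_encard ?_) h
    intro j hj
    obtain ⟨h1, h2⟩ := hj
    refine ⟨h1, ?_⟩
    by_contra hcon
    apply h2
    refine ⟨h1, fun i hi hiF hFr' => hcon ⟨i, hi, hiF, hFr'⟩⟩
  have hδ : μ {x | ∃ j, (x, j) ∈ fdrS D Y} ≤ m * w := by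
    calc μ {x | ∃ j, (x, j) ∈ fdrS D Y} ≤ μ (⋃ j, {x | (x, j) ∈ Ahat D Y}) := by
          refine measure_mono ?_
          rintro x ⟨j, hj⟩
          exact Set.mem_iUnion.2 ⟨j, hj.1⟩
      _ ≤ ∑' j, μ {x | (x, j) ∈ Ahat D Y} := measure_iUnion_le _
      _ = size μ (Ahat D Y) := rfl
      _ ≤ m * size μ Y.Fs := size_Ahat_le hS Y hY hM
      _ ≤ m * w := by gcongr
  have hmN : ∀ i, MeasurableSet {x | (x, i) ∈ Y.Fs \ (Y.fold D).Fs} := fun i =>
    (hM.mF i).diff (hM'.mF i)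
  have hmain := layer_cake hS (Y.Fs \ (Y.fold D).Fs) (fdrS D Y) hmN hSm hcount (m * w) hδ
  have hsub : fdrS D Y ⊆ Y.E \ (Y.fold D).E := by
    rintro e ⟨⟨f, hf, k, rfl⟩, j, hj, ⟨f', hf', k', he'⟩, hFr'⟩
    refine ⟨fdr_E hY hf k, fun hcon => ?_⟩
    have h1 : ((Y.fed D f k).1, j) ∈ Y.E := by rw [he']; exact fdr_E hY hf' k'
    exact hcon.2 j hj h1 hFr'
  exact hmain.trans (mul_le_mul' hw (fdr_size_mono hsub))

theorem fold_P0 (hS : Sp D X μ) (Y : Sys Γ X m) (hY : Y.Ax D) (hM : Y.Meas)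
    (hM' : (Y.fold D).Meas) (hFr : ∀ (g : Γ) (i j : ℕ) (s t : Bool),
      MeasurableSet {x : X | Y.Fr ((x, i), s) ((g • x, j), t)})
    (hE : size μ Y.E ≠ ⊤) {w : ℝ≥0∞}
    (hF : size μ Y.Fs ≤ w) (hw : 9 / 100 + m * w ≤ 1 / 4) :
    (Y.fold D).P0 μ ≤ Y.P0 μ := by
  have hdrop := fold_drop hS Y hY hM hM' hFr hE hF hw
  have hsE : (Y.fold D).E ⊆ Y.E := fun e he => he.1
  have hsF : (Y.fold D).Fs ⊆ Y.Fs := fun e he => he.1
  have e1 := fdr_size_diff (μ := μ) hsE hM'.mE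
  have e2 := fdr_size_diff (μ := μ) hsF hM'.mF
  have hwt : w ≠ ⊤ := by
    rintro rfl
    have hm : (m : ℝ≥0∞) ≠ 0 := by
      have := NeZero.ne m
      exact_mod_cast this
    rw [ENNReal.mul_top hm] at hw
    simp at hw
  have hFt : size μ Y.Fs ≠ ⊤ := ne_top_of_le_ne_top hwt hF
  set a := size μ (Y.fold D).E
  set b := size μ (Y.E \ (Y.fold D).E)
  set c := size μ (Y.fold D).Fs
  set d := size μ (Y.Fs \ (Y.fold D).Fs)
  have hat : a ≠ ⊤ := ne_top_of_le_ne_top hE (by rw [e1]; exact le_self_add)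
  have hbt : b ≠ ⊤ := ne_top_of_le_ne_top hE (by rw [e1]; exact le_add_self)
  have hct : c ≠ ⊤ := ne_top_of_le_ne_top hFt (by rw [e2]; exact le_self_add)
  have hdt : d ≠ ⊤ := ne_top_of_le_ne_top hFt (by rw [e2]; exact le_add_self)
  unfold Sys.P0
  change a.toReal - 5 / 4 * c.toReal ≤ (size μ Y.E).toReal - 5 / 4 * (size μ Y.Fs).toReal
  rw [e1, e2, ENNReal.toReal_add hat hbt, ENNReal.toReal_add hct hdt]
  have h4 : d.toReal ≤ 1 / 4 * b.toReal := by
    have := ENNReal.toReal_mono (ENNReal.mul_ne_top (by simp) hbt) hdrop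
    rw [ENNReal.toReal_mul] at this
    simpa using this
  have hb0 : 0 ≤ b.toReal := ENNReal.toReal_nonneg
  linarith

end Crest.Agent.FP
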