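import Crest.Agent.FP.Ops
import Crest.Agent.FP.MeasTools

/-! Row 191 (S0291), chunk FM: folding preserves measurability.
Write `Fr` as an increasing union of relations `Fr_n` (one step, countable quantifiers over
`(g, l) : Γ × ℕ`, all related darts lie in one `Γ`-orbit by `V_T`). -/
set_option autoImplicit false
set_option linter.unusedSectionVars false

open MeasureTheory

namespace Crest.Agent.FP

namespace Sys

variable {Γ : Type} [Group Γ] [Countable Γ] {m : ℕ} [NeZero m] {X : Type} [MulAction Γ X]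
  [MeasurableSpace X] {D : GD Γ m}

/-- approximations of `Fr`, relative to a base point -/
def FrN (Y : Sys Γ X m) : ℕ → X → (Γ × ℕ) × Bool → (Γ × ℕ) × Bool → Prop
  | 0, x, ρ, σ => Y.V (ats x ρ) (ats x σ)
  | n + 1, x, ρ, σ => FrN Y n x ρ σ ∨ FrN Y n x σ ρ ∨ (∃ τ, FrN Y n x ρ τ ∧ FrN Y n x τ σ) ∨
      (ρ.1.1 = σ.1.1 ∧ ρ.2 = σ.2 ∧ (ρ.1.1 • x, ρ.1.2) ∈ Y.E ∧ (ρ.1.1 • x, σ.1.2) ∈ Y.E ∧
        FrN Y n x (ρ.1, !ρ.2) (σ.1, !σ.2))

theorem FrN_meas (hs : ∀ g : Γ, Measurable fun x : X => g • x) {Y : Sys Γ X m} (hM : Y.Meas) :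
    ∀ (n : ℕ) (ρ σ : (Γ × ℕ) × Bool), MeasurableSet {x | FrN Y n x ρ σ}
  | 0, ρ, σ => hM.V' hs ρ.1.1 σ.1.1 ρ.1.2 σ.1.2 ρ.2 σ.2
  | n + 1, ρ, σ => by
    have ih := FrN_meas hs hM n
    have : {x | FrN Y (n + 1) x ρ σ} = {x | FrN Y n x ρ σ} ∪ ({x | FrN Y n x σ ρ} ∪
        ((⋃ τ, ({x | FrN Y n x ρ τ} ∩ {x | FrN Y n x τ σ})) ∪
        ({x | ρ.1.1 = σ.1.1} ∩ ({x | ρ.2 = σ.2} ∩ ({x | (ρ.1.1 • x, ρ.1.2) ∈ Y.E} ∩
          ({x | (ρ.1.1 • x, σ.1.2) ∈ Y.E} ∩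
            {x | FrN Y n x (ρ.1, !ρ.2) (σ.1, !σ.2)})))))) := by
      ext x
      simp [FrN]
    rw [this]
    refine (ih _ _).union ((ih _ _).union (MeasurableSet.union ?_ ?_))
    · exact MeasurableSet.iUnion fun τ => (ih _ _).inter (ih _ _)
    · exact MeasurableSet.inter (.const _) (MeasurableSet.inter (.const _)
        ((hM.E' hs _ _).inter ((hM.E' hs _ _).inter (ih _ _))))

theorem FrN_mono (Y : Sys Γ X m) (x : X) (ρ σ : (Γ × ℕ) × Bool) {n n' : ℕ} (h : n ≤ n')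
    (hF : FrN Y n x ρ σ) : FrN Y n' x ρ σ := by
  induction n', h using Nat.le_induction with
  | base => exact hF
  | succ k _ ih => exact Or.inl ih

theorem FrN_Fr (Y : Sys Γ X m) (x : X) : ∀ (n : ℕ) (ρ σ : (Γ × ℕ) × Bool),
    FrN Y n x ρ σ → Y.Fr (ats x ρ) (ats x σ)
  | 0, ρ, σ, h => Fr.base h
  | n + 1, ρ, σ, h => by
    rcases h with h | h | ⟨τ, h1, h2⟩ | ⟨h1, h2, h3, h4, h5⟩
    · exact FrN_Fr Y x n _ _ h
    · exact (FrN_Fr Y x n _ _ h).symm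
    · exact (FrN_Fr Y x n _ _ h1).trans (FrN_Fr Y x n _ _ h2)
    · obtain ⟨⟨g, i⟩, s⟩ := ρ
      obtain ⟨⟨g', j⟩, s'⟩ := σ
      simp only at h1 h2
      subst h1
      subst h2
      have := Fr.fold (Y := Y) h3 h4 (FrN_Fr Y x n _ _ h5)
      simpa [ats] using this

theorem Fr_orbit {Y : Sys Γ X m} (hY : Y.Ax D) {η ζ : Dart X} (h : Y.Fr η ζ) :
    ∃ g : Γ, ζ.1.1 = g • η.1.1 := by
  induction h with
  | base h => exact V_orbit hY h
  | symm h ih =>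
    obtain ⟨g, hg⟩ := ih
    exact ⟨g⁻¹, by rw [hg, inv_smul_smul]⟩
  | trans h1 h2 ih1 ih2 =>
    obtain ⟨g, hg⟩ := ih1
    obtain ⟨g', hg'⟩ := ih2
    exact ⟨g' * g, by rw [hg', hg, mul_smul]⟩
  | fold h1 h2 h3 ih => exact ⟨1, by simp⟩

theorem Fr_FrN (hfree : ∀ (g : Γ) (x : X), g • x = x → g = 1) {Y : Sys Γ X m} (hY : Y.Ax D)
    {η ζ : Dart X} (h : Y.Fr η ζ) : ∀ (x : X) (ρ σ : (Γ × ℕ) × Bool), η = ats x ρ → ζ = ats x σ →
      ∃ n, FrN Y n x ρ σ := by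
  induction h with
  | base h =>
    intro x ρ σ h1 h2
    exact ⟨0, by subst h1; subst h2; exact h⟩
  | symm h ih =>
    intro x ρ σ h1 h2
    obtain ⟨n, hn⟩ := ih x σ ρ h2 h1
    exact ⟨n + 1, Or.inr (Or.inl hn)⟩
  | @trans η ζ ξ h1 h2 ih1 ih2 =>
    intro x ρ σ e1 e2
    obtain ⟨g, hg⟩ := Fr_orbit hY h1
    have e3 : ζ = ats x ((g * ρ.1.1, ζ.1.2), ζ.2) := by
      obtain ⟨⟨y, j⟩, s⟩ := ζ
      simp only [ats, Prod.mk.injEq, and_true]
      rw [e1] at hg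
      simp only [ats] at hg
      rw [hg, mul_smul]
    obtain ⟨n1, hn1⟩ := ih1 x ρ _ e1 e3
    obtain ⟨n2, hn2⟩ := ih2 x _ σ e3 e2
    refine ⟨max n1 n2 + 1, Or.inr (Or.inr (Or.inl ⟨_, FrN_mono Y x _ _ (le_max_left _ _) hn1,
      FrN_mono Y x _ _ (le_max_right _ _) hn2⟩))⟩
  | @fold y i j s h1 h2 h3 ih =>
    intro x ρ σ e1 e2
    obtain ⟨⟨g, i'⟩, s'⟩ := ρ
    obtain ⟨⟨g', j'⟩, t'⟩ := σ
    simp only [ats, Prod.mk.injEq] at e1 e2
    obtain ⟨⟨e1, e1'⟩, e1''⟩ := e1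
    obtain ⟨⟨e2, e2'⟩, e2''⟩ := e2
    subst e1'
    subst e1''
    subst e2'
    subst e2''
    have hg : g' = g := by
      have : (g⁻¹ * g') • x = x := by rw [mul_smul, ← e2, e1, inv_smul_smul]
      have := hfree _ _ this
      rw [inv_mul_eq_one] at this
      exact this.symm
    subst hg
    obtain ⟨n, hn⟩ := ih x ((g', i), s) ((g', j), s) (by simp [ats, e1]) (by simp [ats, e1])
    refine ⟨n + 1, Or.inr (Or.inr (Or.inr ⟨rfl, rfl, ?_, ?_, ?_⟩))⟩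
    · rw [e1] at h1; exact h1
    · rw [e1] at h2; exact h2
    · simpa using hn

theorem Fr_iff (hfree : ∀ (g : Γ) (x : X), g • x = x → g = 1) {Y : Sys Γ X m} (hY : Y.Ax D)
    (x : X) (ρ σ : (Γ × ℕ) × Bool) : Y.Fr (ats x ρ) (ats x σ) ↔ ∃ n, FrN Y n x ρ σ :=
  ⟨fun h => Fr_FrN hfree hY h x ρ σ rfl rfl, fun ⟨n, hn⟩ => FrN_Fr Y x n ρ σ hn⟩

theorem Fr_meas' (hs : ∀ g : Γ, Measurable fun x : X => g • x)
    (hfree : ∀ (g : Γ) (x : X), g • x = x → g = 1)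
    (Y : Sys Γ X m) (hY : Y.Ax D) (hM : Y.Meas) (ρ σ : (Γ × ℕ) × Bool) :
    MeasurableSet {x : X | Y.Fr (ats x ρ) (ats x σ)} := by
  have : {x : X | Y.Fr (ats x ρ) (ats x σ)} = ⋃ n, {x | FrN Y n x ρ σ} := by
    ext x
    simp only [Set.mem_ofPred_eq, Set.mem_iUnion]
    exact Fr_iff hfree hY x ρ σ
  rw [this]
  exact MeasurableSet.iUnion fun n => FrN_meas hs hM n ρ σ

theorem Fr_meas2 (hs : ∀ g : Γ, Measurable fun x : X => g • x)
    (hfree : ∀ (g : Γ) (x : X), g • x = x → g = 1)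
    (Y : Sys Γ X m) (hY : Y.Ax D) (hM : Y.Meas) (g g' : Γ) (i j : ℕ) (s t : Bool) :
    MeasurableSet {x : X | Y.Fr ((g • x, i), s) ((g' • x, j), t)} :=
  Fr_meas' hs hfree Y hY hM ((g, i), s) ((g', j), t)

theorem Fr_meas (hs : ∀ g : Γ, Measurable fun x : X => g • x)
    (hfree : ∀ (g : Γ) (x : X), g • x = x → g = 1)
    (Y : Sys Γ X m) (hY : Y.Ax D) (hM : Y.Meas) (g : Γ) (i j : ℕ) (s t : Bool) :
    MeasurableSet {x : X | Y.Fr ((x, i), s) ((g • x, j), t)} := by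
  simpa using Fr_meas2 hs hfree Y hY hM 1 g i j s t

/-- the index of the representative is measurable -/
theorem rep_meas (hs : ∀ g : Γ, Measurable fun x : X => g • x)
    (hfree : ∀ (g : Γ) (x : X), g • x = x → g = 1)
    (Y : Sys Γ X m) (hY : Y.Ax D) (hM : Y.Meas) (g : Γ) (l : ℕ) :
    DMf (fun x : X => (Y.rep (g • x, l)).2) := by
  unfold rep
  refine DMf.inf_nat fun j => ?_
  exact (hM.E' hs g j).inter (Fr_meas2 hs hfree Y hY hM g g l j true true)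

theorem repE_meas (hs : ∀ g : Γ, Measurable fun x : X => g • x)
    (hfree : ∀ (g : Γ) (x : X), g • x = x → g = 1)
    (Y : Sys Γ X m) (hY : Y.Ax D) (hM : Y.Meas) (g : Γ) (i : ℕ) :
    MeasurableSet {x : X | (g • x, i) ∈ Y.repE} := by
  have : {x : X | (g • x, i) ∈ Y.repE} = {x | (g • x, i) ∈ Y.E} ∩
      ⋂ j, ⋂ (_ : j < i), ({x | (g • x, j) ∈ Y.E} ∩
        {x | Y.Fr ((g • x, i), true) ((g • x, j), true)})ᶜ := by
    ext x
    simp only [repE, Set.mem_ofPred_eq, Set.mem_inter_iff, Set.mem_iInter, Set.mem_compl_iff,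
      not_and]
  rw [this]
  refine (hM.E' hs g i).inter (MeasurableSet.iInter fun j => MeasurableSet.iInter fun _ => ?_)
  exact ((hM.E' hs g j).inter (Fr_meas2 hs hfree Y hY hM g g i j true true)).compl

theorem fold_meas (hs : ∀ g : Γ, Measurable fun x : X => g • x)
    (hfree : ∀ (g : Γ) (x : X), g • x = x → g = 1)
    (Y : Sys Γ X m) (hY : Y.Ax D) (hM : Y.Meas) : (Y.fold D).Meas where
  mE i := by
    have h1 := repE_meas hs hfree Y hY hM 1 i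
    simp only [one_smul] at h1
    exact h1
  mV g i j s t := by
    have h1 := repE_meas hs hfree Y hY hM 1 i
    have h2 := repE_meas hs hfree Y hY hM g j
    have h3 := Fr_meas hs hfree Y hY hM g i j s t
    simp only [one_smul] at h1
    exact h1.inter (h2.inter h3)
  mPr i s := by
    have h1 := repE_meas hs hfree Y hY hM 1 i
    simp only [one_smul] at h1
    have : {x : X | ((x, i), s) ∈ (Y.fold D).Pr} = {x | (x, i) ∈ Y.repE} ∩
        ⋃ g : Γ, ⋃ j : ℕ, ⋃ t : Bool, ({x | ((g • x, j), t) ∈ Y.Pr} ∩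
          {x | Y.Fr ((x, i), s) ((g • x, j), t)}) := by
      ext x
      simp only [fold, Set.mem_ofPred_eq, Set.mem_inter_iff, Set.mem_iUnion]
      refine and_congr_right fun _ => ?_
      constructor
      · rintro ⟨⟨⟨y, j⟩, t⟩, h1, h2⟩
        obtain ⟨g, hg⟩ := Fr_orbit hY h2
        simp only at hg
        subst hg
        exact ⟨g, j, t, h1, h2⟩
      · rintro ⟨g, j, t, h1, h2⟩
        exact ⟨_, h1, h2⟩
    rw [this]
    refine h1.inter (MeasurableSet.iUnion fun g => MeasurableSet.iUnion fun j =>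
      MeasurableSet.iUnion fun t => ?_)
    exact (hM.Pr' hs g j t).inter (Fr_meas hs hfree Y hY hM g i j s t)
  mF i := by
    have : {x : X | (x, i) ∈ (Y.fold D).Fs} = {x | (x, i) ∈ Y.Fs} ∩
        ⋂ j, ⋂ (_ : j < i), ({x | (x, j) ∈ Y.Fs} ∩
          {x | Y.Fr (Y.fed D (x, i) 0, true) (Y.fed D (x, j) 0, true)})ᶜ := by
      ext x
      simp only [fold, Set.mem_ofPred_eq, Set.mem_inter_iff, Set.mem_iInter, Set.mem_compl_iff,
        not_and]
    rw [this]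
    refine (hM.mF i).inter (MeasurableSet.iInter fun j => MeasurableSet.iInter fun _ =>
      MeasurableSet.compl ((hM.mF j).inter ?_))
    have h1 : DMf (fun x : X => (Y.fe (x, i) 0, Y.fe (x, j) 0)) := by
      have a1 : DMf (fun x : X => Y.fe (x, i) 0) := fun n => hM.mfe i 0 n
      have a2 : DMf (fun x : X => Y.fe (x, j) 0) := fun n => hM.mfe j 0 n
      exact a1.map2 a2 Prod.mk
    exact h1.setOf_mem (S := fun a x => Y.Fr ((D.h 0 • x, a.1), true) ((D.h 0 • x, a.2), true))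
      fun a => Fr_meas2 hs hfree Y hY hM _ _ _ _ _ _
  mfe i k n := by
    have h1 : DMf (fun x : X => Y.fe (x, i) k) := fun n => hM.mfe i k n
    exact h1.bind (F := fun a x => (Y.rep (D.h k • x, a)).2)
      (fun a => rep_meas hs hfree Y hY hM _ _) n
  mI i := hM.mI i
  mJ i := by
    have h1 : DMf (fun x : X => Y.J (x, i)) := fun c => hM.mJ i c
    refine h1.bind (F := fun c x =>
      Finsupp.mapDomain (fun p : Γ × ℕ => (p.1, (Y.rep (p.1 • x, p.2)).2)) c) fun c => ?_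
    simp only [Finsupp.mapDomain, Finsupp.sum]
    refine DMf.sum _ fun p _ => ?_
    exact (rep_meas hs hfree Y hY hM p.1 p.2).comp fun n => Finsupp.single (p.1, n) (c p)

end Sys

end Crest.Agent.FP
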