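import Crest.Agent.FP.Main
import Crest.Agent.FP.Count
import Crest.Agent.FP.DiscMeas
import Crest.Agent.FP.DistMeas

/-! Row 191 (S0291), chunk GA2. -/
set_option autoImplicit false

open MeasureTheory
open scoped ENNReal

namespace Crest.Agent.FP

variable {Γ : Type} [Group Γ] [Countable Γ] {m : ℕ} [NeZero m] {X : Type} [MeasurableSpace X]
  [MulAction Γ X] {μ : Measure X} {D : GD Γ m} {G : Set X} {ε w : ℝ≥0∞}

private theorem gd_meas_comp {Γ X β : Type} [Countable Γ] [MeasurableSpace X] [MeasurableSpace β]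
    (γ : X → List ((Γ × ℕ) × Bool)) (hγ : ∀ L, MeasurableSet {x | γ x = L})
    (F : X → List ((Γ × ℕ) × Bool) → β) (hF : ∀ L, Measurable fun x => F x L) :
    Measurable fun x => F x (γ x) := by
  intro s hs
  have : (fun x => F x (γ x)) ⁻¹' s = ⋃ L, ({x | γ x = L} ∩ (fun x => F x L) ⁻¹' s) := by
    ext x
    simp
  rw [this]
  exact MeasurableSet.iUnion fun L => (hγ L).inter (hF L hs)

open Classical in
private theorem gd_count {Γ : Type} (w : Γ × ℕ → ℝ≥0∞) (L : List ((Γ × ℕ) × Bool)) :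
    ∑' g : Γ, ∑' i : ℕ, ((L.countP (fun p => decide (p.1 = (g, i))) : ℕ) : ℝ≥0∞) * w (g, i) =
      (L.map (fun p => w p.1)).sum := by
  induction L with
  | nil => simp
  | cons p L ih =>
    have h1 : ∀ (g : Γ) (i : ℕ),
        (((p :: L).countP (fun p => decide (p.1 = (g, i))) : ℕ) : ℝ≥0∞) * w (g, i) =
        ((L.countP (fun p => decide (p.1 = (g, i))) : ℕ) : ℝ≥0∞) * w (g, i) +
          (if p.1 = (g, i) then w p.1 else 0) := by
      intro g i
      rw [List.countP_cons]
      by_cases h : p.1 = (g, i)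
      · simp only [h, decide_true, if_true, Nat.cast_add, Nat.cast_one, add_mul, one_mul]
      · simp only [h, decide_false, if_false, add_zero, Bool.false_eq_true]
    simp only [h1, ENNReal.tsum_add, ih, List.map_cons, List.sum_cons]
    rw [add_comm]
    congr 1
    rw [tsum_eq_single p.1.1, tsum_eq_single p.1.2]
    · simp
    · intro i hi
      rw [if_neg]
      intro h
      exact hi (by rw [h])
    · intro g hg
      have : ∀ i : ℕ, (if p.1 = (g, i) then w p.1 else 0) = 0 := by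
        intro i
        rw [if_neg]
        intro h
        exact hg (by rw [h])
      simp [this]

private theorem gd_countP {α : Type} (P : α → Bool) (L : List α) :
    ((L.countP P : ℕ) : ℝ≥0∞) = (L.map (fun p => if P p then (1 : ℝ≥0∞) else 0)).sum := by
  induction L with
  | nil => simp
  | cons p L ih =>
    rw [List.countP_cons, List.map_cons, List.sum_cons, Nat.cast_add, ih, add_comm]
    congr 1
    split_ifs <;> simp

open Classical in
/-- number of passages of `γ x` through the edge `(g x, i)` -/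
private noncomputable def gdUse (G : Set X) (γ : X → List ((Γ × ℕ) × Bool)) (x : X) (g : Γ)
    (i : ℕ) : ℝ≥0∞ :=
  if x ∈ G then (((γ x).countP (fun p => decide (p.1 = (g, i))) : ℕ) : ℝ≥0∞) else 0

private theorem gdUse_meas (hG : MeasurableSet G) (γ : X → List ((Γ × ℕ) × Bool))
    (hγ : ∀ L, MeasurableSet {x | γ x = L}) (g : Γ) (i : ℕ) :
    Measurable fun x => gdUse G γ x g i := by
  classical
  unfold gdUse
  refine Measurable.ite hG ?_ measurable_const
  exact gd_meas_comp γ hγ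
    (fun _ L => ((L.countP (fun p => decide (p.1 = (g, i))) : ℕ) : ℝ≥0∞)) fun _ => measurable_const

/-- total usage of an edge -/
private noncomputable def gdU (G : Set X) (γ : X → List ((Γ × ℕ) × Bool)) (y : X) (i : ℕ) :
    ℝ≥0∞ := ∑' g : Γ, gdUse G γ (g • y) g⁻¹ i

private theorem gdU_meas (hS : Sp D X μ) (hG : MeasurableSet G) (γ : X → List ((Γ × ℕ) × Bool))
    (hγ : ∀ L, MeasurableSet {x | γ x = L}) (i : ℕ) : Measurable fun y => gdU G γ y i :=
  Measurable.ennreal_tsum fun g => (gdUse_meas hG γ hγ g⁻¹ i).comp (hS.mp g).measurable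

/-- mass transport for the usage -/
private theorem gd_transport (hS : Sp D X μ) (hG : MeasurableSet G)
    (γ : X → List ((Γ × ℕ) × Bool)) (hγ : ∀ L, MeasurableSet {x | γ x = L})
    (W : X → ℕ → ℝ≥0∞) (hW : ∀ i, Measurable fun y => W y i) :
    ∫⁻ x in G, ((γ x).map (fun p => W (p.1.1 • x) p.1.2)).sum ∂μ =
      ∫⁻ y, ∑' i, gdU G γ y i * W y i ∂μ := by
  have h1 := mtp hS (ι := Unit) (κ := ℕ) (fun x _ g i => gdUse G γ x g i * W (g • x) i)
    (fun _ g i => (gdUse_meas hG γ hγ g i).mul ((hW i).comp (hS.mp g).measurable))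
  have h2 : ∀ x, ∑' (_ : Unit), ∑' g : Γ, ∑' i, gdUse G γ x g i * W (g • x) i =
      G.indicator (fun x => ((γ x).map (fun p => W (p.1.1 • x) p.1.2)).sum) x := by
    intro x
    rw [tsum_fintype, Finset.univ_unique, Finset.sum_singleton]
    by_cases hx : x ∈ G
    · rw [Set.indicator_of_mem hx]
      simp only [gdUse, hx, if_true]
      exact gd_count (fun p => W (p.1 • x) p.2) (γ x)
    · rw [Set.indicator_of_notMem hx]
      simp [gdUse, hx]
  have h3 : ∀ y, ∑' i, ∑' g : Γ, ∑' (_ : Unit), gdUse G γ (g • y) g⁻¹ i * W (g⁻¹ • g • y) i =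
      ∑' i, gdU G γ y i * W y i := by
    intro y
    refine tsum_congr fun i => ?_
    rw [gdU, ← ENNReal.tsum_mul_right]
    refine tsum_congr fun g => ?_
    rw [tsum_fintype, Finset.univ_unique, Finset.sum_singleton, inv_smul_smul]
  rw [← lintegral_indicator hG, ← lintegral_congr h2, ← lintegral_congr h3]
  exact h1

omit [Countable Γ] [NeZero m] [MulAction Γ X] in
private theorem gd_meas_nat {β ι : Type} [Countable ι] [MeasurableSpace β] (n : X → ι)
    (hn : ∀ N, MeasurableSet {x | n x = N})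
    (F : X → ι → β) (hF : ∀ N, Measurable fun x => F x N) : Measurable fun x => F x (n x) := by
  intro s hs
  have : (fun x => F x (n x)) ⁻¹' s = ⋃ N, ({x | n x = N} ∩ (fun x => F x N) ⁻¹' s) := by
    ext x
    simp
  rw [this]
  exact MeasurableSet.iUnion fun L => (hn L).inter (hF L hs)

/-- the `k`-th edges of the faces inject into the edges -/
private theorem gd_face (hS : Sp D X μ) (Y : Sys Γ X m) (hY : Y.Ax D) (hM : Y.Meas) (k : ZMod m)
    (φ : X → ℕ → ℝ≥0∞) (hφ : ∀ i, Measurable fun y => φ y i) :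
    ∑' j, ∫⁻ q in {q | (q, j) ∈ Y.Fs}, φ (D.h k • q) (Y.fe (q, j) k) ∂μ ≤
      ∫⁻ y, ∑' i, φ y i ∂μ := by
  have hm1 : ∀ j, Measurable fun q => φ (D.h k • q) (Y.fe (q, j) k) := fun j =>
    gd_meas_nat (fun q => Y.fe (q, j) k) (fun N => hM.mfe j k N) (fun q n => φ (D.h k • q) n)
      fun N => (hφ N).comp (hS.mp (D.h k)).measurable
  calc ∑' j, ∫⁻ q in {q | (q, j) ∈ Y.Fs}, φ (D.h k • q) (Y.fe (q, j) k) ∂μ
      = ∑' j, ∫⁻ q, {q | (q, j) ∈ Y.Fs}.indicator
          (fun q => φ (D.h k • q) (Y.fe (q, j) k)) q ∂μ := by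
        refine tsum_congr fun j => ?_
        rw [lintegral_indicator (hM.mF j)]
    _ = ∫⁻ q, ∑' j, {q | (q, j) ∈ Y.Fs}.indicator
          (fun q => φ (D.h k • q) (Y.fe (q, j) k)) q ∂μ := by
        rw [lintegral_tsum fun j => ((hm1 j).indicator (hM.mF j)).aemeasurable]
    _ ≤ ∫⁻ q, ∑' i, φ (D.h k • q) i ∂μ := by
        refine lintegral_mono fun q => ?_
        have hinj : Function.Injective (fun j : {j | (q, j) ∈ Y.Fs} => Y.fe (q, j) k) := by
          rintro ⟨j, hj⟩ ⟨j', hj'⟩ h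
          exact Subtype.ext (hY.F_inj q j j' k hj hj' h)
        calc ∑' j, {q | (q, j) ∈ Y.Fs}.indicator
              (fun q => φ (D.h k • q) (Y.fe (q, j) k)) q
            = ∑' j, {j | (q, j) ∈ Y.Fs}.indicator (fun j => φ (D.h k • q) (Y.fe (q, j) k)) j := rfl
          _ = ∑' j : {j | (q, j) ∈ Y.Fs}, φ (D.h k • q) (Y.fe (q, j) k) := by
              rw [← tsum_subtype]
          _ ≤ ∑' i, φ (D.h k • q) i :=
              ENNReal.tsum_comp_le_tsum_of_injective hinj (fun i => φ (D.h k • q) i)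
    _ = ∫⁻ y, ∑' i, φ y i ∂μ :=
        (hS.mp (D.h k)).lintegral_comp (f := fun y => ∑' i, φ y i)
          (Measurable.ennreal_tsum fun i => hφ i)

omit [Countable Γ] [NeZero m] [MulAction Γ X] in
private theorem gd_size (μ : Measure X) (S : Set (X × ℕ)) (hS : ∀ i, MeasurableSet {x | (x, i) ∈ S}) :
    size μ S = ∫⁻ y, ∑' i, {y | (y, i) ∈ S}.indicator 1 y ∂μ := by
  rw [lintegral_tsum fun i => (measurable_one.indicator (hS i)).aemeasurable]
  refine tsum_congr fun i => ?_
  rw [lintegral_indicator_one (hS i)]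

private theorem gd_Fs_le (hS : Sp D X μ) (Y : Sys Γ X m) (hY : Y.Ax D) (hM : Y.Meas) :
    size μ Y.Fs ≤ size μ Y.E := by
  rw [gd_size μ Y.E hM.mE]
  refine le_trans ?_ (gd_face hS Y hY hM 0 _ fun i => measurable_one.indicator (hM.mE i))
  refine ENNReal.tsum_le_tsum fun j => ?_
  rw [← setLIntegral_one]
  refine setLIntegral_mono' (hM.mF j) fun q hq => ?_
  have h1 : (D.h 0 • q, Y.fe (q, j) 0) ∈ Y.E := hY.V_E _ _ (hY.F_V (q, j) hq 0)
  rw [Set.indicator_of_mem (show D.h 0 • q ∈ {y | (y, Y.fe (q, j) 0) ∈ Y.E} from h1)]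
  rfl

/-- the discarded edges of type `κ` -/
private def gdE (D : GD Γ m) (Y : Sys Γ X m) (S : Set (X × ℕ)) (κ : X × ℕ → ZMod m) :
    Set (X × ℕ) := {e | ∃ f ∈ S, e = Y.fed D f (κ f)}

omit [Countable Γ] [NeZero m] [MeasurableSpace X] in
private theorem gdE_eq (Y : Sys Γ X m) (S : Set (X × ℕ)) (κ : X × ℕ → ZMod m) (i : ℕ) :
    {x | (x, i) ∈ gdE D Y S κ} = ⋃ k : ZMod m, ⋃ j : ℕ,
      (fun x : X => (D.h k)⁻¹ • x) ⁻¹'
        (({x | (x, j) ∈ S} ∩ {x | κ (x, j) = k}) ∩ {x | Y.fe (x, j) k = i}) := by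
  ext x
  simp only [Set.mem_setOf_eq, gdE, Set.mem_iUnion, Set.mem_preimage, Set.mem_inter_iff]
  constructor
  · rintro ⟨⟨q, j⟩, hf, hk⟩
    simp only [Sys.fed, Prod.mk.injEq] at hk
    refine ⟨κ (q, j), j, ?_⟩
    have : (D.h (κ (q, j)))⁻¹ • x = q := by rw [hk.1, inv_smul_smul]
    rw [this]
    exact ⟨⟨hf, rfl⟩, hk.2.symm⟩
  · rintro ⟨k, j, ⟨hf, hk⟩, hi⟩
    refine ⟨((D.h k)⁻¹ • x, j), hf, ?_⟩
    simp only [Sys.fed, hk, smul_inv_smul, hi]

private theorem gdE_meas (hS : Sp D X μ) (Y : Sys Γ X m) (hM : Y.Meas) (S : Set (X × ℕ))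
    (κ : X × ℕ → ZMod m) (hSm : ∀ i, MeasurableSet {x | (x, i) ∈ S})
    (hκ : ∀ i k, MeasurableSet {x | κ (x, i) = k}) (i : ℕ) :
    MeasurableSet {x | (x, i) ∈ gdE D Y S κ} := by
  rw [gdE_eq]
  refine MeasurableSet.iUnion fun k => MeasurableSet.iUnion fun j => ?_
  exact (hS.mp (D.h k)⁻¹).measurable (((hSm j).inter (hκ j k)).inter (hM.mfe j k i))

private theorem gdE_size (hS : Sp D X μ) (Y : Sys Γ X m) (hM : Y.Meas) (S : Set (X × ℕ))
    (κ : X × ℕ → ZMod m) (hSm : ∀ i, MeasurableSet {x | (x, i) ∈ S})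
    (hκ : ∀ i k, MeasurableSet {x | κ (x, i) = k}) :
    size μ (gdE D Y S κ) ≤ size μ S := by
  have h1 : ∀ i, μ {x | (x, i) ∈ gdE D Y S κ} ≤
      ∑' k : ZMod m, ∑' j : ℕ,
        μ (({x | (x, j) ∈ S} ∩ {x | κ (x, j) = k}) ∩ {x | Y.fe (x, j) k = i}) := by
    intro i
    rw [gdE_eq]
    refine (measure_iUnion_le _).trans (ENNReal.tsum_le_tsum fun k => ?_)
    refine (measure_iUnion_le _).trans (ENNReal.tsum_le_tsum fun j => ?_)
    exact ((hS.mp (D.h k)⁻¹).measure_preimage
      (((hSm j).inter (hκ j k)).inter (hM.mfe j k i)).nullMeasurableSet).le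
  have h2 : ∀ (k : ZMod m) (j : ℕ),
      ∑' i : ℕ, μ (({x | (x, j) ∈ S} ∩ {x | κ (x, j) = k}) ∩ {x | Y.fe (x, j) k = i}) =
        μ ({x | (x, j) ∈ S} ∩ {x | κ (x, j) = k}) := by
    intro k j
    rw [← measure_iUnion]
    · congr 1
      ext x
      simp
    · intro a b hab
      rw [Function.onFun, Set.disjoint_left]
      rintro x ⟨-, hx⟩ ⟨-, hx'⟩
      exact hab (hx.symm.trans hx')
    · exact fun i => ((hSm j).inter (hκ j k)).inter (hM.mfe j k i)
  have h3 : ∀ (j : ℕ), ∑' k : ZMod m, μ ({x | (x, j) ∈ S} ∩ {x | κ (x, j) = k}) =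
      μ {x | (x, j) ∈ S} := by
    intro j
    rw [← measure_iUnion]
    · congr 1
      ext x
      simp
    · intro a b hab
      rw [Function.onFun, Set.disjoint_left]
      rintro x ⟨-, hx⟩ ⟨-, hx'⟩
      exact hab (hx.symm.trans hx')
    · exact fun k => (hSm j).inter (hκ j k)
  calc size μ (gdE D Y S κ) ≤
      ∑' i : ℕ, ∑' k : ZMod m, ∑' j : ℕ,
        μ (({x | (x, j) ∈ S} ∩ {x | κ (x, j) = k}) ∩ {x | Y.fe (x, j) k = i}) :=
        ENNReal.tsum_le_tsum h1
    _ = ∑' k : ZMod m, ∑' i : ℕ, ∑' j : ℕ,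
        μ (({x | (x, j) ∈ S} ∩ {x | κ (x, j) = k}) ∩ {x | Y.fe (x, j) k = i}) :=
        ENNReal.tsum_comm
    _ = ∑' k : ZMod m, ∑' j : ℕ, ∑' i : ℕ,
        μ (({x | (x, j) ∈ S} ∩ {x | κ (x, j) = k}) ∩ {x | Y.fe (x, j) k = i}) :=
        tsum_congr fun k => ENNReal.tsum_comm
    _ = ∑' k : ZMod m, ∑' j : ℕ, μ ({x | (x, j) ∈ S} ∩ {x | κ (x, j) = k}) := by
        simp only [h2]
    _ = ∑' j : ℕ, ∑' k : ZMod m, μ ({x | (x, j) ∈ S} ∩ {x | κ (x, j) = k}) :=
        ENNReal.tsum_comm
    _ = size μ S := by simp only [h3, size]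

omit [Countable Γ] [NeZero m] [MulAction Γ X] in
private theorem gd_sInf_meas (P : ℕ → Set X) (hP : ∀ n, MeasurableSet (P n)) (N : ℕ) :
    MeasurableSet {x | sInf {n | x ∈ P n} = N} := by
  have : {x | sInf {n | x ∈ P n} = N} =
      (P N ∩ ⋂ n ∈ {n | n < N}, (P n)ᶜ) ∪ ({x | N = 0} ∩ ⋂ n, (P n)ᶜ) := by
    ext x
    simp only [Set.mem_union, Set.mem_inter_iff, Set.mem_iInter, Set.mem_compl_iff]
    constructor
    · intro h
      by_cases hne : {n | x ∈ P n}.Nonempty
      · left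
        refine ⟨?_, fun n hn hx => ?_⟩
        · have := Nat.sInf_mem hne
          rw [h] at this
          exact this
        · have h2 : sInf {n | x ∈ P n} ≤ n := Nat.sInf_le hx
          have h3 : sInf {n | x ∈ P n} = N := h
          have h4 : n < N := hn
          omega
      · right
        rw [Set.not_nonempty_iff_eq_empty] at hne
        have h3 : sInf {n | x ∈ P n} = N := h
        rw [hne, Nat.sInf_empty] at h3
        refine ⟨h3.symm, fun n hx => ?_⟩
        have : n ∈ {n | x ∈ P n} := hx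
        rw [hne] at this
        exact this
    · rintro (⟨h1, h2⟩ | ⟨h1, h2⟩)
      · refine le_antisymm (Nat.sInf_le h1) ?_
        refine le_csInf ⟨N, h1⟩ fun n hn => ?_
        by_contra hlt
        exact h2 n (not_le.1 hlt) hn
      · have : {n | x ∈ P n} = ∅ := by
          ext n
          simp only [Set.mem_empty_iff_false, iff_false]
          exact h2 n
        show sInf {n | x ∈ P n} = N
        rw [this, Nat.sInf_empty]
        exact h1.symm
  rw [this]
  refine MeasurableSet.union ?_ ?_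
  · exact (hP N).inter (MeasurableSet.biInter (Set.to_countable _) fun n _ => (hP n).compl)
  · exact (MeasurableSet.const _).inter (MeasurableSet.iInter fun n => (hP n).compl)

/-- chunk GA2.  Let `γ` be the geodesics of `exists_geo`, `usage (f,k)` = total number of passages of the
edge `fed f k` by the walks `γ x`, `x ∈ G`.  By mass transport
`∑_k ∫ usage over the C11 corners of type k ≤ m * Uint` (for each `k` the map `f ↦ fed f k` is injective).
Let `K = 1 / (4 m lam)`, `S` = faces having a C11 corner with usage `≤ K`, `κ f` = such corner with least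
`ZMod.val`.  Markov: `size S ≥ (size11 - m Uint / K) / m`.  `disc` changes `P0` by
`-2 size S + 5/4 size S` and `Uint` by at most `m K size S = size S / (4 lam)`. -/
theorem disc_gain (hS : Sp D X μ) (hm : 3 ≤ m) (Y : Sys Γ X m) (hY : Y.Adm D μ G ε w)
    (hG : MeasurableSet G) (lam : ℝ) (hl : 0 < lam) :
    ∃ Y' : Sys Γ X m, Y'.Adm D μ G ε w ∧
      Plam D μ G lam Y' ≤ Plam D μ G lam Y -
        ((size11 μ D Y).toReal - 4 * m ^ 2 * lam * (Y.Uint D μ G).toReal) / (2 * m) := by
  classical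
  have hs : ∀ g : Γ, Measurable fun x : X => g • x := fun g => (hS.mp g).measurable
  obtain ⟨γ, hγm, hγ⟩ := Sys.exists_geo (D := D) hs hS.free Y hY.ax hY.meas
  have hlen : ∀ x ∈ G, Y.PW D x (atx x (γ x)) (D.a • x) ∧ (γ x).length = Y.dist D x :=
    fun x hx => hγ x (hY.conG x hx)
  have hUm := gdU_meas hS hG γ hγm
  -- total usage
  have hU : ∫⁻ y, ∑' i, gdU G γ y i ∂μ = Y.Uint D μ G := by
    have h := gd_transport hS hG γ hγm (fun _ _ => 1) (fun _ => measurable_const)
    simp only [mul_one] at h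
    rw [← h]
    unfold Sys.Uint
    refine setLIntegral_congr_fun hG fun x hx => ?_
    simp only [List.map_const', List.sum_replicate, nsmul_eq_mul, mul_one]
    rw [(hlen x hx).2]
  -- the threshold
  have hm0 : (0 : ℝ) < m := by
    have : 0 < m := by omega
    exact_mod_cast this
  obtain ⟨K, hK⟩ : ∃ K : ℝ, K = 1 / (4 * m * lam) := ⟨_, rfl⟩
  have hKpos : 0 < K := by rw [hK]; positivity
  obtain ⟨low, hlow⟩ : ∃ low : X × ℕ → ZMod m → Prop, low = fun f k =>
    Y.C11 D f k ∧ gdU G γ (D.h k • f.1) (Y.fe f k) ≤ ENNReal.ofReal K := ⟨_, rfl⟩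
  have hUfm : ∀ i k, Measurable fun x => gdU G γ (D.h k • x) (Y.fe (x, i) k) := fun i k =>
    gd_meas_nat (fun q => Y.fe (q, i) k) (fun N => hY.meas.mfe i k N)
      (fun q n => gdU G γ (D.h k • q) n) fun N => (hUm N).comp (hS.mp (D.h k)).measurable
  have hCm := Sys.C11_meas hS Y hY.ax hY.meas
  have hlowm : ∀ i k, MeasurableSet {x | low (x, i) k} := by
    intro i k
    rw [hlow]
    exact (hCm i k).inter (measurableSet_le (hUfm i k) measurable_const)
  obtain ⟨S, hSdef⟩ : ∃ S : Set (X × ℕ), S = {f | ∃ k, low f k} := ⟨_, rfl⟩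
  have hSm : ∀ i, MeasurableSet {x | (x, i) ∈ S} := by
    intro i
    have : {x | (x, i) ∈ S} = ⋃ k, {x | low (x, i) k} := by
      ext x
      rw [hSdef]
      simp
    rw [this]
    exact MeasurableSet.iUnion fun k => hlowm i k
  obtain ⟨κ, hκdef⟩ : ∃ κ : X × ℕ → ZMod m, κ = fun f =>
    ((sInf {n : ℕ | low f (n : ZMod m)} : ℕ) : ZMod m) := ⟨_, rfl⟩
  have hκlow : ∀ f ∈ S, low f (κ f) := by
    intro f hf
    rw [hSdef] at hf
    obtain ⟨k, hk⟩ := hf
    have hne : {n : ℕ | low f (n : ZMod m)}.Nonempty :=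
      ⟨k.val, by
        show low f ((k.val : ℕ) : ZMod m)
        rw [ZMod.natCast_zmod_val]; exact hk⟩
    rw [hκdef]
    exact Nat.sInf_mem hne
  have hκm : ∀ i k, MeasurableSet {x | κ (x, i) = k} := by
    intro i k
    have : {x | κ (x, i) = k} = ⋃ N ∈ {N : ℕ | (N : ZMod m) = k},
        {x | sInf {n : ℕ | x ∈ {x | low (x, i) (n : ZMod m)}} = N} := by
      ext x
      rw [hκdef]
      simp
    rw [this]
    exact MeasurableSet.biUnion (Set.to_countable _) fun N _ =>
      gd_sInf_meas _ (fun n => hlowm i n) N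
  have hC : ∀ f ∈ S, Y.C11 D f (κ f) := by
    intro f hf
    have := hκlow f hf
    rw [hlow] at this
    exact this.1
  obtain ⟨hE', hF'⟩ := Sys.disc_size hm hS Y hY.ax hY.meas hY.folded S κ hC hSm hκm
  -- finiteness
  have hEfin := hY.finE
  have hFE := gd_Fs_le hS Y hY.ax hY.meas
  have hFfin : size μ Y.Fs ≠ ⊤ := ne_top_of_le_ne_top hEfin hFE
  have hSfin : size μ S ≠ ⊤ := ne_top_of_le_ne_top hFfin (hF' ▸ le_add_self)
  have hE'fin : size μ (Y.disc D S κ).E ≠ ⊤ := ne_top_of_le_ne_top hEfin (hE' ▸ le_self_add)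
  have hF'le : size μ (Y.disc D S κ).Fs ≤ size μ Y.Fs := hF' ▸ le_self_add
  have hF'fin : size μ (Y.disc D S κ).Fs ≠ ⊤ := ne_top_of_le_ne_top hFfin hF'le
  -- walks
  have hwalk : ∀ x ∈ G, ∃ L', (Y.disc D S κ).PW D x L' (D.a • x) ∧
      (L'.length : ℝ≥0∞) ≤ (Y.dist D x : ℝ≥0∞) + m * ((γ x).map (fun p =>
        if (p.1.1 • x, p.1.2) ∈ gdE D Y S κ then (1 : ℝ≥0∞) else 0)).sum := by
    intro x hx
    obtain ⟨hw1, hw2⟩ := hlen x hx
    obtain ⟨L', h1, h2⟩ := Sys.disc_walk hm hS.free Y hY.ax hY.folded S κ hC x _ _ hw1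
    refine ⟨L', h1, ?_⟩
    have h3 : (L'.length : ℝ≥0∞) ≤ (((atx x (γ x)).length + m * (atx x (γ x)).countP
        (fun p => decide (∃ f ∈ S, p.1 = Y.fed D f (κ f))) : ℕ) : ℝ≥0∞) := by
      exact_mod_cast h2
    refine h3.trans (le_of_eq ?_)
    rw [Nat.cast_add, Nat.cast_mul, gd_countP]
    have h4 : (atx x (γ x)).length = Y.dist D x := by
      rw [← hw2]; simp [atx]
    rw [h4, atx, List.map_map]
    congr 3
    refine List.map_congr_left fun p _ => ?_
    simp only [Function.comp, gdE, Set.mem_setOf_eq, decide_eq_true_eq]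
  have hdist : ∀ x ∈ G, ((Y.disc D S κ).dist D x : ℝ≥0∞) ≤ (Y.dist D x : ℝ≥0∞) +
      m * ((γ x).map (fun p =>
        if (p.1.1 • x, p.1.2) ∈ gdE D Y S κ then (1 : ℝ≥0∞) else 0)).sum := by
    intro x hx
    obtain ⟨L', h1, h2⟩ := hwalk x hx
    refine le_trans ?_ h2
    have : (Y.disc D S κ).dist D x ≤ L'.length := Nat.sInf_le ⟨L', h1, rfl⟩
    exact_mod_cast this
  -- the integral of the number of discarded edges
  have hcount : ∫⁻ x in G, ((γ x).map (fun p =>
        if (p.1.1 • x, p.1.2) ∈ gdE D Y S κ then (1 : ℝ≥0∞) else 0)).sum ∂μ ≤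
      ENNReal.ofReal K * size μ S := by
    have hEm := gdE_meas hS Y hY.meas S κ hSm hκm
    have h1 := gd_transport hS hG γ hγm
      (fun y i => if (y, i) ∈ gdE D Y S κ then (1 : ℝ≥0∞) else 0)
      (fun i => Measurable.ite (hEm i) measurable_const measurable_const)
    rw [h1]
    calc ∫⁻ y, ∑' i, gdU G γ y i * (if (y, i) ∈ gdE D Y S κ then (1 : ℝ≥0∞) else 0) ∂μ
        ≤ ∫⁻ y, ∑' i, ENNReal.ofReal K * ({y | (y, i) ∈ gdE D Y S κ}.indicator 1 y) ∂μ := by
          refine lintegral_mono fun y => ENNReal.tsum_le_tsum fun i => ?_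
          by_cases h : (y, i) ∈ gdE D Y S κ
          · rw [if_pos h, Set.indicator_of_mem (show y ∈ {y | (y, i) ∈ gdE D Y S κ} from h)]
            simp only [Pi.one_apply, mul_one]
            obtain ⟨f, hf, hyi⟩ := h
            have h2 := hκlow f hf
            rw [hlow] at h2
            simp only [Sys.fed, Prod.mk.injEq] at hyi
            rw [hyi.1, hyi.2]
            exact h2.2
          · rw [if_neg h, mul_zero]
            exact bot_le
      _ = ENNReal.ofReal K * size μ (gdE D Y S κ) := by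
          rw [gd_size μ _ hEm]
          simp only [ENNReal.tsum_mul_left]
          rw [lintegral_const_mul' _ _ ENNReal.ofReal_ne_top]
      _ ≤ ENNReal.ofReal K * size μ S := by
          gcongr
          exact gdE_size hS Y hY.meas S κ hSm hκm
  have hU' : (Y.disc D S κ).Uint D μ G ≤ Y.Uint D μ G + m * (ENNReal.ofReal K * size μ S) := by
    unfold Sys.Uint
    calc ∫⁻ x in G, ((Y.disc D S κ).dist D x : ℝ≥0∞) ∂μ
        ≤ ∫⁻ x in G, ((Y.dist D x : ℝ≥0∞) + m * ((γ x).map (fun p =>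
            if (p.1.1 • x, p.1.2) ∈ gdE D Y S κ then (1 : ℝ≥0∞) else 0)).sum) ∂μ :=
          setLIntegral_mono' hG hdist
      _ = ∫⁻ x in G, (Y.dist D x : ℝ≥0∞) ∂μ + ∫⁻ x in G, m * ((γ x).map (fun p =>
            if (p.1.1 • x, p.1.2) ∈ gdE D Y S κ then (1 : ℝ≥0∞) else 0)).sum ∂μ := by
          refine lintegral_add_left ?_ _
          exact (measurable_of_countable (fun n : ℕ => (n : ℝ≥0∞))).comp
            (Sys.dist_meas hs hS.free Y hY.ax hY.meas)
      _ ≤ _ := by
          gcongr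
          rw [lintegral_const_mul' _ _ (ENNReal.natCast_ne_top m)]
          gcongr
  have hUfin := hY.finU
  have hU'fin : Y.Uint D μ G + m * (ENNReal.ofReal K * size μ S) ≠ ⊤ :=
    ENNReal.add_ne_top.2 ⟨hUfin, ENNReal.mul_ne_top (ENNReal.natCast_ne_top m)
      (ENNReal.mul_ne_top ENNReal.ofReal_ne_top hSfin)⟩
  -- Markov
  have hmarkov : ENNReal.ofReal K * size11 μ D Y ≤
      ENNReal.ofReal K * (m * size μ S) + m * Y.Uint D μ G := by
    have h1 : ∀ (k : ZMod m) (i : ℕ), ENNReal.ofReal K * μ {x | Y.C11 D (x, i) k} ≤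
        ENNReal.ofReal K * μ {x | (x, i) ∈ S} +
          ∫⁻ q in {q | (q, i) ∈ Y.Fs}, gdU G γ (D.h k • q) (Y.fe (q, i) k) ∂μ := by
      intro k i
      have h2 : {x | Y.C11 D (x, i) k} ⊆ {x | (x, i) ∈ S} ∪
          ({x | Y.C11 D (x, i) k} \ {x | low (x, i) k}) := by
        intro x hx
        by_cases h : low (x, i) k
        · left
          show (x, i) ∈ S
          rw [hSdef]
          exact ⟨k, h⟩
        · right
          exact ⟨hx, h⟩
      have h3 : ENNReal.ofReal K * μ ({x | Y.C11 D (x, i) k} \ {x | low (x, i) k}) ≤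
          ∫⁻ q in {q | (q, i) ∈ Y.Fs}, gdU G γ (D.h k • q) (Y.fe (q, i) k) ∂μ := by
        have hHm : MeasurableSet ({x | Y.C11 D (x, i) k} \ {x | low (x, i) k}) :=
          (hCm i k).diff (hlowm i k)
        calc ENNReal.ofReal K * μ ({x | Y.C11 D (x, i) k} \ {x | low (x, i) k})
            = ∫⁻ q in ({x | Y.C11 D (x, i) k} \ {x | low (x, i) k}), ENNReal.ofReal K ∂μ := by
              rw [setLIntegral_const]
          _ ≤ ∫⁻ q in ({x | Y.C11 D (x, i) k} \ {x | low (x, i) k}),
                gdU G γ (D.h k • q) (Y.fe (q, i) k) ∂μ := by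
              refine setLIntegral_mono' hHm fun q hq => ?_
              have h4 : ¬ low (q, i) k := hq.2
              rw [hlow] at h4
              by_contra h5
              exact h4 ⟨hq.1, (not_le.1 h5).le⟩
          _ ≤ _ := by
              refine lintegral_mono_set fun q hq => ?_
              have h6 : Y.C11 D (q, i) k := hq.1
              exact h6.1
      calc ENNReal.ofReal K * μ {x | Y.C11 D (x, i) k}
          ≤ ENNReal.ofReal K * (μ {x | (x, i) ∈ S} +
              μ ({x | Y.C11 D (x, i) k} \ {x | low (x, i) k})) := by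
            gcongr
            exact (measure_mono h2).trans (measure_union_le _ _)
        _ = ENNReal.ofReal K * μ {x | (x, i) ∈ S} + ENNReal.ofReal K *
              μ ({x | Y.C11 D (x, i) k} \ {x | low (x, i) k}) := mul_add _ _ _
        _ ≤ _ := by gcongr
    calc ENNReal.ofReal K * size11 μ D Y
        = ∑ k : ZMod m, ∑' i, ENNReal.ofReal K * μ {x | Y.C11 D (x, i) k} := by
          rw [size11, Finset.mul_sum]
          refine Finset.sum_congr rfl fun k _ => ?_
          rw [size, ← ENNReal.tsum_mul_left]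
          rfl
      _ ≤ ∑ k : ZMod m, ∑' i, (ENNReal.ofReal K * μ {x | (x, i) ∈ S} +
          ∫⁻ q in {q | (q, i) ∈ Y.Fs}, gdU G γ (D.h k • q) (Y.fe (q, i) k) ∂μ) :=
          Finset.sum_le_sum fun k _ => ENNReal.tsum_le_tsum fun i => h1 k i
      _ ≤ ∑ k : ZMod m, (ENNReal.ofReal K * size μ S + Y.Uint D μ G) := by
          refine Finset.sum_le_sum fun k _ => ?_
          rw [ENNReal.tsum_add, ENNReal.tsum_mul_left]
          refine add_le_add le_rfl ?_
          rw [← hU]
          exact gd_face hS Y hY.ax hY.meas k (gdU G γ) hUm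
      _ = ENNReal.ofReal K * (m * size μ S) + m * Y.Uint D μ G := by
          rw [Finset.sum_const, Finset.card_univ, ZMod.card, nsmul_eq_mul, mul_add]
          congr 1
          ring
  refine ⟨Y.disc D S κ, ?_, ?_⟩
  · refine ⟨Sys.disc_ax hm hS.free Y hY.ax hY.folded S κ hC,
      Sys.disc_meas hm hS Y hY.ax hY.meas hY.folded S κ hC hSm hκm,
      Sys.disc_folded Y hY.folded S κ, hE'fin, hF'le.trans hY.Fle, hY.Ile, ?_, ?_⟩
    · intro x hx
      obtain ⟨L', h1, -⟩ := hwalk x hx
      exact ⟨L', h1⟩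
    · exact ne_top_of_le_ne_top hU'fin hU'
  · -- the computation
    have e1 : (size μ (Y.disc D S κ).E).toReal + 2 * (size μ S).toReal = (size μ Y.E).toReal := by
      rw [← hE', ENNReal.toReal_add hE'fin (ENNReal.mul_ne_top (by simp) hSfin),
        ENNReal.toReal_mul]
      simp
    have e2 : (size μ (Y.disc D S κ).Fs).toReal + (size μ S).toReal = (size μ Y.Fs).toReal := by
      rw [← hF', ENNReal.toReal_add hF'fin hSfin]
    have e3 : ((Y.disc D S κ).Uint D μ G).toReal ≤
        (Y.Uint D μ G).toReal + m * (K * (size μ S).toReal) := by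
      have h := ENNReal.toReal_mono hU'fin hU'
      rw [ENNReal.toReal_add hUfin (ENNReal.mul_ne_top (ENNReal.natCast_ne_top m)
        (ENNReal.mul_ne_top ENNReal.ofReal_ne_top hSfin)), ENNReal.toReal_mul, ENNReal.toReal_mul,
        ENNReal.toReal_ofReal hKpos.le, ENNReal.toReal_natCast] at h
      exact h
    have e4 : K * (size11 μ D Y).toReal ≤
        K * (m * (size μ S).toReal) + m * (Y.Uint D μ G).toReal := by
      have hfin1 : ENNReal.ofReal K * (m * size μ S) ≠ ⊤ :=
        ENNReal.mul_ne_top ENNReal.ofReal_ne_top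
          (ENNReal.mul_ne_top (ENNReal.natCast_ne_top m) hSfin)
      have hfin2 : (m : ℝ≥0∞) * Y.Uint D μ G ≠ ⊤ :=
        ENNReal.mul_ne_top (ENNReal.natCast_ne_top m) hUfin
      have h := ENNReal.toReal_mono (ENNReal.add_ne_top.2 ⟨hfin1, hfin2⟩) hmarkov
      rw [ENNReal.toReal_add hfin1 hfin2, ENNReal.toReal_mul, ENNReal.toReal_mul,
        ENNReal.toReal_mul, ENNReal.toReal_mul, ENNReal.toReal_ofReal hKpos.le,
        ENNReal.toReal_natCast] at h
      exact h
    unfold Plam Sys.P0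
    have hKl : lam * (m * K) = 1 / 4 := by
      rw [hK]; field_simp
    have hs0 : 0 ≤ (size μ S).toReal := ENNReal.toReal_nonneg
    generalize (size μ (Y.disc D S κ).E).toReal = E' at *
    generalize (size μ (Y.disc D S κ).Fs).toReal = F' at *
    generalize ((Y.disc D S κ).Uint D μ G).toReal = U' at *
    generalize (size μ S).toReal = s at *
    generalize (size μ Y.E).toReal = E at *
    generalize (size μ Y.Fs).toReal = F at *
    generalize (Y.Uint D μ G).toReal = U at *
    generalize (size11 μ D Y).toReal = n at *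
    have e5 : n ≤ m * s + 4 * m ^ 2 * lam * U := by
      have h1 : (4 * m * lam) * (K * n) ≤ (4 * m * lam) * (K * (m * s) + m * U) :=
        mul_le_mul_of_nonneg_left e4 (by positivity)
      have h2 : (4 * m * lam) * K = 1 := by nlinarith [hKl]
      have h3 : (4 * m * lam) * (K * n) = n := by rw [← mul_assoc, h2, one_mul]
      have h4 : (4 * m * lam) * (K * (m * s) + m * U) = m * s + 4 * m ^ 2 * lam * U := by
        rw [mul_add, ← mul_assoc, h2, one_mul]; ring
      rw [h3, h4] at h1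
      exact h1
    have e6 : (n - 4 * m ^ 2 * lam * U) / (2 * m) ≤ s / 2 := by
      rw [div_le_div_iff₀ (by positivity) (by positivity)]
      nlinarith
    have e7 : lam * U' ≤ lam * U + s / 4 := by
      have h1 := mul_le_mul_of_nonneg_left e3 hl.le
      have h2 : lam * (U + m * (K * s)) = lam * U + (lam * (m * K)) * s := by ring
      rw [h2, hKl] at h1
      linarith
    linarith

end Crest.Agent.FP
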