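import Crest.Agent.FP.Main
import Crest.Agent.FP.Count
import Crest.Agent.FP.Prune
import Crest.Agent.FP.DistMeas

/-! Row 191 (S0291), chunk GA1. -/
set_option autoImplicit false

open MeasureTheory
open scoped ENNReal

namespace Crest.Agent.FP

variable {Γ : Type} [Group Γ] [Countable Γ] {m : ℕ} [NeZero m] {X : Type} [MeasurableSpace X]
  [MulAction Γ X] {μ : Measure X} {D : GD Γ m} {G : Set X} {ε w : ℝ≥0∞}

omit [Countable Γ] [MeasurableSpace X] in
private theorem ga1_Ahat_sub (Y : Sys Γ X m) (hY : Y.Ax D) : Ahat D Y ⊆ Y.E := by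
  rintro e ⟨f, hf, k, rfl⟩
  exact hY.V_E _ _ (hY.F_V f hf k)

private theorem ga1_size_mono (μ : Measure X) {S S' : Set (X × ℕ)} (h : S ⊆ S') :
    size μ S ≤ size μ S' :=
  ENNReal.tsum_le_tsum fun _ => measure_mono fun _ hx => h hx

omit [MeasurableSpace X] [NeZero m] [Countable Γ] in
private theorem ga1_not_sameT (hfree : ∀ (g : Γ) (x : X), g • x = x → g = 1) (x : X) :
    ¬ D.SameT x (D.a • x) := by
  rintro ⟨t, ht, h⟩
  have h1 : (t⁻¹ * D.a) • x = x := by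
    rw [mul_smul, ← h, inv_smul_smul]
  have h2 := hfree _ _ h1
  have h3 : D.a = t := by
    have := congrArg (fun z => t * z) h2
    simpa using this
  exact D.a_not_mem (show D.a ∈ D.T from h3 ▸ ht)

theorem P0_nonneg (hS : Sp D X μ) (hw : 9 / 100 + m * w ≤ 1 / 4) (Y : Sys Γ X m)
    (hY : Y.Adm D μ G ε w) : 0 ≤ Y.P0 μ := by
  have h1 := faces_le hS Y hY.ax hY.meas hY.Fle hw
  have h2 : size μ (Ahat D Y) ≤ size μ Y.E := ga1_size_mono μ (ga1_Ahat_sub Y hY.ax)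
  have h3 : size μ Y.Fs ≤ 1 / 4 * size μ Y.E := h1.trans (by gcongr)
  have h4 : (size μ Y.Fs).toReal ≤ 1 / 4 * (size μ Y.E).toReal := by
    have := ENNReal.toReal_mono (ENNReal.mul_ne_top (by simp) hY.finE) h3
    rwa [ENNReal.toReal_mul, ENNReal.toReal_div, ENNReal.toReal_one, ENNReal.toReal_ofNat] at this
  have h5 : 0 ≤ (size μ Y.E).toReal := ENNReal.toReal_nonneg
  have h6 : Y.P0 μ = (size μ Y.E).toReal - 5 / 4 * (size μ Y.Fs).toReal := rfl
  rw [h6]
  linarith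

/-- chunk GA1 -/
theorem prune_gain (hS : Sp D X μ) (hm : 3 ≤ m) (Y : Sys Γ X m) (hY : Y.Adm D μ G ε w)
    (hG : MeasurableSet G) (lam : ℝ) (hl : 0 < lam) :
    ∃ Y' : Sys Γ X m, Y'.Adm D μ G ε w ∧
      Plam D μ G lam Y' ≤ Plam D μ G lam Y - (dsize μ Y.Dead).toReal := by
  have hs : ∀ g : Γ, Measurable fun x : X => g • x := fun g => (hS.mp g).measurable
  have hsz := Sys.prune_size hS Y hY.ax hY.meas
  have hE' : size μ Y.prune.E ≤ size μ Y.E := by rw [← hsz]; exact le_self_add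
  have hD' : dsize μ Y.Dead ≤ size μ Y.E := by rw [← hsz]; exact le_add_self
  have hdist : ∀ x ∈ G, Y.prune.dist D x ≤ Y.dist D x := by
    intro x hx
    obtain ⟨L, hL⟩ := hY.conG x hx
    have hne : {n | ∃ L, Y.PW D x L (D.a • x) ∧ L.length = n}.Nonempty := ⟨_, L, hL, rfl⟩
    obtain ⟨L1, hL1, hlen⟩ := Nat.sInf_mem hne
    obtain ⟨L2, hL2, hlen2⟩ := Sys.prune_walk Y hY.ax x (D.a • x) (ga1_not_sameT hS.free x) L1 hL1
    calc Y.prune.dist D x ≤ L2.length := Nat.sInf_le ⟨L2, hL2, rfl⟩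
      _ ≤ L1.length := hlen2
      _ = Y.dist D x := hlen
  have hU : Y.prune.Uint D μ G ≤ Y.Uint D μ G := by
    refine setLIntegral_mono' hG fun x hx => ?_
    exact_mod_cast hdist x hx
  refine ⟨Y.prune, ⟨Sys.prune_ax Y hY.ax, Sys.prune_meas hs hS.free Y hY.ax hY.meas,
    Sys.prune_folded Y hY.folded, ne_top_of_le_ne_top hY.finE hE', hY.Fle, hY.Ile, ?_,
    ne_top_of_le_ne_top hY.finU hU⟩, ?_⟩
  · intro x hx
    obtain ⟨L, hL⟩ := hY.conG x hx
    obtain ⟨L2, hL2, -⟩ := Sys.prune_walk Y hY.ax x (D.a • x) (ga1_not_sameT hS.free x) L hL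
    exact ⟨L2, hL2⟩
  · have h1 : (size μ Y.prune.E).toReal + (dsize μ Y.Dead).toReal = (size μ Y.E).toReal := by
      rw [← ENNReal.toReal_add (ne_top_of_le_ne_top hY.finE hE')
        (ne_top_of_le_ne_top hY.finE hD'), hsz]
    have h2 : (Y.prune.Uint D μ G).toReal ≤ (Y.Uint D μ G).toReal :=
      ENNReal.toReal_mono hY.finU hU
    have h3 : lam * (Y.prune.Uint D μ G).toReal ≤ lam * (Y.Uint D μ G).toReal :=
      mul_le_mul_of_nonneg_left h2 hl.le
    have h4 : Y.prune.P0 μ = (size μ Y.prune.E).toReal - 5 / 4 * (size μ Y.Fs).toReal := rfl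
    have h5 : Y.P0 μ = (size μ Y.E).toReal - 5 / 4 * (size μ Y.Fs).toReal := rfl
    unfold Plam
    rw [h4, h5]
    linarith

end Crest.Agent.FP
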