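import Crest.Agent.FP.Main
import Crest.Agent.FP.Count
import Crest.Agent.FP.DistMeas
import Crest.Agent.FP.FoldDet
import Crest.Agent.FP.FoldMeas
import Crest.Agent.FP.AddDet
import Crest.Agent.FP.AddMeas

/-! Row 191 (S0291), chunk GA3. -/
set_option autoImplicit false

open MeasureTheory
open scoped ENNReal

namespace Crest.Agent.FP

variable {Γ : Type} [Group Γ] [Countable Γ] {m : ℕ} [NeZero m] {X : Type} [MeasurableSpace X]
  [MulAction Γ X] {μ : Measure X} {D : GD Γ m} {G : Set X} {ε w : ℝ≥0∞}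

omit [Countable Γ] [NeZero m] [MeasurableSpace X] in
theorem gr_dist_le {Y Y' : Sys Γ X m} (x : X)
    (h : ∀ L, Y.PW D x L (D.a • x) → ∃ L', Y'.PW D x L' (D.a • x) ∧ L'.length = L.length)
    (hne : ∃ L, Y.PW D x L (D.a • x)) : Y'.dist D x ≤ Y.dist D x := by
  have hne' : {n | ∃ L, Y.PW D x L (D.a • x) ∧ L.length = n}.Nonempty := by
    obtain ⟨L, hL⟩ := hne
    exact ⟨_, L, hL, rfl⟩
  obtain ⟨L, hL, hl⟩ := Nat.sInf_mem hne'
  obtain ⟨L', hL', hl'⟩ := h L hL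
  have h1 : Y'.dist D x ≤ L'.length := Nat.sInf_le ⟨L', hL', rfl⟩
  have h2 : L.length = Y.dist D x := hl
  omega

omit [Countable Γ] [NeZero m] [MulAction Γ X] [Group Γ] in
theorem gr_size_mono {S S' : Set (X × ℕ)} (h : S ⊆ S') : size μ S ≤ size μ S' :=
  ENNReal.tsum_le_tsum fun _ => measure_mono fun _ hx => h hx

theorem gr_add (hS : Sp D X μ) (hm : 3 ≤ m) (hw : 9 / 100 + m * w ≤ 1 / 4) (hwt : w ≠ ⊤)
    (Y : Sys Γ X m) (hY : Y.Adm D μ G ε w) (hG : MeasurableSet G)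
    (hF : size μ Y.Fs ≤ w / 2) (k₀ : ZMod m) (W : Set (X × ℕ)) (hW : W ⊆ Y.Wall D k₀)
    (hWm : ∀ j, MeasurableSet {x | (x, j) ∈ W}) (hWs : size μ W ≤ w / 2) :
    ((Y.addF D k₀ W (Y.rr D k₀)).fold D).Adm D μ G ε w ∧
    ((Y.addF D k₀ W (Y.rr D k₀)).fold D).P0 μ ≤ Y.P0 μ - (size μ W).toReal / 4 ∧
    (∀ x ∈ G, ((Y.addF D k₀ W (Y.rr D k₀)).fold D).dist D x ≤
      (Y.addF D k₀ W (Y.rr D k₀)).dist D x ∧
      (Y.addF D k₀ W (Y.rr D k₀)).dist D x ≤ Y.dist D x) := by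
  have hs : ∀ g : Γ, Measurable fun x : X => g • x := fun g => (hS.mp g).measurable
  have hR : Y.RunOK D k₀ W (Y.rr D k₀) := Sys.Wall_runOK hm Y hY.ax hY.folded k₀ W hW
  set Y₁ := Y.addF D k₀ W (Y.rr D k₀) with hY₁
  have hax₁ : Y₁.Ax D := Sys.addF_ax hm Y hY.ax k₀ W _ hR
  have hrm : ∀ j k n, MeasurableSet {x | Y.rr D k₀ (x, j) k = n} := fun j k n =>
    Sys.rr_meas hs hS.free Y hY.ax hY.meas k₀ j k n
  have hme₁ : Y₁.Meas := Sys.addF_meas hs hS.free Y hY.ax hY.meas k₀ W _ hWm hrm hR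
  have hme₂ : (Y₁.fold D).Meas := Sys.fold_meas hs hS.free Y₁ hax₁ hme₁
  have hax₂ : (Y₁.fold D).Ax D := Sys.fold_ax Y₁ hax₁
  have hFr : ∀ (g : Γ) (i j : ℕ) (s t : Bool),
      MeasurableSet {x : X | Y₁.Fr ((x, i), s) ((g • x, j), t)} :=
    fun g i j s t => Sys.Fr_meas hs hS.free Y₁ hax₁ hme₁ g i j s t
  obtain ⟨hsE, hsF⟩ := Sys.addF_size hS Y hY.meas k₀ W (Y.rr D k₀) hWm
  rw [← hY₁] at hsE hsF
  have hw2 : w / 2 ≠ ⊤ := ENNReal.div_ne_top hwt (by simp)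
  have hWt : size μ W ≠ ⊤ := ne_top_of_le_ne_top hw2 hWs
  have hFt : size μ Y.Fs ≠ ⊤ := ne_top_of_le_ne_top hw2 hF
  have hE₁ : size μ Y₁.E ≠ ⊤ := by
    rw [hsE]; exact ENNReal.add_ne_top.2 ⟨hY.finE, hWt⟩
  have hF₁ : size μ Y₁.Fs ≤ w := by
    rw [hsF]
    calc size μ Y.Fs + size μ W ≤ w / 2 + w / 2 := add_le_add hF hWs
      _ = w := ENNReal.add_halves w
  have hEsub : (Y₁.fold D).E ⊆ Y₁.E := fun e he => he.1
  have hFsub : (Y₁.fold D).Fs ⊆ Y₁.Fs := fun e he => he.1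
  have hwalk₁ : ∀ x, (∀ L, Y.PW D x L (D.a • x) →
      ∃ L', Y₁.PW D x L' (D.a • x) ∧ L'.length = L.length) := fun x L hL =>
    Sys.addF_walk Y hY.ax k₀ W _ x _ L hL
  have hwalk₂ : ∀ x, (∀ L, Y₁.PW D x L (D.a • x) →
      ∃ L', (Y₁.fold D).PW D x L' (D.a • x) ∧ L'.length = L.length) := fun x L hL =>
    Sys.fold_walk Y₁ hax₁ x _ L hL
  have hcon₁ : ∀ x ∈ G, ∃ L, Y₁.PW D x L (D.a • x) := fun x hx => by
    obtain ⟨L, hL⟩ := hY.conG x hx
    obtain ⟨L', hL', _⟩ := hwalk₁ x L hL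
    exact ⟨L', hL'⟩
  have hcon₂ : ∀ x ∈ G, ∃ L, (Y₁.fold D).PW D x L (D.a • x) := fun x hx => by
    obtain ⟨L, hL⟩ := hcon₁ x hx
    obtain ⟨L', hL', _⟩ := hwalk₂ x L hL
    exact ⟨L', hL'⟩
  have hd : ∀ x ∈ G, (Y₁.fold D).dist D x ≤ Y₁.dist D x ∧ Y₁.dist D x ≤ Y.dist D x :=
    fun x hx => ⟨gr_dist_le x (hwalk₂ x) (hcon₁ x hx), gr_dist_le x (hwalk₁ x) (hY.conG x hx)⟩
  have hU : (Y₁.fold D).Uint D μ G ≤ Y.Uint D μ G := by
    unfold Sys.Uint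
    refine setLIntegral_mono' hG fun x hx => ?_
    exact_mod_cast (hd x hx).1.trans (hd x hx).2
  refine ⟨⟨hax₂, hme₂, Sys.fold_folded Y₁, ne_top_of_le_ne_top hE₁ (gr_size_mono hEsub),
    (gr_size_mono hFsub).trans hF₁, hY.Ile, hcon₂, ne_top_of_le_ne_top hY.finU hU⟩, ?_, hd⟩
  refine (fold_P0 hS Y₁ hax₁ hme₁ hme₂ hFr hE₁ hF₁ hw).trans ?_
  unfold Sys.P0
  rw [hsE, hsF, ENNReal.toReal_add hY.finE hWt, ENNReal.toReal_add hFt hWt]
  linarith

/-- chunk GA3.  By `short` and pigeonhole there is `k₀` such that `G_k₀ = {x ∈ G | dist decreases}` has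
measure `≥ (8/10)/m`; `W = Wall` or a cut of it of size in `[w/4, w/2]` (`exists_cut`); fold `addF`. -/
theorem round_gain (hS : Sp D X μ) (hm : 4 ≤ m) (hD : D.DehnOn X)
    (hw : 9 / 100 + m * w ≤ 1 / 4) (hw0 : w ≠ 0) (Y : Sys Γ X m) (hY : Y.Adm D μ G ε w)
    (hG : MeasurableSet G) (hG9 : 9 / 10 ≤ μ G) (hF : size μ Y.Fs ≤ w / 2)
    (hA : μ Y.AP ≤ 1 / 10) (lam : ℝ) (hl : 0 < lam) :
    ∃ Y' : Sys Γ X m, Y'.Adm D μ G ε w ∧
      Plam D μ G lam Y' ≤ Plam D μ G lam Y - min (lam * (8 / 10) / m) (w.toReal / 16) := by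
  have hm3 : 3 ≤ m := by omega
  have hs : ∀ g : Γ, Measurable fun x : X => g • x := fun g => (hS.mp g).measurable
  have := hS.prob
  have hwt : w ≠ ⊤ := by
    rintro rfl
    have : ((m : ℝ≥0∞)) * ⊤ = ⊤ := ENNReal.mul_top (by
      simp only [ne_eq, Nat.cast_eq_zero]; omega)
    rw [this] at hw
    simp at hw
  have hWm : ∀ k₀ j, MeasurableSet {x | (x, j) ∈ Y.Wall D k₀} := fun k₀ j =>
    Sys.Wall_meas hs hS.free Y hY.ax hY.meas k₀ j
  have hUle : ∀ Y' : Sys Γ X m, (∀ x ∈ G, Y'.dist D x ≤ Y.dist D x) →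
      (Y'.Uint D μ G).toReal ≤ (Y.Uint D μ G).toReal := fun Y' h => by
    refine ENNReal.toReal_mono hY.finU ?_
    unfold Sys.Uint
    refine setLIntegral_mono' hG fun x hx => ?_
    exact_mod_cast h x hx
  by_cases hbig : ∃ k₀ : ZMod m, w / 2 ≤ size μ (Y.Wall D k₀)
  · -- cut
    obtain ⟨k₀, hk⟩ := hbig
    have hw2 : w / 2 ≠ ⊤ := ENNReal.div_ne_top hwt (by simp)
    have hw20 : w / 2 ≠ 0 := by
      rw [Ne, ENNReal.div_eq_zero_iff]; push Not; exact ⟨hw0, by simp⟩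
    obtain ⟨W, hWW, hWmeas, hW1, hW2⟩ := Sys.exists_cut hS (Y.Wall D k₀) (hWm k₀) (w / 2) hw20 hw2 hk
    obtain ⟨hAd, hP, hd⟩ := gr_add hS hm3 hw hwt Y hY hG hF k₀ W hWW hWmeas hW2
    refine ⟨_, hAd, ?_⟩
    have h1 : w.toReal / 4 ≤ (size μ W).toReal := by
      have := ENNReal.toReal_mono (ne_top_of_le_ne_top hw2 hW2) hW1
      rw [ENNReal.toReal_div, ENNReal.toReal_div, ENNReal.toReal_ofNat] at this
      linarith
    have h2 := hUle _ (fun x hx => (hd x hx).1.trans (hd x hx).2)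
    have h3 := mul_le_mul_of_nonneg_left h2 hl.le
    have h4 := min_le_right (lam * (8 / 10) / m) (w.toReal / 16)
    unfold Plam
    linarith
  · push Not at hbig
    have hAdk : ∀ k₀ : ZMod m, _ := fun k₀ =>
      gr_add hS hm3 hw hwt Y hY hG hF k₀ (Y.Wall D k₀) le_rfl (hWm k₀) (hbig k₀).le
    -- the sets
    set Gk : ZMod m → Set X := fun k₀ =>
      {x | x ∈ G ∧ (Y.addF D k₀ (Y.Wall D k₀) (Y.rr D k₀)).dist D x < Y.dist D x} with hGk
    have hcov : G \ Y.AP ⊆ ⋃ k₀, Gk k₀ := by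
      rintro x ⟨hx, hxA⟩
      obtain ⟨k₀, hk⟩ := Sys.short hm hD hS.free Y hY.ax hY.folded x hxA (hY.conG x hx)
      exact Set.mem_iUnion.2 ⟨k₀, hx, hk⟩
    have hsum : 8 / 10 ≤ ∑ k₀ : ZMod m, μ (Gk k₀) := by
      have h1 : μ G ≤ μ Y.AP + ∑ k₀ : ZMod m, μ (Gk k₀) := by
        calc μ G ≤ μ (Y.AP ∪ ⋃ k₀, Gk k₀) := measure_mono fun x hx => by
              by_cases hxA : x ∈ Y.AP
              · exact Or.inl hxA
              · exact Or.inr (hcov ⟨hx, hxA⟩)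
          _ ≤ μ Y.AP + μ (⋃ k₀, Gk k₀) := measure_union_le _ _
          _ ≤ μ Y.AP + ∑ k₀ : ZMod m, μ (Gk k₀) := by
              gcongr
              exact measure_iUnion_fintype_le _ _
      have h2 : (1 : ℝ≥0∞) / 10 + 8 / 10 ≤ 1 / 10 + ∑ k₀ : ZMod m, μ (Gk k₀) := by
        calc (1 : ℝ≥0∞) / 10 + 8 / 10 = 9 / 10 := by
              rw [← ENNReal.add_div]; norm_num
          _ ≤ μ G := hG9
          _ ≤ _ := h1
          _ ≤ 1 / 10 + ∑ k₀ : ZMod m, μ (Gk k₀) := by gcongr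
      exact (ENNReal.add_le_add_iff_left (by simp)).1 h2
    obtain ⟨k₀, hk⟩ : ∃ k₀ : ZMod m, (8 / 10 : ℝ≥0∞) / m ≤ μ (Gk k₀) := by
      by_contra hcon
      push Not at hcon
      have h3 : ∑ k₀ : ZMod m, μ (Gk k₀) < ∑ _k₀ : ZMod m, (8 / 10 : ℝ≥0∞) / m := by
        refine ENNReal.sum_lt_sum_of_nonempty Finset.univ_nonempty fun k _ => hcon k
      rw [Finset.sum_const, Finset.card_univ, ZMod.card, nsmul_eq_mul,
        ENNReal.mul_div_cancel (by simp [NeZero.ne m]) (by simp)] at h3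
      exact absurd hsum (not_le.2 h3)
    obtain ⟨hAd, hP, hd⟩ := hAdk k₀
    refine ⟨_, hAd, ?_⟩
    set Y₁ := Y.addF D k₀ (Y.Wall D k₀) (Y.rr D k₀) with hY₁
    have hR : Y.RunOK D k₀ (Y.Wall D k₀) (Y.rr D k₀) :=
      Sys.Wall_runOK hm3 Y hY.ax hY.folded k₀ _ le_rfl
    have hax₁ : Y₁.Ax D := Sys.addF_ax hm3 Y hY.ax k₀ _ _ hR
    have hme₁ : Y₁.Meas := Sys.addF_meas hs hS.free Y hY.ax hY.meas k₀ _ _ (hWm k₀)
      (fun j k n => Sys.rr_meas hs hS.free Y hY.ax hY.meas k₀ j k n) hR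
    have hdm₁ : Measurable fun x => Y₁.dist D x := Sys.dist_meas hs hS.free Y₁ hax₁ hme₁
    have hdm : Measurable fun x => Y.dist D x := Sys.dist_meas hs hS.free Y hY.ax hY.meas
    have hGkm : MeasurableSet (Gk k₀) := hG.inter (measurableSet_lt hdm₁ hdm)
    -- the integral
    have hU : (Y₁.fold D).Uint D μ G + μ (Gk k₀) ≤ Y.Uint D μ G := by
      unfold Sys.Uint
      have h1 : μ (Gk k₀) = ∫⁻ x in G, (Gk k₀).indicator 1 x ∂μ := by
        rw [lintegral_indicator_one hGkm, Measure.restrict_apply hGkm,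
          Set.inter_eq_self_of_subset_left fun x hx => hx.1]
      rw [h1, ← lintegral_add_right _ (measurable_one.indicator hGkm)]
      refine setLIntegral_mono' hG fun x hx => ?_
      by_cases hxk : x ∈ Gk k₀
      · rw [Set.indicator_of_mem hxk, Pi.one_apply]
        have h2 := (hd x hx).1
        have h3 : (Y₁.fold D).dist D x + 1 ≤ Y.dist D x := by
          have h4 : Y₁.dist D x < Y.dist D x := hxk.2
          omega
        exact_mod_cast h3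
      · rw [Set.indicator_of_notMem hxk, add_zero]
        exact_mod_cast (hd x hx).1.trans (hd x hx).2
    have hUR : ((Y₁.fold D).Uint D μ G).toReal + 8 / 10 / m ≤ (Y.Uint D μ G).toReal := by
      have h1 : (Y₁.fold D).Uint D μ G + 8 / 10 / m ≤ Y.Uint D μ G :=
        (add_le_add le_rfl hk).trans hU
      have h2 := ENNReal.toReal_mono hY.finU h1
      rw [ENNReal.toReal_add hAd.finU (ne_top_of_le_ne_top (measure_ne_top μ _) hk),
        ENNReal.toReal_div, ENNReal.toReal_div, ENNReal.toReal_ofNat, ENNReal.toReal_ofNat,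
        ENNReal.toReal_natCast] at h2
      exact h2
    have h5 := mul_le_mul_of_nonneg_left hUR hl.le
    have h6 := min_le_left (lam * (8 / 10) / m) (w.toReal / 16)
    have h7 : lam * (((Y₁.fold D).Uint D μ G).toReal + 8 / 10 / m) =
      lam * ((Y₁.fold D).Uint D μ G).toReal + lam * (8 / 10) / m := by ring
    have h8 : 0 ≤ (size μ (Y.Wall D k₀)).toReal := ENNReal.toReal_nonneg
    unfold Plam
    linarith

end Crest.Agent.FP
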