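import Crest.Agent.FP.GroupDefs

/-! Row 191 (S0291), chunk G1: the group data `DD`. -/
set_option autoImplicit false

namespace Crest.Agent.FP

/-- evaluation of the exponent of `h_i` in a word -/
def gdd_ev (m : ℕ) (i : ZMod m) : G0 m →* Multiplicative ℤ :=
  FreeGroup.lift fun j : Ix m => Multiplicative.ofAdd (if j.1 = i then (1 : ℤ) else 0)

theorem gdd_ev_hh (m : ℕ) (i : ZMod m) (hi : i ≠ 0) (k : ZMod m) :
    gdd_ev m i (hh m k) = Multiplicative.ofAdd (if k = i then (1 : ℤ) else 0) := by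
  unfold hh gdd_ev
  split_ifs with h1 h2 h2
  · exact absurd (h2.symm.trans h1) hi
  · simp
  · simp [h2]
  · simp [h2]

theorem gdd_bb (m : ℕ) (i : ZMod m) (hi : i ≠ 0) (k : ZMod m) :
    (gdd_ev m i (bb m k)).toAdd = (if k + 1 = i then (1 : ℤ) else 0) - (if k = i then 1 else 0) := by
  unfold bb
  rw [map_mul, map_inv, gdd_ev_hh m i hi, gdd_ev_hh m i hi, toAdd_mul, toAdd_inv, toAdd_ofAdd,
    toAdd_ofAdd, sub_eq_add_neg]

theorem gdd_bb_inj_aux (m : ℕ) [NeZero m] (hm : 3 ≤ m) (k l : ZMod m) (hk : k ≠ 0)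
    (h : bb m k = bb m l) : k = l := by
  by_contra hkl
  have h1 := gdd_bb m k hk k
  rw [h, gdd_bb m k hk l, if_pos rfl, if_neg (fun h : l = k => hkl h.symm)] at h1
  have : Fact (1 < m) := ⟨by omega⟩
  have h2 : k + 1 ≠ k := by
    intro h
    exact one_ne_zero (add_eq_left.mp h)
  rw [if_neg h2] at h1
  split_ifs at h1 <;> omega

theorem gdd_bb_inj (m : ℕ) [NeZero m] (hm : 3 ≤ m) (k l : ZMod m)
    (h : bb m k = bb m l) : k = l := by
  by_cases hk : k = 0
  · by_cases hl : l = 0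
    · rw [hk, hl]
    · exact (gdd_bb_inj_aux m hm l k hl h.symm).symm
  · exact gdd_bb_inj_aux m hm k l hk h

/-- the total index homomorphism -/
def gdd_tot (m : ℕ) : G0 m →* Multiplicative (ZMod m) :=
  FreeGroup.lift fun j : Ix m => Multiplicative.ofAdd j.1

theorem gdd_tot_hh (m : ℕ) (k : ZMod m) : gdd_tot m (hh m k) = Multiplicative.ofAdd k := by
  unfold hh gdd_tot
  split_ifs with h
  · simp [h]
  · simp

theorem gdd_tot_bb (m : ℕ) (k : ZMod m) :
    gdd_tot m (bb m k) = Multiplicative.ofAdd (1 : ZMod m) := by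
  unfold bb
  rw [map_mul, map_inv, gdd_tot_hh, gdd_tot_hh, ← ofAdd_neg, ← ofAdd_add]
  congr 1
  ring

theorem gdd_tot_FF (m : ℕ) (g : G0 m) (hg : g ∈ FF m) : gdd_tot m g = 1 := by
  have : FF m ≤ (gdd_tot m).ker := by
    unfold FF
    rw [Subgroup.closure_le]
    rintro _ ⟨k, rfl⟩
    change gdd_tot m (bb m k * (bb m 0)⁻¹) = 1
    rw [map_mul, map_inv, gdd_tot_bb, gdd_tot_bb, mul_inv_cancel]
  exact this hg

theorem gdd_tot_TT (m : ℕ) (g : Gam m) (hg : g ∈ TT m) :
    gdd_tot m (SemidirectProduct.rightHom g) = 1 := by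
  have : TT m ≤ ((gdd_tot m).comp (SemidirectProduct.rightHom : Gam m →* G0 m)).ker := by
    unfold TT
    rw [Subgroup.closure_le]
    rintro x (hx | ⟨f, hf, rfl⟩)
    · rw [Set.mem_singleton_iff] at hx
      subst hx
      change gdd_tot m (SemidirectProduct.rightHom (zz m)) = 1
      simp [zz]
    · change gdd_tot m (SemidirectProduct.rightHom (ii m f)) = 1
      rw [ii, SemidirectProduct.rightHom_inr]
      exact gdd_tot_FF m f hf
  exact this hg

/-- `hh` is injective etc.; `DD` is the group data of `Gam m`. -/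
def DD (m : ℕ) [NeZero m] (hm : 3 ≤ m) : GD (Gam m) m where
  T := TT m
  h := fun k => ii m (hh m k)
  h_zero := by simp [hh]
  b_mem := by
    intro k
    have : ii m (bb m k * (bb m 0)⁻¹) ∈ TT m :=
      Subgroup.subset_closure (Or.inr ⟨_, Subgroup.subset_closure ⟨k, rfl⟩, rfl⟩)
    have h0 : bb m 0 = hh m 1 := by simp [bb, hh]
    rw [map_mul, map_inv, h0] at this
    simpa only [bb, map_mul, map_inv] using this
  b_inj := by
    intro k l h
    rw [← map_inv, ← map_inv, ← map_mul, ← map_mul] at h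
    exact gdd_bb_inj m hm k l (SemidirectProduct.inr_injective h)
  a_not_mem := by
    intro h
    have h1 := gdd_tot_TT m _ h
    rw [ii, SemidirectProduct.rightHom_inr, gdd_tot_hh] at h1
    have : Fact (1 < m) := ⟨by omega⟩
    exact one_ne_zero (ofAdd_eq_one.mp h1)

end Crest.Agent.FP
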