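import Crest.Agent.FP.Defs

/-! Row 191 (S0291), the group `Gam m = FreeGroup (G0 / FF) ⋊ G0`. -/
set_option autoImplicit false

namespace Crest.Agent.FP

/-- index set of the free generators `h_k`, `k ≠ 0` -/
abbrev Ix (m : ℕ) : Type := {k : ZMod m // k ≠ 0}

/-- the free group `Γ₀` -/
abbrev G0 (m : ℕ) : Type := FreeGroup (Ix m)

/-- `h_k`, with `h_0 = 1` -/
def hh (m : ℕ) (k : ZMod m) : G0 m := if hk : k = 0 then 1 else FreeGroup.of ⟨k, hk⟩

/-- `b_k = h_{k+1} h_k⁻¹` -/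
def bb (m : ℕ) (k : ZMod m) : G0 m := hh m (k + 1) * (hh m k)⁻¹

/-- `F = ⟨b_k b_0⁻¹⟩` -/
def FF (m : ℕ) : Subgroup (G0 m) := Subgroup.closure (Set.range fun k => bb m k * (bb m 0)⁻¹)

/-- `Γ₀` permutes the basis `Γ₀ / F` of the free group `FreeGroup (Γ₀ / F)` -/
def act (m : ℕ) : G0 m →* MulAut (FreeGroup (G0 m ⧸ FF m)) where
  toFun g := FreeGroup.freeGroupCongr (MulAction.toPerm g)
  map_one' := by
    ext x
    simp [MulAction.toPerm]
  map_mul' g g' := by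
    apply MulEquiv.toMonoidHom_injective
    ext x
    simp [mul_smul]

/-- the group `Γ` -/
abbrev Gam (m : ℕ) : Type := FreeGroup (G0 m ⧸ FF m) ⋊[act m] G0 m

/-- the element `z` -/
def zz (m : ℕ) : Gam m :=
  SemidirectProduct.inl (FreeGroup.of ((1 : G0 m) : G0 m ⧸ FF m))

/-- embedding of `Γ₀` -/
def ii (m : ℕ) : G0 m →* Gam m := SemidirectProduct.inr

/-- `T = ⟨F, z⟩` -/
def TT (m : ℕ) : Subgroup (Gam m) := Subgroup.closure ({zz m} ∪ (ii m) '' (FF m))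

end Crest.Agent.FP
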