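import Crest.Agent.FP.GroupDD

/-! Row 191 (S0291), chunk G5: facts about the group `Gam m`. -/
set_option autoImplicit false

namespace Crest.Agent.FP

/-- a subgroup containing `ii h_k` (`k ≠ 0`) and `z` is everything -/
theorem gfa_top (m : ℕ) (H : Subgroup (Gam m)) (h1 : ∀ k, ii m (hh m k) ∈ H)
    (h2 : zz m ∈ H) : H = ⊤ := by
  have hi : ∀ g : G0 m, ii m g ∈ H := by
    intro g
    have : (⊤ : Subgroup (G0 m)) ≤ H.comap (ii m) := by
      rw [← FreeGroup.closure_range_of, Subgroup.closure_le]
      rintro _ ⟨⟨k, hk⟩, rfl⟩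
      have := h1 k
      rw [hh, dif_neg hk] at this
      exact this
    exact this (Subgroup.mem_top g)
  have hz : ∀ g : G0 m,
      (SemidirectProduct.inl (FreeGroup.of (g : G0 m ⧸ FF m)) : Gam m) ∈ H := by
    intro g
    have h3 : (SemidirectProduct.inl (FreeGroup.of (g : G0 m ⧸ FF m)) : Gam m)
        = ii m g * zz m * (ii m g)⁻¹ := by
      unfold ii zz
      rw [← map_inv, ← SemidirectProduct.inl_aut]
      congr 1
      simp [act]
    rw [h3]
    exact H.mul_mem (H.mul_mem (hi g) h2) (H.inv_mem (hi g))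
  have hl : ∀ n : FreeGroup (G0 m ⧸ FF m), (SemidirectProduct.inl n : Gam m) ∈ H := by
    intro n
    have : (⊤ : Subgroup (FreeGroup (G0 m ⧸ FF m))) ≤
        H.comap (SemidirectProduct.inl : _ →* Gam m) := by
      rw [← FreeGroup.closure_range_of, Subgroup.closure_le]
      rintro _ ⟨q, rfl⟩
      obtain ⟨g, rfl⟩ := QuotientGroup.mk_surjective q
      exact hz g
    exact this (Subgroup.mem_top n)
  rw [eq_top_iff]
  intro x _
  rw [← SemidirectProduct.inl_left_mul_inr_right x]
  exact H.mul_mem (hl _) (hi _)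

theorem closure_T_a (m : ℕ) [NeZero m] (hm : 3 ≤ m) :
    Subgroup.closure (((DD m hm).T : Set (Gam m)) ∪ {(DD m hm).a}) = ⊤ := by
  set H := Subgroup.closure (((DD m hm).T : Set (Gam m)) ∪ {(DD m hm).a}) with hH
  have hT : ∀ g ∈ TT m, g ∈ H := fun g hg => Subgroup.subset_closure (Or.inl hg)
  have ha : ii m (bb m 0) ∈ H := by
    apply Subgroup.subset_closure
    right
    change ii m (bb m 0) = ii m (hh m 1)
    simp [bb, hh]
  have hb : ∀ k, ii m (bb m k) ∈ H := by
    intro k
    have h1 : ii m (bb m k * (bb m 0)⁻¹) ∈ H :=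
      hT _ (Subgroup.subset_closure (Or.inr ⟨_, Subgroup.subset_closure ⟨k, rfl⟩, rfl⟩))
    have h2 := H.mul_mem h1 ha
    rwa [← map_mul, inv_mul_cancel_right] at h2
  have hn : ∀ n : ℕ, ii m (hh m (n : ZMod m)) ∈ H := by
    intro n
    induction n with
    | zero => simp [hh, H.one_mem]
    | succ n ih =>
      have h2 := H.mul_mem (hb (n : ZMod m)) ih
      rw [← map_mul, bb, inv_mul_cancel_right] at h2
      simpa using h2
  refine gfa_top m H (fun k => ?_) (hT _ (Subgroup.subset_closure (Or.inl rfl)))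
  have := hn k.val
  rwa [ZMod.natCast_zmod_val] at this

theorem gam_fg (m : ℕ) [NeZero m] : Group.FG (Gam m) := by
  rw [Group.fg_iff]
  refine ⟨Set.range (fun k : ZMod m => ii m (hh m k)) ∪ {zz m}, ?_, ?_⟩
  · exact gfa_top m _ (fun k => Subgroup.subset_closure (Or.inl ⟨k, rfl⟩))
      (Subgroup.subset_closure (Or.inr rfl))
  · exact (Set.finite_range _).union (Set.finite_singleton _)

theorem gfa_countable_free (α : Type) [Countable α] : Countable (FreeGroup α) :=
  Function.Surjective.countable (f := fun L : List (α × Bool) => FreeGroup.mk L)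
    (fun x => Quot.exists_rep x)

instance gam_countable (m : ℕ) [NeZero m] : Countable (Gam m) := by
  have h1 : Countable (G0 m) := gfa_countable_free _
  have h2 : Countable (G0 m ⧸ FF m) :=
    Function.Surjective.countable (f := fun g : G0 m => (g : G0 m ⧸ FF m))
      QuotientGroup.mk_surjective
  have h3 : Countable (FreeGroup (G0 m ⧸ FF m)) := gfa_countable_free _
  exact Function.Injective.countable (SemidirectProduct.equivProd (φ := act m)).injective

theorem TT_infinite (m : ℕ) [NeZero m] (hm : 3 ≤ m) : Infinite (TT m) := by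
  have hz : zz m ∈ TT m := Subgroup.subset_closure (Or.inl rfl)
  refine Infinite.of_injective (fun n : ℕ => (⟨zz m ^ n, (TT m).pow_mem hz n⟩ : TT m)) ?_
  intro n k h
  have h1 : zz m ^ n = zz m ^ k := congrArg Subtype.val h
  unfold zz at h1
  rw [← map_pow, ← map_pow, SemidirectProduct.inl_inj] at h1
  have h2 := congrArg (FreeGroup.lift fun _ : G0 m ⧸ FF m => Multiplicative.ofAdd (1 : ℤ)) h1
  rw [map_pow, map_pow, FreeGroup.lift_apply_of, ← ofAdd_nsmul, ← ofAdd_nsmul] at h2
  have h3 := Multiplicative.ofAdd.injective h2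
  simpa using h3

/-- `Γ₀` acts freely (by left multiplication) on the nonempty finite subsets of `Γ` -/
theorem G0_free_finsets (m : ℕ) [NeZero m] [DecidableEq (Gam m)] (g : G0 m) (S : Finset (Gam m))
    (hS : S.Nonempty) (h : S.image (fun x => ii m g * x) = S) : g = 1 := by
  obtain ⟨x, hx⟩ := hS
  have hp : ∀ n : ℕ, ii m g ^ n * x ∈ S := by
    intro n
    induction n with
    | zero => simpa using hx
    | succ n ih =>
      rw [← h, pow_succ', mul_assoc]
      exact Finset.mem_image_of_mem _ ih
  have hni : ¬ Function.Injective fun n : ℕ => (⟨ii m g ^ n * x, hp n⟩ : S) :=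
    not_injective_infinite_finite _
  rw [Function.Injective] at hni
  push Not at hni
  obtain ⟨n, k, hnk, hne⟩ := hni
  have h1 : ii m g ^ n * x = ii m g ^ k * x := congrArg Subtype.val hnk
  have h2 : ii m g ^ n = ii m g ^ k := mul_right_cancel h1
  rw [← map_pow, ← map_pow] at h2
  have h3 : g ^ n = g ^ k := SemidirectProduct.inr_injective h2
  have key : ∀ n k : ℕ, n < k → g ^ n = g ^ k → g = 1 := by
    intro n k hlt h3
    have h4 : g ^ (k - n) = 1 := by
      have h5 : g ^ n * g ^ (k - n) = g ^ n * 1 := by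
        rw [← pow_add, Nat.add_sub_cancel' hlt.le, mul_one, h3]
      exact mul_left_cancel h5
    have h6 : (fun x : G0 m => x ^ (k - n)) g = (fun x : G0 m => x ^ (k - n)) 1 := by
      simpa using h4
    exact pow_left_injective (by omega) h6
  rcases Nat.lt_or_gt_of_ne hne with hlt | hlt
  · exact key n k hlt h3
  · exact key k n hlt h3.symm

end Crest.Agent.FP
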