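import Crest.Agent.FP.LemmaA
import Crest.Agent.FP.DistMeas
import Crest.Agent.FP.FoldDet
import Crest.Agent.FP.FoldMeas

/-! Row 191 (S0291), chunk I: the initial admissible system.

For every `g : Γ` fix a `KWalk` in `Γ` from `1` to `g` (exists by `hgen`).  The presystem has for each
arc type `i < N` and each step `s` of the walk of `g i` the edges over `(e_s) • x`, `x ∈ A i`
(coded by `Nat.pair i s`), consecutive darts are related, first and last darts are principal.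
`J` = signed sum of the edges of the segment.  No faces.  Then fold; `G' = {x ∈ G | dist ≤ L}`. -/
set_option autoImplicit false

open MeasureTheory
open scoped ENNReal

namespace Crest.Agent.FP

section det

variable {Γ : Type} [Group Γ] {m : ℕ} {D : GD Γ m}

theorem init_sameT_refl {X : Type} [MulAction Γ X] (x : X) : D.SameT x x :=
  ⟨1, D.T.one_mem, one_smul _ _⟩

theorem init_sameT_symm {X : Type} [MulAction Γ X] {x y : X} (h : D.SameT x y) : D.SameT y x := by
  obtain ⟨t, ht, rfl⟩ := h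
  exact ⟨t⁻¹, D.T.inv_mem ht, inv_smul_smul _ _⟩

theorem init_sameT_trans {X : Type} [MulAction Γ X] {x y z : X} (h : D.SameT x y)
    (h' : D.SameT y z) : D.SameT x z := by
  obtain ⟨t, ht, rfl⟩ := h
  obtain ⟨t', ht', rfl⟩ := h'
  exact ⟨t' * t, D.T.mul_mem ht' ht, mul_smul _ _ _⟩

/-- data of a walk in the Cayley complex from `1` to `g` -/
structure WD (D : GD Γ m) (g : Γ) where
  n : ℕ
  γ : ℕ → Γ
  d : ℕ → Bool
  v : ℕ → Γ
  v0 : v 0 = 1
  vn : D.SameT (v n) g
  st : ∀ s < n, D.SameT (v s) (D.kpos (γ s, !d s))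
  en : ∀ s < n, D.SameT (D.kpos (γ s, d s)) (v (s + 1))

/-- append one step to a walk -/
def WD.snoc {g g' : Γ} (w : WD D g) (c : Γ) (b : Bool) (h1 : D.SameT g (D.kpos (c, !b)))
    (h2 : D.SameT (D.kpos (c, b)) g') : WD D g' where
  n := w.n + 1
  γ := fun s => if s < w.n then w.γ s else c
  d := fun s => if s < w.n then w.d s else b
  v := fun s => if s ≤ w.n then w.v s else g'
  v0 := by simp [w.v0]
  vn := by simp; exact init_sameT_refl _
  st := by
    intro s hs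
    by_cases h : s < w.n
    · simpa [h, h.le] using w.st s h
    · have hs' : s = w.n := by omega
      subst hs'
      simpa using init_sameT_trans w.vn h1
  en := by
    intro s hs
    by_cases h : s < w.n
    · simpa [h, Nat.succ_le_of_lt h] using w.en s h
    · have hs' : s = w.n := by omega
      subst hs'
      simpa using h2

theorem exists_WD (hgen : Subgroup.closure ((D.T : Set Γ) ∪ {D.a}) = ⊤) (g : Γ) :
    Nonempty (WD D g) := by
  have hg : g ∈ Subgroup.closure ((D.T : Set Γ) ∪ {D.a}) := by rw [hgen]; trivial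
  induction hg using Subgroup.closure_induction_left with
  | one =>
    exact ⟨{ n := 0, γ := fun _ => 1, d := fun _ => true, v := fun _ => 1, v0 := rfl,
             vn := init_sameT_refl _, st := fun s hs => absurd hs (by omega),
             en := fun s hs => absurd hs (by omega) }⟩
  | mul_left x hx y hy ih =>
    obtain ⟨w⟩ := ih
    rcases hx with hx | hx
    · exact ⟨{ w with vn := init_sameT_trans w.vn ⟨x, hx, rfl⟩ }⟩
    · rw [Set.mem_singleton_iff] at hx
      subst hx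
      exact ⟨w.snoc y true (by simpa [GD.kpos] using init_sameT_refl y)
        (by simpa [GD.kpos] using init_sameT_refl _)⟩
  | inv_mul_cancel x hx y hy ih =>
    obtain ⟨w⟩ := ih
    rcases hx with hx | hx
    · exact ⟨{ w with vn := init_sameT_trans w.vn ⟨x⁻¹, D.T.inv_mem hx, rfl⟩ }⟩
    · rw [Set.mem_singleton_iff] at hx
      subst hx
      exact ⟨w.snoc (D.a⁻¹ * y) false (by simpa [GD.kpos] using init_sameT_refl y)
        (by simpa [GD.kpos] using init_sameT_refl _)⟩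

/-- arc data indexed by `ℕ` -/
structure AD (D : GD Γ m) (X : Type) where
  n : ℕ → ℕ
  γ : ℕ → ℕ → Γ
  d : ℕ → ℕ → Bool
  v : ℕ → ℕ → Γ
  A : ℕ → Set X
  v0 : ∀ i, v i 0 = 1
  st : ∀ i, ∀ s < n i, D.SameT (v i s) (D.kpos (γ i s, !d i s))
  en : ∀ i, ∀ s < n i, D.SameT (D.kpos (γ i s, d i s)) (v i (s + 1))

namespace AD

variable {X : Type} [MulAction Γ X] (Q : AD D X)

def ix (η : Dart X) : ℕ := (Nat.unpair η.1.2).1

def sx (η : Dart X) : ℕ := (Nat.unpair η.1.2).2

/-- vertex number of a dart on its segment -/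
def tm (η : Dart X) : ℕ := if η.2 = Q.d (ix η) (sx η) then sx η + 1 else sx η

/-- base point of the arc of a dart -/
def base (η : Dart X) : X := (Q.γ (ix η) (sx η))⁻¹ • η.1.1

def IsP (η : Dart X) : Prop := Q.tm η = 0 ∨ Q.tm η = Q.n (ix η)

def EE : Set (X × ℕ) :=
  {e | (Nat.unpair e.2).2 < Q.n (Nat.unpair e.2).1 ∧
    (Q.γ (Nat.unpair e.2).1 (Nat.unpair e.2).2)⁻¹ • e.1 ∈ Q.A (Nat.unpair e.2).1}

/-- the presystem of segments -/
noncomputable def sys : Sys Γ X m where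
  E := Q.EE
  V := fun η ζ => η.1 ∈ Q.EE ∧ ζ.1 ∈ Q.EE ∧
    ((Q.IsP η ∧ Q.IsP ζ ∧ D.SameT (D.pos η) (D.pos ζ)) ∨
      (¬ Q.IsP η ∧ ¬ Q.IsP ζ ∧ ix η = ix ζ ∧ Q.base η = Q.base ζ ∧ Q.tm η = Q.tm ζ))
  Pr := {η | η.1 ∈ Q.EE ∧ Q.IsP η}
  Fs := ∅
  fe := fun _ _ => 0
  I := {p | p.1 ∈ Q.A p.2}
  J := fun p => ∑ s ∈ Finset.range (Q.n p.2),
    Finsupp.single (Q.γ p.2 s, Nat.pair p.2 s) (if Q.d p.2 s then (1 : ℤ) else -1)

theorem sameT_act {g g' : Γ} (h : D.SameT g g') (y : X) : D.SameT (g • y) (g' • y) := by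
  obtain ⟨t, ht, rfl⟩ := h
  exact ⟨t, ht, by rw [smul_eq_mul, mul_smul]⟩

theorem kpos_act (g : Γ) (b : Bool) (y : X) : D.kpos (g, b) • y = D.kpos (g • y, b) := by
  cases b <;> simp [GD.kpos, mul_smul]

theorem pos_eq (η : Dart X) : D.pos η = D.kpos (η.1.1, η.2) := rfl

theorem pos_v {η : Dart X} (hη : η.1 ∈ Q.EE) :
    D.SameT (D.pos η) (Q.v (ix η) (Q.tm η) • Q.base η) := by
  obtain ⟨⟨x, n⟩, b⟩ := η
  obtain ⟨h1, -⟩ := hη
  have hx : x = Q.γ (Nat.unpair n).1 (Nat.unpair n).2 •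
      ((Q.γ (Nat.unpair n).1 (Nat.unpair n).2)⁻¹ • x) := (smul_inv_smul _ _).symm
  set y := (Q.γ (Nat.unpair n).1 (Nat.unpair n).2)⁻¹ • x with hy
  have hb : Q.base ((x, n), b) = y := rfl
  rw [hb, pos_eq]
  by_cases hd : b = Q.d (Nat.unpair n).1 (Nat.unpair n).2
  · have ht : Q.tm ((x, n), b) = (Nat.unpair n).2 + 1 := by
      unfold tm; exact if_pos hd
    rw [ht]
    have h2 := sameT_act (Q.en _ _ h1) y
    rw [kpos_act, ← hx, ← hd] at h2
    exact h2
  · have hd' : b = !Q.d (Nat.unpair n).1 (Nat.unpair n).2 := by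
      cases b <;> cases h : Q.d (Nat.unpair n).1 (Nat.unpair n).2 <;> simp_all
    have ht : Q.tm ((x, n), b) = (Nat.unpair n).2 := by
      unfold tm; exact if_neg hd
    rw [ht]
    have h2 := sameT_act (Q.st _ _ h1) y
    rw [kpos_act, ← hx, ← hd'] at h2
    exact init_sameT_symm h2

/-- the `s`-th edge of the segment of `(y, i)` -/
def ed (y : X) (i s : ℕ) : X × ℕ := (Q.γ i s • y, Nat.pair i s)

theorem ed_mem {y : X} {i s : ℕ} (hs : s < Q.n i) (hy : y ∈ Q.A i) : Q.ed y i s ∈ Q.EE := by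
  refine ⟨?_, ?_⟩
  · simpa [ed] using hs
  · simpa [ed] using hy

theorem ed_base (y : X) (i s : ℕ) (b : Bool) : Q.base (Q.ed y i s, b) = y := by
  simp [base, ed, ix, sx]

theorem ed_ix (y : X) (i s : ℕ) (b : Bool) : ix (Q.ed y i s, b) = i := by
  simp [ed, ix]

theorem ed_tm (y : X) (i s : ℕ) : Q.tm (Q.ed y i s, Q.d i s) = s + 1 := by
  simp [tm, ed, ix, sx]

theorem ed_tm' (y : X) (i s : ℕ) : Q.tm (Q.ed y i s, !Q.d i s) = s := by
  simp [tm, ed, ix, sx]

/-- every edge is an edge of a segment -/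
theorem exists_ed {e : X × ℕ} (he : e ∈ Q.EE) :
    ∃ y i s, s < Q.n i ∧ y ∈ Q.A i ∧ e = Q.ed y i s := by
  obtain ⟨h1, h2⟩ := he
  refine ⟨_, _, _, h1, h2, ?_⟩
  simp [ed]

theorem V_next {y : X} {i s : ℕ} (hs : s + 1 < Q.n i) (hy : y ∈ Q.A i) :
    Q.sys.V (Q.ed y i s, Q.d i s) (Q.ed y i (s + 1), !Q.d i (s + 1)) := by
  refine ⟨Q.ed_mem (by omega) hy, Q.ed_mem hs hy, Or.inr ⟨?_, ?_, ?_, ?_, ?_⟩⟩
  · unfold IsP; rw [ed_tm, ed_ix]; omega
  · unfold IsP; rw [ed_tm', ed_ix]; omega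
  · rw [ed_ix, ed_ix]
  · rw [ed_base, ed_base]
  · rw [ed_tm, ed_tm']

theorem V_refl {η : Dart X} (h : η.1 ∈ Q.EE) : Q.sys.V η η := by
  refine ⟨h, h, ?_⟩
  by_cases hp : Q.IsP η
  · exact Or.inl ⟨hp, hp, init_sameT_refl _⟩
  · exact Or.inr ⟨hp, hp, rfl, rfl, rfl⟩

theorem ed_first {y : X} {i : ℕ} (h : 0 < Q.n i) (hy : y ∈ Q.A i) :
    (Q.ed y i 0, !Q.d i 0) ∈ Q.sys.Pr :=
  ⟨Q.ed_mem h hy, Or.inl (Q.ed_tm' y i 0)⟩

theorem ed_last {y : X} {i s : ℕ} (h : s + 1 = Q.n i) (hy : y ∈ Q.A i) :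
    (Q.ed y i s, Q.d i s) ∈ Q.sys.Pr := by
  refine ⟨Q.ed_mem (by omega) hy, Or.inr ?_⟩
  rw [ed_tm, ed_ix, h]

/-- evaluation on the chain of an arc -/
theorem Jev_eq {B : Type} [AddCommGroup B] (f : X × ℕ → B) (y : X) (i : ℕ) :
    Q.sys.Jev f (y, i) = ∑ s ∈ Finset.range (Q.n i),
      (if Q.d i s then (1 : ℤ) else -1) • f (Q.ed y i s) := by
  have h := Finsupp.sum_finsetSum_index (s := Finset.range (Q.n i))
    (g := fun s => Finsupp.single (Q.γ i s, Nat.pair i s) (if Q.d i s then (1 : ℤ) else -1))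
    (h := fun (p : Γ × ℕ) (n : ℤ) => n • f (p.1 • y, p.2))
    (fun p => zero_smul ℤ (f (p.1 • y, p.2)))
    (fun p n n' => add_smul n n' (f (p.1 • y, p.2)))
  unfold Sys.Jev sys
  simp only
  rw [← h]
  refine Finset.sum_congr rfl (fun s _ => ?_)
  exact Finsupp.sum_single_index (h := fun (p : Γ × ℕ) (n : ℤ) => n • f (p.1 • y, p.2))
    (zero_smul ℤ _)

/-- partial sums -/
noncomputable def Ps {B : Type} [AddCommGroup B] (f : X × ℕ → B) (y : X) (i t : ℕ) : B :=
  ∑ s ∈ Finset.range t, (if Q.d i s then (1 : ℤ) else -1) • f (Q.ed y i s)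

theorem sys_ax [NeZero m] : Q.sys.Ax D where
  V_E := fun η ζ h => h.1
  V_refl := fun η h => Q.V_refl h
  V_symm := by
    rintro η ζ ⟨h1, h2, h | h⟩
    · exact ⟨h2, h1, Or.inl ⟨h.2.1, h.1, init_sameT_symm h.2.2⟩⟩
    · exact ⟨h2, h1, Or.inr ⟨h.2.1, h.1, h.2.2.1.symm, h.2.2.2.1.symm, h.2.2.2.2.symm⟩⟩
  V_trans := by
    rintro η ζ ξ ⟨h1, h2, h | h⟩ ⟨h3, h4, h' | h'⟩
    · exact ⟨h1, h4, Or.inl ⟨h.1, h'.2.1, init_sameT_trans h.2.2 h'.2.2⟩⟩
    · exact absurd h.2.1 h'.1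
    · exact absurd h'.1 h.2.1
    · exact ⟨h1, h4, Or.inr ⟨h.1, h'.2.1, h.2.2.1.trans h'.2.2.1, h.2.2.2.1.trans h'.2.2.2.1,
        h.2.2.2.2.trans h'.2.2.2.2⟩⟩
  V_T := by
    rintro η ζ ⟨h1, h2, h | h⟩
    · exact h.2.2
    · have h3 := Q.pos_v h1
      have h4 := Q.pos_v h2
      rw [h.2.2.1, h.2.2.2.1, h.2.2.2.2] at h3
      exact init_sameT_trans h3 (init_sameT_symm h4)
  Pr_E := fun η h => h.1
  Pr_V := by
    rintro η ζ ⟨h0, h1⟩ ⟨h2, h3, h | h⟩
    · exact ⟨h3, h.2.1⟩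
    · exact absurd h1 h.1
  Pr_merge := fun η ζ h1 h2 h => ⟨h1.1, h2.1, Or.inl ⟨h1.2, h2.2, h⟩⟩
  F_V := fun f hf => absurd hf (Set.notMem_empty _)
  F_inj := fun q j j' k hf => absurd hf (Set.notMem_empty _)
  J_E := by
    rintro ⟨y, i⟩ hy p hp
    classical
    have h1 := Finsupp.support_finsetSum hp
    rw [Finset.mem_biUnion] at h1
    obtain ⟨s, hs, hps⟩ := h1
    have h2 := Finsupp.support_single_subset hps
    rw [Finset.mem_singleton] at h2
    subst h2
    exact Q.ed_mem (Finset.mem_range.1 hs) hy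
  conn := by
    intro S hV hfl hP η hη
    obtain ⟨e, b⟩ := η
    obtain ⟨y, i, s, hs, hy, rfl⟩ := Q.exists_ed hη
    have key : ∀ s, s < Q.n i → (Q.ed y i s, !Q.d i s) ∈ S := by
      intro s
      induction s with
      | zero => intro h; exact hP (Q.ed_first h hy)
      | succ s ih =>
        intro h
        have h1 := hfl _ (Q.ed_mem (by omega) hy) _ (ih (by omega))
        rw [Bool.not_not] at h1
        exact hV _ _ h1 (Q.V_next h hy)
    have h1 := key s hs
    by_cases hb : b = !Q.d i s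
    · rw [hb]; exact h1
    · have h2 := hfl _ (Q.ed_mem hs hy) _ h1
      have h3 : b = !(!Q.d i s) := by
        cases b <;> cases h : Q.d i s <;> simp_all
      rw [h3]; exact h2
  ex := by
    intro B _ f hJ _
    refine ⟨fun η => Q.Ps f (Q.base η) (ix η) (Q.tm η), ?_, ?_, ?_⟩
    · have hP : ∀ η, η.1 ∈ Q.EE → Q.IsP η → Q.Ps f (Q.base η) (ix η) (Q.tm η) = 0 := by
        intro η hη hp
        rcases hp with hp | hp
        · rw [hp]; simp [Ps]
        · rw [hp]
          have := hJ (Q.base η, ix η) hη.2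
          rw [Jev_eq] at this
          exact this
      rintro η ζ ⟨h1, h2, h | h⟩
      · simp only
        rw [hP η h1 h.1, hP ζ h2 h.2.1]
      · simp only
        rw [h.2.2.1, h.2.2.2.1, h.2.2.2.2]
    · rintro η ⟨hη, hp | hp⟩
      · simp only
        rw [hp]; simp [Ps]
      · simp only
        rw [hp]
        have := hJ (Q.base η, ix η) hη.2
        rw [Jev_eq] at this
        exact this
    · intro e he
      obtain ⟨y, i, s, hs, hy, rfl⟩ := Q.exists_ed he
      have h1 : Q.Ps f y i (s + 1) = Q.Ps f y i s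
          + (if Q.d i s then (1 : ℤ) else -1) • f (Q.ed y i s) := Finset.sum_range_succ _ _
      simp only [ed_base, ed_ix]
      cases hd : Q.d i s
      · have h2 := Q.ed_tm y i s
        have h3 := Q.ed_tm' y i s
        rw [hd] at h1 h2 h3
        rw [Bool.not_false] at h3
        rw [h2, h3, h1]
        simp
      · have h2 := Q.ed_tm y i s
        have h3 := Q.ed_tm' y i s
        rw [hd] at h1 h2 h3
        rw [Bool.not_true] at h3
        rw [h2, h3, h1]
        simp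

/-- the walk along a segment -/
theorem walk_seg {y : X} {i : ℕ} (hy : y ∈ Q.A i) (k s : ℕ) (h : s + k + 1 = Q.n i) :
    ∃ L, Q.sys.IsWalk (Q.ed y i s, Q.d i s) L (Q.ed y i (s + k), Q.d i (s + k)) := by
  induction k generalizing s with
  | zero => exact ⟨[], Q.V_refl (Q.ed_mem (by omega) hy)⟩
  | succ k ih =>
    obtain ⟨L, hL⟩ := ih (s + 1) (by omega)
    refine ⟨(Q.ed y i (s + 1), Q.d i (s + 1)) :: L, Q.V_next (by omega) hy, ?_⟩
    rw [show s + (k + 1) = s + 1 + k by omega]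
    exact hL

theorem PW_seg {y : X} {i : ℕ} (hy : y ∈ Q.A i) (hn : 0 < Q.n i) :
    ∃ L, Q.sys.PW D y L (Q.v i (Q.n i) • y) := by
  obtain ⟨L, hL⟩ := Q.walk_seg hy (Q.n i - 1) 0 (by omega)
  rw [Nat.zero_add] at hL
  refine ⟨(Q.ed y i 0, Q.d i 0) :: L, (Q.ed y i 0, !Q.d i 0),
    (Q.ed y i (Q.n i - 1), Q.d i (Q.n i - 1)), Q.ed_first hn hy, Q.ed_last (by omega) hy, ?_, ?_,
    Q.V_refl (Q.ed_mem hn hy), hL⟩
  · have h := Q.pos_v (η := (Q.ed y i 0, !Q.d i 0)) (Q.ed_mem hn hy)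
    rw [ed_base, ed_tm', ed_ix, Q.v0, one_smul] at h
    exact init_sameT_symm h
  · have h := Q.pos_v (η := (Q.ed y i (Q.n i - 1), Q.d i (Q.n i - 1))) (Q.ed_mem (by omega) hy)
    rw [ed_base, ed_tm, ed_ix, show Q.n i - 1 + 1 = Q.n i by omega] at h
    exact init_sameT_symm h

end AD

/-! walks: append, reverse -/

theorem init_walk_append {X : Type} [MulAction Γ X] {Y : Sys Γ X m}
    (htr : ∀ η ζ ξ, Y.V η ζ → Y.V ζ ξ → Y.V η ξ) :
    ∀ (L L' : List (Dart X)) (η ζ η' ζ' : Dart X), Y.IsWalk η L ζ → Y.V ζ η' →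
      Y.IsWalk η' L' ζ' → Y.IsWalk η (L ++ L') ζ'
  | [], [], η, ζ, η', ζ', h1, h2, h3 => htr _ _ _ (htr _ _ _ h1 h2) h3
  | [], p :: L', η, ζ, η', ζ', h1, h2, h3 => ⟨htr _ _ _ (htr _ _ _ h1 h2) h3.1, h3.2⟩
  | p :: L, L', η, ζ, η', ζ', h1, h2, h3 =>
    ⟨h1.1, init_walk_append htr L L' p ζ η' ζ' h1.2 h2 h3⟩

theorem init_walk_rev {X : Type} [MulAction Γ X] [NeZero m] {Y : Sys Γ X m} (hY : Y.Ax D) :
    ∀ (L : List (Dart X)) (η ζ : Dart X), Y.IsWalk η L ζ → ∃ L', Y.IsWalk ζ L' η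
  | [], η, ζ, h => ⟨[], hY.V_symm _ _ h⟩
  | p :: L, η, ζ, h => by
    obtain ⟨L', hL'⟩ := init_walk_rev hY L p ζ h.2
    have hp : p.1 ∈ Y.E := hY.V_E (p.1, !p.2) η (hY.V_symm _ _ h.1)
    refine ⟨L' ++ [(p.1, !p.2)], init_walk_append hY.V_trans L' _ ζ p p η hL'
      (hY.V_refl p hp) ⟨?_, hY.V_symm _ _ h.1⟩⟩
    show Y.V p (p.1, !(!p.2))
    rw [Bool.not_not]
    exact hY.V_refl p hp

/-- same class or connected -/
def Cn {X : Type} [MulAction Γ X] (D : GD Γ m) (Y : Sys Γ X m) (x y : X) : Prop :=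
  D.SameT x y ∨ ∃ L, Y.PW D x L y

theorem Cn.symm {X : Type} [MulAction Γ X] [NeZero m] {Y : Sys Γ X m} (hY : Y.Ax D) {x y : X}
    (h : Cn D Y x y) : Cn D Y y x := by
  rcases h with h | ⟨L, η, ζ, h1, h2, h3, h4, h5⟩
  · exact Or.inl (init_sameT_symm h)
  · obtain ⟨L', hL'⟩ := init_walk_rev hY L η ζ h5
    exact Or.inr ⟨L', ζ, η, h2, h1, h4, h3, hL'⟩

theorem Cn.trans {X : Type} [MulAction Γ X] [NeZero m] {Y : Sys Γ X m} (hY : Y.Ax D) {x y z : X}
    (h : Cn D Y x y) (h' : Cn D Y y z) : Cn D Y x z := by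
  rcases h with h | ⟨L, η, ζ, h1, h2, h3, h4, h5⟩
  · rcases h' with h' | ⟨L', η', ζ', h1', h2', h3', h4', h5'⟩
    · exact Or.inl (init_sameT_trans h h')
    · exact Or.inr ⟨L', η', ζ', h1', h2', init_sameT_trans h h3', h4', h5'⟩
  · rcases h' with h' | ⟨L', η', ζ', h1', h2', h3', h4', h5'⟩
    · exact Or.inr ⟨L, η, ζ, h1, h2, h3, init_sameT_trans (init_sameT_symm h') h4, h5⟩
    · refine Or.inr ⟨L ++ L', η, ζ', h1, h2', h3, h4', init_walk_append hY.V_trans L L' η ζ η' ζ'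
        h5 (hY.Pr_merge _ _ h2 h1' (init_sameT_trans (init_sameT_symm h4) h3')) h5'⟩

end det

section meas

variable {Γ : Type} [Group Γ] {m : ℕ} {X : Type} [MeasurableSpace X]
  [MulAction Γ X] {μ : Measure X} {D : GD Γ m}

theorem init_const_meas {P : X → Prop} (h : ∀ x y, P x → P y) : MeasurableSet {x | P x} := by
  by_cases hP : ∃ x, P x
  · obtain ⟨x, hx⟩ := hP
    have : {x | P x} = Set.univ := Set.eq_univ_of_forall (fun y => h x y hx)
    rw [this]; exact MeasurableSet.univ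
  · have : {x | P x} = ∅ := Set.eq_empty_of_forall_notMem (fun y hy => hP ⟨y, hy⟩)
    rw [this]; exact MeasurableSet.empty

theorem init_free (hfree : ∀ (g : Γ) (x : X), g • x = x → g = 1) {g h : Γ} {x : X}
    (e : g • x = h • x) : g = h := by
  have h1 : (h⁻¹ * g) • x = x := by rw [mul_smul, e, inv_smul_smul]
  have h2 := hfree _ _ h1
  exact (inv_mul_eq_one.1 h2).symm

theorem init_sameT_const (hfree : ∀ (g : Γ) (x : X), g • x = x → g = 1) {g h : Γ} {x : X}
    (e : D.SameT (g • x) (h • x)) (y : X) : D.SameT (g • y) (h • y) := by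
  obtain ⟨t, ht, e⟩ := e
  rw [← mul_smul] at e
  have := init_free hfree e
  exact ⟨t, ht, by rw [← mul_smul, this]⟩

variable (Q : AD D X)

theorem AD.EE_meas (hs : ∀ g : Γ, Measurable fun x : X => g • x)
    (hA : ∀ i, MeasurableSet (Q.A i)) (n : ℕ) : MeasurableSet {x | (x, n) ∈ Q.EE} := by
  have : {x : X | (x, n) ∈ Q.EE} = {x | (Nat.unpair n).2 < Q.n (Nat.unpair n).1} ∩
      (fun x : X => (Q.γ (Nat.unpair n).1 (Nat.unpair n).2)⁻¹ • x) ⁻¹' Q.A (Nat.unpair n).1 := rfl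
  rw [this]
  exact (init_const_meas (fun _ _ h => h)).inter (hs _ (hA _))

theorem AD.pos_smul (x : X) (n : ℕ) (b : Bool) :
    D.pos ((x, n), b) = (if b then D.a else 1) • x := by
  cases b <;> simp [GD.pos]

theorem AD.sys_meas (hs : ∀ g : Γ, Measurable fun x : X => g • x)
    (hfree : ∀ (g : Γ) (x : X), g • x = x → g = 1)
    (hA : ∀ i, MeasurableSet (Q.A i)) : Q.sys.Meas where
  mE := Q.EE_meas hs hA
  mV := by
    intro g i j s t
    have : {x : X | Q.sys.V ((x, i), s) ((g • x, j), t)} = {x | (x, i) ∈ Q.EE} ∩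
      ((fun x => g • x) ⁻¹' {x | (x, j) ∈ Q.EE} ∩
      ({x | Q.IsP ((x, i), s) ∧ Q.IsP ((g • x, j), t) ∧ D.SameT (D.pos ((x, i), s))
          (D.pos ((g • x, j), t))} ∪
      {x | ¬ Q.IsP ((x, i), s) ∧ ¬ Q.IsP ((g • x, j), t) ∧ AD.ix ((x, i), s) = AD.ix ((g • x, j), t) ∧
        Q.base ((x, i), s) = Q.base ((g • x, j), t) ∧ Q.tm ((x, i), s) = Q.tm ((g • x, j), t)})) := rfl
    rw [this]
    refine (Q.EE_meas hs hA i).inter ((hs g (Q.EE_meas hs hA j)).inter (MeasurableSet.union ?_ ?_))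
    · refine init_const_meas ?_
      rintro x y ⟨h1, h2, h3⟩
      refine ⟨h1, h2, ?_⟩
      rw [AD.pos_smul, AD.pos_smul, ← mul_smul] at h3 ⊢
      exact init_sameT_const hfree h3 y
    · refine init_const_meas ?_
      rintro x y ⟨h1, h2, h3, h4, h5⟩
      refine ⟨h1, h2, h3, ?_, h5⟩
      unfold AD.base at h4 ⊢
      simp only [← mul_smul] at h4 ⊢
      have := init_free hfree h4
      show _ • y = _ • y
      exact congrArg (· • y) this
  mPr := by
    intro i s
    have : {x : X | ((x, i), s) ∈ Q.sys.Pr} = {x | (x, i) ∈ Q.EE} ∩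
      {x | Q.IsP ((x, i), s)} := rfl
    rw [this]
    exact (Q.EE_meas hs hA i).inter (init_const_meas (fun _ _ h => h))
  mF := fun i => init_const_meas (fun _ _ h => h)
  mfe := fun i k n => init_const_meas (fun _ _ h => h)
  mI := fun i => hA i
  mJ := fun i c => init_const_meas (fun _ _ h => h)

end meas

variable {Γ : Type} [Group Γ] [Countable Γ] {m : ℕ} [NeZero m] {X : Type} [MeasurableSpace X]
  [MulAction Γ X] {μ : Measure X} {D : GD Γ m}

theorem exists_adm (hS : Sp D X μ)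
    (hgen : Subgroup.closure ((D.T : Set Γ) ∪ {D.a}) = ⊤)
    {N : ℕ} (g : Fin N → Γ) (A : Fin N → Set X) (hA : ∀ i, MeasurableSet (A i)) (ε w : ℝ≥0∞)
    (hε : ∑ i, μ (A i) ≤ ε) (hε' : ε ≠ ⊤) (G : Set X) (hG : MeasurableSet G) (hGμ : 19 / 20 ≤ μ G)
    (hcon : ∀ x ∈ G, Relation.EqvGen (AStep D g A) x (D.a • x)) :
    ∃ G' : Set X, MeasurableSet G' ∧ 9 / 10 ≤ μ G' ∧
      ∃ Y : Sys Γ X m, Y.Adm D μ G' ε w := by
  classical
  have hs : ∀ g : Γ, Measurable fun x : X => g • x := fun g => (hS.mp g).measurable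
  have hfree := hS.free
  have := hS.prob
  have hW : ∀ i : Fin N, Nonempty (WD D (g i)) := fun i => exists_WD (D := D) hgen (g i)
  let W : ∀ i : Fin N, WD D (g i) := fun i => (hW i).some
  -- extend to `ℕ`
  obtain ⟨Q, hQn, hQA, hQA', hQv⟩ : ∃ Q : AD D X, (∀ i : Fin N, Q.n i = (W i).n) ∧
      (∀ i : Fin N, Q.A i = A i) ∧ (∀ i, N ≤ i → Q.A i = ∅) ∧
      (∀ i : Fin N, ∀ s, Q.v i s = (W i).v s) := by
    refine ⟨{ n := fun i => if h : i < N then (W ⟨i, h⟩).n else 0,
              γ := fun i => if h : i < N then (W ⟨i, h⟩).γ else fun _ => 1,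
              d := fun i => if h : i < N then (W ⟨i, h⟩).d else fun _ => true,
              v := fun i => if h : i < N then (W ⟨i, h⟩).v else fun _ => 1,
              A := fun i => if h : i < N then A ⟨i, h⟩ else ∅,
              v0 := ?_, st := ?_, en := ?_ }, ?_, ?_, ?_, ?_⟩
    · intro i
      by_cases h : i < N
      · simp only [dif_pos h]; exact (W ⟨i, h⟩).v0
      · simp only [dif_neg h]
    · intro i s hs
      by_cases h : i < N
      · simp only [dif_pos h] at hs ⊢; exact (W ⟨i, h⟩).st s hs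
      · simp only [dif_neg h] at hs; omega
    · intro i s hs
      by_cases h : i < N
      · simp only [dif_pos h] at hs ⊢; exact (W ⟨i, h⟩).en s hs
      · simp only [dif_neg h] at hs; omega
    · intro i; simp
    · intro i; simp
    · intro i hi; simp only [dif_neg (not_lt.2 hi)]
    · intro i s; simp
  have hQm : ∀ i, MeasurableSet (Q.A i) := by
    intro i
    by_cases h : i < N
    · have := hQA ⟨i, h⟩
      simp only at this
      rw [this]; exact hA _
    · rw [hQA' i (not_lt.1 h)]; exact MeasurableSet.empty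
  have hax : Q.sys.Ax D := Q.sys_ax
  have hM : Q.sys.Meas := Q.sys_meas hs hfree hQm
  set Y := Q.sys.fold D with hYdef
  have hYax : Y.Ax D := Sys.fold_ax _ hax
  have hYM : Y.Meas := Sys.fold_meas hs hfree _ hax hM
  have hYF : Y.Folded := Sys.fold_folded _
  -- connectedness
  have hstep : ∀ y z, AStep D g A y z → Cn D Q.sys y z := by
    rintro y z (⟨t, ht, rfl⟩ | ⟨i, hy, rfl⟩)
    · exact Or.inl ⟨t, ht, rfl⟩
    · have hv : D.SameT (Q.v i (Q.n i)) (g i) := by
        rw [hQv, hQn]; exact (W i).vn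
      have hv' : D.SameT (Q.v i (Q.n i) • y) (g i • y) := AD.sameT_act hv y
      rw [← hQA i] at hy
      by_cases hn : Q.n i = 0
      · rw [hn, Q.v0, one_smul] at hv'
        exact Or.inl hv'
      · refine Cn.trans hax (Or.inr (Q.PW_seg hy (Nat.pos_of_ne_zero hn))) (Or.inl hv')
  have heqv : ∀ y z, Relation.EqvGen (AStep D g A) y z → Cn D Q.sys y z := by
    intro y z h
    induction h with
    | rel y z h => exact hstep y z h
    | refl y => exact Or.inl (init_sameT_refl y)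
    | symm y z _ ih => exact ih.symm hax
    | trans x y z _ _ ih1 ih2 => exact ih1.trans hax ih2
  have hcG : ∀ x ∈ G, ∃ L, Y.PW D x L (D.a • x) := by
    intro x hx
    rcases heqv _ _ (hcon x hx) with h | ⟨L, hL⟩
    · exfalso
      obtain ⟨t, ht, e⟩ := h
      have := init_free hfree e
      rw [this] at ht
      exact D.a_not_mem ht
    · obtain ⟨L', hL', -⟩ := Sys.fold_walk _ hax x _ L hL
      exact ⟨L', hL'⟩
  have hdist : Measurable fun x => Y.dist D x := Sys.dist_meas hs hfree Y hYax hYM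
  -- choose the truncation
  have htend : Filter.Tendsto (fun n : ℕ => μ (G ∩ {x | Y.dist D x ≤ n})) Filter.atTop
      (nhds (μ G)) := by
    have hmono : Monotone fun n : ℕ => G ∩ {x | Y.dist D x ≤ n} := by
      intro a b hab x hx
      exact ⟨hx.1, le_trans hx.2 hab⟩
    have := tendsto_measure_iUnion_atTop (μ := μ) hmono
    have hU : (⋃ n : ℕ, G ∩ {x | Y.dist D x ≤ n}) = G := by
      ext x
      simp only [Set.mem_iUnion, Set.mem_inter_iff, Set.mem_setOf_eq]
      exact ⟨fun ⟨n, h⟩ => h.1, fun h => ⟨Y.dist D x, h, le_rfl⟩⟩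
    rw [hU] at this
    exact this
  have hlt : (9 / 10 : ℝ≥0∞) < μ G := by
    refine lt_of_lt_of_le ?_ hGμ
    rw [show (9 / 10 : ℝ≥0∞) = ENNReal.ofReal (9 / 10) by
        rw [ENNReal.ofReal_div_of_pos (by norm_num)]; norm_num,
      show (19 / 20 : ℝ≥0∞) = ENNReal.ofReal (19 / 20) by
        rw [ENNReal.ofReal_div_of_pos (by norm_num)]; norm_num]
    exact (ENNReal.ofReal_lt_ofReal_iff (by norm_num)).2 (by norm_num)
  obtain ⟨n, hn⟩ := (htend.eventually (lt_mem_nhds hlt)).exists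
  refine ⟨G ∩ {x | Y.dist D x ≤ n}, hG.inter (hdist (measurableSet_le measurable_id
    measurable_const)), hn.le, Y, ⟨hYax, hYM, hYF, ?_, ?_, ?_, ?_, ?_⟩⟩
  · -- finite size
    have hle : size μ Y.E ≤ size μ Q.EE := by
      refine ENNReal.tsum_le_tsum (fun i => measure_mono ?_)
      intro x hx
      exact hx.1
    refine ne_top_of_le_ne_top ?_ hle
    set F : Finset ℕ := (Finset.range N).biUnion fun i =>
      (Finset.range (Q.n i)).image fun s => Nat.pair i s with hF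
    have hz : ∀ n ∉ F, μ {x : X | (x, n) ∈ Q.EE} = 0 := by
      intro n hn
      have : {x : X | (x, n) ∈ Q.EE} = ∅ := by
        refine Set.eq_empty_of_forall_notMem (fun x hx => ?_)
        obtain ⟨h1, h2⟩ := hx
        simp only at h1 h2
        by_cases hi : (Nat.unpair n).1 < N
        · apply hn
          rw [hF, Finset.mem_biUnion]
          refine ⟨(Nat.unpair n).1, Finset.mem_range.2 hi, Finset.mem_image.2
            ⟨(Nat.unpair n).2, Finset.mem_range.2 h1, Nat.pair_unpair n⟩⟩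
        · rw [hQA' _ (not_lt.1 hi)] at h2
          exact h2
      rw [this, measure_empty]
    unfold size
    rw [tsum_eq_sum hz]
    exact (ENNReal.sum_lt_top.2 (fun i _ => measure_lt_top μ _)).ne
  · have : size μ Y.Fs = 0 := by
      unfold size
      rw [ENNReal.tsum_eq_zero]
      intro i
      have : {x : X | (x, i) ∈ Y.Fs} = ∅ := by
        refine Set.eq_empty_of_forall_notMem (fun x hx => ?_)
        exact hx.1
      rw [this, measure_empty]
    rw [this]; exact bot_le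
  · have h1 : size μ Y.I = ∑ i : Fin N, μ (A i) := by
      have h2 : ∀ i, i ∉ Finset.range N → μ {x : X | (x, i) ∈ Y.I} = 0 := by
        intro i hi
        have : {x : X | (x, i) ∈ Y.I} = ∅ := hQA' i (by simpa using hi)
        rw [this, measure_empty]
      unfold size
      rw [tsum_eq_sum h2, Finset.sum_range]
      refine Finset.sum_congr rfl (fun i _ => ?_)
      have : {x : X | (x, (i : ℕ)) ∈ Y.I} = A i := hQA i
      rw [this]
    rw [h1]; exact hε
  · exact fun x hx => hcG x hx.1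
  · have h1 : Y.Uint D μ (G ∩ {x | Y.dist D x ≤ n}) ≤
        ∫⁻ x in G ∩ {x | Y.dist D x ≤ n}, (n : ℝ≥0∞) ∂μ := by
      refine setLIntegral_mono measurable_const (fun x hx => ?_)
      exact_mod_cast hx.2
    refine ne_top_of_le_ne_top ?_ h1
    rw [lintegral_const]
    exact ENNReal.mul_ne_top (ENNReal.natCast_ne_top n) (measure_ne_top _ _)

end Crest.Agent.FP
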