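import Crest.Agent.FP.Mtp

/-! Row 191 (S0291), chunk C1: layer cake with the spectral estimate. -/
set_option autoImplicit false

open MeasureTheory
open scoped ENNReal

namespace Crest.Agent.FP

variable {Γ : Type} [Group Γ] [Countable Γ] {m : ℕ} [NeZero m] {X : Type} [MeasurableSpace X]
  [MulAction Γ X] {μ : Measure X} {D : GD Γ m}

omit [MeasurableSpace X] in
/-- `j`-th level set -/
private theorem lc_level_eq (S : Set (X × ℕ)) (j : ℕ) :
    {x | (j : ℕ∞) < {i | (x, i) ∈ S}.encard} =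
      ⋃ t ∈ {t : Finset ℕ | t.card = j + 1}, ⋂ i ∈ t, {x | (x, i) ∈ S} := by
  ext x
  simp only [Set.mem_setOf_eq, Set.mem_iUnion, Set.mem_iInter, exists_prop]
  constructor
  · intro h
    have h' : ((j + 1 : ℕ) : ℕ∞) ≤ {i | (x, i) ∈ S}.encard := by
      rw [Nat.cast_add, Nat.cast_one]
      exact Order.add_one_le_of_lt h
    obtain ⟨t, ht, htc⟩ := Set.exists_subset_encard_eq h'
    have hfin : t.Finite := Set.finite_of_encard_eq_coe htc
    refine ⟨hfin.toFinset, ?_, ?_⟩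
    · have := hfin.encard_eq_coe_toFinset_card
      rw [htc] at this
      exact_mod_cast this.symm
    · intro i hi
      exact ht ((Set.Finite.mem_toFinset hfin).1 hi)
  · rintro ⟨t, htc, ht⟩
    have h1 : (t : Set ℕ) ⊆ {i | (x, i) ∈ S} := fun i hi => ht i hi
    have h2 := Set.encard_le_encard h1
    rw [Set.encard_coe_eq_coe_finsetCard, htc] at h2
    refine lt_of_lt_of_le ?_ h2
    exact_mod_cast Nat.lt_succ_self j

private theorem lc_level_meas (S : Set (X × ℕ)) (hS : ∀ i, MeasurableSet {x | (x, i) ∈ S})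
    (j : ℕ) : MeasurableSet {x | (j : ℕ∞) < {i | (x, i) ∈ S}.encard} := by
  rw [lc_level_eq]
  exact MeasurableSet.biUnion (Set.to_countable _)
    fun t _ => MeasurableSet.biInter (Set.to_countable _) fun i _ => hS i

/-- `∑_j 1_{j < n} = n` -/
private theorem lc_tsum_level (n : ℕ∞) :
    ∑' j : ℕ, ({j : ℕ | (j : ℕ∞) < n}.indicator (fun _ => (1 : ℝ≥0∞)) j) = (n : ℝ≥0∞) := by
  rw [← tsum_subtype, ENNReal.tsum_set_one]
  congr 1
  induction n using ENat.recTopCoe with
  | top =>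
    have : {j : ℕ | (j : ℕ∞) < ⊤} = Set.univ := by
      ext j; simp
    rw [this]
    simp
  | coe n =>
    have : {j : ℕ | (j : ℕ∞) < (n : ℕ∞)} = (Finset.range n : Set ℕ) := by
      ext j; simp
    rw [this, Set.encard_coe_eq_coe_finsetCard, Finset.card_range]

/-- size as the sum of the measures of the level sets -/
theorem size_eq_tsum_level (μ : Measure X) (S : Set (X × ℕ))
    (hS : ∀ i, MeasurableSet {x | (x, i) ∈ S}) :
    size μ S = ∑' j : ℕ, μ {x | (j : ℕ∞) < {i | (x, i) ∈ S}.encard} := by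
  have h1 : size μ S = ∫⁻ x, ∑' i, {x | (x, i) ∈ S}.indicator (fun _ => (1 : ℝ≥0∞)) x ∂μ := by
    rw [lintegral_tsum fun i => (measurable_const.indicator (hS i)).aemeasurable]
    refine tsum_congr fun i => ?_
    rw [lintegral_indicator_const (hS i), one_mul]
  have h2 : ∑' j : ℕ, μ {x | (j : ℕ∞) < {i | (x, i) ∈ S}.encard} =
      ∫⁻ x, ∑' j : ℕ, {x | (j : ℕ∞) < {i | (x, i) ∈ S}.encard}.indicator
        (fun _ => (1 : ℝ≥0∞)) x ∂μ := by
    rw [lintegral_tsum fun i => (measurable_const.indicator (lc_level_meas S hS i)).aemeasurable]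
    refine tsum_congr fun i => ?_
    rw [lintegral_indicator_const (lc_level_meas S hS i), one_mul]
  rw [h1, h2]
  refine lintegral_congr fun x => ?_
  have h3 := lc_tsum_level {i | (x, i) ∈ S}.encard
  have h4 : ∑' i, {x | (x, i) ∈ S}.indicator (fun _ => (1 : ℝ≥0∞)) x =
      ({i | (x, i) ∈ S}.encard : ℝ≥0∞) := by
    rw [← ENNReal.tsum_set_one, tsum_subtype {i | (x, i) ∈ S} (fun _ => (1 : ℝ≥0∞))]
    rfl
  rw [h4, ← h3]
  rfl

/-- layer cake: if over each `q` there are at most as many points of `N` as there are points of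
`S` over each `h k • q`, and `S` lives over a set of measure `≤ δ`, then
`size N ≤ (9/100 + δ) size S`. -/
theorem layer_cake (hS : Sp D X μ) (N S : Set (X × ℕ)) (hN : ∀ i, MeasurableSet {x | (x, i) ∈ N})
    (hSm : ∀ i, MeasurableSet {x | (x, i) ∈ S})
    (h : ∀ q k, {j | (q, j) ∈ N}.encard ≤ {j | (D.h k • q, j) ∈ S}.encard)
    (δ : ℝ≥0∞) (hδ : μ {x | ∃ j, (x, j) ∈ S} ≤ δ) :
    size μ N ≤ (9 / 100 + δ) * size μ S := by
  rw [size_eq_tsum_level μ N hN, size_eq_tsum_level μ S hSm, ← ENNReal.tsum_mul_left]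
  refine ENNReal.tsum_le_tsum fun j => ?_
  have h1 : {x | (j : ℕ∞) < {i | (x, i) ∈ N}.encard} ⊆
      {x | ∀ k : ZMod m, D.h k • x ∈ {x | (j : ℕ∞) < {i | (x, i) ∈ S}.encard}} := by
    intro x hx k
    exact lt_of_lt_of_le hx (h x k)
  have h2 := hS.spec _ (lc_level_meas S hSm j)
  have h3 : {x | (j : ℕ∞) < {i | (x, i) ∈ S}.encard} ⊆ {x | ∃ j, (x, j) ∈ S} := by
    intro x hx
    have : {i | (x, i) ∈ S}.Nonempty := by
      rw [← Set.encard_pos]
      exact lt_of_le_of_lt (by simp) hx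
    exact this
  calc μ {x | (j : ℕ∞) < {i | (x, i) ∈ N}.encard}
      ≤ μ {x | ∀ k : ZMod m, D.h k • x ∈ {x | (j : ℕ∞) < {i | (x, i) ∈ S}.encard}} :=
        measure_mono h1
    _ ≤ (9 / 100 + μ {x | (j : ℕ∞) < {i | (x, i) ∈ S}.encard}) *
        μ {x | (j : ℕ∞) < {i | (x, i) ∈ S}.encard} := h2
    _ ≤ (9 / 100 + δ) * μ {x | (j : ℕ∞) < {i | (x, i) ∈ S}.encard} := by
        gcongr
        exact (measure_mono h3).trans hδ

end Crest.Agent.FP
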