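import Crest.Agent.FP.Defs

/-! Row 191 (S0291), chunk A: from a cheap graphing to few arcs relative to `T`. -/
set_option autoImplicit false

open MeasureTheory
open scoped ENNReal

namespace Crest.Agent.FP

namespace LA

section det

variable {Γ : Type} [Group Γ] {X : Type} [MulAction Γ X]

/-- element of the `j`-th directed step (`j = 2i`: forward, `j = 2i+1`: backward) -/
def el (Φ : ℕ → Γ × Set X) (j : ℕ) : Γ := if j % 2 = 0 then (Φ (j / 2)).1 else ((Φ (j / 2)).1)⁻¹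

/-- domain of the `j`-th directed step -/
def dm (Φ : ℕ → Γ × Set X) (j : ℕ) : Set X :=
  if j % 2 = 0 then (Φ (j / 2)).2 else {x | ((Φ (j / 2)).1)⁻¹ • x ∈ (Φ (j / 2)).2}

/-- points at distance at most `n` from `B` -/
def U (Φ : ℕ → Γ × Set X) (B : Set X) : ℕ → Set X
  | 0 => B
  | n + 1 => U Φ B n ∪ {x | ∃ j, x ∈ dm Φ j ∧ el Φ j • x ∈ U Φ B n}

/-- chosen step towards `B` -/
noncomputable def ch (Φ : ℕ → Γ × Set X) (B : Set X) (n : ℕ) (x : X) : ℕ :=
  sInf {j | x ∈ dm Φ j ∧ el Φ j • x ∈ U Φ B n}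

open Classical in
/-- element carrying `x` to its root -/
noncomputable def rt (Φ : ℕ → Γ × Set X) (B : Set X) : ℕ → X → Γ
  | 0, _ => 1
  | n + 1, x => if x ∈ U Φ B n then rt Φ B n x else
      rt Φ B n (el Φ (ch Φ B n x) • x) * el Φ (ch Φ B n x)

/-- distance to `B` -/
noncomputable def lev (Φ : ℕ → Γ × Set X) (B : Set X) (x : X) : ℕ := sInf {n | x ∈ U Φ B n}

/-- element carrying `x` to its root -/
noncomputable def r (Φ : ℕ → Γ × Set X) (B : Set X) (x : X) : Γ := rt Φ B (lev Φ B x) x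

/-- root -/
noncomputable def rho (Φ : ℕ → Γ × Set X) (B : Set X) (x : X) : X := r Φ B x • x

/-- points with chosen step `j` -/
def C (Φ : ℕ → Γ × Set X) (B : Set X) (j : ℕ) : Set X :=
  {x | ∃ n, x ∉ U Φ B n ∧ x ∈ U Φ B (n + 1) ∧ ch Φ B n x = j}

variable (Φ : ℕ → Γ × Set X) (B : Set X)

theorem U_mono : Monotone (U Φ B) := by
  refine monotone_nat_of_le_succ fun n => ?_
  intro x hx
  exact Or.inl hx

theorem rt_stable {n : ℕ} {x : X} (hx : x ∈ U Φ B n) (k : ℕ) : rt Φ B (n + k) x = rt Φ B n x := by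
  induction k with
  | zero => rfl
  | succ k ih =>
    have h1 : x ∈ U Φ B (n + k) := U_mono Φ B (Nat.le_add_right n k) hx
    rw [← Nat.add_assoc, rt, if_pos h1, ih]

theorem rt_eq_r {n : ℕ} {x : X} (hx : x ∈ U Φ B n) : rt Φ B n x = r Φ B x := by
  have h1 : lev Φ B x ≤ n := Nat.sInf_le hx
  have h2 : x ∈ U Φ B (lev Φ B x) := Nat.sInf_mem (s := {n | x ∈ U Φ B n}) ⟨n, hx⟩
  obtain ⟨k, rfl⟩ := Nat.exists_eq_add_of_le h1
  exact rt_stable Φ B h2 k

theorem rho_B {x : X} (hx : x ∈ B) : rho Φ B x = x := by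
  have h1 : x ∈ U Φ B 0 := hx
  unfold rho
  rw [← rt_eq_r Φ B h1, rt, one_smul]

theorem ch_spec {n : ℕ} {x : X} (h1 : x ∉ U Φ B n) (h2 : x ∈ U Φ B (n + 1)) :
    x ∈ dm Φ (ch Φ B n x) ∧ el Φ (ch Φ B n x) • x ∈ U Φ B n := by
  have h3 : {j | x ∈ dm Φ j ∧ el Φ j • x ∈ U Φ B n}.Nonempty := by
    rcases h2 with h2 | h2
    · exact absurd h2 h1
    · exact h2
  exact Nat.sInf_mem h3

theorem C_rho {j : ℕ} {x : X} (hx : x ∈ C Φ B j) : rho Φ B x = rho Φ B (el Φ j • x) := by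
  obtain ⟨n, h1, h2, rfl⟩ := hx
  obtain ⟨h3, h4⟩ := ch_spec Φ B h1 h2
  unfold rho
  rw [← rt_eq_r Φ B h2, ← rt_eq_r Φ B h4, rt, if_neg h1, mul_smul]

theorem C_dm {j : ℕ} {x : X} (hx : x ∈ C Φ B j) : x ∈ dm Φ j := by
  obtain ⟨n, h1, h2, rfl⟩ := hx
  exact (ch_spec Φ B h1 h2).1

/-- the index `n` is unique -/
theorem C_uniq {x : X} {n n' : ℕ} (h1 : x ∉ U Φ B n) (h2 : x ∈ U Φ B (n + 1))
    (h1' : x ∉ U Φ B n') (h2' : x ∈ U Φ B (n' + 1)) : n = n' := by
  by_contra h
  rcases lt_or_gt_of_ne h with h | h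
  · exact h1' (U_mono Φ B (by omega : n + 1 ≤ n') h2)
  · exact h1 (U_mono Φ B (by omega : n' + 1 ≤ n) h2')

theorem C_disj : Pairwise (Function.onFun Disjoint (C Φ B)) := by
  intro j j' hjj
  rw [Function.onFun, Set.disjoint_left]
  rintro x ⟨n, h1, h2, h3⟩ ⟨n', h1', h2', h3'⟩
  have := C_uniq Φ B h1 h2 h1' h2'
  subst this
  exact hjj (h3.symm.trans h3')

theorem C_iUnion : (⋃ j, C Φ B j) = (⋃ n, U Φ B n) \ B := by
  ext x
  simp only [Set.mem_iUnion, Set.mem_sdiff]
  constructor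
  · rintro ⟨j, n, h1, h2, -⟩
    exact ⟨⟨n + 1, h2⟩, fun h => h1 (U_mono Φ B (Nat.zero_le n) h)⟩
  · rintro ⟨⟨m, hm⟩, hB⟩
    have h2 : x ∈ U Φ B (lev Φ B x) := Nat.sInf_mem (s := {n | x ∈ U Φ B n}) ⟨m, hm⟩
    have h3 : lev Φ B x ≠ 0 := by
      intro h
      rw [h] at h2
      exact hB h2
    obtain ⟨n, hn⟩ := Nat.exists_eq_succ_of_ne_zero h3
    rw [hn] at h2
    refine ⟨ch Φ B n x, n, ?_, h2, rfl⟩
    intro h
    have : lev Φ B x ≤ n := Nat.sInf_le h
    omega

/-- chosen edges of index `i` (by their base point) -/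
def C' (i : ℕ) : Set X := C Φ B (2 * i) ∪ {w | (Φ i).1 • w ∈ C Φ B (2 * i + 1)}

theorem el_even (i : ℕ) : el Φ (2 * i) = (Φ i).1 := by
  unfold el
  rw [if_pos (by omega), Nat.mul_div_cancel_left _ (by norm_num)]

theorem el_odd (i : ℕ) : el Φ (2 * i + 1) = ((Φ i).1)⁻¹ := by
  unfold el
  rw [if_neg (by omega)]
  have : (2 * i + 1) / 2 = i := by omega
  rw [this]

theorem dm_even (i : ℕ) : dm Φ (2 * i) = (Φ i).2 := by
  unfold dm
  rw [if_pos (by omega), Nat.mul_div_cancel_left _ (by norm_num)]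

theorem dm_odd (i : ℕ) : dm Φ (2 * i + 1) = {x | ((Φ i).1)⁻¹ • x ∈ (Φ i).2} := by
  unfold dm
  rw [if_neg (by omega)]
  have : (2 * i + 1) / 2 = i := by omega
  rw [this]

theorem C'_sub (i : ℕ) : C' Φ B i ⊆ (Φ i).2 := by
  rintro w (hw | hw)
  · have := C_dm Φ B hw
    rwa [dm_even] at this
  · have := C_dm Φ B hw
    rw [dm_odd] at this
    have h2 : ((Φ i).1)⁻¹ • (Φ i).1 • w ∈ (Φ i).2 := this
    rwa [inv_smul_smul] at h2

theorem C'_disj (i : ℕ) : Disjoint (C Φ B (2 * i)) {w | (Φ i).1 • w ∈ C Φ B (2 * i + 1)} := by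
  rw [Set.disjoint_left]
  rintro w ⟨n, h1, h2, h3⟩ ⟨n', h1', h2', h3'⟩
  have h4 := (ch_spec Φ B h1 h2).2
  have h5 := (ch_spec Φ B h1' h2').2
  rw [h3, el_even] at h4
  rw [h3', el_odd, inv_smul_smul] at h5
  rcases le_total n n' with h | h
  · exact h1' (U_mono Φ B h h4)
  · exact h1 (U_mono Φ B h h5)

/-- remaining edges -/
def R (i : ℕ) : Set X := (Φ i).2 \ C' Φ B i

/-- equivalence generated by the arcs (abstractly) -/
def ArcStep (u v : X) : Prop := ∃ i, ∃ w ∈ R Φ B i, u = rho Φ B w ∧ v = rho Φ B ((Φ i).1 • w)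

theorem step_rho {x y : X} (h : Crest.Dynamics.GraphingStep Φ x y) :
    Relation.EqvGen (ArcStep Φ B) (rho Φ B x) (rho Φ B y) := by
  obtain ⟨i, hx, rfl⟩ := h
  by_cases hC : x ∈ C' Φ B i
  · rcases hC with hC | hC
    · have := C_rho Φ B hC
      rw [el_even] at this
      rw [this]
      exact Relation.EqvGen.refl _
    · have := C_rho Φ B hC
      rw [el_odd, inv_smul_smul] at this
      rw [this]
      exact Relation.EqvGen.refl _
  · exact Relation.EqvGen.rel _ _ ⟨i, x, ⟨hx, hC⟩, rfl, rfl⟩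

theorem gen_rho {x y : X} (h : Relation.EqvGen (Crest.Dynamics.GraphingStep Φ) x y) :
    Relation.EqvGen (ArcStep Φ B) (rho Φ B x) (rho Φ B y) := by
  induction h with
  | rel x y h => exact step_rho Φ B h
  | refl x => exact Relation.EqvGen.refl _
  | symm x y _ ih => exact Relation.EqvGen.symm _ _ ih
  | trans x y z _ _ ih1 ih2 => exact Relation.EqvGen.trans _ _ _ ih1 ih2

theorem gen_U {x y : X} (h : Relation.EqvGen (Crest.Dynamics.GraphingStep Φ) x y) :
    x ∈ (⋃ n, U Φ B n) ↔ y ∈ (⋃ n, U Φ B n) := by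
  have key : ∀ x y, Crest.Dynamics.GraphingStep Φ x y →
      (x ∈ (⋃ n, U Φ B n) ↔ y ∈ (⋃ n, U Φ B n)) := by
    rintro x _ ⟨i, hx, rfl⟩
    simp only [Set.mem_iUnion]
    constructor
    · rintro ⟨n, hn⟩
      refine ⟨n + 1, Or.inr ⟨2 * i + 1, ?_, ?_⟩⟩
      · rw [dm_odd]
        change ((Φ i).1)⁻¹ • (Φ i).1 • x ∈ (Φ i).2
        rwa [inv_smul_smul]
      · rw [el_odd, inv_smul_smul]; exact hn
    · rintro ⟨n, hn⟩
      refine ⟨n + 1, Or.inr ⟨2 * i, ?_, ?_⟩⟩
      · rw [dm_even]; exact hx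
      · rw [el_even]; exact hn
  induction h with
  | rel x y h => exact key x y h
  | refl x => rfl
  | symm x y _ ih => exact ih.symm
  | trans x y z _ _ ih1 ih2 => exact ih1.trans ih2

end det

section meas

variable {Γ : Type} [Group Γ] [Countable Γ] {X : Type} [MeasurableSpace X] [MulAction Γ X]
  {μ : Measure X} (hmp : ∀ g : Γ, MeasurePreserving (fun x : X => g • x) μ μ)
  (Φ : ℕ → Γ × Set X) (B : Set X) (hΦ : ∀ i, MeasurableSet (Φ i).2) (hB : MeasurableSet B)

include hmp hΦ in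
theorem dm_meas (j : ℕ) : MeasurableSet (dm Φ j) := by
  unfold dm
  split_ifs
  · exact hΦ _
  · exact (hmp _).measurable (hΦ _)

include hmp hΦ hB in
theorem U_meas (n : ℕ) : MeasurableSet (U Φ B n) := by
  induction n with
  | zero => exact hB
  | succ n ih =>
    refine ih.union ?_
    have : {x | ∃ j, x ∈ dm Φ j ∧ el Φ j • x ∈ U Φ B n} =
        ⋃ j, dm Φ j ∩ (fun x => el Φ j • x) ⁻¹' (U Φ B n) := by
      ext x; simp
    rw [this]
    exact MeasurableSet.iUnion fun j => (dm_meas hmp Φ hΦ j).inter ((hmp _).measurable ih)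

include hmp hΦ hB in
theorem ch_meas (n k : ℕ) : MeasurableSet {x | ch Φ B n x = k} := by
  have hP : ∀ j, MeasurableSet {x | x ∈ dm Φ j ∧ el Φ j • x ∈ U Φ B n} := fun j =>
    (dm_meas hmp Φ hΦ j).inter ((hmp _).measurable (U_meas hmp Φ B hΦ hB n))
  have h1 : {x | ch Φ B n x = k} =
      ({x | x ∈ dm Φ k ∧ el Φ k • x ∈ U Φ B n} ∩
        ⋂ j ∈ Set.Iio k, {x | x ∈ dm Φ j ∧ el Φ j • x ∈ U Φ B n}ᶜ) ∪
      (if k = 0 then ⋂ j, {x | x ∈ dm Φ j ∧ el Φ j • x ∈ U Φ B n}ᶜ else ∅) := by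
    ext x
    constructor
    · intro h
      have h : ch Φ B n x = k := h
      by_cases hne : {j | x ∈ dm Φ j ∧ el Φ j • x ∈ U Φ B n}.Nonempty
      · left
        refine ⟨?_, ?_⟩
        · have := Nat.sInf_mem hne
          rw [← h]
          exact this
        · simp only [Set.mem_iInter]
          intro j hj hj'
          have : ch Φ B n x ≤ j := Nat.sInf_le hj'
          have hjk : j < k := hj
          omega
      · right
        rw [Set.not_nonempty_iff_eq_empty] at hne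
        have h0 : k = 0 := by
          rw [← h]; unfold ch; rw [hne, Nat.sInf_empty]
        rw [if_pos h0]
        simp only [Set.mem_iInter]
        intro j hj
        have : j ∈ {j | x ∈ dm Φ j ∧ el Φ j • x ∈ U Φ B n} := hj
        rw [hne] at this
        exact this
    · rintro (⟨h2, h3⟩ | h2)
      · simp only [Set.mem_iInter] at h3
        apply le_antisymm
        · exact Nat.sInf_le h2
        · by_contra hlt
          push Not at hlt
          exact h3 _ hlt (Nat.sInf_mem (s := {j | x ∈ dm Φ j ∧ el Φ j • x ∈ U Φ B n}) ⟨k, h2⟩)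
      · split_ifs at h2 with h0
        · subst h0
          simp only [Set.mem_iInter] at h2
          have : {j | x ∈ dm Φ j ∧ el Φ j • x ∈ U Φ B n} = ∅ := by
            ext j
            constructor
            · intro hj; exact h2 j hj
            · intro hj; exact hj.elim
          change sInf _ = 0
          rw [this, Nat.sInf_empty]
        · exact h2.elim
  rw [h1]
  refine ((hP k).inter (MeasurableSet.biInter (Set.to_countable _) fun j _ => (hP j).compl)).union ?_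
  split_ifs
  · exact MeasurableSet.iInter fun j => (hP j).compl
  · exact MeasurableSet.empty

include hmp hΦ hB in
theorem C_meas (j : ℕ) : MeasurableSet (C Φ B j) := by
  have : C Φ B j = ⋃ n, ((U Φ B n)ᶜ ∩ (U Φ B (n + 1) ∩ {x | ch Φ B n x = j})) := by
    ext x; simp [C]
  rw [this]
  exact MeasurableSet.iUnion fun n => (U_meas hmp Φ B hΦ hB n).compl.inter
    ((U_meas hmp Φ B hΦ hB (n + 1)).inter (ch_meas hmp Φ B hΦ hB n j))

include hmp hΦ hB in
theorem rt_meas (n : ℕ) (γ : Γ) : MeasurableSet {x | rt Φ B n x = γ} := by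
  induction n generalizing γ with
  | zero =>
    simp only [rt]
    exact MeasurableSet.const _
  | succ n ih =>
    have : {x | rt Φ B (n + 1) x = γ} = (U Φ B n ∩ {x | rt Φ B n x = γ}) ∪
        ((U Φ B n)ᶜ ∩ ⋃ j, ({x | ch Φ B n x = j} ∩
          (fun x => el Φ j • x) ⁻¹' {x | rt Φ B n x = γ * (el Φ j)⁻¹})) := by
      ext x
      by_cases hx : x ∈ U Φ B n
      · simp [rt, hx]
      · simp [rt, hx, eq_mul_inv_iff_mul_eq]
    rw [this]
    refine ((U_meas hmp Φ B hΦ hB n).inter (ih γ)).union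
      ((U_meas hmp Φ B hΦ hB n).compl.inter (MeasurableSet.iUnion fun j =>
        (ch_meas hmp Φ B hΦ hB n j).inter ((hmp _).measurable (ih _))))

include hmp hΦ hB in
theorem r_meas (γ : Γ) : MeasurableSet {x | r Φ B x = γ} := by
  have hlev : ∀ n, MeasurableSet {x | lev Φ B x = n} := by
    intro n
    have h1 : {x | lev Φ B x = n} =
        (U Φ B n ∩ ⋂ k ∈ Set.Iio n, (U Φ B k)ᶜ) ∪ (if n = 0 then ⋂ k, (U Φ B k)ᶜ else ∅) := by
      ext x
      constructor
      · intro h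
        have h : lev Φ B x = n := h
        by_cases hne : {k | x ∈ U Φ B k}.Nonempty
        · left
          refine ⟨?_, ?_⟩
          · have := Nat.sInf_mem hne
            rw [← h]
            exact this
          · simp only [Set.mem_iInter]
            intro j hj hj'
            have : lev Φ B x ≤ j := Nat.sInf_le hj'
            have hjk : j < n := hj
            omega
        · right
          rw [Set.not_nonempty_iff_eq_empty] at hne
          have h0 : n = 0 := by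
            rw [← h]; unfold lev; rw [hne, Nat.sInf_empty]
          rw [if_pos h0]
          simp only [Set.mem_iInter]
          intro j hj
          have : j ∈ {k | x ∈ U Φ B k} := hj
          rw [hne] at this
          exact this
      · rintro (⟨h2, h3⟩ | h2)
        · simp only [Set.mem_iInter] at h3
          apply le_antisymm
          · exact Nat.sInf_le h2
          · by_contra hlt
            push Not at hlt
            exact h3 _ hlt (Nat.sInf_mem (s := {k | x ∈ U Φ B k}) ⟨n, h2⟩)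
        · split_ifs at h2 with h0
          · subst h0
            simp only [Set.mem_iInter] at h2
            have : {k | x ∈ U Φ B k} = ∅ := by
              ext j
              constructor
              · intro hj; exact h2 j hj
              · intro hj; exact hj.elim
            change sInf _ = 0
            rw [this, Nat.sInf_empty]
          · exact h2.elim
    rw [h1]
    refine ((U_meas hmp Φ B hΦ hB n).inter (MeasurableSet.biInter (Set.to_countable _)
      fun j _ => (U_meas hmp Φ B hΦ hB j).compl)).union ?_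
    split_ifs
    · exact MeasurableSet.iInter fun j => (U_meas hmp Φ B hΦ hB j).compl
    · exact MeasurableSet.empty
  have : {x | r Φ B x = γ} = ⋃ n, {x | lev Φ B x = n} ∩ {x | rt Φ B n x = γ} := by
    ext x
    simp [r]
  rw [this]
  exact MeasurableSet.iUnion fun n => (hlev n).inter (rt_meas hmp Φ B hΦ hB n γ)

include hmp hΦ hB in
theorem C'_meas (i : ℕ) : MeasurableSet (C' Φ B i) :=
  (C_meas hmp Φ B hΦ hB _).union ((hmp _).measurable (C_meas hmp Φ B hΦ hB _))

include hmp hΦ hB in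
theorem R_meas (i : ℕ) : MeasurableSet (R Φ B i) := (hΦ i).diff (C'_meas hmp Φ B hΦ hB i)

include hmp hΦ hB in
/-- total measure of the remaining edges -/
theorem R_total [IsProbabilityMeasure μ] (hU : μ (⋃ n, U Φ B n)ᶜ = 0) :
    ∑' i, μ (R Φ B i) + 1 = ∑' i, μ (Φ i).2 + μ B := by
  have h1 : ∀ i, μ (Φ i).2 = μ (R Φ B i) + (μ (C Φ B (2 * i)) + μ (C Φ B (2 * i + 1))) := by
    intro i
    have h2 : μ (C' Φ B i) = μ (C Φ B (2 * i)) + μ (C Φ B (2 * i + 1)) := by
      unfold C'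
      rw [measure_union (C'_disj Φ B i) ((hmp _).measurable (C_meas hmp Φ B hΦ hB _))]
      congr 1
      exact (hmp (Φ i).1).measure_preimage (C_meas hmp Φ B hΦ hB _).nullMeasurableSet
    rw [← h2]
    unfold R
    rw [add_comm, ← measure_union Set.disjoint_sdiff_right
      ((hΦ i).diff (C'_meas hmp Φ B hΦ hB i)), Set.union_sdiff_cancel (C'_sub Φ B i)]
  simp only [h1]
  rw [ENNReal.tsum_add]
  have h3 : ∑' i, (μ (C Φ B (2 * i)) + μ (C Φ B (2 * i + 1))) = ∑' j, μ (C Φ B j) := by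
    rw [ENNReal.tsum_add]
    exact tsum_even_add_odd (f := fun j => μ (C Φ B j)) ENNReal.summable ENNReal.summable
  rw [h3, ← measure_iUnion (C_disj Φ B) (C_meas hmp Φ B hΦ hB), C_iUnion, add_assoc]
  congr 1
  have h4 : μ (⋃ n, U Φ B n) = 1 := by
    rw [← prob_compl_eq_zero_iff (MeasurableSet.iUnion (U_meas hmp Φ B hΦ hB))]
    exact hU
  have h5 : B ⊆ ⋃ n, U Φ B n := fun x hx => Set.mem_iUnion.2 ⟨0, hx⟩
  rw [← h4, ← measure_union Set.disjoint_sdiff_left hB, Set.sdiff_union_of_subset h5]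

end meas

/-! ### measurability of generated relations -/

section genmeas

variable {Γ : Type} [Group Γ] [Countable Γ] {X : Type} [MeasurableSpace X] [MulAction Γ X]
  {μ : Measure X} (hmp : ∀ g : Γ, MeasurePreserving (fun x : X => g • x) μ μ)
  (hfree : ∀ (g : Γ) (x : X), g • x = x → g = 1)

/-- `n`-step connection -/
def Pn (S : X → X → Prop) : ℕ → Γ → Set X
  | 0, g => {_x | g = 1}
  | n + 1, g => {x | ∃ h : Γ, x ∈ Pn S n h ∧ (S (h • x) (g • x) ∨ S (g • x) (h • x))}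

include hmp in
theorem Pn_meas (S : X → X → Prop) (hS : ∀ g : Γ, MeasurableSet {x | S x (g • x)}) (n : ℕ) (g : Γ) :
    MeasurableSet (Pn S n g) := by
  induction n generalizing g with
  | zero => exact MeasurableSet.const _
  | succ n ih =>
    have : Pn S (n + 1) g = ⋃ h : Γ, (Pn S n h ∩
        ((fun x => h • x) ⁻¹' {x | S x ((g * h⁻¹) • x)} ∪
          (fun x => g • x) ⁻¹' {x | S x ((h * g⁻¹) • x)})) := by
      ext x
      simp only [Pn, Set.mem_iUnion, Set.mem_inter_iff, Set.mem_union, Set.mem_preimage]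
      refine exists_congr fun h => and_congr_right fun _ => ?_
      have h1 : (g * h⁻¹) • h • x = g • x := by rw [← mul_smul, inv_mul_cancel_right]
      have h2 : (h * g⁻¹) • g • x = h • x := by rw [← mul_smul, inv_mul_cancel_right]
      change _ ↔ S (h • x) ((g * h⁻¹) • h • x) ∨ S (g • x) ((h * g⁻¹) • g • x)
      rw [h1, h2]
    rw [this]
    exact MeasurableSet.iUnion fun h => (ih h).inter
      (((hmp h).measurable (hS _)).union ((hmp g).measurable (hS _)))

theorem Pn_trans (S : X → X → Prop) {n m : ℕ} {g h : Γ} {x : X} (h1 : x ∈ Pn S n g)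
    (h2 : g • x ∈ Pn S m h) : x ∈ Pn S (n + m) (h * g) := by
  induction m generalizing h with
  | zero =>
    have : h = 1 := h2
    rw [this, one_mul]
    exact h1
  | succ m ih =>
    obtain ⟨k, h3, h4⟩ := h2
    refine ⟨k * g, ih h3, ?_⟩
    rwa [mul_smul, mul_smul]

theorem Pn_symm (S : X → X → Prop) {n : ℕ} {g : Γ} {x : X} (h1 : x ∈ Pn S n g) :
    g • x ∈ Pn S n g⁻¹ := by
  induction n generalizing g with
  | zero =>
    have : g = 1 := h1
    rw [this, inv_one]
    rfl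
  | succ n ih =>
    obtain ⟨k, h3, h4⟩ := h1
    have h5 : g • x ∈ Pn S 1 (k * g⁻¹) := by
      refine ⟨1, rfl, ?_⟩
      rw [one_smul, mul_smul, inv_smul_smul]
      exact h4.symm
    have h6 : (k * g⁻¹) • g • x ∈ Pn S n k⁻¹ := by
      rw [mul_smul, inv_smul_smul]
      exact ih h3
    have h7 := Pn_trans S h5 h6
    rw [add_comm] at h7
    simpa using h7

theorem eqvGen_iff_Pn (S : X → X → Prop) (hSo : ∀ x y, S x y → ∃ g : Γ, y = g • x) {x y : X} :
    Relation.EqvGen S x y ↔ ∃ n, ∃ g : Γ, x ∈ Pn S n g ∧ y = g • x := by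
  constructor
  · intro h
    induction h with
    | rel x y h =>
      obtain ⟨g, rfl⟩ := hSo x y h
      exact ⟨1, g, ⟨1, rfl, Or.inl (by rwa [one_smul])⟩, rfl⟩
    | refl x => exact ⟨0, 1, rfl, (one_smul _ _).symm⟩
    | symm x y _ ih =>
      obtain ⟨n, g, h1, rfl⟩ := ih
      exact ⟨n, g⁻¹, Pn_symm S h1, (inv_smul_smul _ _).symm⟩
    | trans x y z _ _ ih1 ih2 =>
      obtain ⟨n, g, h1, rfl⟩ := ih1
      obtain ⟨m, h, h2, rfl⟩ := ih2
      exact ⟨n + m, h * g, Pn_trans S h1 h2, (mul_smul _ _ _).symm⟩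
  · rintro ⟨n, g, hx, rfl⟩
    induction n generalizing g with
    | zero =>
      have : g = 1 := hx
      rw [this, one_smul]
      exact Relation.EqvGen.refl _
    | succ n ih =>
      obtain ⟨h, h1, h2⟩ := hx
      have h3 := ih h h1
      rcases h2 with h2 | h2
      · exact Relation.EqvGen.trans _ _ _ h3 (Relation.EqvGen.rel _ _ h2)
      · exact Relation.EqvGen.trans _ _ _ h3 (Relation.EqvGen.symm _ _ (Relation.EqvGen.rel _ _ h2))

include hmp hfree in
theorem eqvGen_meas (S : X → X → Prop) (hSo : ∀ x y, S x y → ∃ g : Γ, y = g • x)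
    (hS : ∀ g : Γ, MeasurableSet {x | S x (g • x)}) (g : Γ) :
    MeasurableSet {x | Relation.EqvGen S x (g • x)} := by
  have : {x | Relation.EqvGen S x (g • x)} = ⋃ n, Pn S n g := by
    ext x
    change Relation.EqvGen S x (g • x) ↔ _
    rw [eqvGen_iff_Pn (Γ := Γ) S hSo, Set.mem_iUnion]
    refine exists_congr fun n => ?_
    constructor
    · rintro ⟨g', h1, h2⟩
      have : g = g' := by
        have h3 : (g'⁻¹ * g) • x = x := by rw [mul_smul, h2, inv_smul_smul]
        have := hfree _ _ h3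
        exact (inv_mul_eq_one.1 this).symm
      rwa [this]
    · intro h
      exact ⟨g, h, rfl⟩
  rw [this]
  exact MeasurableSet.iUnion fun n => Pn_meas hmp S hS n g

end genmeas

section arcs

variable {Γ : Type} [Group Γ] {X : Type} [MulAction Γ X] {m : ℕ} (D : GD Γ m)
  (Φ : ℕ → Γ × Set X) (B : Set X)

/-- group element of an arc type -/
def ga (k : ℕ × Γ × Γ) : Γ := k.2.2 * (Φ k.1).1 * k.2.1⁻¹

/-- remaining edges of a given type -/
def W (k : ℕ × Γ × Γ) : Set X :=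
  {w | w ∈ R Φ B k.1 ∧ r Φ B w = k.2.1 ∧ r Φ B ((Φ k.1).1 • w) = k.2.2}

/-- domain of an arc type -/
def Aa (k : ℕ × Γ × Γ) : Set X := {u | k.2.1⁻¹ • u ∈ W Φ B k}

/-- `T`-steps and the arcs with type in `s` -/
def AS (s : Set (ℕ × Γ × Γ)) (y z : X) : Prop :=
  (∃ t ∈ D.T, z = t • y) ∨ ∃ k ∈ s, y ∈ Aa Φ B k ∧ z = ga Φ k • y

theorem AS_mono {s s' : Set (ℕ × Γ × Γ)} (h : s ⊆ s') {x y : X}
    (hxy : Relation.EqvGen (AS D Φ B s) x y) : Relation.EqvGen (AS D Φ B s') x y := by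
  refine Relation.EqvGen.mono ?_ _ _ hxy
  intro u v huv
  rcases huv with huv | ⟨k, hk, huv⟩
  · exact Or.inl huv
  · exact Or.inr ⟨k, h hk, huv⟩

theorem arc_finite {x y : X} (h : Relation.EqvGen (ArcStep Φ B) x y) :
    ∃ s : Finset (ℕ × Γ × Γ), Relation.EqvGen (AS D Φ B s) x y := by
  classical
  induction h with
  | rel x y h =>
    obtain ⟨i, w, hw, rfl, rfl⟩ := h
    refine ⟨{(i, r Φ B w, r Φ B ((Φ i).1 • w))}, Relation.EqvGen.rel _ _ (Or.inr
      ⟨(i, r Φ B w, r Φ B ((Φ i).1 • w)), by simp, ?_, ?_⟩)⟩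
    · change (r Φ B w)⁻¹ • (r Φ B w • w) ∈ W Φ B _
      rw [inv_smul_smul]
      exact ⟨hw, rfl, rfl⟩
    · unfold ga rho
      simp only
      rw [mul_smul, inv_smul_smul, mul_smul]
  | refl x => exact ⟨∅, Relation.EqvGen.refl _⟩
  | symm x y _ ih =>
    obtain ⟨s, hs⟩ := ih
    exact ⟨s, Relation.EqvGen.symm _ _ hs⟩
  | trans x y z _ _ ih1 ih2 =>
    obtain ⟨s, hs⟩ := ih1
    obtain ⟨s', hs'⟩ := ih2
    refine ⟨s ∪ s', Relation.EqvGen.trans _ _ _ (AS_mono D Φ B ?_ hs) (AS_mono D Φ B ?_ hs')⟩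
    · intro k hk; simp at hk ⊢; exact Or.inl hk
    · intro k hk; simp at hk ⊢; exact Or.inr hk

end arcs

section arcsmeas

variable {Γ : Type} [Group Γ] [Countable Γ] {X : Type} [MeasurableSpace X] [MulAction Γ X]
  {μ : Measure X} (hmp : ∀ g : Γ, MeasurePreserving (fun x : X => g • x) μ μ)
  (Φ : ℕ → Γ × Set X) (B : Set X) (hΦ : ∀ i, MeasurableSet (Φ i).2) (hB : MeasurableSet B)

include hmp hΦ hB in
theorem W_meas (k : ℕ × Γ × Γ) : MeasurableSet (W Φ B k) :=
  (R_meas hmp Φ B hΦ hB _).inter ((r_meas hmp Φ B hΦ hB _).inter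
    ((hmp _).measurable (r_meas hmp Φ B hΦ hB _)))

include hmp hΦ hB in
theorem Aa_meas (k : ℕ × Γ × Γ) : MeasurableSet (Aa Φ B k) :=
  (hmp _).measurable (W_meas hmp Φ B hΦ hB k)

include hmp hΦ hB in
theorem Aa_total : ∑' k, μ (Aa Φ B k) = ∑' i, μ (R Φ B i) := by
  have h1 : ∀ k, μ (Aa Φ B k) = μ (W Φ B k) := fun k =>
    (hmp k.2.1⁻¹).measure_preimage (W_meas hmp Φ B hΦ hB k).nullMeasurableSet
  simp only [h1]
  rw [ENNReal.tsum_prod']
  refine tsum_congr fun i => ?_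
  rw [← measure_iUnion]
  · congr 1
    ext w
    simp only [W, Set.mem_iUnion]
    constructor
    · rintro ⟨k, h, -⟩; exact h
    · intro h
      exact ⟨(r Φ B w, r Φ B ((Φ i).1 • w)), h, rfl, rfl⟩
  · rintro k k' hkk
    rw [Function.onFun, Set.disjoint_left]
    rintro w ⟨-, h2, h3⟩ ⟨-, h2', h3'⟩
    exact hkk (Prod.ext (h2.symm.trans h2') (h3.symm.trans h3'))
  · exact fun k => W_meas hmp Φ B hΦ hB _

end arcsmeas

end LA

variable {Γ : Type} [Group Γ] [Countable Γ] {m : ℕ} {X : Type} [MeasurableSpace X]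
  [MulAction Γ X] {μ : Measure X} {D : GD Γ m}

/-- `T`-steps and arcs -/
def AStep (D : GD Γ m) {N : ℕ} (g : Fin N → Γ) (A : Fin N → Set X) (y z : X) : Prop :=
  (∃ t ∈ D.T, z = t • y) ∨ ∃ i, y ∈ A i ∧ z = g i • y

open LA in
/-- Choose `B` with `μ B ≤ δ`, `T B = X` a.e.; the forest of edges of `Φ` pointing to `B` (distance to `B`
decreasing) has cost `1 - μ B`; the other edges are contracted onto `B`, which gives arcs between points of
`B` of total measure `≤ cost - 1 + δ < ε`; `R_T` and the arcs generate. Finally truncate. -/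
theorem exists_arcs (hS : Sp D X μ)
    (hrec : ∀ δ : ℝ≥0∞, δ ≠ 0 → ∃ B, MeasurableSet B ∧ μ B ≤ δ ∧ ∀ᵐ x ∂μ, ∃ t ∈ D.T, t • x ∈ B)
    (ε : ℝ≥0∞) (hc : Crest.Dynamics.actionCost Γ X μ < 1 + ε) :
    ∃ (N : ℕ) (g : Fin N → Γ) (A : Fin N → Set X), (∀ i, MeasurableSet (A i)) ∧
      ∑ i, μ (A i) ≤ ε ∧ ∃ G : Set X, MeasurableSet G ∧ 19 / 20 ≤ μ G ∧
        ∀ x ∈ G, Relation.EqvGen (AStep D g A) x (D.a • x) := by
  classical
  have hprob := hS.prob
  have hmp := hS.mp
  unfold Crest.Dynamics.actionCost at hc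
  rw [sInf_lt_iff] at hc
  obtain ⟨c, ⟨Φ, ⟨hΦ, N0, hN0, hgen⟩, rfl⟩, hc⟩ := hc
  obtain ⟨B, hB, hBδ, hret⟩ := hrec (1 + ε - Crest.Dynamics.graphingCost μ Φ) (tsub_pos_of_lt hc).ne'
  -- generic points
  have hae1 : ∀ᵐ x ∂μ, x ∉ N0 := by
    rw [ae_iff]; simpa using hN0
  have hae2 : ∀ᵐ x ∂μ, ∃ t ∈ D.T, t • (D.a • x) ∈ B :=
    (hmp D.a).quasiMeasurePreserving.ae hret
  have hU : μ (⋃ n, U Φ B n)ᶜ = 0 := by
    have : ∀ᵐ x ∂μ, x ∈ ⋃ n, U Φ B n := by
      filter_upwards [hae1, hret] with x hx hx2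
      obtain ⟨t, -, ht⟩ := hx2
      exact (gen_U Φ B (hgen x hx t)).2 (Set.mem_iUnion.2 ⟨0, ht⟩)
    exact this
  have htot := R_total hmp Φ B hΦ hB hU
  have hR : ∑' i, μ (R Φ B i) ≤ ε := by
    have h1 : ∑' i, μ (R Φ B i) + 1 ≤ ε + 1 := by
      rw [htot]
      calc ∑' i, μ (Φ i).2 + μ B
          ≤ Crest.Dynamics.graphingCost μ Φ + (1 + ε - Crest.Dynamics.graphingCost μ Φ) := by
            unfold Crest.Dynamics.graphingCost at *
            gcongr
        _ = 1 + ε := add_tsub_cancel_of_le hc.le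
        _ = ε + 1 := add_comm _ _
    exact (ENNReal.add_le_add_iff_right ENNReal.one_ne_top).1 h1
  -- the good sets
  let Gs : Finset (ℕ × Γ × Γ) → Set X := fun s => {x | Relation.EqvGen (AS D Φ B s) x (D.a • x)}
  have hASo : ∀ (s : Set (ℕ × Γ × Γ)) (x y : X), AS D Φ B s x y → ∃ g : Γ, y = g • x := by
    rintro s x y (⟨t, -, h⟩ | ⟨k, -, -, h⟩)
    · exact ⟨t, h⟩
    · exact ⟨_, h⟩
  have hASm : ∀ (s : Finset (ℕ × Γ × Γ)) (g : Γ), MeasurableSet {x | AS D Φ B s x (g • x)} := by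
    intro s g
    have hfr : ∀ (h : Γ) (x : X), g • x = h • x ↔ g = h := by
      intro h x
      constructor
      · intro heq
        have h3 : (h⁻¹ * g) • x = x := by rw [mul_smul, heq, inv_smul_smul]
        exact (inv_mul_eq_one.1 (hS.free _ _ h3)).symm
      · rintro rfl; rfl
    have : {x | AS D Φ B s x (g • x)} = {x | ∃ t ∈ D.T, g = t} ∪
        ⋃ k ∈ s, (Aa Φ B k ∩ {x | g = ga Φ k}) := by
      ext x
      simp only [AS, hfr, Set.mem_union, Set.mem_iUnion]
      constructor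
      · rintro (h | ⟨k, hk, h1, h2⟩)
        · exact Or.inl h
        · exact Or.inr ⟨k, hk, h1, h2⟩
      · rintro (h | ⟨k, hk, h1, h2⟩)
        · exact Or.inl h
        · exact Or.inr ⟨k, hk, h1, h2⟩
    rw [this]
    exact (MeasurableSet.const _).union (MeasurableSet.biUnion (Finset.countable_toSet s)
      fun k _ => (Aa_meas hmp Φ B hΦ hB k).inter (MeasurableSet.const _))
  have hGm : ∀ s, MeasurableSet (Gs s) := fun s =>
    eqvGen_meas hmp hS.free _ (hASo s) (hASm s) D.a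
  have hdir : Directed (· ⊆ ·) Gs := by
    intro s s'
    refine ⟨s ∪ s', ?_, ?_⟩
    · intro x hx
      refine AS_mono D Φ B ?_ hx
      intro k hk; simp at hk ⊢; exact Or.inl hk
    · intro x hx
      refine AS_mono D Φ B ?_ hx
      intro k hk; simp at hk ⊢; exact Or.inr hk
  have hfull : μ (⋃ s, Gs s) = 1 := by
    rw [← prob_compl_eq_zero_iff (MeasurableSet.iUnion hGm)]
    have : ∀ᵐ x ∂μ, x ∈ ⋃ s, Gs s := by
      filter_upwards [hae1, hret, hae2] with x hx1 hx2 hx3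
      obtain ⟨t, ht, htB⟩ := hx2
      obtain ⟨t', ht', htB'⟩ := hx3
      have h1 := hgen x hx1 t
      have h2 := hgen x hx1 (t' * D.a)
      rw [mul_smul] at h2
      have h3 := gen_rho Φ B (Relation.EqvGen.trans _ _ _ (Relation.EqvGen.symm _ _ h1) h2)
      rw [rho_B Φ B htB, rho_B Φ B htB'] at h3
      obtain ⟨s, hs⟩ := arc_finite D Φ B h3
      refine Set.mem_iUnion.2 ⟨s, ?_⟩
      refine Relation.EqvGen.trans _ _ _ (Relation.EqvGen.rel _ _ (Or.inl ⟨t, ht, rfl⟩))
        (Relation.EqvGen.trans _ _ _ hs (Relation.EqvGen.symm _ _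
          (Relation.EqvGen.rel _ _ (Or.inl ⟨t', ht', rfl⟩))))
    exact this
  rw [hdir.measure_iUnion] at hfull
  have hlt : (19 / 20 : ℝ≥0∞) < ⨆ s, μ (Gs s) := by
    rw [hfull]
    rw [ENNReal.div_lt_iff (by norm_num) (by norm_num)]
    norm_num
  rw [lt_iSup_iff] at hlt
  obtain ⟨s, hs⟩ := hlt
  let e := s.equivFin.symm
  refine ⟨s.card, fun i => ga Φ (e i).1, fun i => Aa Φ B (e i).1,
    fun i => Aa_meas hmp Φ B hΦ hB _, ?_, Gs s, hGm s, hs.le, ?_⟩
  · have h1 : ∑ i, μ (Aa Φ B (e i).1) = ∑ k : s, μ (Aa Φ B k.1) :=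
      Equiv.sum_comp e (fun k : s => μ (Aa Φ B k.1))
    rw [h1, Finset.sum_coe_sort s (fun k => μ (Aa Φ B k))]
    refine (ENNReal.sum_le_tsum s).trans ?_
    rw [Aa_total hmp Φ B hΦ hB]
    exact hR
  · intro x hx
    refine Relation.EqvGen.mono ?_ _ _ hx
    rintro y z (h | ⟨k, hk, h1, h2⟩)
    · exact Or.inl h
    · refine Or.inr ⟨e.symm ⟨k, hk⟩, ?_, ?_⟩
      · simpa using h1
      · simpa using h2

end Crest.Agent.FP
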