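import Crest.Agent.FP.Ops

/-! Row 191 (S0291), the functional. -/
set_option autoImplicit false

open MeasureTheory
open scoped ENNReal

namespace Crest.Agent.FP

variable {Γ : Type} [Group Γ] {m : ℕ} [NeZero m] {X : Type} [MeasurableSpace X]
  [MulAction Γ X]

/-- number of (1,1)-corners -/
noncomputable def size11 (μ : Measure X) (D : GD Γ m) (Y : Sys Γ X m) : ℝ≥0∞ :=
  ∑ k : ZMod m, size μ {f | Y.C11 D f k}

/-- `P0 + lam * U` -/
noncomputable def Plam (D : GD Γ m) (μ : Measure X) (G : Set X) (lam : ℝ) (Y : Sys Γ X m) : ℝ :=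
  Y.P0 μ + lam * (Y.Uint D μ G).toReal

end Crest.Agent.FP
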