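import Crest.Agent.FP.Ops

/-! Row 191 (S0291), chunk C0: mass transport. -/
set_option autoImplicit false

open MeasureTheory
open scoped ENNReal

namespace Crest.Agent.FP

variable {Γ : Type} [Group Γ] [Countable Γ] {m : ℕ} [NeZero m] {X : Type} [MeasurableSpace X]
  [MulAction Γ X] {μ : Measure X} {D : GD Γ m}

/-- mass transport -/
theorem mtp (hS : Sp D X μ) {ι κ : Type} [Countable ι] [Countable κ]
    (f : X → ι → Γ → κ → ℝ≥0∞) (hf : ∀ i g k, Measurable fun x => f x i g k) :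
    ∫⁻ x, ∑' i, ∑' g, ∑' k, f x i g k ∂μ = ∫⁻ x, ∑' k, ∑' g, ∑' i, f (g • x) i g⁻¹ k ∂μ := by
  have hm : ∀ i g g' k, Measurable fun x : X => f (g • x) i g' k := fun i g g' k =>
    (hf i g' k).comp (hS.mp g).measurable
  have h1 : ∫⁻ x, ∑' i, ∑' g, ∑' k, f x i g k ∂μ = ∑' i, ∑' g, ∑' k, ∫⁻ x, f x i g k ∂μ := by
    rw [lintegral_tsum fun i => (Measurable.ennreal_tsum fun g =>
      Measurable.ennreal_tsum fun k => hf i g k).aemeasurable]
    refine tsum_congr fun i => ?_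
    rw [lintegral_tsum fun g => (Measurable.ennreal_tsum fun k => hf i g k).aemeasurable]
    refine tsum_congr fun g => ?_
    rw [lintegral_tsum fun k => (hf i g k).aemeasurable]
  have h2 : ∫⁻ x, ∑' k, ∑' g, ∑' i, f (g • x) i g⁻¹ k ∂μ =
      ∑' k, ∑' g, ∑' i, ∫⁻ x, f (g • x) i g⁻¹ k ∂μ := by
    rw [lintegral_tsum fun k => (Measurable.ennreal_tsum fun g =>
      Measurable.ennreal_tsum fun i => hm i g _ k).aemeasurable]
    refine tsum_congr fun k => ?_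
    rw [lintegral_tsum fun g => (Measurable.ennreal_tsum fun i => hm i g _ k).aemeasurable]
    refine tsum_congr fun g => ?_
    rw [lintegral_tsum fun i => (hm i g _ k).aemeasurable]
  have h3 : ∀ i g k, ∫⁻ x, f (g • x) i g⁻¹ k ∂μ = ∫⁻ x, f x i g⁻¹ k ∂μ := fun i g k =>
    (hS.mp g).lintegral_comp (hf i g⁻¹ k)
  rw [h1, h2]
  simp only [h3]
  have h4 : ∀ k, ∑' g : Γ, ∑' i, ∫⁻ x, f x i g⁻¹ k ∂μ = ∑' g : Γ, ∑' i, ∫⁻ x, f x i g k ∂μ :=
    fun k => (Equiv.inv Γ).tsum_eq (fun g => ∑' i, ∫⁻ x, f x i g k ∂μ)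
  simp only [h4]
  -- reorder
  calc ∑' i, ∑' g, ∑' k, ∫⁻ x, f x i g k ∂μ
      = ∑' g, ∑' i, ∑' k, ∫⁻ x, f x i g k ∂μ := ENNReal.tsum_comm
    _ = ∑' g, ∑' k, ∑' i, ∫⁻ x, f x i g k ∂μ := tsum_congr fun g => ENNReal.tsum_comm
    _ = ∑' k, ∑' g, ∑' i, ∫⁻ x, f x i g k ∂μ := ENNReal.tsum_comm

end Crest.Agent.FP
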