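import Crest.Agent.FP.Gains
import Crest.Agent.FP.Barrier

/-! Row 191 (S0291): there is no admissible system. -/
set_option autoImplicit false

open MeasureTheory
open scoped ENNReal

namespace Crest.Agent.FP

variable {Γ : Type} [Group Γ] [Countable Γ] {m : ℕ} [NeZero m] {X : Type} [MeasurableSpace X]
  [MulAction Γ X] {μ : Measure X} {D : GD Γ m} {G : Set X} {ε w : ℝ≥0∞}

theorem na_size_mono {S S' : Set (X × ℕ)} (h : S ⊆ S') : size μ S ≤ size μ S' :=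
  ENNReal.tsum_le_tsum fun _ => measure_mono fun _ hx => h hx

theorem na_size11_le (Y : Sys Γ X m) : size11 μ D Y ≤ m * size μ Y.Fs := by
  unfold size11
  calc ∑ k : ZMod m, size μ {f | Y.C11 D f k} ≤ ∑ _k : ZMod m, size μ Y.Fs :=
        Finset.sum_le_sum fun k _ => na_size_mono fun f hf => hf.1
    _ = m * size μ Y.Fs := by
        rw [Finset.sum_const, Finset.card_univ, ZMod.card, nsmul_eq_mul]

theorem na_dead_le (Y : Sys Γ X m) : dsize μ Y.Dead ≤ 2 * size μ Y.E := by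
  unfold dsize size
  rw [← ENNReal.tsum_mul_left]
  refine ENNReal.tsum_le_tsum fun i => ?_
  rw [two_mul]
  gcongr
  · rename_i x
    exact fun h => h.1
  · rename_i x
    exact fun h => h.1

theorem na_near {S : Set ℝ} (hne : S.Nonempty) (_hb : BddBelow S) {θ : ℝ} (hθ : 0 < θ) :
    ∃ r ∈ S, r < sInf S + θ :=
  exists_lt_of_csInf_lt hne (by linarith)

theorem no_adm (hS : Sp D X μ) (hm : 4 ≤ m) (hD : D.DehnOn X)
    (hw : 9 / 100 + m * w ≤ 1 / 4) (hw0 : w ≠ 0) (hε0 : ε ≠ 0) (hε : 8 * ε ≤ w)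
    (hG : MeasurableSet G) (hG9 : 9 / 10 ≤ μ G) (Y₀ : Sys Γ X m) (hY₀ : Y₀.Adm D μ G ε w) :
    False := by
  have hm3 : 3 ≤ m := by omega
  have hmR : (4 : ℝ) ≤ m := by exact_mod_cast hm
  -- finiteness
  have hwt : w ≠ ⊤ := by
    rintro rfl
    have : ((m : ℝ≥0∞)) * ⊤ = ⊤ := ENNReal.mul_top (by
      simp only [ne_eq, Nat.cast_eq_zero]; omega)
    rw [this] at hw
    simp at hw
  have hεw : ε ≤ w := le_trans (by
    calc ε = 1 * ε := by rw [one_mul]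
      _ ≤ 8 * ε := by gcongr; norm_num) hε
  have hεt : ε ≠ ⊤ := ne_top_of_le_ne_top hwt hεw
  set e : ℝ := ε.toReal with he
  set W : ℝ := w.toReal with hW
  have he0 : 0 < e := ENNReal.toReal_pos hε0 hεt
  have hW0 : 0 < W := ENNReal.toReal_pos hw0 hwt
  have heW : 8 * e ≤ W := by
    have := ENNReal.toReal_mono hwt hε
    rwa [ENNReal.toReal_mul, ENNReal.toReal_ofNat] at this
  have hmW : 9 / 100 + m * W ≤ 1 / 4 := by
    have h1 : ((1 : ℝ≥0∞) / 4) ≠ ⊤ := by simp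
    have := ENNReal.toReal_mono h1 hw
    rw [ENNReal.toReal_add (by simp [ENNReal.div_eq_top])
      (ENNReal.mul_ne_top (by simp) hwt), ENNReal.toReal_mul] at this
    simpa using this
  -- first choice
  set S0 : Set ℝ := {r | ∃ Y : Sys Γ X m, Y.Adm D μ G ε w ∧ r = Y.P0 μ} with hS0
  have hb0 : BddBelow S0 := ⟨0, by
    rintro r ⟨Y, hY, rfl⟩
    exact P0_nonneg hS hw Y hY⟩
  have hn0 : S0.Nonempty := ⟨_, Y₀, hY₀, rfl⟩
  set η : ℝ := e / (100 * m ^ 2) with hη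
  have hη0 : 0 < η := by positivity
  obtain ⟨_, ⟨Y₁, hY₁, rfl⟩, hP₁⟩ := na_near hn0 hb0 hη0
  set U₁ : ℝ := (Y₁.Uint D μ G).toReal with hU₁
  have hU₁0 : 0 ≤ U₁ := ENNReal.toReal_nonneg
  set lam : ℝ := η / (U₁ + 1) with hlam
  have hl : 0 < lam := by positivity
  have hlU : lam * U₁ ≤ η := by
    rw [hlam, div_mul_eq_mul_div, div_le_iff₀ (by positivity)]
    nlinarith
  set S1 : Set ℝ := {r | ∃ Y : Sys Γ X m, Y.Adm D μ G ε w ∧ r = Plam D μ G lam Y} with hS1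
  have hb1 : BddBelow S1 := ⟨0, by
    rintro r ⟨Y, hY, rfl⟩
    have := P0_nonneg hS hw Y hY
    unfold Plam
    have h2 : 0 ≤ (Y.Uint D μ G).toReal := ENNReal.toReal_nonneg
    positivity⟩
  have hn1 : S1.Nonempty := ⟨_, Y₀, hY₀, rfl⟩
  set p0 := sInf S0
  set p1 := sInf S1
  have hp1 : p1 ≤ Plam D μ G lam Y₁ := csInf_le hb1 ⟨Y₁, hY₁, rfl⟩
  have hp1' : p1 < p0 + 2 * η := by
    have : Plam D μ G lam Y₁ = Y₁.P0 μ + lam * U₁ := rfl
    linarith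
  set θ : ℝ := min (min η (lam * (8 / 10) / m)) (W / 16) / 2 with hθ
  have hθ0 : 0 < θ := by
    rw [hθ]
    have : 0 < min (min η (lam * (8 / 10) / m)) (W / 16) := by
      refine lt_min (lt_min hη0 (by positivity)) (by positivity)
    linarith
  have hθη : θ ≤ η / 2 := by
    rw [hθ]
    have : min (min η (lam * (8 / 10) / m)) (W / 16) ≤ η :=
      (min_le_left _ _).trans (min_le_left _ _)
    linarith
  have hθr : θ < min (lam * (8 / 10) / m) (W / 16) := by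
    have h1 : min (min η (lam * (8 / 10) / m)) (W / 16) ≤ min (lam * (8 / 10) / m) (W / 16) :=
      min_le_min (min_le_right _ _) le_rfl
    have : θ < min (min η (lam * (8 / 10) / m)) (W / 16) := by rw [hθ] at hθ0 ⊢; linarith
    linarith
  obtain ⟨_, ⟨Y₂, hY₂, rfl⟩, hP₂⟩ := na_near hn1 hb1 hθ0
  have hP₂0 : p0 ≤ Y₂.P0 μ := csInf_le hb0 ⟨Y₂, hY₂, rfl⟩
  set U₂ : ℝ := (Y₂.Uint D μ G).toReal with hU₂
  have hPl₂ : Plam D μ G lam Y₂ = Y₂.P0 μ + lam * U₂ := rfl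
  have hlU₂ : lam * U₂ ≤ 3 * η := by
    have h := hP₂
    rw [hPl₂] at h
    linarith
  -- dead
  have hdead : (dsize μ Y₂.Dead).toReal ≤ θ := by
    obtain ⟨Y', hY', hP'⟩ := prune_gain hS hm3 Y₂ hY₂ hG lam hl
    have := csInf_le hb1 ⟨Y', hY', rfl⟩
    linarith
  have h11 : (size11 μ D Y₂).toReal ≤ 2 * m * θ + 12 * m ^ 2 * η := by
    obtain ⟨Y', hY', hP'⟩ := disc_gain hS hm3 Y₂ hY₂ hG lam hl
    have := csInf_le hb1 ⟨Y', hY', rfl⟩
    have h3 : ((size11 μ D Y₂).toReal - 4 * m ^ 2 * lam * (Y₂.Uint D μ G).toReal) / (2 * m)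
        ≤ θ := by linarith
    rw [div_le_iff₀ (by positivity)] at h3
    have h4 : 4 * (m : ℝ) ^ 2 * lam * (Y₂.Uint D μ G).toReal ≤ 12 * m ^ 2 * η := by
      have : 4 * (m : ℝ) ^ 2 * lam * (Y₂.Uint D μ G).toReal = 4 * m ^ 2 * (lam * U₂) := by
        rw [hU₂]; ring
      rw [this]
      have hm2 : (0 : ℝ) ≤ 4 * m ^ 2 := by positivity
      nlinarith
    linarith
  have hm2η : (m : ℝ) ^ 2 * η = e / 100 := by
    rw [hη]; field_simp
  have hmθ : (m : ℝ) * θ ≤ e / 800 := by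
    have h1 : (m : ℝ) * θ ≤ m * (η / 2) := by gcongr
    have h2 : (m : ℝ) * (η / 2) ≤ m ^ 2 * η / 8 := by
      have : (m : ℝ) * η * 4 ≤ m * η * m := by gcongr
      nlinarith
    rw [hm2η] at h2
    linarith
  have hθe : θ ≤ e / 3200 := by
    have : 4 * θ ≤ m * θ := by gcongr
    linarith
  -- the barrier
  have hFt : size μ Y₂.Fs ≠ ⊤ := ne_top_of_le_ne_top hwt hY₂.Fle
  have h11t : size11 μ D Y₂ ≠ ⊤ :=
    ne_top_of_le_ne_top (ENNReal.mul_ne_top (by simp) hFt) (na_size11_le Y₂)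
  have hdt : dsize μ Y₂.Dead ≠ ⊤ :=
    ne_top_of_le_ne_top (ENNReal.mul_ne_top (by simp) hY₂.finE) (na_dead_le Y₂)
  obtain ⟨hb, hb'⟩ := barrier' hm3 hS hw Y₂ hY₂
  have hFR : (size μ Y₂.Fs).toReal ≤ 4 * e := by
    have h1 : 3 * ε + size11 μ D Y₂ + 2 * dsize μ Y₂.Dead ≠ ⊤ :=
      ENNReal.add_ne_top.2 ⟨ENNReal.add_ne_top.2 ⟨ENNReal.mul_ne_top (by simp) hεt, h11t⟩,
        ENNReal.mul_ne_top (by simp) hdt⟩
    have h2 := ENNReal.toReal_mono h1 hb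
    rw [ENNReal.toReal_add (ENNReal.add_ne_top.2 ⟨ENNReal.mul_ne_top (by simp) hεt, h11t⟩)
      (ENNReal.mul_ne_top (by simp) hdt), ENNReal.toReal_add (ENNReal.mul_ne_top (by simp) hεt)
      h11t, ENNReal.toReal_mul, ENNReal.toReal_mul, ENNReal.toReal_ofNat, ENNReal.toReal_ofNat,
      ← he] at h2
    nlinarith
  have hF : size μ Y₂.Fs ≤ w / 2 := by
    rw [← ENNReal.toReal_le_toReal hFt (ENNReal.div_ne_top hwt (by simp)), ENNReal.toReal_div,
      ENNReal.toReal_ofNat, ← hW]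
    linarith
  have hA : μ Y₂.AP ≤ 1 / 10 := by
    refine hb'.trans ?_
    have h1 : ε + size μ Y₂.Fs + dsize μ Y₂.Dead ≠ ⊤ :=
      ENNReal.add_ne_top.2 ⟨ENNReal.add_ne_top.2 ⟨hεt, hFt⟩, hdt⟩
    rw [← ENNReal.toReal_le_toReal h1 (by simp), ENNReal.toReal_add
      (ENNReal.add_ne_top.2 ⟨hεt, hFt⟩) hdt, ENNReal.toReal_add hεt hFt, ← he]
    have h2 : ((1 : ℝ≥0∞) / 10).toReal = 1 / 10 := by simp
    rw [h2]
    have h3 : 4 * W ≤ m * W := by gcongr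
    nlinarith
  obtain ⟨Y', hY', hP'⟩ := round_gain hS hm hD hw hw0 Y₂ hY₂ hG hG9 hF hA lam hl
  have := csInf_le hb1 ⟨Y', hY', rfl⟩
  linarith

end Crest.Agent.FP
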