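import Crest.Agent.FP.Defs

/-! Row 191 (S0291), the operations on systems: folding, adding faces, pruning dead ends,
discarding (1,1)-vertices. -/
set_option autoImplicit false

open MeasureTheory
open scoped ENNReal

namespace Crest.Agent.FP

namespace Sys

variable {Γ : Type} [Group Γ] {m : ℕ} {X : Type} [MulAction Γ X]

/-! ### folding -/

/-- the folding relation: smallest equivalence relation on the darts (of edges), containing `V`,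
such that for two edges over the same point the tails are related iff the heads are related -/
inductive Fr (Y : Sys Γ X m) : Dart X → Dart X → Prop
  | base {η ζ : Dart X} : Y.V η ζ → Fr Y η ζ
  | symm {η ζ : Dart X} : Fr Y η ζ → Fr Y ζ η
  | trans {η ζ ξ : Dart X} : Fr Y η ζ → Fr Y ζ ξ → Fr Y η ξ
  | fold {x : X} {i j : ℕ} {s : Bool} : (x, i) ∈ Y.E → (x, j) ∈ Y.E →
      Fr Y ((x, i), s) ((x, j), s) → Fr Y ((x, i), !s) ((x, j), !s)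

/-- representative (minimal index) of the class of an edge -/
noncomputable def rep (Y : Sys Γ X m) (e : X × ℕ) : X × ℕ :=
  (e.1, sInf {j | (e.1, j) ∈ Y.E ∧ Y.Fr (e, true) ((e.1, j), true)})

/-- representative edges -/
def repE (Y : Sys Γ X m) : Set (X × ℕ) :=
  {e | e ∈ Y.E ∧ ∀ j < e.2, (e.1, j) ∈ Y.E → ¬ Y.Fr (e, true) ((e.1, j), true)}

/-- complete folding -/
noncomputable def fold (D : GD Γ m) (Y : Sys Γ X m) : Sys Γ X m where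
  E := Y.repE
  V := fun η ζ => η.1 ∈ Y.repE ∧ ζ.1 ∈ Y.repE ∧ Y.Fr η ζ
  Pr := {η | η.1 ∈ Y.repE ∧ ∃ ζ ∈ Y.Pr, Y.Fr η ζ}
  Fs := {f | f ∈ Y.Fs ∧ ∀ j < f.2, (f.1, j) ∈ Y.Fs →
    ¬ Y.Fr (Y.fed D f 0, true) (Y.fed D (f.1, j) 0, true)}
  fe := fun f k => (Y.rep (Y.fed D f k)).2
  I := Y.I
  J := fun i => (Y.J i).mapDomain fun p => (p.1, (Y.rep (p.1 • i.1, p.2)).2)

/-! ### adding faces -/

/-- `r` describes a run of `m-1` consecutive edges of the face `q`, index `k₀` missing: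
the `k`-th edge is `(h k • q, r k)`, `k ≠ k₀`. -/
def IsRun (D : GD Γ m) (Y : Sys Γ X m) (k₀ : ZMod m) (q : X) (r : ZMod m → ℕ) : Prop :=
  (∀ k, k ≠ k₀ → (D.h k • q, r k) ∈ Y.E) ∧
  ∀ k, k ≠ k₀ → k + 1 ≠ k₀ → Y.V ((D.h k • q, r k), true) ((D.h (k + 1) • q, r (k + 1)), false)

/-- data `(k₀, W, r)` good for adding faces -/
structure RunOK (D : GD Γ m) (Y : Sys Γ X m) (k₀ : ZMod m) (W : Set (X × ℕ))
    (r : X × ℕ → ZMod m → ℕ) : Prop where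
  run : ∀ w ∈ W, Y.IsRun D k₀ w.1 (r w)
  inj : ∀ q j j' k, k ≠ k₀ → (q, j) ∈ W → (q, j') ∈ W → r (q, j) k = r (q, j') k → j = j'
  disj : ∀ q j j' k, k ≠ k₀ → (q, j) ∈ W → (q, j') ∈ Y.Fs → r (q, j) k ≠ Y.fe (q, j') k

/-- old dart to which a dart of the new system is anchored.  Old edges `(x,i)` are renamed
`(x, 2*i)`, the new edge of `w = (q,j) ∈ W` is `(h k₀ • q, 2*j+1)`. -/
def anc (D : GD Γ m) (k₀ : ZMod m) (r : X × ℕ → ZMod m → ℕ) (η : Dart X) : Dart X :=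
  if η.1.2 % 2 = 0 then ((η.1.1, η.1.2 / 2), η.2) else
    if η.2 then
      ((D.h (k₀ + 1) • (D.h k₀)⁻¹ • η.1.1, r ((D.h k₀)⁻¹ • η.1.1, η.1.2 / 2) (k₀ + 1)), false)
    else
      ((D.h (k₀ - 1) • (D.h k₀)⁻¹ • η.1.1, r ((D.h k₀)⁻¹ • η.1.1, η.1.2 / 2) (k₀ - 1)), true)

/-- edges of the system with added faces -/
def addE (D : GD Γ m) (Y : Sys Γ X m) (k₀ : ZMod m) (W : Set (X × ℕ)) : Set (X × ℕ) :=
  {e | (e.2 % 2 = 0 ∧ (e.1, e.2 / 2) ∈ Y.E) ∨ (e.2 % 2 = 1 ∧ ((D.h k₀)⁻¹ • e.1, e.2 / 2) ∈ W)}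

/-- close the runs in `W` by a new edge and a face -/
noncomputable def addF (D : GD Γ m) (Y : Sys Γ X m) (k₀ : ZMod m) (W : Set (X × ℕ))
    (r : X × ℕ → ZMod m → ℕ) : Sys Γ X m where
  E := Y.addE D k₀ W
  V := fun η ζ => η.1 ∈ Y.addE D k₀ W ∧ ζ.1 ∈ Y.addE D k₀ W ∧
    Y.V (anc D k₀ r η) (anc D k₀ r ζ)
  Pr := {η | η.1 ∈ Y.addE D k₀ W ∧ anc D k₀ r η ∈ Y.Pr}
  Fs := {f | (f.2 % 2 = 0 ∧ (f.1, f.2 / 2) ∈ Y.Fs) ∨ (f.2 % 2 = 1 ∧ (f.1, f.2 / 2) ∈ W)}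
  fe := fun f k => if f.2 % 2 = 0 then 2 * Y.fe (f.1, f.2 / 2) k else
    if k = k₀ then f.2 else 2 * r (f.1, f.2 / 2) k
  I := Y.I
  J := fun i => (Y.J i).mapDomain fun p => (p.1, 2 * p.2)

/-- all non-closed runs with index `k₀` missing; `j` is the index of the edge of type `k₀+1` -/
def Wall (D : GD Γ m) (Y : Sys Γ X m) (k₀ : ZMod m) : Set (X × ℕ) :=
  {w | ∃ r, Y.IsRun D k₀ w.1 r ∧ r (k₀ + 1) = w.2 ∧
    ¬ ∃ i, Y.V ((D.h (k₀ - 1) • w.1, r (k₀ - 1)), true) ((D.h k₀ • w.1, i), false) ∧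
      Y.V ((D.h k₀ • w.1, i), true) ((D.h (k₀ + 1) • w.1, r (k₀ + 1)), false)}

/-- the indices of the run of an element of `Wall` -/
noncomputable def rr (D : GD Γ m) (Y : Sys Γ X m) (k₀ : ZMod m) (w : X × ℕ) (k : ZMod m) : ℕ :=
  sInf {n | ∃ r, Y.IsRun D k₀ w.1 r ∧ r (k₀ + 1) = w.2 ∧ r k = n}

/-! ### pruning -/

/-- edges without dead end -/
def liveE (Y : Sys Γ X m) : Set (X × ℕ) := {e | e ∈ Y.E ∧ (e, true) ∉ Y.Dead ∧ (e, false) ∉ Y.Dead}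

open Classical in
/-- remove the edges with a dead end -/
noncomputable def prune (Y : Sys Γ X m) : Sys Γ X m where
  E := Y.liveE
  V := fun η ζ => η.1 ∈ Y.liveE ∧ ζ.1 ∈ Y.liveE ∧ Y.V η ζ
  Pr := {η | η.1 ∈ Y.liveE ∧ η ∈ Y.Pr}
  Fs := Y.Fs
  fe := Y.fe
  I := Y.I
  J := fun i => (Y.J i).filter fun p => (p.1 • i.1, p.2) ∈ Y.liveE

/-! ### discarding (1,1)-vertices -/

/-- the edges which remain: for `f ∈ S` the edges of `f` number `κ f` and `κ f + 1` are removed -/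
def keepE (D : GD Γ m) (Y : Sys Γ X m) (S : Set (X × ℕ)) (κ : X × ℕ → ZMod m) : Set (X × ℕ) :=
  {e | e ∈ Y.E ∧ ∀ f ∈ S, e ≠ Y.fed D f (κ f) ∧ e ≠ Y.fed D f (κ f + 1)}

open Classical in
/-- chain map: the removed edge `κ f` is sent to minus the sum of the remaining `m-2` edges
of the face, the removed edge `κ f + 1` to `0` -/
noncomputable def dmap [NeZero m] (D : GD Γ m) (Y : Sys Γ X m) (S : Set (X × ℕ))
    (κ : X × ℕ → ZMod m) (e : X × ℕ) : Γ × ℕ →₀ ℤ :=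
  if h : ∃ f ∈ S, e = Y.fed D f (κ f) then
    -∑ k ∈ Finset.univ.filter (fun k => k ≠ κ h.choose ∧ k ≠ κ h.choose + 1),
      Finsupp.single (D.h k * (D.h (κ h.choose))⁻¹, Y.fe h.choose k) (1 : ℤ)
  else if ∃ f ∈ S, e = Y.fed D f (κ f + 1) then 0
  else Finsupp.single (1, e.2) 1

/-- discard for each `f ∈ S` the `κ f`-th corner of `f`, the two adjacent edges and `f` -/
noncomputable def disc [NeZero m] (D : GD Γ m) (Y : Sys Γ X m) (S : Set (X × ℕ))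
    (κ : X × ℕ → ZMod m) : Sys Γ X m where
  E := Y.keepE D S κ
  V := fun η ζ => η.1 ∈ Y.keepE D S κ ∧ ζ.1 ∈ Y.keepE D S κ ∧ Y.V η ζ
  Pr := {η | η.1 ∈ Y.keepE D S κ ∧ η ∈ Y.Pr}
  Fs := Y.Fs \ S
  fe := Y.fe
  I := Y.I
  J := fun i => (Y.J i).sum fun p n =>
    n • (Y.dmap D S κ (p.1 • i.1, p.2)).mapDomain fun p' => (p'.1 * p.1, p'.2)

end Sys

end Crest.Agent.FP
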