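import Crest.Agent.FP.Group

/-! Row 191 (S0291), chunk PB: cheap actions. -/
set_option autoImplicit false

open MeasureTheory
open scoped ENNReal

namespace Crest.Agent.FP

section general

variable {Γ : Type} [Group Γ] {X : Type} [MulAction Γ X] {M : ℕ}

/-- the action on `X × ZMod M` -/
@[reducible] def pbAct (lam : Γ →* Multiplicative (ZMod M)) : MulAction Γ (X × ZMod M) where
  smul g y := (g • y.1, y.2 + (lam g).toAdd)
  one_smul y := by
    change ((1 : Γ) • y.1, y.2 + (lam 1).toAdd) = y
    simp
  mul_smul g h y := by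
    change ((g * h) • y.1, y.2 + (lam (g * h)).toAdd) =
      (g • (h • y.1), (y.2 + (lam h).toAdd) + (lam g).toAdd)
    simp [mul_smul, add_assoc, add_comm (lam h).toAdd]

/-- uniform measure -/
noncomputable def pbU (M : ℕ) [MeasurableSpace (ZMod M)] : Measure (ZMod M) :=
  (M : ℝ≥0∞)⁻¹ • Measure.count

theorem pbU_apply [NeZero M] [MeasurableSpace (ZMod M)] [DiscreteMeasurableSpace (ZMod M)]
    (S : Finset (ZMod M)) : pbU M (S : Set (ZMod M)) = (S.card : ℝ≥0∞) / M := by
  simp only [pbU, Measure.smul_apply, Measure.count_apply_finset, smul_eq_mul]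
  rw [mul_comm, ENNReal.div_eq_inv_mul, mul_comm]

theorem pbU_prob [NeZero M] [MeasurableSpace (ZMod M)] [DiscreteMeasurableSpace (ZMod M)] :
    IsProbabilityMeasure (pbU M) := by
  constructor
  rw [← Finset.coe_univ, pbU_apply, Finset.card_univ, ZMod.card]
  exact ENNReal.div_self (by simpa using NeZero.ne M) (by simp)

theorem pbU_mp [NeZero M] [MeasurableSpace (ZMod M)] [DiscreteMeasurableSpace (ZMod M)]
    (c : ZMod M) : MeasurePreserving (fun l : ZMod M => l + c) (pbU M) (pbU M) := by
  refine ⟨measurable_of_countable _, ?_⟩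
  ext s hs
  rw [Measure.map_apply (measurable_of_countable _) hs]
  simp only [pbU, Measure.smul_apply, smul_eq_mul]
  congr 1
  rw [Measure.count_apply hs, Measure.count_apply (measurable_of_countable _ hs)]
  exact congrArg _ (Set.encard_preimage_of_bijective (Equiv.addRight c).bijective s)

theorem pb_free [MeasurableSpace X] {μ : Measure X} [IsProbabilityMeasure μ] [NeZero M]
    [MeasurableSpace (ZMod M)] [DiscreteMeasurableSpace (ZMod M)]
    (hX : Crest.Dynamics.IsFreePMPAction Γ X μ) (lam : Γ →* Multiplicative (ZMod M)) :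
    @Crest.Dynamics.IsFreePMPAction Γ (X × ZMod M) _ (pbAct lam) _ (μ.prod (pbU M)) := by
  have := pbU_prob (M := M)
  refine ⟨fun g => ?_, fun g hg => ?_⟩
  · exact (hX.1 g).prod (pbU_mp (lam g).toAdd)
  · have h1 := hX.2 g hg
    have h2 : {y : X × ZMod M | (pbAct lam).smul g y = y} ⊆ {x : X | g • x = x} ×ˢ Set.univ := by
      rintro ⟨x, l⟩ h
      exact ⟨congrArg Prod.fst h, trivial⟩
    refine measure_mono_null h2 ?_
    rw [Measure.prod_prod, h1, zero_mul]

end general

section lam

/-- the homomorphism `h_k ↦ k`, `z ↦ 1` -/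
noncomputable def pbLam (M : ℕ) : Gam 50 →* Multiplicative (ZMod M) :=
  SemidirectProduct.lift (FreeGroup.lift fun _ => Multiplicative.ofAdd 1)
    (FreeGroup.lift fun k : Ix 50 => Multiplicative.ofAdd ((k.1.val : ℕ) : ZMod M)) (by
      intro g
      ext x
      simp [act])

theorem pbLam_zz (M : ℕ) : pbLam M (zz 50) = Multiplicative.ofAdd 1 := by
  simp [pbLam, zz]

theorem pbLam_h (M : ℕ) (k : ZMod 50) :
    pbLam M (ii 50 (hh 50 k)) = Multiplicative.ofAdd ((k.val : ℕ) : ZMod M) := by
  unfold hh
  split_ifs with h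
  · subst h; simp
  · simp [pbLam, ii]

theorem pb_comm (f : G0 50) (hf : f ∈ FF 50) : ii 50 f * zz 50 = zz 50 * ii 50 f := by
  unfold ii zz
  have h1 := SemidirectProduct.inl_aut (φ := act 50) f (FreeGroup.of ((1 : G0 50) : G0 50 ⧸ FF 50))
  have h2 : act 50 f (FreeGroup.of ((1 : G0 50) : G0 50 ⧸ FF 50)) =
      FreeGroup.of ((1 : G0 50) : G0 50 ⧸ FF 50) := by
    simp only [act, MonoidHom.coe_mk, OneHom.coe_mk]
    rw [FreeGroup.freeGroupCongr_apply, FreeGroup.map.of]
    congr 1
    change ((f * 1 : G0 50) : G0 50 ⧸ FF 50) = ((1 : G0 50) : G0 50 ⧸ FF 50)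
    rw [QuotientGroup.eq]
    simpa using (FF 50).inv_mem hf
  rw [h2] at h1
  have h3 := congrArg (fun w => w * SemidirectProduct.inr (φ := act 50) f) h1
  simp only [mul_assoc, map_inv, inv_mul_cancel, mul_one] at h3
  exact h3.symm

end lam

section gen

variable {X : Type} [MulAction (Gam 50) X] (M : ℕ)

open Classical in
/-- the graphing -/
noncomputable def pbPhi (M : ℕ) : ℕ → Gam 50 × Set (X × ZMod M) := fun i =>
  if i = 0 then (zz 50, Set.univ)
  else if i < 50 then
    (ii 50 (bb 50 (i : ZMod 50) * (bb 50 0)⁻¹), {y | y.2 = 0})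
  else if i = 50 then (ii 50 (hh 50 1), {y | y.2.val < 49})
  else (1, ∅)

theorem bb_zero : bb 50 0 = hh 50 1 := by
  unfold bb
  rw [zero_add]
  have : hh 50 0 = 1 := by unfold hh; rw [dif_pos rfl]
  rw [this, inv_one, mul_one]

theorem pb_gen [NeZero M] (_hM : 100 < M) (y : X × ZMod M) (g : Gam 50) :
    @Relation.EqvGen (X × ZMod M) (@Crest.Dynamics.GraphingStep (Gam 50) (X × ZMod M)
      (pbAct (pbLam M)).toSMul (pbPhi M)) y ((pbAct (pbLam M)).smul g y) := by
  let act : MulAction (Gam 50) (X × ZMod M) := pbAct (pbLam M)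
  set R := Relation.EqvGen (Crest.Dynamics.GraphingStep (Γ := Gam 50) (pbPhi (X := X) M)) with hR
  have hsymm : ∀ {u v}, R u v → R v u := fun h => Relation.EqvGen.symm _ _ h
  have htrans : ∀ {u v w}, R u v → R v w → R u w := fun h h' => Relation.EqvGen.trans _ _ _ h h'
  have hrefl : ∀ u, R u u := fun u => Relation.EqvGen.refl u
  have lev : ∀ (g : Gam 50) (y : X × ZMod M), (g • y).2 = y.2 + (pbLam M g).toAdd := fun g y => rfl
  -- the subgroup of elements that are generated everywhere
  let H : Subgroup (Gam 50) :=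
    { carrier := {g | ∀ y : X × ZMod M, R y (g • y)}
      one_mem' := fun y => by rw [one_smul]; exact hrefl y
      mul_mem' := by
        intro a b ha hb y
        rw [mul_smul]
        exact htrans (hb y) (ha _)
      inv_mem' := by
        intro a ha y
        have := ha (a⁻¹ • y)
        rw [smul_inv_smul] at this
        exact hsymm this }
  have hz : zz 50 ∈ H := by
    intro y
    refine Relation.EqvGen.rel _ _ ⟨0, ?_, ?_⟩
    · simp [pbPhi]
    · simp [pbPhi]
  have hzl : ∀ (n : ℕ) (y : X × ZMod M), ((zz 50 ^ n)⁻¹ • y).2 = y.2 - n := by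
    intro n y
    rw [lev, map_inv, map_pow, pbLam_zz]
    simp [sub_eq_add_neg]
  have hb : ∀ k : ZMod 50, ii 50 (bb 50 k * (bb 50 0)⁻¹) ∈ H := by
    intro k
    by_cases hk : k = 0
    · subst hk
      rw [mul_inv_cancel, map_one]
      exact H.one_mem
    · intro y
      set f := ii 50 (bb 50 k * (bb 50 0)⁻¹) with hf
      have hcomm : f * zz 50 = zz 50 * f := by
        rw [hf]
        exact pb_comm _ (Subgroup.subset_closure ⟨k, rfl⟩)
      set w := zz 50 ^ (y.2.val) with hw
      have hcw : f * w = w * f := (Commute.pow_right (show Commute f (zz 50) from hcomm) _)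
      have h1 : R (w⁻¹ • y) (f • (w⁻¹ • y)) := by
        refine Relation.EqvGen.rel _ _ ⟨k.val, ?_, ?_⟩
        · have h2 : k.val ≠ 0 := by
            rwa [ne_eq, ZMod.val_eq_zero]
          have h3 : k.val < 50 := ZMod.val_lt k
          simp only [pbPhi, h2, h3, if_true, if_false]
          change (w⁻¹ • y).2 = 0
          rw [hw, hzl]
          simp
        · have h2 : k.val ≠ 0 := by
            rwa [ne_eq, ZMod.val_eq_zero]
          have h3 : k.val < 50 := ZMod.val_lt k
          simp only [pbPhi, h2, h3, if_true, if_false, ZMod.natCast_val, ZMod.cast_id', id_eq]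
          rfl
      have hwH : w ∈ H := H.pow_mem hz _
      have h4 : R (w⁻¹ • y) y := by
        have := hwH (w⁻¹ • y)
        rwa [smul_inv_smul] at this
      have h5 : R (f • (w⁻¹ • y)) (w • (f • (w⁻¹ • y))) := hwH _
      have h6 : w • (f • (w⁻¹ • y)) = f • y := by
        rw [← mul_smul, ← mul_smul, ← hcw, mul_assoc, mul_inv_cancel, mul_one]
      rw [h6] at h5
      exact htrans (hsymm h4) (htrans h1 h5)
  have ha : ∀ (n : ℕ) (y : X × ZMod M), y.2.val = n → R y (ii 50 (hh 50 1) • y) := by
    intro n
    induction n using Nat.strong_induction_on with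
    | _ n ih =>
      intro y hy
      by_cases hn : n < 49
      · refine Relation.EqvGen.rel _ _ ⟨50, ?_, ?_⟩
        · simp only [pbPhi]
          change y.2.val < 49
          omega
        · simp [pbPhi]
      · push Not at hn
        have hnM : n < M := hy ▸ ZMod.val_lt y.2
        set q := (ii 50 (hh 50 ((49 : ℕ) : ZMod 50)))⁻¹ • y with hq
        have hlev : ∀ k : ℕ, k < 50 → (ii 50 (hh 50 (k : ZMod 50)) • q).2 = ((n - 49 + k : ℕ) : ZMod M) := by
          intro k hk
          rw [lev, hq, lev, pbLam_h, map_inv, pbLam_h]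
          have h1 : ((k : ZMod 50)).val = k := ZMod.val_natCast_of_lt hk
          have h2 : (((49 : ℕ) : ZMod 50)).val = 49 := ZMod.val_natCast_of_lt (by norm_num)
          rw [h1, h2]
          have h3 : y.2 = (n : ZMod M) := by rw [← hy]; simp
          rw [h3]
          simp only [toAdd_inv, toAdd_ofAdd]
          rw [Nat.cast_add, Nat.cast_sub hn]
          ring
        have hstep : ∀ k : ℕ, k < 49 →
            R (ii 50 (hh 50 (k : ZMod 50)) • q) (ii 50 (hh 50 ((k + 1 : ℕ) : ZMod 50)) • q) := by
          intro k hk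
          have h1 : R (ii 50 (hh 50 (k : ZMod 50)) • q)
              (ii 50 (hh 50 1) • (ii 50 (hh 50 (k : ZMod 50)) • q)) := by
            refine ih (n - 49 + k) (by omega) _ ?_
            rw [hlev k (by omega)]
            exact ZMod.val_natCast_of_lt (by omega)
          have h2 := hb (k : ZMod 50) (ii 50 (hh 50 1) • (ii 50 (hh 50 (k : ZMod 50)) • q))
          have h3 : ii 50 (bb 50 (k : ZMod 50) * (bb 50 0)⁻¹) •
              (ii 50 (hh 50 1) • (ii 50 (hh 50 (k : ZMod 50)) • q)) =
              ii 50 (hh 50 ((k + 1 : ℕ) : ZMod 50)) • q := by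
            rw [← mul_smul, ← mul_smul, ← map_mul, ← map_mul, bb_zero]
            congr 2
            simp [bb]
          rw [h3] at h2
          exact htrans h1 h2
        have hchain : ∀ k : ℕ, k ≤ 49 → R q (ii 50 (hh 50 (k : ZMod 50)) • q) := by
          intro k
          induction k with
          | zero =>
            intro _
            have : hh 50 ((0 : ℕ) : ZMod 50) = 1 := by unfold hh; simp
            rw [this, map_one, one_smul]
            exact hrefl q
          | succ k ihk =>
            intro hk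
            exact htrans (ihk (by omega)) (hstep k (by omega))
        have hqy : R q y := by
          have := hchain 49 le_rfl
          rwa [hq, smul_inv_smul] at this
        have h1 := hb ((49 : ℕ) : ZMod 50) (ii 50 (hh 50 1) • y)
        have h2 : ii 50 (bb 50 ((49 : ℕ) : ZMod 50) * (bb 50 0)⁻¹) • (ii 50 (hh 50 1) • y) = q := by
          rw [← mul_smul, ← map_mul, bb_zero, hq, ← map_inv]
          congr 2
          have h3 : hh 50 (((49 : ℕ) : ZMod 50) + 1) = 1 := by
            have : (((49 : ℕ) : ZMod 50) + 1) = 0 := by decide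
            rw [this]; unfold hh; simp
          simp only [bb, h3]
          group
        rw [h2] at h1
        exact hsymm (htrans h1 hqy)
  have htop : H = ⊤ := by
    rw [eq_top_iff, ← closure_T_a 50 (by norm_num), Subgroup.closure_le]
    rintro g (hg | hg)
    · have hTH : TT 50 ≤ H := by
        unfold TT
        rw [Subgroup.closure_le]
        rintro g (rfl | ⟨f, hf, rfl⟩)
        · exact hz
        · have : FF 50 ≤ H.comap (ii 50) := by
            unfold FF
            rw [Subgroup.closure_le]
            rintro _ ⟨k, rfl⟩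
            exact hb k
          exact this hf
      exact hTH hg
    · rw [Set.mem_singleton_iff] at hg
      subst hg
      intro y
      exact ha _ y rfl
  have : g ∈ H := by rw [htop]; trivial
  exact this y

end gen

/-- `Y = X × ZMod M`, with `Γ → ZMod M` given by `h_k ↦ k` (`0 ≤ k < m`), `z ↦ 1`.  Graphing:
`z` everywhere; `b_k b_0⁻¹`, `k ≠ 0`, on level `0`; `a = b_0` on levels `0, …, m-2`. -/
theorem exists_cheap {X : Type} [MeasurableSpace X] [StandardBorelSpace X] (μ : Measure X)
    [IsProbabilityMeasure μ] [MulAction (Gam 50) X] (hX : Crest.Dynamics.IsFreePMPAction (Gam 50) X μ)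
    (M : ℕ) (hM : 100 < M) :
    ∃ (Y : Type) (_ : MeasurableSpace Y) (_ : StandardBorelSpace Y) (ν : Measure Y)
      (_ : IsProbabilityMeasure ν) (_ : MulAction (Gam 50) Y),
      Crest.Dynamics.IsFreePMPAction (Gam 50) Y ν ∧
      Crest.Dynamics.actionCost (Gam 50) Y ν ≤ 1 + 99 / (M : ENNReal) := by
  have hne : NeZero M := ⟨by omega⟩
  let _ : MeasurableSpace (ZMod M) := ⊤
  have hdis : DiscreteMeasurableSpace (ZMod M) := ⟨fun _ => trivial⟩
  have hprob := pbU_prob (M := M)
  refine ⟨X × ZMod M, inferInstance, inferInstance, μ.prod (pbU M), inferInstance,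
    pbAct (pbLam M), pb_free hX (pbLam M), ?_⟩
  let act : MulAction (Gam 50) (X × ZMod M) := pbAct (pbLam M)
  have hgen : Crest.Dynamics.Generates (Γ := Gam 50) (μ.prod (pbU M)) (pbPhi (X := X) M) := by
    refine ⟨?_, ∅, measure_empty, fun y _ g => pb_gen M hM y g⟩
    intro i
    unfold pbPhi
    split_ifs
    · exact MeasurableSet.univ
    · exact measurable_snd (MeasurableSet.singleton (0 : ZMod M))
    · exact measurable_snd (MeasurableSet.of_discrete (s := {l : ZMod M | l.val < 49}))
    · exact MeasurableSet.empty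
  have hcost : Crest.Dynamics.graphingCost (μ.prod (pbU M)) (pbPhi (X := X) M) ≤
      1 + 99 / (M : ENNReal) := by
    unfold Crest.Dynamics.graphingCost
    have h0 : μ.prod (pbU M) (pbPhi (X := X) M 0).2 = 1 := by
      simp [pbPhi]
    have hprodU : ∀ S : Finset (ZMod M), μ.prod (pbU M) {y : X × ZMod M | y.2 ∈ S} =
        (S.card : ℝ≥0∞) / M := by
      intro S
      have h1 : {y : X × ZMod M | y.2 ∈ S} = Set.univ ×ˢ (S : Set (ZMod M)) := by
        ext y; simp
      rw [h1, Measure.prod_prod, measure_univ, one_mul, pbU_apply]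
    have h1 : ∀ i, i < 49 → μ.prod (pbU M) (pbPhi (X := X) M (i + 1)).2 = 1 / M := by
      intro i hi
      have h2 : (pbPhi (X := X) M (i + 1)).2 = {y : X × ZMod M | y.2 ∈ ({0} : Finset (ZMod M))} := by
        unfold pbPhi
        rw [if_neg (by omega), if_pos (by omega)]
        ext y; simp
      rw [h2, hprodU]
      simp
    have h50 : μ.prod (pbU M) (pbPhi (X := X) M 50).2 ≤ 49 / M := by
      have h2 : (pbPhi (X := X) M 50).2 =
          {y : X × ZMod M | y.2 ∈ (Finset.univ.filter fun l : ZMod M => l.val < 49)} := by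
        unfold pbPhi
        rw [if_neg (by omega), if_neg (by omega), if_pos rfl]
        ext y; simp
      rw [h2, hprodU]
      gcongr
      have h3 : (Finset.univ.filter fun l : ZMod M => l.val < 49).card ≤ (Finset.range 49).card := by
        refine Finset.card_le_card_of_injOn ZMod.val ?_ ?_
        · intro l hl
          simpa using hl
        · intro a _ b _ hab
          exact ZMod.val_injective M hab
      rw [Finset.card_range] at h3
      exact_mod_cast h3
    rw [tsum_eq_sum (s := Finset.range 51)]
    · rw [Finset.sum_range_succ, Finset.sum_range_succ', h0,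
        Finset.sum_congr rfl fun i hi => h1 i (Finset.mem_range.1 hi)]
      simp only [Finset.sum_const, Finset.card_range, nsmul_eq_mul]
      calc ((49 : ℕ) : ℝ≥0∞) * (1 / M) + 1 + μ.prod (pbU M) (pbPhi (X := X) M 50).2
          ≤ ((49 : ℕ) : ℝ≥0∞) * (1 / M) + 1 + 49 / M := by gcongr
        _ = 1 + 98 / M := by
          rw [mul_one_div, add_comm _ (1 : ℝ≥0∞), add_assoc, ← ENNReal.add_div]
          norm_num
        _ ≤ 1 + 99 / M := by
          gcongr
          norm_num
    · intro i hi
      rw [Finset.mem_range] at hi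
      have h2 : (pbPhi (X := X) M i).2 = ∅ := by
        unfold pbPhi
        rw [if_neg (by omega), if_neg (by omega), if_neg (by omega)]
      rw [h2, measure_empty]
  have hle : Crest.Dynamics.actionCost (Gam 50) (X × ZMod M) (μ.prod (pbU M)) ≤
      Crest.Dynamics.graphingCost (μ.prod (pbU M)) (pbPhi (X := X) M) := by
    unfold Crest.Dynamics.actionCost
    exact sInf_le ⟨pbPhi M, hgen, rfl⟩
  exact hle.trans hcost

end Crest.Agent.FP
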