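import Mathlib

/-! Row 191 (S0291), chunk R1, part 1: linear algebra for the rank (trace) lemma. -/
set_option autoImplicit false

open MeasureTheory
open scoped ENNReal

namespace Crest.Agent.FP.RankAux

open Finsupp
open scoped Pointwise

/-- finitely supported functions on `Γ × ℕ` -/
abbrev V (Γ : Type) := (Γ × ℕ) →₀ ℝ

variable {Γ : Type}

/-! ### the inner product -/

/-- the standard inner product -/
noncomputable def ip (f g : V Γ) : ℝ := linearCombination ℝ (fun p => g p) f

theorem ip_eq_sum {f g : V Γ} {T : Finset (Γ × ℕ)} (hT : f.support ⊆ T) :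
    ip f g = ∑ p ∈ T, f p * g p := by
  unfold ip
  rw [linearCombination_apply, Finsupp.sum_of_support_subset _ hT _ (by simp)]
  rfl

theorem ip_comm (f g : V Γ) : ip f g = ip g f := by
  classical
  rw [ip_eq_sum (T := f.support ∪ g.support) Finset.subset_union_left,
    ip_eq_sum (T := f.support ∪ g.support) Finset.subset_union_right]
  exact Finset.sum_congr rfl fun p _ => mul_comm _ _

theorem ip_add_left (f f' g : V Γ) : ip (f + f') g = ip f g + ip f' g := by
  simp [ip]

theorem ip_smul_left (c : ℝ) (f g : V Γ) : ip (c • f) g = c * ip f g := by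
  simp [ip]

theorem ip_add_right (f g g' : V Γ) : ip f (g + g') = ip f g + ip f g' := by
  rw [ip_comm, ip_add_left, ip_comm g, ip_comm g']

theorem ip_smul_right (c : ℝ) (f g : V Γ) : ip f (c • g) = c * ip f g := by
  rw [ip_comm, ip_smul_left, ip_comm]

theorem ip_sub_left (f f' g : V Γ) : ip (f - f') g = ip f g - ip f' g := by
  simp [ip]

theorem ip_sub_right (f g g' : V Γ) : ip f (g - g') = ip f g - ip f g' := by
  rw [ip_comm, ip_sub_left, ip_comm g, ip_comm g']

theorem ip_single_left (p : Γ × ℕ) (g : V Γ) : ip (single p 1) g = g p := by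
  simp [ip]

theorem ip_single_right (p : Γ × ℕ) (g : V Γ) : ip g (single p 1) = g p := by
  rw [ip_comm, ip_single_left]

theorem ip_self_nonneg (f : V Γ) : 0 ≤ ip f f := by
  rw [ip_eq_sum (T := f.support) subset_rfl]
  exact Finset.sum_nonneg fun p _ => mul_self_nonneg _

theorem ip_zero_left (g : V Γ) : ip 0 g = 0 := by simp [ip]

/-- adjointness can be checked on the basis -/
theorem adj_of_basis {M N : V Γ →ₗ[ℝ] V Γ}
    (h : ∀ p q, (M (single p 1)) q = (N (single q 1)) p) (f g : V Γ) :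
    ip (M f) g = ip f (N g) := by
  have h1 : ∀ p g, ip (M (single p 1)) g = (N g) p := by
    intro p g
    induction g using Finsupp.induction_linear with
    | zero => rw [ip_comm, ip_zero_left]; simp
    | add g g' hg hg' => rw [ip_add_right, hg, hg']; simp
    | single q c =>
      have : (single q c : V Γ) = c • single q 1 := by simp
      rw [this, ip_smul_right, ip_single_right, h, map_smul, Finsupp.smul_apply, smul_eq_mul]
  induction f using Finsupp.induction_linear with
  | zero => simp [ip_zero_left]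
  | add f f' hf hf' => rw [map_add, ip_add_left, ip_add_left, hf, hf']
  | single q c =>
    have : (single q c : V Γ) = c • single q 1 := by simp
    rw [this, map_smul, ip_smul_left, ip_smul_left, h1, ip_single_left]

/-- Schur test -/
theorem schur {M : V Γ →ₗ[ℝ] V Γ} {R : ℝ} (hR : 0 < R)
    (h1 : ∀ p (T : Finset (Γ × ℕ)), ∑ q ∈ T, |M (single p 1) q| ≤ R)
    (h2 : ∀ q (T : Finset (Γ × ℕ)), ∑ p ∈ T, |M (single p 1) q| ≤ R) (f : V Γ) :
    ip (M f) (M f) ≤ R ^ 2 * ip f f := by
  set g := M f with hg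
  have hexp : ∀ q, g q = ∑ p ∈ f.support, f p * M (single p 1) q := by
    intro q
    have : f = ∑ p ∈ f.support, f p • single p (1 : ℝ) := by
      conv_lhs => rw [← Finsupp.sum_single f]
      simp [Finsupp.sum]
    rw [hg]
    conv_lhs => rw [this]
    rw [map_sum]
    simp only [map_smul, Finsupp.coe_finsetSum, Finset.sum_apply, Finsupp.smul_apply, smul_eq_mul]
  have e1 : ip g g = ∑ q ∈ g.support, ∑ p ∈ f.support, g q * (f p * M (single p 1) q) := by
    rw [ip_eq_sum (T := g.support) subset_rfl]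
    refine Finset.sum_congr rfl fun q _ => ?_
    rw [← Finset.mul_sum, ← hexp]
  have e2 : ip g g ≤ ∑ q ∈ g.support, ∑ p ∈ f.support,
      (|M (single p 1) q| * (R * f p ^ 2 / 2) + |M (single p 1) q| * (g q ^ 2 / (2 * R))) := by
    rw [e1]
    refine Finset.sum_le_sum fun q _ => Finset.sum_le_sum fun p _ => ?_
    have h3 : g q * f p ≤ R * f p ^ 2 / 2 + g q ^ 2 / (2 * R) := by
      have : 0 ≤ (R * f p - g q) ^ 2 / (2 * R) := by positivity
      have e : (R * f p - g q) ^ 2 / (2 * R) = R * f p ^ 2 / 2 + g q ^ 2 / (2 * R) - g q * f p := by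
        field_simp; ring
      linarith
    have h4 : -(g q * f p) ≤ R * f p ^ 2 / 2 + g q ^ 2 / (2 * R) := by
      have : 0 ≤ (R * f p + g q) ^ 2 / (2 * R) := by positivity
      have e : (R * f p + g q) ^ 2 / (2 * R) = R * f p ^ 2 / 2 + g q ^ 2 / (2 * R) + g q * f p := by
        field_simp; ring
      linarith
    have h5 : |g q * f p| ≤ R * f p ^ 2 / 2 + g q ^ 2 / (2 * R) := abs_le'.2 ⟨h3, h4⟩
    calc g q * (f p * M (single p 1) q) ≤ |g q * (f p * M (single p 1) q)| := le_abs_self _
      _ = |M (single p 1) q| * |g q * f p| := by rw [← abs_mul]; congr 1; ring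
      _ ≤ |M (single p 1) q| * (R * f p ^ 2 / 2 + g q ^ 2 / (2 * R)) :=
          mul_le_mul_of_nonneg_left h5 (abs_nonneg _)
      _ = _ := by ring
  have e3 : ∑ q ∈ g.support, ∑ p ∈ f.support, |M (single p 1) q| * (R * f p ^ 2 / 2) ≤
      R ^ 2 / 2 * ip f f := by
    rw [Finset.sum_comm, ip_eq_sum (T := f.support) subset_rfl, Finset.mul_sum]
    refine Finset.sum_le_sum fun p _ => ?_
    rw [← Finset.sum_mul]
    calc (∑ q ∈ g.support, |M (single p 1) q|) * (R * f p ^ 2 / 2) ≤ R * (R * f p ^ 2 / 2) :=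
          mul_le_mul_of_nonneg_right (h1 p _) (by positivity)
      _ = _ := by ring
  have e4 : ∑ q ∈ g.support, ∑ p ∈ f.support, |M (single p 1) q| * (g q ^ 2 / (2 * R)) ≤
      ip g g / 2 := by
    rw [ip_eq_sum (T := g.support) subset_rfl, Finset.sum_div]
    refine Finset.sum_le_sum fun q _ => ?_
    rw [← Finset.sum_mul]
    calc (∑ p ∈ f.support, |M (single p 1) q|) * (g q ^ 2 / (2 * R)) ≤ R * (g q ^ 2 / (2 * R)) :=
          mul_le_mul_of_nonneg_right (h2 q _) (by positivity)
      _ = g q * g q / 2 := by field_simp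
  have e5 : ip g g ≤ R ^ 2 / 2 * ip f f + ip g g / 2 := by
    refine e2.trans ?_
    simp only [Finset.sum_add_distrib]
    exact add_le_add e3 e4
  linarith

/-- contraction estimate -/
theorem contr {P a b s : V Γ →ₗ[ℝ] V Γ} {α β c : ℝ} (hα : 0 < α) (hβ : 0 < β) (hc : c * α = 1)
    (hαβ : 1 ≤ α * β)
    (hab : ∀ f g, ip (a f) g = ip f (b g)) (hP : ∀ f g, ip (P f) g = ip f (P g))
    (hPP : ∀ f, P (P f) = P f) (haP : ∀ f, a (P f) = a f) (hsa : ∀ f, s (a f) = P f)
    (ha : ∀ f, ip (a f) (a f) ≤ α * ip f f) (hs : ∀ f, ip (s f) (s f) ≤ β * ip f f)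
    {D : V Γ →ₗ[ℝ] V Γ} (hD : ∀ f, D f = P f - c • b (a f)) :
    (∀ f g, ip (D f) g = ip f (D g)) ∧
    (∀ f, ip (D f) (D f) ≤ (1 - (α * β)⁻¹) ^ 2 * ip (P f) (P f)) := by
  have hc0 : 0 < c := by
    have : c = α⁻¹ := eq_inv_of_mul_eq_one_left hc
    rw [this]; positivity
  have hba : ∀ f g, ip (b f) g = ip f (a g) := fun f g => by
    rw [ip_comm, ← hab, ip_comm]
  have hsym : ∀ f g, ip (D f) g = ip f (D g) := by
    intro f g
    rw [hD, hD, ip_sub_left, ip_sub_right, ip_smul_left, ip_smul_right, hP, hba, hab]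
  refine ⟨hsym, ?_⟩
  set r := 1 - (α * β)⁻¹ with hr
  have hr0 : 0 ≤ r := by
    have : (α * β)⁻¹ ≤ 1 := inv_le_one_of_one_le₀ hαβ
    linarith
  have hW : ∀ f, ip (D f) f = ip (P f) (P f) - c * ip (a f) (a f) := by
    intro f
    rw [hD, ip_sub_left, ip_smul_left, hba]
    congr 1
    rw [← hP, hPP]
  have hW0 : ∀ f, 0 ≤ ip (D f) f := by
    intro f
    rw [hW]
    have h1 := ha (P f)
    rw [haP] at h1
    have h2 : c * ip (a f) (a f) ≤ c * (α * ip (P f) (P f)) := mul_le_mul_of_nonneg_left h1 hc0.le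
    rw [← mul_assoc, hc, one_mul] at h2
    linarith
  have hW1 : ∀ f, ip (D f) f ≤ r * ip (P f) (P f) := by
    intro f
    rw [hW]
    have h1 := hs (a f)
    rw [hsa] at h1
    have h2 : c = α⁻¹ := eq_inv_of_mul_eq_one_left hc
    have h3 : (α * β)⁻¹ * ip (P f) (P f) ≤ c * ip (a f) (a f) := by
      rw [h2, mul_inv, mul_assoc]
      refine mul_le_mul_of_nonneg_left ?_ (by positivity)
      rw [inv_mul_le_iff₀ hβ]
      exact h1
    rw [hr]
    linarith
  have hCS : ∀ f g, ip (D f) g ^ 2 ≤ ip (D f) f * ip (D g) g := by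
    intro f g
    have hq : ∀ t : ℝ, 0 ≤ ip (D g) g * (t * t) + (2 * ip (D f) g) * t + ip (D f) f := by
      intro t
      have h := hW0 (f + t • g)
      have e : ip (D (f + t • g)) (f + t • g) =
          ip (D g) g * (t * t) + (2 * ip (D f) g) * t + ip (D f) f := by
        rw [map_add, map_smul]
        simp only [ip_add_left, ip_add_right, ip_smul_left, ip_smul_right]
        have : ip (D g) f = ip (D f) g := by rw [ip_comm, ← hsym]
        rw [this]; ring
      rwa [e] at h
    have hd := discrim_le_zero hq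
    unfold discrim at hd
    nlinarith
  intro f
  have hDP : ∀ f, D (P f) = D f := by
    intro f; rw [hD, hD, hPP, haP]
  have h1 := hCS f (D f)
  have h2 : ip (D (D f)) (D f) ≤ r * ip (D f) (D f) := by
    refine (hW1 (D f)).trans (mul_le_mul_of_nonneg_left ?_ hr0)
    -- ‖P g‖ ≤ ‖g‖
    have : ip (P (D f)) (P (D f)) ≤ ip (D f) (D f) := by
      have e : ip (D f - P (D f)) (D f - P (D f)) = ip (D f) (D f) - ip (P (D f)) (P (D f)) := by
        simp only [ip_sub_left, ip_sub_right]
        have e1 : ip (P (D f)) (D f) = ip (P (D f)) (P (D f)) := by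
          rw [← hP (P (D f)), hPP]
        have e2 : ip (D f) (P (D f)) = ip (P (D f)) (P (D f)) := by
          rw [ip_comm, e1]
        rw [e1, e2]; ring
      have := ip_self_nonneg (D f - P (D f))
      linarith
    exact this
  have h3 := hW1 f
  have h4 : ip (D f) (D f) ^ 2 ≤ (r * ip (P f) (P f)) * (r * ip (D f) (D f)) := by
    refine h1.trans (mul_le_mul h3 h2 (hW0 _) (mul_nonneg hr0 (ip_self_nonneg _)))
  rcases (ip_self_nonneg (D f)).eq_or_lt with h5 | h5
  · rw [← h5]
    exact mul_nonneg (sq_nonneg _) (ip_self_nonneg _)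
  · have h6 : ip (D f) (D f) * ip (D f) (D f) ≤ (r ^ 2 * ip (P f) (P f)) * ip (D f) (D f) := by
      nlinarith
    exact le_of_mul_le_mul_right h6 h5

/-! ### translations -/

section group
variable [Group Γ]

/-- right translation -/
noncomputable def sh (g : Γ) : V Γ →ₗ[ℝ] V Γ :=
  Finsupp.lmapDomain ℝ ℝ (fun p : Γ × ℕ => (p.1 * g, p.2))

theorem sh_single (g h : Γ) (l : ℕ) (c : ℝ) : sh g (single (h, l) c) = single (h * g, l) c := by
  simp [sh, Finsupp.lmapDomain_apply, Finsupp.mapDomain_single]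

theorem sh_apply (g : Γ) (f : V Γ) (q : Γ × ℕ) : sh g f q = f (q.1 * g⁻¹, q.2) := by
  have hinj : Function.Injective (fun p : Γ × ℕ => (p.1 * g, p.2)) := by
    intro p q h
    simp only [Prod.mk.injEq, mul_left_inj] at h
    exact Prod.ext h.1 h.2
  have h := Finsupp.mapDomain_apply hinj f (q.1 * g⁻¹, q.2)
  simp only [inv_mul_cancel_right, Prod.mk.eta] at h
  exact h

theorem sh_sh (g h : Γ) (f : V Γ) : sh g (sh h f) = sh (h * g) f := by
  ext q
  simp only [sh_apply, mul_inv_rev, mul_assoc]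

theorem sh_one (f : V Γ) : sh 1 f = f := by
  ext q
  simp [sh_apply]

variable {X : Type} [MulAction Γ X]

/-- equivariance -/
def Eqv (M : X → Module.End ℝ (V Γ)) : Prop :=
  ∀ x g j, M x (single (g, j) 1) = sh g (M (g • x) (single (1, j) 1))

theorem Eqv.all {M : X → Module.End ℝ (V Γ)} (hM : Eqv M) (x : X) (g : Γ) (f : V Γ) :
    M x (sh g f) = sh g (M (g • x) f) := by
  induction f using Finsupp.induction_linear with
  | zero => simp
  | add f f' hf hf' => simp only [map_add, hf, hf']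
  | single q c =>
    have : (single q c : V Γ) = c • single q 1 := by simp
    obtain ⟨h, l⟩ := q
    rw [this]
    simp only [map_smul]
    congr 1
    rw [sh_single, hM x (h * g) l, hM (g • x) h l, sh_sh, mul_smul]

/-- entries in general position -/
theorem Eqv.entry {M : X → Module.End ℝ (V Γ)} (hM : Eqv M) (x : X) (p q : Γ × ℕ) :
    M x (single p 1) q = M (p.1 • x) (single (1, p.2) 1) (q.1 * p.1⁻¹, q.2) := by
  obtain ⟨g, j⟩ := p
  rw [hM x g j, sh_apply]

/-- the value at a vector -/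
theorem apply_eq_sum (M : Module.End ℝ (V Γ)) (f : V Γ) {T : Finset (Γ × ℕ)} (hT : f.support ⊆ T)
    (q : Γ × ℕ) : M f q = ∑ p ∈ T, f p * M (single p 1) q := by
  have : f = ∑ p ∈ f.support, f p • single p (1 : ℝ) := by
    conv_lhs => rw [← Finsupp.sum_single f]
    simp [Finsupp.sum]
  conv_lhs => rw [this]
  rw [map_sum]
  simp only [map_smul, Finsupp.coe_finsetSum, Finset.sum_apply, Finsupp.smul_apply, smul_eq_mul]
  refine Finset.sum_subset hT ?_
  intro p _ hp
  rw [Finsupp.notMem_support_iff.1 hp, zero_mul]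

variable [MeasurableSpace X]

/-- the class of fields of operators: bounded, uniformly finitely supported, measurable,
equivariant, indices `< C` -/
structure Fld (C : ℕ) (M : X → Module.End ℝ (V Γ)) : Prop where
  eqv : Eqv M
  supp : ∃ F : Finset Γ, ∀ x i, (M x (single (1, i) 1)).support ⊆ F ×ˢ Finset.range C
  idx : ∀ x i, C ≤ i → M x (single (1, i) 1) = 0
  bdd : ∃ B : ℝ, 0 ≤ B ∧ ∀ x i q, |M x (single (1, i) 1) q| ≤ B
  meas : ∀ i q, Measurable fun x => M x (single (1, i) 1) q

variable {C : ℕ}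

theorem Fld.add {M N : X → Module.End ℝ (V Γ)} (hM : Fld C M) (hN : Fld C N) : Fld C (M + N) := by
  classical
  refine ⟨?_, ?_, ?_, ?_, ?_⟩
  · intro x g j
    simp only [Pi.add_apply, LinearMap.add_apply, map_add]
    rw [hM.eqv, hN.eqv]
  · obtain ⟨F, hF⟩ := hM.supp
    obtain ⟨F', hF'⟩ := hN.supp
    refine ⟨F ∪ F', fun x i => ?_⟩
    refine (Finsupp.support_add).trans (Finset.union_subset ((hF x i).trans ?_)
      ((hF' x i).trans ?_))
    · exact Finset.product_subset_product_left Finset.subset_union_left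
    · exact Finset.product_subset_product_left Finset.subset_union_right
  · intro x i hi
    simp only [Pi.add_apply, LinearMap.add_apply, hM.idx x i hi, hN.idx x i hi, add_zero]
  · obtain ⟨B, hB, h⟩ := hM.bdd
    obtain ⟨B', hB', h'⟩ := hN.bdd
    refine ⟨B + B', by positivity, fun x i q => ?_⟩
    simp only [Pi.add_apply, LinearMap.add_apply, Finsupp.add_apply]
    exact (abs_add_le _ _).trans (add_le_add (h x i q) (h' x i q))
  · intro i q
    simp only [Pi.add_apply, LinearMap.add_apply, Finsupp.add_apply]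
    exact (hM.meas i q).add (hN.meas i q)

theorem Fld.smul {M : X → Module.End ℝ (V Γ)} (hM : Fld C M) (c : ℝ) : Fld C (c • M) := by
  refine ⟨?_, ?_, ?_, ?_, ?_⟩
  · intro x g j
    simp only [Pi.smul_apply, LinearMap.smul_apply, map_smul]
    rw [hM.eqv]
  · obtain ⟨F, hF⟩ := hM.supp
    exact ⟨F, fun x i => (Finsupp.support_smul).trans (hF x i)⟩
  · intro x i hi
    simp only [Pi.smul_apply, LinearMap.smul_apply, hM.idx x i hi, smul_zero]
  · obtain ⟨B, hB, h⟩ := hM.bdd
    refine ⟨|c| * B, by positivity, fun x i q => ?_⟩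
    simp only [Pi.smul_apply, LinearMap.smul_apply, Finsupp.smul_apply, smul_eq_mul, abs_mul]
    exact mul_le_mul_of_nonneg_left (h x i q) (abs_nonneg _)
  · intro i q
    simp only [Pi.smul_apply, LinearMap.smul_apply, Finsupp.smul_apply, smul_eq_mul]
    exact (hM.meas i q).const_mul c

theorem Fld.sub {M N : X → Module.End ℝ (V Γ)} (hM : Fld C M) (hN : Fld C N) : Fld C (M - N) := by
  have : M - N = M + (-1 : ℝ) • N := by
    funext x
    change M x - N x = M x + (-1 : ℝ) • N x
    module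
  rw [this]
  exact hM.add (hN.smul _)

theorem Fld.mul_entry {M N : X → Module.End ℝ (V Γ)} (hM : Eqv M) (x : X) (i : ℕ)
    {F : Finset Γ} (hF : (N x (single (1, i) 1)).support ⊆ F ×ˢ Finset.range C) (q : Γ × ℕ) :
    (M * N) x (single (1, i) 1) q = ∑ p ∈ F ×ˢ Finset.range C,
      N x (single (1, i) 1) p * M (p.1 • x) (single (1, p.2) 1) (q.1 * p.1⁻¹, q.2) := by
  rw [Pi.mul_apply, Module.End.mul_apply, apply_eq_sum (M x) _ hF]
  exact Finset.sum_congr rfl fun p _ => by rw [hM.entry]

theorem Fld.mul {M N : X → Module.End ℝ (V Γ)} (hsm : ∀ g : Γ, Measurable fun x : X => g • x)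
    (hM : Fld C M) (hN : Fld C N) : Fld C (M * N) := by
  classical
  obtain ⟨F, hF⟩ := hM.supp
  obtain ⟨F', hF'⟩ := hN.supp
  obtain ⟨B, hB, hb⟩ := hM.bdd
  obtain ⟨B', hB', hb'⟩ := hN.bdd
  refine ⟨?_, ?_, ?_, ?_, ?_⟩
  · intro x g j
    simp only [Pi.mul_apply, Module.End.mul_apply]
    rw [hN.eqv x g j, hM.eqv.all]
  · refine ⟨F * F', fun x i q hq => ?_⟩
    rw [Finsupp.mem_support_iff, Fld.mul_entry hM.eqv x i (hF' x i)] at hq
    obtain ⟨p, hp, hpq⟩ := Finset.exists_ne_zero_of_sum_ne_zero hq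
    have h1 : M (p.1 • x) (single (1, p.2) 1) (q.1 * p.1⁻¹, q.2) ≠ 0 := right_ne_zero_of_mul hpq
    have h2 := hF (p.1 • x) p.2 (Finsupp.mem_support_iff.2 h1)
    rw [Finset.mem_product] at h2 hp ⊢
    refine ⟨?_, h2.2⟩
    rw [Finset.mem_mul]
    exact ⟨_, h2.1, _, hp.1, by simp⟩
  · intro x i hi
    simp only [Pi.mul_apply, Module.End.mul_apply, hN.idx x i hi, map_zero]
  · refine ⟨((F' ×ˢ Finset.range C).card : ℝ) * (B' * B), by positivity, fun x i q => ?_⟩
    rw [Fld.mul_entry hM.eqv x i (hF' x i)]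
    refine (Finset.abs_sum_le_sum_abs _ _).trans ?_
    rw [← nsmul_eq_mul]
    refine Finset.sum_le_card_nsmul _ _ _ fun p _ => ?_
    rw [abs_mul]
    exact mul_le_mul (hb' _ _ _) (hb _ _ _) (abs_nonneg _) hB'
  · intro i q
    have : (fun x => (M * N) x (single (1, i) 1) q) = fun x => ∑ p ∈ F' ×ˢ Finset.range C,
      N x (single (1, i) 1) p * M (p.1 • x) (single (1, p.2) 1) (q.1 * p.1⁻¹, q.2) := by
      funext x
      exact Fld.mul_entry hM.eqv x i (hF' x i) q
    rw [this]
    refine Finset.measurable_sum _ fun p _ => (hN.meas i p).mul ?_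
    exact (hM.meas p.2 (q.1 * p.1⁻¹, q.2)).comp (hsm p.1)

/-- uniform bound of the norm -/
theorem Fld.norm_bound {M : X → Module.End ℝ (V Γ)} (hM : Fld C M) :
    ∃ α : ℝ, 1 ≤ α ∧ ∀ x f, ip (M x f) (M x f) ≤ α * ip f f := by
  classical
  obtain ⟨F, hF⟩ := hM.supp
  obtain ⟨B, hB, hb⟩ := hM.bdd
  set K : ℝ := ((F ×ˢ Finset.range C).card : ℝ) * B + 1 with hK
  have hK0 : 1 ≤ K := by
    have : 0 ≤ ((F ×ˢ Finset.range C).card : ℝ) * B := by positivity
    linarith
  refine ⟨K ^ 2, one_le_pow₀ hK0, fun x f => ?_⟩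
  have hcount : ∀ (T : Finset (Γ × ℕ)) (u : Γ × ℕ → ℝ) (φ : Γ × ℕ → Γ × ℕ),
      Function.Injective φ → (∀ t, |u t| ≤ B) → (∀ t, u t ≠ 0 → φ t ∈ F ×ˢ Finset.range C) →
      ∑ t ∈ T, |u t| ≤ K := by
    intro T u φ hφ hu hmem
    have h1 : ∑ t ∈ T, |u t| = ∑ t ∈ T.filter (fun t => u t ≠ 0), |u t| := by
      rw [Finset.sum_filter]
      refine Finset.sum_congr rfl fun t _ => ?_
      split_ifs with h
      · rfl
      · simp only [ne_eq, not_not] at h
        rw [h, abs_zero]
    rw [h1]
    have h2 : ∑ t ∈ T.filter (fun t => u t ≠ 0), |u t| ≤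
        (T.filter (fun t => u t ≠ 0)).card • B :=
      Finset.sum_le_card_nsmul _ _ _ fun t _ => hu t
    refine h2.trans ?_
    rw [nsmul_eq_mul, hK]
    have h3 : (T.filter (fun t => u t ≠ 0)).card ≤ (F ×ˢ Finset.range C).card := by
      refine Finset.card_le_card_of_injOn φ ?_ hφ.injOn
      intro t ht
      rw [Finset.mem_coe, Finset.mem_filter] at ht
      exact hmem t ht.2
    have h4 : ((T.filter (fun t => u t ≠ 0)).card : ℝ) ≤ ((F ×ˢ Finset.range C).card : ℝ) := by
      exact_mod_cast h3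
    nlinarith
  refine schur (by linarith) ?_ ?_ f
  · intro p T
    refine hcount T (fun q => M x (single p 1) q) (fun q => (q.1 * p.1⁻¹, q.2)) ?_ ?_ ?_
    · intro q q' h
      simp only [Prod.mk.injEq, mul_left_inj] at h
      exact Prod.ext h.1 h.2
    · intro q
      rw [hM.eqv.entry]
      exact hb _ _ _
    · intro q hq
      rw [hM.eqv.entry] at hq
      exact hF _ _ (Finsupp.mem_support_iff.2 hq)
  · intro q T
    refine hcount T (fun p => M x (single p 1) q) (fun p => (q.1 * p.1⁻¹, p.2)) ?_ ?_ ?_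
    · intro p p' h
      simp only [Prod.mk.injEq, mul_right_inj, inv_inj] at h
      exact Prod.ext h.1 h.2
    · intro p
      rw [hM.eqv.entry]
      exact hb _ _ _
    · intro p hp
      rw [hM.eqv.entry] at hp
      have h1 := hF _ _ (Finsupp.mem_support_iff.2 hp)
      rw [Finset.mem_product] at h1 ⊢
      refine ⟨h1.1, ?_⟩
      rw [Finset.mem_range]
      by_contra hcon
      push Not at hcon
      exact hp (by rw [hM.idx _ _ hcon]; rfl)

/-! ### the trace -/

section trace
variable (μ : Measure X)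

/-- the trace -/
noncomputable def tr (C : ℕ) (M : X → Module.End ℝ (V Γ)) : ℝ :=
  ∑ i ∈ Finset.range C, ∫ x, M x (single (1, i) 1) (1, i) ∂μ

theorem Fld.integrable [IsProbabilityMeasure μ] {M : X → Module.End ℝ (V Γ)} (hM : Fld C M)
    (i : ℕ) (q : Γ × ℕ) : Integrable (fun x => M x (single (1, i) 1) q) μ := by
  obtain ⟨B, hB, hb⟩ := hM.bdd
  exact Integrable.of_bound (hM.meas i q).aestronglyMeasurable B
    (Filter.Eventually.of_forall fun x => hb x i q)

theorem tr_sub [IsProbabilityMeasure μ] {M N : X → Module.End ℝ (V Γ)} (hM : Fld C M)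
    (hN : Fld C N) : tr μ C (M - N) = tr μ C M - tr μ C N := by
  unfold tr
  rw [← Finset.sum_sub_distrib]
  refine Finset.sum_congr rfl fun i _ => ?_
  rw [← integral_sub (hM.integrable μ i _) (hN.integrable μ i _)]
  rfl

theorem tr_smul {M : X → Module.End ℝ (V Γ)} (c : ℝ) : tr μ C (c • M) = c * tr μ C M := by
  unfold tr
  rw [Finset.mul_sum]
  refine Finset.sum_congr rfl fun i _ => ?_
  rw [← integral_const_mul]
  rfl

theorem tr_mul_comm [IsProbabilityMeasure μ]
    (hmp : ∀ g : Γ, MeasurePreserving (fun x : X => g • x) μ μ) {M N : X → Module.End ℝ (V Γ)}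
    (hM : Fld C M) (hN : Fld C N) : tr μ C (M * N) = tr μ C (N * M) := by
  classical
  obtain ⟨F₁, hF₁⟩ := hM.supp
  obtain ⟨F₂, hF₂⟩ := hN.supp
  obtain ⟨B, hB, hb⟩ := hM.bdd
  obtain ⟨B', hB', hb'⟩ := hN.bdd
  set F := (F₁ ∪ F₂) ∪ (F₁ ∪ F₂)⁻¹ with hFdef
  have hFinv : ∀ g, g ∈ F ↔ g⁻¹ ∈ F := by
    intro g
    simp only [hFdef, Finset.mem_union, Finset.mem_inv', inv_inv]
    tauto
  have hFM : ∀ x i, (M x (single (1, i) 1)).support ⊆ F ×ˢ Finset.range C := fun x i =>
    (hF₁ x i).trans (Finset.product_subset_product_left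
      (Finset.subset_union_left.trans Finset.subset_union_left))
  have hFN : ∀ x i, (N x (single (1, i) 1)).support ⊆ F ×ˢ Finset.range C := fun x i =>
    (hF₂ x i).trans (Finset.product_subset_product_left
      (Finset.subset_union_right.trans Finset.subset_union_left))
  have hsm : ∀ g : Γ, Measurable fun x : X => g • x := fun g => (hmp g).measurable
  -- integrability of products
  have hint : ∀ {M N : X → Module.End ℝ (V Γ)}, Fld C M → Fld C N → ∀ (g : Γ) i j q q',
      Integrable (fun x => N x (single (1, i) 1) q * M (g • x) (single (1, j) 1) q') μ := by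
    intro M N hM hN g i j q q'
    obtain ⟨B, hB, hb⟩ := hM.bdd
    obtain ⟨B', hB', hb'⟩ := hN.bdd
    refine Integrable.of_bound (((hN.meas i q).mul ((hM.meas j q').comp (hsm g))).aestronglyMeasurable)
      (B' * B) (Filter.Eventually.of_forall fun x => ?_)
    rw [Real.norm_eq_abs, abs_mul]
    exact mul_le_mul (hb' _ _ _) (hb _ _ _) (abs_nonneg _) hB'
  have expand : ∀ {M N : X → Module.End ℝ (V Γ)}, Fld C M → Fld C N →
      (∀ x i, (N x (single (1, i) 1)).support ⊆ F ×ˢ Finset.range C) →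
      tr μ C (M * N) = ∑ i ∈ Finset.range C, ∑ g ∈ F, ∑ j ∈ Finset.range C,
        ∫ x, N x (single (1, i) 1) (g, j) * M (g • x) (single (1, j) 1) (g⁻¹, i) ∂μ := by
    intro M N hM hN hF
    unfold tr
    refine Finset.sum_congr rfl fun i _ => ?_
    have e : (fun x => (M * N) x (single (1, i) 1) (1, i)) = fun x => ∑ p ∈ F ×ˢ Finset.range C,
        N x (single (1, i) 1) p * M (p.1 • x) (single (1, p.2) 1) (1 * p.1⁻¹, i) := by
      funext x
      exact Fld.mul_entry hM.eqv x i (hF x i) (1, i)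
    rw [e, integral_finsetSum _ (fun p _ => hint hM hN p.1 i p.2 p _), Finset.sum_product]
    simp only [one_mul, Prod.mk.eta]
  rw [expand hM hN hFN, expand hN hM hFM]
  -- reorganise
  have L : ∀ (u : ℕ → Γ → ℕ → ℝ), ∑ i ∈ Finset.range C, ∑ g ∈ F, ∑ j ∈ Finset.range C, u i g j =
      ∑ i ∈ Finset.range C, ∑ g ∈ F, ∑ j ∈ Finset.range C, u j g⁻¹ i := by
    intro u
    have e1 : ∀ i, ∑ g ∈ F, ∑ j ∈ Finset.range C, u i g j =
        ∑ g ∈ F, ∑ j ∈ Finset.range C, u i g⁻¹ j := by
      intro i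
      refine Finset.sum_nbij' (fun g => g⁻¹) (fun g => g⁻¹) ?_ ?_ ?_ ?_ ?_
      · intro g hg; exact (hFinv g).1 hg
      · intro g hg; exact (hFinv g).1 hg
      · intro g _; exact inv_inv g
      · intro g _; exact inv_inv g
      · intro g _; simp only [inv_inv]
    simp only [e1]
    rw [Finset.sum_comm]
    have e2 : ∀ g, ∑ i ∈ Finset.range C, ∑ j ∈ Finset.range C, u i g⁻¹ j =
        ∑ i ∈ Finset.range C, ∑ j ∈ Finset.range C, u j g⁻¹ i := fun g => Finset.sum_comm
    simp only [e2]
    rw [Finset.sum_comm]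
  rw [L]
  refine Finset.sum_congr rfl fun i _ => Finset.sum_congr rfl fun g _ =>
    Finset.sum_congr rfl fun j _ => ?_
  -- goal: ∫ N x δ_j (g⁻¹, i) * M (g⁻¹ x) δ_i (g, j) = ∫ M x δ_i (g,j) * N (g x) δ_j (g⁻¹,i)
  rw [inv_inv]
  have hmeas : Measurable (fun y => N y (single (1, j) 1) (g⁻¹, i) *
      M (g⁻¹ • y) (single (1, i) 1) (g, j)) :=
    (hN.meas j _).mul ((hM.meas i _).comp (hsm g⁻¹))
  have h := integral_map (μ := μ) (hsm g).aemeasurable
    (f := fun y => N y (single (1, j) 1) (g⁻¹, i) * M (g⁻¹ • y) (single (1, i) 1) (g, j))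
    (by rw [(hmp g).map_eq]; exact hmeas.aestronglyMeasurable)
  rw [(hmp g).map_eq] at h
  rw [h]
  refine integral_congr_ae (Filter.Eventually.of_forall fun x => ?_)
  simp only [inv_smul_smul]
  ring

/-- ring identities -/
theorem ring_facts {R : Type} [Ring R] [Algebra ℝ R] {P Q a b : R} (c : ℝ)
    (hPP : P * P = P) (hQQ : Q * Q = Q) (haP : a * P = a) (hQa : Q * a = a) (hPb : P * b = b)
    (hbQ : b * Q = b) :
    P * (P - c • (b * a)) = P - c • (b * a) ∧ Q * (Q - c • (a * b)) = Q - c • (a * b) ∧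
    (∀ n : ℕ, a * (P - c • (b * a)) ^ n = (Q - c • (a * b)) ^ n * a) ∧
    (∀ n : ℕ, (P - c • (b * a)) ^ (n + 1) * P = (P - c • (b * a)) ^ n * P
      - c • ((P - c • (b * a)) ^ n * b * a)) ∧
    (∀ n : ℕ, (Q - c • (a * b)) ^ (n + 1) * Q = (Q - c • (a * b)) ^ n * Q
      - c • ((Q - c • (a * b)) ^ n * (a * b))) := by
  set D := P - c • (b * a) with hD
  set D' := Q - c • (a * b) with hD'
  have hDP : D * P = D := by rw [hD, sub_mul, hPP, smul_mul_assoc, mul_assoc, haP]
  have hPD : P * D = D := by rw [hD, mul_sub, hPP, mul_smul_comm, ← mul_assoc, hPb]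
  have hD'Q : D' * Q = D' := by rw [hD', sub_mul, hQQ, smul_mul_assoc, mul_assoc, hbQ]
  have hQD' : Q * D' = D' := by rw [hD', mul_sub, hQQ, mul_smul_comm, ← mul_assoc, hQa]
  have haD : a * D = D' * a := by
    rw [hD, hD', mul_sub, sub_mul, haP, hQa, mul_smul_comm, smul_mul_assoc, mul_assoc]
  refine ⟨hPD, hQD', ?_, ?_, ?_⟩
  · intro n
    induction n with
    | zero => simp
    | succ n ih => rw [pow_succ, ← mul_assoc, ih, mul_assoc, haD, ← mul_assoc, ← pow_succ]
  · intro n
    rw [pow_succ, mul_assoc, hDP]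
    conv_lhs => rw [hD]
    rw [mul_sub, mul_smul_comm, ← hD, mul_assoc]
  · intro n
    rw [pow_succ, mul_assoc, hD'Q]
    conv_lhs => rw [hD']
    rw [mul_sub, mul_smul_comm]

/-- the core inequality -/
theorem core [IsProbabilityMeasure μ]
    (hmp : ∀ g : Γ, MeasurePreserving (fun x : X => g • x) μ μ)
    {P Q a b s : X → Module.End ℝ (V Γ)}
    (fP : Fld C P) (fQ : Fld C Q) (fa : Fld C a) (fb : Fld C b) (fs : Fld C s)
    (hab : ∀ x f g, ip (a x f) g = ip f (b x g))
    (hPs : ∀ x f g, ip (P x f) g = ip f (P x g)) (hQs : ∀ x f g, ip (Q x f) g = ip f (Q x g))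
    (hPP : P * P = P) (hQQ : Q * Q = Q) (haP : a * P = a) (hQa : Q * a = a) (hPb : P * b = b)
    (hbQ : b * Q = b) (hsa : s * a = P) : tr μ C P ≤ tr μ C Q := by
  have hsm : ∀ g : Γ, Measurable fun x : X => g • x := fun g => (hmp g).measurable
  obtain ⟨α₀, hα₀, ha⟩ := fa.norm_bound
  obtain ⟨β, hβ, hs⟩ := fs.norm_bound
  obtain ⟨γ, hγ, hb⟩ := fb.norm_bound
  obtain ⟨α, hα, haα, hbα⟩ : ∃ α : ℝ, 1 ≤ α ∧ (∀ x f, ip (a x f) (a x f) ≤ α * ip f f) ∧
      (∀ x f, ip (b x f) (b x f) ≤ α * ip f f) := by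
    refine ⟨max α₀ γ, le_max_of_le_left hα₀, fun x f => (ha x f).trans ?_,
      fun x f => (hb x f).trans ?_⟩
    · exact mul_le_mul_of_nonneg_right (le_max_left _ _) (ip_self_nonneg _)
    · exact mul_le_mul_of_nonneg_right (le_max_right _ _) (ip_self_nonneg _)
  set c : ℝ := α⁻¹ with hc
  have hcα : c * α = 1 := inv_mul_cancel₀ (by positivity)
  have hαβ : 1 ≤ α * β := one_le_mul_of_one_le_of_one_le hα hβ
  set D := P - c • (b * a) with hD
  set D' := Q - c • (a * b) with hD'
  set r := 1 - (α * β)⁻¹ with hr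
  have hr0 : 0 ≤ r := by
    have : (α * β)⁻¹ ≤ 1 := inv_le_one_of_one_le₀ hαβ
    linarith
  have hr1 : r < 1 := by
    have : 0 < (α * β)⁻¹ := by positivity
    linarith
  -- ring identities
  obtain ⟨hPD, hQD', haDn, e1, e2⟩ := ring_facts (R := X → Module.End ℝ (V Γ)) (P := P) (Q := Q)
    (a := a) (b := b) c hPP hQQ haP hQa hPb hbQ
  have fD : Fld C D := fP.sub ((fb.mul hsm fa).smul c)
  have fD' : Fld C D' := fQ.sub ((fa.mul hsm fb).smul c)
  have fpow : ∀ {D M : X → Module.End ℝ (V Γ)}, Fld C D → Fld C M → ∀ n : ℕ, Fld C (D ^ n * M) := by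
    intro D M fD fM n
    induction n with
    | zero => simpa using fM
    | succ n ih =>
      rw [pow_succ', mul_assoc]
      exact fD.mul hsm ih
  have hdiff : ∀ n : ℕ, tr μ C (D ^ n * P) - tr μ C (D' ^ n * Q) = tr μ C P - tr μ C Q := by
    intro n
    induction n with
    | zero => simp
    | succ n ih =>
      rw [← ih, e1, e2, tr_sub μ (fpow fD fP n) (((fpow fD fb n).mul hsm fa).smul c),
        tr_sub μ (fpow fD' fQ n) ((fpow fD' (fa.mul hsm fb) n).smul c), tr_smul, tr_smul,
        tr_mul_comm μ hmp (fpow fD fb n) fa, ← mul_assoc, haDn, mul_assoc]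
      ring
  -- pointwise facts
  have hDx : ∀ x, (∀ f g, ip (D x f) g = ip f (D x g)) ∧
      (∀ f, ip (D x f) (D x f) ≤ r ^ 2 * ip (P x f) (P x f)) := by
    intro x
    refine contr (P := P x) (a := a x) (b := b x) (s := s x) (α := α) (β := β) (c := c)
      (by linarith) (by linarith) hcα hαβ (hab x) (hPs x) ?_ ?_ ?_ (haα x) (hs x) ?_
    · intro f
      exact congrArg (fun M : X → Module.End ℝ (V Γ) => M x f) hPP
    · intro f
      exact congrArg (fun M : X → Module.End ℝ (V Γ) => M x f) haP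
    · intro f
      exact congrArg (fun M : X → Module.End ℝ (V Γ) => M x f) hsa
    · intro f
      rfl
  have hD'x : ∀ x f g, ip (D' x f) g = ip f (D' x g) := by
    intro x f g
    have h1 : ∀ f, D' x f = Q x f - c • a x (b x f) := fun f => rfl
    rw [h1, h1, ip_sub_left, ip_sub_right, ip_smul_left, ip_smul_right, hQs, hab]
    rw [ip_comm f (a x (b x g)), hab, ip_comm (b x g)]
  -- squares
  have hsq : ∀ {D P : Module.End ℝ (V Γ)}, (∀ f g, ip (D f) g = ip f (D g)) →
      (∀ f g, ip (P f) g = ip f (P g)) → P * P = P → P * D = D → ∀ (n : ℕ) f,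
      P ((D ^ n) (P f)) = (D ^ n) (P f) ∧
      ip ((D ^ (2 * n)) (P f)) f = ip ((D ^ n) (P f)) ((D ^ n) (P f)) := by
    intro D P hDs hPs hPP hPD n f
    have hfix : ∀ n : ℕ, P ((D ^ n) (P f)) = (D ^ n) (P f) := by
      intro n
      cases n with
      | zero => exact congrArg (fun M : Module.End ℝ (V Γ) => M f) hPP
      | succ n =>
        rw [pow_succ', Module.End.mul_apply]
        exact congrArg (fun M : Module.End ℝ (V Γ) => M ((D ^ n) (P f))) hPD
    refine ⟨hfix n, ?_⟩
    have hpows : ∀ (n : ℕ) f g, ip ((D ^ n) f) g = ip f ((D ^ n) g) := by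
      intro n
      induction n with
      | zero => intro f g; simp
      | succ n ih =>
        intro f g
        have h1 : (D ^ (n + 1)) f = D ((D ^ n) f) := by rw [pow_succ', Module.End.mul_apply]
        have h2 : (D ^ (n + 1)) g = (D ^ n) (D g) := by rw [pow_succ, Module.End.mul_apply]
        rw [h1, h2, hDs, ih]
    rw [← hfix (2 * n), hPs, two_mul, pow_add, Module.End.mul_apply, hpows]
  have hPx : ∀ x, P x * P x = P x := fun x => congrFun hPP x
  have hQx : ∀ x, Q x * Q x = Q x := fun x => congrFun hQQ x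
  have hPDx : ∀ x, P x * D x = D x := fun x => congrFun hPD x
  have hQDx : ∀ x, Q x * D' x = D' x := fun x => congrFun hQD' x
  have hup : ∀ n : ℕ, tr μ C (D ^ (2 * n) * P) ≤ r ^ (2 * n) * tr μ C P := by
    intro n
    unfold tr
    rw [Finset.mul_sum]
    refine Finset.sum_le_sum fun i _ => ?_
    rw [← integral_const_mul]
    refine integral_mono ((fpow fD fP (2 * n)).integrable μ i _)
      ((fP.integrable μ i _).const_mul _) fun x => ?_
    simp only
    set δ : V Γ := single (1, i) 1 with hδ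
    have h1 : (D ^ (2 * n) * P) x δ (1, i) = ip ((D x ^ (2 * n)) (P x δ)) δ := by
      rw [hδ, ip_single_right]; rfl
    have h2 : P x δ (1, i) = ip (P x δ) (P x δ) := by
      have h3 := (hsq (hPs x) (hPs x) (hPx x) (hPx x) 0 δ).2
      simp only [mul_zero, pow_zero, Module.End.one_apply] at h3
      rw [← h3, hδ, ip_single_right]
    have hbound : ∀ k : ℕ, ip ((D x ^ k) (P x δ)) ((D x ^ k) (P x δ)) ≤
        r ^ (2 * k) * ip (P x δ) (P x δ) := by
      intro k
      induction k with
      | zero => simp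
      | succ k ih =>
        rw [pow_succ', Module.End.mul_apply]
        refine ((hDx x).2 _).trans ?_
        rw [(hsq (hDx x).1 (hPs x) (hPx x) (hPDx x) k δ).1, mul_add, pow_add,
          mul_comm (r ^ (2 * k)), mul_assoc]
        exact mul_le_mul_of_nonneg_left ih (by positivity)
    rw [h1, h2, (hsq (hDx x).1 (hPs x) (hPx x) (hPDx x) n δ).2]
    exact hbound n
  have hlow : ∀ n : ℕ, 0 ≤ tr μ C (D' ^ (2 * n) * Q) := by
    intro n
    unfold tr
    refine Finset.sum_nonneg fun i _ => integral_nonneg fun x => ?_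
    simp only [Pi.zero_apply]
    set δ : V Γ := single (1, i) 1 with hδ
    have h1 : (D' ^ (2 * n) * Q) x δ (1, i) = ip ((D' x ^ (2 * n)) (Q x δ)) δ := by
      rw [hδ, ip_single_right]; rfl
    rw [h1, (hsq (hD'x x) (hQs x) (hQx x) (hQDx x) n δ).2]
    exact ip_self_nonneg _
  have hfin : ∀ n : ℕ, tr μ C P - tr μ C Q ≤ (r ^ 2) ^ n * tr μ C P := by
    intro n
    rw [← hdiff (2 * n), ← pow_mul]
    linarith [hup n, hlow n]
  have hlim : Filter.Tendsto (fun n : ℕ => (r ^ 2) ^ n * tr μ C P) Filter.atTop (nhds 0) := by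
    have := (tendsto_pow_atTop_nhds_zero_of_lt_one (r := r ^ 2) (by positivity)
      (by nlinarith)).mul_const (tr μ C P)
    simpa using this
  have := ge_of_tendsto' hlim hfin
  linarith

end trace

/-! ### operators from kernels -/

section op

omit [MeasurableSpace X] in
/-- the operator field of a kernel of columns -/
noncomputable def op (K : X × ℕ → V Γ) (x : X) : Module.End ℝ (V Γ) :=
  linearCombination ℝ (fun p : Γ × ℕ => sh p.1 (K (p.1 • x, p.2)))

theorem op_single (K : X × ℕ → V Γ) (x : X) (p : Γ × ℕ) :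
    op K x (single p 1) = sh p.1 (K (p.1 • x, p.2)) := by
  simp [op]

theorem op_single_one (K : X × ℕ → V Γ) (x : X) (i : ℕ) :
    op K x (single (1, i) 1) = K (x, i) := by
  rw [op_single]
  simp [sh_one]

/-- bounded kernels -/
structure BK (C : ℕ) (K : X × ℕ → V Γ) : Prop where
  supp : ∃ F : Finset Γ, ∀ z, (K z).support ⊆ F ×ˢ Finset.range C
  idx : ∀ x i, C ≤ i → K (x, i) = 0
  bdd : ∃ B : ℝ, 0 ≤ B ∧ ∀ z q, |K z q| ≤ B
  meas : ∀ i q, Measurable fun x => K (x, i) q

theorem BK.fld {K : X × ℕ → V Γ} (hK : BK C K) : Fld C (op K) := by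
  refine ⟨?_, ?_, ?_, ?_, ?_⟩
  · intro x g j
    rw [op_single, op_single_one]
  · obtain ⟨F, hF⟩ := hK.supp
    exact ⟨F, fun x i => by rw [op_single_one]; exact hF _⟩
  · intro x i hi
    rw [op_single_one]
    exact hK.idx x i hi
  · obtain ⟨B, hB, h⟩ := hK.bdd
    exact ⟨B, hB, fun x i q => by rw [op_single_one]; exact h _ _⟩
  · intro i q
    simp only [op_single_one]
    exact hK.meas i q

/-- two endomorphisms that agree on the basis are equal -/
theorem ext_basis {M N : Module.End ℝ (V Γ)} (h : ∀ p, M (single p 1) = N (single p 1)) : M = N := by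
  refine LinearMap.ext fun f => ?_
  induction f using Finsupp.induction_linear with
  | zero => simp
  | add f f' hf hf' => rw [map_add, map_add, hf, hf']
  | single q c =>
    have : (single q c : V Γ) = c • single q 1 := by simp
    rw [this, map_smul, map_smul, h]

open Classical in
/-- projection kernel -/
noncomputable def pk (E : Set (X × ℕ)) (z : X × ℕ) : V Γ := if z ∈ E then single (1, z.2) 1 else 0

open Classical in
theorem op_pk_single (E : Set (X × ℕ)) (x : X) (p : Γ × ℕ) :
    op (pk E) x (single p 1) = if (p.1 • x, p.2) ∈ E then single p (1 : ℝ) else 0 := by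
  rw [op_single]
  unfold pk
  split_ifs
  · rw [sh_single]; simp
  · simp

open Classical in
theorem op_pk_apply (E : Set (X × ℕ)) (x : X) (f : V Γ) (q : Γ × ℕ) :
    op (pk E) x f q = if (q.1 • x, q.2) ∈ E then f q else 0 := by
  induction f using Finsupp.induction_linear with
  | zero => simp
  | add f f' hf hf' =>
    rw [map_add, Finsupp.add_apply, hf, hf']
    split_ifs <;> simp
  | single p c =>
    have : (single p c : V Γ) = c • single p 1 := by simp
    rw [this, map_smul, op_pk_single, Finsupp.smul_apply, Finsupp.smul_apply]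
    by_cases hpq : p = q
    · subst hpq
      split_ifs <;> simp
    · split_ifs <;> simp [Finsupp.single_eq_of_ne (Ne.symm hpq), Finsupp.single_eq_of_ne hpq]

theorem pk_bk (E : Set (X × ℕ)) (hE : ∀ i, MeasurableSet {x | (x, i) ∈ E})
    (hC : ∀ z ∈ E, z.2 < C) : BK C (pk (Γ := Γ) E) := by
  classical
  refine ⟨⟨{1}, ?_⟩, ?_, ⟨1, zero_le_one, ?_⟩, ?_⟩
  · intro z
    unfold pk
    split_ifs with h
    · refine Finsupp.support_single_subset.trans ?_
      intro q hq
      rw [Finset.mem_singleton] at hq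
      subst hq
      simp [hC z h]
    · simp
  · intro x i hi
    unfold pk
    rw [if_neg]
    intro h
    have : i < C := hC _ h
    omega
  · intro z q
    unfold pk
    split_ifs
    · rw [Finsupp.single_apply]
      split_ifs <;> simp
    · simp
  · intro i q
    unfold pk
    have : (fun x : X => (if (x, i) ∈ E then (single (1, i) 1 : V Γ) else 0) q) =
        fun x : X => if (x, i) ∈ E then (single (1, i) 1 : V Γ) q else 0 := by
      funext x
      split_ifs <;> rfl
    rw [this]
    exact Measurable.ite (hE i) measurable_const measurable_const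

/-- adjoint kernel -/
noncomputable def adk (F : Finset (Γ × ℕ)) (K : X × ℕ → V Γ) (z : X × ℕ) : V Γ :=
  ∑ q ∈ F, single q (K (q.1 • z.1, q.2) (q.1⁻¹, z.2))

theorem adk_apply {F : Finset (Γ × ℕ)} {K : X × ℕ → V Γ} {z : X × ℕ} (q : Γ × ℕ)
    (hF : K (q.1 • z.1, q.2) (q.1⁻¹, z.2) ≠ 0 → q ∈ F) :
    adk F K z q = K (q.1 • z.1, q.2) (q.1⁻¹, z.2) := by
  classical
  unfold adk
  rw [Finsupp.finsetSum_apply]
  by_cases hq : q ∈ F
  · rw [Finset.sum_eq_single_of_mem q hq]
    · simp
    · intro p _ hp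
      rw [Finsupp.single_eq_of_ne (Ne.symm hp)]
  · rw [Finset.sum_eq_zero]
    · by_contra hcon
      exact hq (hF (Ne.symm hcon))
    · intro p hp
      rw [Finsupp.single_eq_of_ne]
      rintro rfl
      exact hq hp

theorem exists_adj (hsm : ∀ g : Γ, Measurable fun x : X => g • x) {K : X × ℕ → V Γ}
    (hK : BK C K) : ∃ L : X × ℕ → V Γ, BK C L ∧
      ∀ x f g, ip (op K x f) g = ip f (op L x g) := by
  classical
  obtain ⟨F, hF⟩ := hK.supp
  obtain ⟨B, hB, hb⟩ := hK.bdd
  set G : Finset (Γ × ℕ) := F⁻¹ ×ˢ Finset.range C with hG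
  have happ : ∀ z q, adk G K z q = K (q.1 • z.1, q.2) (q.1⁻¹, z.2) := by
    intro z q
    refine adk_apply q fun h => ?_
    have h1 := hF _ (Finsupp.mem_support_iff.2 h)
    rw [Finset.mem_product] at h1
    rw [hG, Finset.mem_product, Finset.mem_inv']
    refine ⟨h1.1, ?_⟩
    rw [Finset.mem_range]
    by_contra hcon
    push Not at hcon
    exact h (by rw [hK.idx _ _ hcon]; rfl)
  refine ⟨adk G K, ⟨⟨F⁻¹, ?_⟩, ?_, ⟨B, hB, ?_⟩, ?_⟩, ?_⟩
  · intro z q hq
    rw [Finsupp.mem_support_iff, happ] at hq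
    have h1 := hF _ (Finsupp.mem_support_iff.2 hq)
    rw [Finset.mem_product] at h1 ⊢
    rw [Finset.mem_inv']
    refine ⟨h1.1, ?_⟩
    rw [Finset.mem_range]
    by_contra hcon
    push Not at hcon
    exact hq (by rw [hK.idx _ _ hcon]; rfl)
  · intro x i hi
    ext q
    rw [happ]
    by_contra hcon
    have h1 := hF _ (Finsupp.mem_support_iff.2 hcon)
    rw [Finset.mem_product, Finset.mem_range] at h1
    have := h1.2
    simp only at this
    omega
  · intro z q
    rw [happ]
    exact hb _ _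
  · intro i q
    simp only [happ]
    exact (hK.meas q.2 (q.1⁻¹, i)).comp (hsm q.1)
  · intro x
    refine adj_of_basis ?_
    intro p q
    rw [op_single, op_single, sh_apply, sh_apply, happ]
    simp only [mul_inv_rev, inv_inv]
    congr 2
    rw [smul_smul, inv_mul_cancel_right]

/-- the bounded case -/
theorem rank_bdd {μ : Measure X} [IsProbabilityMeasure μ]
    (hmp : ∀ g : Γ, MeasurePreserving (fun x : X => g • x) μ μ)
    {E Z : Set (X × ℕ)} (hE : ∀ i, MeasurableSet {x | (x, i) ∈ E})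
    (hZ : ∀ i, MeasurableSet {x | (x, i) ∈ Z}) (hEC : ∀ z ∈ E, z.2 < C) (hZC : ∀ z ∈ Z, z.2 < C)
    {Ka Ks : X × ℕ → V Γ} (ba : BK C Ka) (bs : BK C Ks) (ha0 : ∀ z, z ∉ E → Ka z = 0)
    (haZ : ∀ z, ∀ p ∈ (Ka z).support, (p.1 • z.1, p.2) ∈ Z)
    (hsa : ∀ z ∈ E, op Ks z.1 (Ka z) = single (1, z.2) 1) :
    ∑ i ∈ Finset.range C, μ.real {x | (x, i) ∈ E} ≤
      ∑ i ∈ Finset.range C, μ.real {x | (x, i) ∈ Z} := by
  classical
  have hsm : ∀ g : Γ, Measurable fun x : X => g • x := fun g => (hmp g).measurable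
  obtain ⟨L, bL, hadj⟩ := exists_adj hsm ba
  have hpsym : ∀ (S : Set (X × ℕ)) (x : X) (f g : V Γ),
      ip (op (pk S) x f) g = ip f (op (pk S) x g) := by
    intro S x
    refine adj_of_basis fun p q => ?_
    rw [op_pk_single, op_pk_single]
    by_cases hpq : p = q
    · subst hpq; rfl
    · split_ifs <;> simp [Finsupp.single_eq_of_ne (Ne.symm hpq), Finsupp.single_eq_of_ne hpq]
  have hpp : ∀ S : Set (X × ℕ), op (pk (Γ := Γ) S) * op (pk S) = op (pk S) := by
    intro S
    funext x
    refine LinearMap.ext fun f => Finsupp.ext fun q => ?_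
    rw [Pi.mul_apply, Module.End.mul_apply, op_pk_apply, op_pk_apply]
    split_ifs <;> rfl
  have htr : ∀ S : Set (X × ℕ), (∀ i, MeasurableSet {x | (x, i) ∈ S}) →
      tr μ C (op (pk (Γ := Γ) S)) = ∑ i ∈ Finset.range C, μ.real {x | (x, i) ∈ S} := by
    intro S hS
    unfold tr
    refine Finset.sum_congr rfl fun i _ => ?_
    have : (fun x : X => op (pk (Γ := Γ) S) x (single (1, i) 1) (1, i)) =
        Set.indicator {x | (x, i) ∈ S} (fun _ => (1 : ℝ)) := by
      funext x
      rw [op_pk_single]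
      simp only [one_smul, Set.indicator_apply, Set.mem_ofPred_eq]
      split_ifs <;> simp
    rw [this, integral_indicator (hS i), setIntegral_const, smul_eq_mul, mul_one]
  have haP : op Ka * op (pk E) = op Ka := by
    funext x
    refine ext_basis fun p => ?_
    rw [Pi.mul_apply, Module.End.mul_apply, op_pk_single]
    split_ifs with h
    · rfl
    · rw [map_zero, op_single, ha0 _ h, map_zero]
  have hQa : op (pk Z) * op Ka = op Ka := by
    funext x
    refine ext_basis fun p => Finsupp.ext fun q => ?_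
    rw [Pi.mul_apply, Module.End.mul_apply, op_pk_apply]
    split_ifs with h
    · rfl
    · rw [op_single, sh_apply]
      by_contra hcon
      have h1 := haZ _ _ (Finsupp.mem_support_iff.2 (Ne.symm hcon))
      simp only [smul_smul, inv_mul_cancel_right] at h1
      exact h h1
  have hPb : op (pk E) * op L = op L := by
    funext x
    refine LinearMap.ext fun f => Finsupp.ext fun q => ?_
    rw [Pi.mul_apply, Module.End.mul_apply, ← ip_single_right, hpsym, ip_comm, ← hadj]
    have h1 : op Ka x (op (pk E) x (single q 1)) = op Ka x (single q 1) :=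
      congrArg (fun M : X → Module.End ℝ (V Γ) => M x (single q 1)) haP
    rw [h1, hadj, ip_single_left]
  have hbQ : op L * op (pk Z) = op L := by
    funext x
    refine LinearMap.ext fun f => Finsupp.ext fun q => ?_
    rw [Pi.mul_apply, Module.End.mul_apply, ← ip_single_right, ip_comm, ← hadj, ip_comm, hpsym]
    have h1 : op (pk Z) x (op Ka x (single q 1)) = op Ka x (single q 1) :=
      congrArg (fun M : X → Module.End ℝ (V Γ) => M x (single q 1)) hQa
    rw [h1, ip_comm, hadj, ip_single_left]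
  have hsaP : op Ks * op Ka = op (pk E) := by
    funext x
    refine ext_basis fun p => ?_
    rw [Pi.mul_apply, Module.End.mul_apply, op_single Ka, bs.fld.eqv.all, op_pk_single]
    split_ifs with h
    · have h1 := hsa _ h
      simp only at h1
      rw [h1, sh_single]
      simp
    · rw [ha0 _ h, map_zero, map_zero]
  have := core μ hmp (pk_bk E hE hEC).fld (pk_bk Z hZ hZC).fld ba.fld bL.fld bs.fld hadj
    (hpsym E) (hpsym Z) (hpp E) (hpp Z) haP hQa hPb hbQ hsaP
  rwa [htr E hE, htr Z hZ] at this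

end op

end group

end Crest.Agent.FP.RankAux
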