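import Crest.Agent.FP.Defs
import Crest.Agent.FP.RankA

/-! Row 191 (S0291), chunk R1: the rank (trace) lemma.

Proof: (1) truncate: `Z₁ ⊆ Z` = points whose `S`-column is bounded (support in a finite set of
group elements and indices `≤ C'`, entries `≤ C'`), `E₁ ⊆ E` = points with index `≤ C`, bounded `A`-column
supported in `Z₁`; by mass transport `size (E \ E₁)` is small if first `C`, then `C'` is large.
(2) `A₁ : R[E₁] → R[Z₁]`, `S₁ : R[Z₁] → R[E]` on finitely supported functions on one orbit are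
bounded for the `ℓ²`-norm, `S₁ A₁ = id`, so `T = c A₁ᵗ A₁` (normalised) satisfies
`δ ‖f‖² ≤ ⟨T f, f⟩ ≤ ‖f‖²` on `R[E₁]` and `‖(1 - T) f‖ ≤ (1 - δ) ‖f‖` (Cauchy–Schwarz for the positive
form `⟨(1-T) f, g⟩`).  With `T' = c A₁ A₁ᵗ` mass transport gives equality of the traces
`∫_{E₁} ⟨T^k δ_e, δ_e⟩ = ∫_{Z₁} ⟨T'^k δ_z, δ_z⟩` for `k ≥ 1`, so
`size E₁ - size Z₁ = tr (1-T)^{2j} - tr (1-T')^{2j} ≤ tr (1-T)^{2j} ≤ (1-δ)^{2j} size E₁ → 0`. -/
set_option autoImplicit false

open MeasureTheory
open scoped ENNReal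

namespace Crest.Agent.FP

variable {Γ : Type} [Group Γ] [Countable Γ] {X : Type} [MeasurableSpace X] [MulAction Γ X]
  {μ : Measure X}

namespace RankAux

open Finsupp

/-- real version of an integral column -/
noncomputable def toR (c : Γ × ℕ →₀ ℤ) : V Γ := c.mapRange (fun n : ℤ => (n : ℝ)) (by simp)

omit [Group Γ] [Countable Γ] in
theorem toR_apply (c : Γ × ℕ →₀ ℤ) (q : Γ × ℕ) : toR c q = (c q : ℝ) := by
  simp [toR]

omit [Group Γ] [Countable Γ] in
theorem toR_support (c : Γ × ℕ →₀ ℤ) : (toR c).support = c.support := by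
  ext q
  simp [toR_apply]

open Classical in
/-- columns restricted to a set -/
noncomputable def colR (E : Set (X × ℕ)) (A : X × ℕ → (Γ × ℕ →₀ ℤ)) (z : X × ℕ) : V Γ :=
  if z ∈ E then toR (A z) else 0

omit [Countable Γ] [MulAction Γ X] in
theorem colR_bk [Countable Γ] {C : ℕ} {E : Set (X × ℕ)}
    (hE : ∀ i, MeasurableSet {x | (x, i) ∈ E})
    (hEC : ∀ z ∈ E, z.2 < C) {A : X × ℕ → (Γ × ℕ →₀ ℤ)}
    (hA : ∀ i c, MeasurableSet {x | A (x, i) = c}) (Φ : Finset (Γ × ℕ →₀ ℤ))
    (hΦ : ∀ z ∈ E, A z ∈ Φ) (hC : ∀ c ∈ Φ, ∀ p ∈ c.support, p.2 < C) : BK C (colR E A) := by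
  classical
  refine ⟨⟨Φ.biUnion fun c => c.support.image Prod.fst, ?_⟩, ?_,
    ⟨∑ c ∈ Φ, ∑ p ∈ c.support, |(c p : ℝ)|, ?_, ?_⟩, ?_⟩
  · intro z q hq
    unfold colR at hq
    split_ifs at hq with h
    · rw [toR_support] at hq
      rw [Finset.mem_product]
      exact ⟨Finset.mem_biUnion.2 ⟨A z, hΦ z h, Finset.mem_image_of_mem _ hq⟩,
        Finset.mem_range.2 (hC _ (hΦ z h) _ hq)⟩
    · simp at hq
  · intro x i hi
    unfold colR
    rw [if_neg]
    intro h
    have : i < C := hEC _ h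
    omega
  · exact Finset.sum_nonneg fun c _ => Finset.sum_nonneg fun p _ => abs_nonneg _
  · intro z q
    have hnn : 0 ≤ ∑ c ∈ Φ, ∑ p ∈ c.support, |(c p : ℝ)| :=
      Finset.sum_nonneg fun c _ => Finset.sum_nonneg fun p _ => abs_nonneg _
    unfold colR
    split_ifs with h
    · rw [toR_apply]
      by_cases hq : A z q = 0
      · rw [hq]; simpa using hnn
      · calc |(A z q : ℝ)| ≤ ∑ p ∈ (A z).support, |(A z p : ℝ)| :=
              Finset.single_le_sum (f := fun p => |(A z p : ℝ)|) (fun p _ => abs_nonneg _)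
                (Finsupp.mem_support_iff.2 hq)
          _ ≤ _ := Finset.single_le_sum
                (f := fun c : Γ × ℕ →₀ ℤ => ∑ p ∈ c.support, |(c p : ℝ)|)
                (fun c _ => Finset.sum_nonneg fun p _ => abs_nonneg _) (hΦ z h)
    · simpa using hnn
  · intro i q
    let _ : MeasurableSpace (Γ × ℕ →₀ ℤ) := ⊤
    have h1 : Measurable fun x => A (x, i) := by
      refine measurable_to_countable' fun c => ?_
      exact hA i c
    have h2 : Measurable fun c : Γ × ℕ →₀ ℤ => (c q : ℝ) := measurable_from_top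
    have : (fun x => colR E A (x, i) q) = fun x => if (x, i) ∈ E then (A (x, i) q : ℝ) else 0 := by
      funext x
      unfold colR
      split_ifs
      · rw [toR_apply]
      · rfl
    rw [this]
    exact Measurable.ite (hE i) (h2.comp h1) measurable_const

end RankAux

open RankAux in
/-- Kernels in relative form: the coefficient of the column of `(x,i)` at `(g • x, j)` is
`A (x,i) (g,j)`. -/
theorem rank_le [IsProbabilityMeasure μ] (hmp : ∀ g : Γ, MeasurePreserving (fun x : X => g • x) μ μ)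
    (E Z : Set (X × ℕ)) (hE : ∀ i, MeasurableSet {x | (x, i) ∈ E})
    (hZ : ∀ i, MeasurableSet {x | (x, i) ∈ Z}) (hEfin : size μ E ≠ ⊤) (hZfin : size μ Z ≠ ⊤)
    (A S : X × ℕ → (Γ × ℕ →₀ ℤ)) (hA : ∀ i c, MeasurableSet {x | A (x, i) = c})
    (hS : ∀ i c, MeasurableSet {x | S (x, i) = c})
    (hAZ : ∀ e ∈ E, ∀ p ∈ (A e).support, (p.1 • e.1, p.2) ∈ Z)
    (hSE : ∀ z ∈ Z, ∀ p ∈ (S z).support, (p.1 • z.1, p.2) ∈ E)
    (hSA : ∀ e ∈ E, ((A e).sum fun p n =>
      n • (S (p.1 • e.1, p.2)).mapDomain fun p' => (p'.1 * p.1, p'.2)) =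
        Finsupp.single (1, e.2) 1) :
    size μ E ≤ size μ Z := by
  classical
  obtain ⟨enc, henc⟩ := exists_injective_nat (Γ × ℕ →₀ ℤ)
  set Zm : ℕ → Set (X × ℕ) := fun m => {z | z ∈ Z ∧ z.2 < m ∧ enc (S z) < m} with hZm
  set Em : ℕ → Set (X × ℕ) := fun m => {z | z ∈ E ∧ z.2 < m ∧ enc (A z) < m ∧
    ∀ p ∈ (A z).support, (p.1 • z.1, p.2) ∈ Zm m} with hEm
  have hsm : ∀ g : Γ, Measurable fun x : X => g • x := fun g => (hmp g).measurable
  -- measurability
  have encm : ∀ (B : X × ℕ → (Γ × ℕ →₀ ℤ)), (∀ i c, MeasurableSet {x | B (x, i) = c}) →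
      ∀ i (T : Set (Γ × ℕ →₀ ℤ)), MeasurableSet {x | B (x, i) ∈ T} := by
    intro B hB i T
    have : {x | B (x, i) ∈ T} = ⋃ c ∈ T, {x | B (x, i) = c} := by
      ext x; simp
    rw [this]
    exact MeasurableSet.biUnion (Set.to_countable T) fun c _ => hB i c
  have mZ : ∀ m i, MeasurableSet {x | (x, i) ∈ Zm m} := by
    intro m i
    have : {x | (x, i) ∈ Zm m} = {x | (x, i) ∈ Z} ∩ ({x | i < m} ∩ {x | S (x, i) ∈ {c | enc c < m}}) := by
      ext x
      simp only [hZm, Set.mem_ofPred_eq, Set.mem_inter_iff]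
    rw [this]
    exact (hZ i).inter ((MeasurableSet.const _).inter (encm S hS i _))
  have mE : ∀ m i, MeasurableSet {x | (x, i) ∈ Em m} := by
    intro m i
    have : {x | (x, i) ∈ Em m} = {x | (x, i) ∈ E} ∩ ({x | i < m} ∩ ({x | A (x, i) ∈ {c | enc c < m}} ∩
        ⋃ c : Γ × ℕ →₀ ℤ, ({x | A (x, i) = c} ∩ ⋂ p ∈ c.support, {x | (p.1 • x, p.2) ∈ Zm m}))) := by
      ext x
      simp only [hEm, Set.mem_ofPred_eq, Set.mem_inter_iff, Set.mem_iUnion, Set.mem_iInter]
      constructor
      · rintro ⟨h1, h2, h3, h4⟩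
        exact ⟨h1, h2, h3, A (x, i), rfl, h4⟩
      · rintro ⟨h1, h2, h3, c, h5, h6⟩
        subst h5
        exact ⟨h1, h2, h3, h6⟩
    rw [this]
    refine (hE i).inter ((MeasurableSet.const _).inter ((encm A hA i _).inter ?_))
    refine MeasurableSet.iUnion fun c => (hA i c).inter ?_
    refine Finset.measurableSet_biInter _ fun p _ => ?_
    exact (mZ m p.2).preimage (hsm p.1)
  -- each truncation
  have step : ∀ m, size μ (Em m) ≤ size μ Z := by
    intro m
    have hfin : ({c : Γ × ℕ →₀ ℤ | enc c < m}).Finite :=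
      (Set.finite_lt_nat m).preimage henc.injOn
    set Φ := hfin.toFinset with hΦ
    have hΦm : ∀ c, enc c < m → c ∈ Φ := fun c hc => by
      rw [hΦ, Set.Finite.mem_toFinset]; exact hc
    set C := m + (Φ.sup fun c => c.support.sup fun p => p.2) + 1 with hCdef
    have hC : ∀ c ∈ Φ, ∀ p ∈ c.support, p.2 < C := by
      intro c hc p hp
      have h1 : p.2 ≤ c.support.sup fun p => p.2 := Finset.le_sup (f := fun p : Γ × ℕ => p.2) hp
      have h2 : (c.support.sup fun p => p.2) ≤ Φ.sup fun c => c.support.sup fun p => p.2 :=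
        Finset.le_sup (f := fun c : Γ × ℕ →₀ ℤ => c.support.sup fun p => p.2) hc
      omega
    have hEC : ∀ z ∈ Em m, z.2 < C := fun z hz => by
      have := hz.2.1
      omega
    have hZC : ∀ z ∈ Zm m, z.2 < C := fun z hz => by
      have := hz.2.1
      omega
    have key := rank_bdd (C := C) hmp (mE m) (mZ m) hEC hZC
      (Ka := colR (Em m) A) (Ks := colR (Zm m) S)
      (colR_bk (mE m) hEC hA Φ (fun z hz => hΦm _ hz.2.2.1) hC)
      (colR_bk (mZ m) hZC hS Φ (fun z hz => hΦm _ hz.2.2) hC)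
      (fun z hz => by unfold colR; rw [if_neg hz]) (by
        intro z p hp
        unfold colR at hp
        split_ifs at hp with h
        · rw [toR_support] at hp
          exact h.2.2.2 p hp
        · simp at hp) (by
        intro z hz
        have hcol : colR (Em m) A z = toR (A z) := by unfold colR; rw [if_pos hz]
        rw [hcol]
        ext q
        rw [apply_eq_sum (op (colR (Zm m) S) z.1) (toR (A z)) (T := (A z).support)
          (by rw [toR_support])]
        have h1 := congrArg (fun c : Γ × ℕ →₀ ℤ => ((c q : ℤ) : ℝ)) (hSA z hz.1)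
        have hR : (((Finsupp.single (1, z.2) 1 : Γ × ℕ →₀ ℤ) q : ℤ) : ℝ) = (Finsupp.single (1, z.2) 1 : V Γ) q := by
          rw [Finsupp.single_apply, Finsupp.single_apply]
          split_ifs <;> simp
        rw [← hR, ← h1, Finsupp.sum, Finsupp.finsetSum_apply, Int.cast_sum]
        refine Finset.sum_congr rfl fun p hp => ?_
        have hpZ := hz.2.2.2 p hp
        have hcol2 : colR (Zm m) S (p.1 • z.1, p.2) = toR (S (p.1 • z.1, p.2)) := by
          unfold colR; rw [if_pos hpZ]
        rw [op_single, hcol2, sh_apply, toR_apply, toR_apply, Finsupp.smul_apply, smul_eq_mul,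
          Int.cast_mul]
        congr 2
        have hinj : Function.Injective (fun p' : Γ × ℕ => (p'.1 * p.1, p'.2)) := by
          intro a b h
          simp only [Prod.mk.injEq, mul_left_inj] at h
          exact Prod.ext h.1 h.2
        have h2 := Finsupp.mapDomain_apply hinj (S (p.1 • z.1, p.2)) (q.1 * p.1⁻¹, q.2)
        simp only [inv_mul_cancel_right, Prod.mk.eta] at h2
        exact h2.symm)
    have hsz : size μ (Em m) = ∑ i ∈ Finset.range C, μ {x | (x, i) ∈ Em m} := by
      unfold size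
      refine tsum_eq_sum fun i hi => ?_
      have : {x | (x, i) ∈ Em m} = ∅ := by
        ext x
        simp only [Set.mem_ofPred_eq, Set.mem_empty_iff_false, iff_false]
        intro h
        exact hi (Finset.mem_range.2 (hEC _ h))
      rw [this, measure_empty]
    have hcast : ∀ T : Set (X × ℕ), ∑ i ∈ Finset.range C, μ {x | (x, i) ∈ T} =
        ENNReal.ofReal (∑ i ∈ Finset.range C, μ.real {x | (x, i) ∈ T}) := by
      intro T
      rw [ENNReal.ofReal_sum_of_nonneg fun i _ => measureReal_nonneg]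
      refine Finset.sum_congr rfl fun i _ => ?_
      rw [ofReal_measureReal]
    calc size μ (Em m) = ∑ i ∈ Finset.range C, μ {x | (x, i) ∈ Em m} := hsz
      _ ≤ ∑ i ∈ Finset.range C, μ {x | (x, i) ∈ Zm m} := by
          rw [hcast, hcast]
          exact ENNReal.ofReal_le_ofReal key
      _ ≤ ∑ i ∈ Finset.range C, μ {x | (x, i) ∈ Z} :=
          Finset.sum_le_sum fun i _ => measure_mono fun x hx => hx.1
      _ ≤ size μ Z := ENNReal.sum_le_tsum _
  -- the limit
  have hZmono : Monotone Zm := fun m m' hm z hz => ⟨hz.1, hz.2.1.trans_le hm, hz.2.2.trans_le hm⟩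
  have hEmono : Monotone Em := fun m m' hm z hz =>
    ⟨hz.1, hz.2.1.trans_le hm, hz.2.2.1.trans_le hm, fun p hp => hZmono hm (hz.2.2.2 p hp)⟩
  have hunion : ∀ i, {x | (x, i) ∈ E} = ⋃ m, {x | (x, i) ∈ Em m} := by
    intro i
    ext x
    simp only [Set.mem_ofPred_eq, Set.mem_iUnion]
    constructor
    · intro h
      set M := i + enc (A (x, i)) + (∑ p ∈ (A (x, i)).support,
        (p.2 + enc (S (p.1 • x, p.2)))) + 1 with hM
      refine ⟨M, h, by simp only; omega, by omega, fun p hp => ⟨hAZ _ h p hp, ?_, ?_⟩⟩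
      · have := Finset.single_le_sum (f := fun p : Γ × ℕ => p.2 + enc (S (p.1 • x, p.2)))
          (fun p _ => Nat.zero_le _) hp
        simp only at this ⊢
        omega
      · have := Finset.single_le_sum (f := fun p : Γ × ℕ => p.2 + enc (S (p.1 • x, p.2)))
          (fun p _ => Nat.zero_le _) hp
        simp only at this ⊢
        omega
    · rintro ⟨m, h⟩
      exact h.1
  unfold size at step ⊢
  refine ENNReal.tsum_le_of_sum_range_le fun n => ?_
  have hmono : ∀ i, Monotone fun m => {x | (x, i) ∈ Em m} := fun i m m' hm x hx => hEmono hm hx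
  have h1 : ∀ i, μ {x | (x, i) ∈ E} = ⨆ m, μ {x | (x, i) ∈ Em m} := by
    intro i
    rw [hunion i, (hmono i).measure_iUnion]
  simp only [h1]
  rw [ENNReal.finsetSum_iSup_of_monotone fun i m m' hm => measure_mono (hmono i hm)]
  refine iSup_le fun m => ?_
  exact (ENNReal.sum_le_tsum _).trans (step m)

end Crest.Agent.FP
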