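import Crest.Agent.FP.Mtp

/-! Row 191 (S0291), chunk R2a: small sections of the aux vertices. -/
set_option autoImplicit false
set_option linter.unusedSectionVars false

open MeasureTheory
open scoped ENNReal

namespace Crest.Agent.FP

namespace Sys

variable {Γ : Type} [Group Γ] [Countable Γ] {m : ℕ} [NeZero m] {X : Type} [MulAction Γ X]
  [MeasurableSpace X] {D : GD Γ m} {μ : Measure X}

open Classical in
/-- `0-1` valued indicator of a proposition -/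
noncomputable def secI (p : Prop) : ℝ≥0∞ := if p then 1 else 0

theorem secI_pos {p : Prop} (h : p) : secI p = 1 := if_pos h

theorem secI_neg {p : Prop} (h : ¬ p) : secI p = 0 := if_neg h

theorem secI_mono {p q : Prop} (h : p → q) : secI p ≤ secI q := by
  by_cases hp : p
  · rw [secI_pos hp, secI_pos (h hp)]
  · rw [secI_neg hp]; exact bot_le

omit [MulAction Γ X] in
theorem secI_meas {p : X → Prop} (hp : MeasurableSet {x | p x}) :
    Measurable fun x => secI (p x) := by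
  unfold secI
  exact Measurable.ite hp measurable_const measurable_const

theorem lint_secI {p : X → Prop} (hp : MeasurableSet {x | p x}) :
    ∫⁻ x, secI (p x) ∂μ = μ {x | p x} := by
  have : (fun x => secI (p x)) = {x | p x}.indicator (fun _ => 1) := by
    funext x
    by_cases h : p x
    · rw [secI_pos h, Set.indicator_of_mem (by exact h)]
    · rw [secI_neg h, Set.indicator_of_notMem (by exact h)]
  rw [this, lintegral_indicator_const hp, one_mul]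

theorem tsum_secI {α : Type} (s : Set α) : ∑' a, secI (a ∈ s) = (s.encard : ℝ≥0∞) := by
  have : (fun a => secI (a ∈ s)) = s.indicator (fun _ => 1) := by
    funext a
    by_cases h : a ∈ s
    · rw [secI_pos h, Set.indicator_of_mem h]
    · rw [secI_neg h, Set.indicator_of_notMem h]
  rw [this, ← tsum_subtype, ENNReal.tsum_set_one]

/-- `dsize` as a sum over `ℕ × Bool` -/
theorem dsize_eq_tsum (B : Set (Dart X)) :
    dsize μ B = ∑' k : ℕ × Bool, μ {x | ((x, k.1), k.2) ∈ B} := by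
  rw [ENNReal.tsum_prod (f := fun i s => μ {x | ((x, i), s) ∈ B})]
  unfold dsize
  exact tsum_congr fun i => (tsum_bool fun s => μ {x | ((x, i), s) ∈ B}).symm

/-- `dsize` as an integral -/
theorem dsize_eq_lint (B : Set (Dart X)) (hB : ∀ i s, MeasurableSet {x | ((x, i), s) ∈ B}) :
    dsize μ B = ∫⁻ x, ∑' k : ℕ × Bool, secI (((x, k.1), k.2) ∈ B) ∂μ := by
  rw [dsize_eq_tsum, lintegral_tsum (f := fun (k : ℕ × Bool) x => secI (((x, k.1), k.2) ∈ B))
    fun k => (secI_meas (hB k.1 k.2)).aemeasurable]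
  exact tsum_congr fun k => (lint_secI (hB k.1 k.2)).symm

theorem dsize_mono {B C : Set (Dart X)} (h : B ⊆ C) : dsize μ B ≤ dsize μ C := by
  rw [dsize_eq_tsum, dsize_eq_tsum]
  exact ENNReal.tsum_le_tsum fun k => measure_mono fun x hx => h hx

/-- the number of darts over the edges is twice the number of edges -/
theorem dsize_le_size {B : Set (Dart X)} {E : Set (X × ℕ)} (h : ∀ η ∈ B, η.1 ∈ E) :
    dsize μ B ≤ 2 * size μ E := by
  unfold dsize size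
  rw [← ENNReal.tsum_mul_left]
  refine ENNReal.tsum_le_tsum fun i => ?_
  rw [two_mul]
  exact add_le_add (measure_mono fun x hx => h _ hx) (measure_mono fun x hx => h _ hx)

/-- continuity from above of `dsize` -/
theorem dsize_tendsto (B : ℕ → Set (Dart X)) (hB : ∀ N i s, MeasurableSet {x | ((x, i), s) ∈ B N})
    (hanti : Antitone B) (hfin : dsize μ (B 0) ≠ ⊤) :
    Filter.Tendsto (fun N => dsize μ (B N)) Filter.atTop (nhds (dsize μ (⋂ N, B N))) := by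
  set ν : Measure (X × (ℕ × Bool)) := Measure.sum fun k : ℕ × Bool => μ.map fun x => (x, k) with hν
  have hmk : ∀ k : ℕ × Bool, Measurable fun x : X => (x, k) := fun k =>
    measurable_id.prodMk measurable_const
  have hms : ∀ C : Set (Dart X), (∀ i s, MeasurableSet {x | ((x, i), s) ∈ C}) →
      MeasurableSet {p : X × (ℕ × Bool) | ((p.1, p.2.1), p.2.2) ∈ C} := by
    intro C hC
    have : {p : X × (ℕ × Bool) | ((p.1, p.2.1), p.2.2) ∈ C} =
        ⋃ k : ℕ × Bool, {x | ((x, k.1), k.2) ∈ C} ×ˢ {k} := by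
      ext p
      simp only [Set.mem_ofPred_eq, Set.mem_iUnion, Set.mem_prod, Set.mem_singleton_iff]
      constructor
      · intro h; exact ⟨p.2, h, rfl⟩
      · rintro ⟨k, h, rfl⟩; exact h
    rw [this]
    exact MeasurableSet.iUnion fun k => (hC k.1 k.2).prod (measurableSet_singleton k)
  have hνC : ∀ C : Set (Dart X), (∀ i s, MeasurableSet {x | ((x, i), s) ∈ C}) →
      ν {p : X × (ℕ × Bool) | ((p.1, p.2.1), p.2.2) ∈ C} = dsize μ C := by
    intro C hC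
    rw [hν, Measure.sum_apply _ (hms C hC), dsize_eq_tsum]
    refine tsum_congr fun k => ?_
    rw [Measure.map_apply (hmk k) (hms C hC)]
    rfl
  have h1 := tendsto_measure_iInter_atTop (μ := ν)
    (s := fun N => {p : X × (ℕ × Bool) | ((p.1, p.2.1), p.2.2) ∈ B N})
    (fun N => (hms _ (hB N)).nullMeasurableSet)
    (fun a b hab p hp => hanti hab hp)
    ⟨0, by rw [hνC _ (hB 0)]; exact hfin⟩
  have h2 : ⋂ N, {p : X × (ℕ × Bool) | ((p.1, p.2.1), p.2.2) ∈ B N} =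
      {p : X × (ℕ × Bool) | ((p.1, p.2.1), p.2.2) ∈ ⋂ N, B N} := by
    ext p
    simp
  have h3 : ∀ i s, MeasurableSet {x | ((x, i), s) ∈ ⋂ N, B N} := by
    intro i s
    have : {x | ((x, i), s) ∈ ⋂ N, B N} = ⋂ N, {x | ((x, i), s) ∈ B N} := by ext x; simp
    rw [this]
    exact MeasurableSet.iInter fun N => hB N i s
  rw [h2, hνC _ h3] at h1
  refine h1.congr fun N => ?_
  exact hνC _ (hB N)

/-- level functions separating the darts -/
theorem exists_levels (hS : Sp D X μ) : ∃ c : ℕ → Dart X → ℕ,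
    (∀ N i s, Measurable fun x => c N ((x, i), s)) ∧ (∀ N η, c N η = c (N + 1) η / 2) ∧
    (∀ η ζ, (∀ N, c N η = c N ζ) → η = ζ) := by
  obtain ⟨φ, hφm, hφi⟩ := hS.emb
  set ψ : X → ℝ := fun x => (Real.arctan (φ x) + 2) / 4 with hψ
  have hψ0 : ∀ x, 0 < ψ x := by
    intro x
    have h1 := Real.neg_pi_div_two_lt_arctan (φ x)
    have h2 := Real.pi_lt_four
    simp only [hψ]
    linarith
  have hψ1 : ∀ x, ψ x < 1 := by
    intro x
    have h1 := Real.arctan_lt_pi_div_two (φ x)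
    have h2 := Real.pi_lt_four
    simp only [hψ]
    linarith
  have hψi : ∀ x y, ψ x = ψ y → x = y := by
    intro x y h
    apply hφi
    apply Real.arctan_injective
    simp only [hψ] at h
    linarith
  have hψm : Measurable ψ :=
    ((Real.continuous_arctan.measurable.comp hφm).add_const 2).div_const 4
  set κ : ℕ → Bool → ℕ := fun i s => 2 * i + (if s then 1 else 0) with hκ
  have hκi : ∀ i s j t, κ i s = κ j t → i = j ∧ s = t := by
    intro i s j t h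
    simp only [hκ] at h
    cases s <;> cases t <;> simp at h <;> first | exact ⟨h, rfl⟩ | omega
  set θ : Dart X → ℝ := fun η => (κ η.1.2 η.2 : ℝ) + ψ η.1.1 with hθ
  have hθ0 : ∀ η, 0 ≤ θ η := fun η => add_nonneg (Nat.cast_nonneg _) (hψ0 _).le
  have hθi : ∀ η ζ, θ η = θ ζ → η = ζ := by
    rintro ⟨⟨x, i⟩, s⟩ ⟨⟨y, j⟩, t⟩ h
    simp only [hθ] at h
    have h0x := hψ0 x
    have h1x := hψ1 x
    have h0y := hψ0 y
    have h1y := hψ1 y
    have hk : κ i s = κ j t := by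
      have a1 : (κ i s : ℝ) < κ j t + 1 := by linarith
      have a2 : (κ j t : ℝ) < κ i s + 1 := by linarith
      have b1 : κ i s < κ j t + 1 := by exact_mod_cast a1
      have b2 : κ j t < κ i s + 1 := by exact_mod_cast a2
      omega
    rw [hk] at h
    have hxy := hψi x y (by linarith)
    obtain ⟨h1, h2⟩ := hκi _ _ _ _ hk
    rw [hxy, h1, h2]
  refine ⟨fun N η => ⌊2 ^ N * θ η⌋₊, ?_, ?_, ?_⟩
  · intro N i s
    refine Nat.measurable_floor.comp ?_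
    exact (hψm.const_add (κ i s : ℝ)).const_mul (2 ^ N)
  · intro N η
    have : (2 : ℝ) ^ N * θ η = 2 ^ (N + 1) * θ η / (2 : ℕ) := by
      push_cast; ring
    simp only
    rw [this, Nat.floor_div_natCast]
  · intro η ζ h
    apply hθi
    by_contra hne
    have hpos : 0 < |θ η - θ ζ| := abs_pos.2 (sub_ne_zero.2 hne)
    obtain ⟨N, hN⟩ := exists_nat_gt (1 / |θ η - θ ζ|)
    have hN2 : (N : ℝ) < 2 ^ N := by exact_mod_cast Nat.lt_two_pow_self
    have h1 : 1 < 2 ^ N * |θ η - θ ζ| := by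
      have := hN.trans hN2
      rwa [div_lt_iff₀ hpos] at this
    have h2 := h N
    simp only at h2
    have p0 : (0 : ℝ) ≤ 2 ^ N := by positivity
    have e1 := Nat.floor_le (mul_nonneg p0 (hθ0 η))
    have e2 := Nat.lt_floor_add_one (2 ^ N * θ η)
    have e3 := Nat.floor_le (mul_nonneg p0 (hθ0 ζ))
    have e4 := Nat.lt_floor_add_one (2 ^ N * θ ζ)
    rw [h2] at e1 e2
    have h3 : |2 ^ N * θ η - 2 ^ N * θ ζ| < 1 := by
      rw [abs_lt]; constructor <;> linarith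
    rw [← mul_sub, abs_mul, abs_of_nonneg p0] at h3
    linarith

/-- the other end of a `V`-pair lies in the same orbit -/
theorem V_orbit_sec {Y : Sys Γ X m} (hY : Y.Ax D) {η ζ : Dart X} (h : Y.V η ζ) :
    ∃ g : Γ, ζ.1.1 = g • η.1.1 := by
  obtain ⟨t, -, ht⟩ := hY.V_T _ _ h
  have h1 : ∃ g : Γ, D.pos η = g • η.1.1 := by
    unfold GD.pos
    split_ifs
    · exact ⟨_, rfl⟩
    · exact ⟨1, (one_smul _ _).symm⟩
  have h2 : ∃ g : Γ, ζ.1.1 = g • D.pos ζ := by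
    unfold GD.pos
    split_ifs
    · exact ⟨(D.a)⁻¹, (inv_smul_smul _ _).symm⟩
    · exact ⟨1, (one_smul _ _).symm⟩
  obtain ⟨g1, h1⟩ := h1
  obtain ⟨g2, h2⟩ := h2
  refine ⟨g2 * t * g1, ?_⟩
  rw [h2, ← ht, h1, mul_smul, mul_smul]

/-- coding of the darts in an orbit -/
def dc (x : X) (p : Γ × (ℕ × Bool)) : Dart X := ((p.1 • x, p.2.1), p.2.2)

theorem dc_inj (hS : Sp D X μ) (x : X) : Function.Injective (dc (Γ := Γ) x) := by
  rintro ⟨g, i, s⟩ ⟨g', j, t⟩ h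
  simp only [dc, Prod.mk.injEq] at h
  obtain ⟨⟨h1, h2⟩, h3⟩ := h
  have h4 : (g'⁻¹ * g) • x = x := by rw [mul_smul, h1, inv_smul_smul]
  have h5 := hS.free _ _ h4
  have h6 : g = g' := by
    have := congrArg (fun u => g' * u) h5
    simpa using this
  rw [h6, h2, h3]

/-- the valency as a sum -/
theorem val_eq_tsum (hS : Sp D X μ) {Y : Sys Γ X m} (hY : Y.Ax D) (x : X) (k : ℕ × Bool) :
    (Y.val ((x, k.1), k.2) : ℝ≥0∞) =
      ∑' g : Γ, ∑' l : ℕ × Bool, secI (Y.V ((x, k.1), k.2) ((g • x, l.1), l.2)) := by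
  rw [← ENNReal.tsum_prod (f := fun (g : Γ) (l : ℕ × Bool) =>
    secI (Y.V ((x, k.1), k.2) ((g • x, l.1), l.2)))]
  have h1 := tsum_secI {p : Γ × (ℕ × Bool) | Y.V ((x, k.1), k.2) (dc x p)}
  have h2 : {ζ | Y.V ((x, k.1), k.2) ζ} =
      dc x '' {p : Γ × (ℕ × Bool) | Y.V ((x, k.1), k.2) (dc x p)} := by
    ext ζ
    constructor
    · intro h
      obtain ⟨g, hg⟩ := V_orbit_sec hY h
      simp only at hg
      have e : dc x (g, (ζ.1.2, ζ.2)) = ζ := by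
        simp only [dc, ← hg]
      exact ⟨(g, (ζ.1.2, ζ.2)), by simpa only [Set.mem_ofPred_eq, e] using h, e⟩
    · rintro ⟨p, hp, rfl⟩
      exact hp
  unfold val
  rw [h2, (dc_inj hS x).encard_image, ← h1]
  rfl

theorem val_meas (hS : Sp D X μ) {Y : Sys Γ X m} (hY : Y.Ax D) (hM : Y.Meas) (k : ℕ × Bool) :
    Measurable fun x : X => (Y.val ((x, k.1), k.2) : ℝ≥0∞) := by
  have : (fun x : X => (Y.val ((x, k.1), k.2) : ℝ≥0∞)) = fun x =>
      ∑' g : Γ, ∑' l : ℕ × Bool, secI (Y.V ((x, k.1), k.2) ((g • x, l.1), l.2)) := by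
    funext x; exact val_eq_tsum hS hY x k
  rw [this]
  exact Measurable.ennreal_tsum fun g => Measurable.ennreal_tsum fun l =>
    secI_meas (hM.mV g k.1 l.1 k.2 l.2)

theorem val_congr {Y : Sys Γ X m} (hY : Y.Ax D) {η ζ : Dart X} (h : Y.V η ζ) :
    Y.val η = Y.val ζ := by
  unfold val
  congr 1
  ext ξ
  exact ⟨fun h' => hY.V_trans _ _ _ (hY.V_symm _ _ h) h', fun h' => hY.V_trans _ _ _ h h'⟩

theorem val_ne_zero {Y : Sys Γ X m} (hY : Y.Ax D) {η : Dart X} (h : η.1 ∈ Y.E) :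
    (Y.val η : ℝ≥0∞) ≠ 0 := by
  unfold val
  rw [Ne, ENat.toENNReal_eq_zero, Set.encard_eq_zero]
  exact Set.Nonempty.ne_empty ⟨η, hY.V_refl _ h⟩

/-- `Vfin` as an integral -/
theorem Vfin_eq (hS : Sp D X μ) {Y : Sys Γ X m} (hY : Y.Ax D) (hM : Y.Meas) :
    Y.Vfin μ = ∫⁻ x, ∑' k : ℕ × Bool, secI ((x, k.1) ∈ Y.E ∧ ((x, k.1), k.2) ∉ Y.Pr) *
      (Y.val ((x, k.1), k.2) : ℝ≥0∞)⁻¹ ∂μ := by
  have hm : ∀ k : ℕ × Bool,
      MeasurableSet {x : X | (x, k.1) ∈ Y.E ∧ ((x, k.1), k.2) ∉ Y.Pr} := fun k =>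
    (hM.mE k.1).inter (hM.mPr k.1 k.2).compl
  rw [lintegral_tsum (f := fun (k : ℕ × Bool) x =>
    secI ((x, k.1) ∈ Y.E ∧ ((x, k.1), k.2) ∉ Y.Pr) * (Y.val ((x, k.1), k.2) : ℝ≥0∞)⁻¹)
    fun k => ((secI_meas (hm k)).mul (val_meas hS hY hM k).inv).aemeasurable]
  rw [ENNReal.tsum_prod (f := fun (i : ℕ) (s : Bool) => ∫⁻ x,
    secI ((x, i) ∈ Y.E ∧ ((x, i), s) ∉ Y.Pr) * (Y.val ((x, i), s) : ℝ≥0∞)⁻¹ ∂μ)]
  unfold Vfin
  refine tsum_congr fun i => ?_
  rw [tsum_fintype]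
  refine Finset.sum_congr rfl fun s _ => ?_
  rw [← lintegral_indicator (hm (i, s))]
  refine lintegral_congr fun x => ?_
  by_cases h : (x, i) ∈ Y.E ∧ ((x, i), s) ∉ Y.Pr
  · rw [secI_pos h, one_mul, Set.indicator_of_mem (by exact h)]
  · rw [secI_neg h, zero_mul, Set.indicator_of_notMem (by exact h)]

/-- mass transport from a partial transversal -/
theorem section_transport (hS : Sp D X μ) {Y : Sys Γ X m} (hY : Y.Ax D) (hM : Y.Meas)
    {B : Set (Dart X)} (hBm : ∀ i s, MeasurableSet {x | ((x, i), s) ∈ B})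
    (hBa : ∀ η ∈ B, η.1 ∈ Y.E ∧ η ∉ Y.Pr) (hB1 : ∀ η ζ, η ∈ B → ζ ∈ B → Y.V η ζ → η = ζ)
    (w : Dart X → ℝ≥0∞) (hwm : ∀ i s, Measurable fun x => w ((x, i), s))
    (hw : ∀ η ζ, Y.V η ζ → w η = w ζ) :
    ∫⁻ x, ∑' k : ℕ × Bool, secI (((x, k.1), k.2) ∈ B) *
      ((Y.val ((x, k.1), k.2) : ℝ≥0∞) * w ((x, k.1), k.2)) ∂μ ≤
    ∫⁻ x, ∑' k : ℕ × Bool, secI ((x, k.1) ∈ Y.E ∧ ((x, k.1), k.2) ∉ Y.Pr) *
      w ((x, k.1), k.2) ∂μ := by
  have h := mtp hS (ι := ℕ × Bool) (κ := ℕ × Bool)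
    (fun x k g l => secI (((x, k.1), k.2) ∈ B ∧ Y.V ((x, k.1), k.2) ((g • x, l.1), l.2)) *
      w ((g • x, l.1), l.2)) (fun k g l => by
        refine Measurable.mul (secI_meas ?_) ((hwm l.1 l.2).comp (hS.mp g).measurable)
        exact (hBm k.1 k.2).inter (hM.mV g k.1 l.1 k.2 l.2))
  have hL : ∀ x, ∑' k : ℕ × Bool, ∑' g : Γ, ∑' l : ℕ × Bool,
      secI (((x, k.1), k.2) ∈ B ∧ Y.V ((x, k.1), k.2) ((g • x, l.1), l.2)) *
        w ((g • x, l.1), l.2) =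
      ∑' k : ℕ × Bool, secI (((x, k.1), k.2) ∈ B) *
        ((Y.val ((x, k.1), k.2) : ℝ≥0∞) * w ((x, k.1), k.2)) := by
    intro x
    refine tsum_congr fun k => ?_
    rw [val_eq_tsum hS hY x k, ← ENNReal.tsum_mul_right, ← ENNReal.tsum_mul_left]
    refine tsum_congr fun g => ?_
    rw [← ENNReal.tsum_mul_right, ← ENNReal.tsum_mul_left]
    refine tsum_congr fun l => ?_
    by_cases h1 : ((x, k.1), k.2) ∈ B
    · by_cases h2 : Y.V ((x, k.1), k.2) ((g • x, l.1), l.2)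
      · rw [secI_pos ⟨h1, h2⟩, secI_pos h1, secI_pos h2, hw _ _ h2, one_mul, one_mul]
      · rw [secI_neg (fun h => h2 h.2), secI_neg h2, zero_mul, zero_mul, mul_zero]
    · rw [secI_neg (fun h => h1 h.1), secI_neg h1, zero_mul, zero_mul]
  simp only [hL] at h
  rw [h]
  refine lintegral_mono fun x => ENNReal.tsum_le_tsum fun l => ?_
  have e1 : ∀ (g : Γ) (k : ℕ × Bool),
      secI (((g • x, k.1), k.2) ∈ B ∧ Y.V ((g • x, k.1), k.2) ((g⁻¹ • g • x, l.1), l.2)) *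
        w ((g⁻¹ • g • x, l.1), l.2) =
      secI ((g, k) ∈ {p : Γ × (ℕ × Bool) | dc x p ∈ B ∧ Y.V (dc x p) ((x, l.1), l.2)}) *
        w ((x, l.1), l.2) := by
    intro g k
    rw [inv_smul_smul]
    rfl
  simp only [e1]
  rw [← ENNReal.tsum_prod (f := fun (g : Γ) (k : ℕ × Bool) =>
    secI ((g, k) ∈ {p : Γ × (ℕ × Bool) | dc x p ∈ B ∧ Y.V (dc x p) ((x, l.1), l.2)}) *
        w ((x, l.1), l.2)), ENNReal.tsum_mul_right]
  refine mul_le_mul_left ?_ _
  have e2 : ∑' p : Γ × (ℕ × Bool), secI ((p.1, p.2) ∈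
      {p : Γ × (ℕ × Bool) | dc x p ∈ B ∧ Y.V (dc x p) ((x, l.1), l.2)}) =
      ({p : Γ × (ℕ × Bool) | dc x p ∈ B ∧ Y.V (dc x p) ((x, l.1), l.2)}.encard : ℝ≥0∞) :=
    tsum_secI _
  rw [e2]
  by_cases ha : (x, l.1) ∈ Y.E ∧ ((x, l.1), l.2) ∉ Y.Pr
  · rw [secI_pos ha]
    have : {p : Γ × (ℕ × Bool) | dc x p ∈ B ∧ Y.V (dc x p) ((x, l.1), l.2)}.encard ≤ 1 := by
      rw [Set.encard_le_one_iff_subsingleton]
      intro p hp q hq
      exact dc_inj hS x (hB1 _ _ hp.1 hq.1 (hY.V_trans _ _ _ hp.2 (hY.V_symm _ _ hq.2)))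
    calc ({p : Γ × (ℕ × Bool) | dc x p ∈ B ∧ Y.V (dc x p) ((x, l.1), l.2)}.encard : ℝ≥0∞) ≤
        ((1 : ℕ∞) : ℝ≥0∞) := ENat.toENNReal_mono this
      _ = 1 := by simp
  · rw [secI_neg ha]
    have : {p : Γ × (ℕ × Bool) | dc x p ∈ B ∧ Y.V (dc x p) ((x, l.1), l.2)} = ∅ := by
      rw [Set.eq_empty_iff_forall_notMem]
      rintro p ⟨h1, h2⟩
      apply ha
      refine ⟨hY.V_E _ _ (hY.V_symm _ _ h2), fun h3 => (hBa _ h1).2 ?_⟩
      exact hY.Pr_V _ _ h3 (hY.V_symm _ _ h2)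
    rw [this]
    simp

/-- a partial transversal has measure at most `Vfin` -/
theorem dsize_transversal_le (hS : Sp D X μ) {Y : Sys Γ X m} (hY : Y.Ax D) (hM : Y.Meas)
    (hE : size μ Y.E ≠ ⊤)
    {B : Set (Dart X)} (hBm : ∀ i s, MeasurableSet {x | ((x, i), s) ∈ B})
    (hBa : ∀ η ∈ B, η.1 ∈ Y.E ∧ η ∉ Y.Pr) (hB1 : ∀ η ζ, η ∈ B → ζ ∈ B → Y.V η ζ → η = ζ) :
    dsize μ B ≤ Y.Vfin μ := by
  have h1 := section_transport hS hY hM hBm hBa hB1 (fun _ => 1) (fun _ _ => measurable_const)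
    (fun _ _ _ => rfl)
  have h2 := section_transport hS hY hM hBm hBa hB1 (fun η => (Y.val η : ℝ≥0∞)⁻¹)
    (fun i s => (val_meas hS hY hM (i, s)).inv)
    (fun η ζ h => by simp only [val_congr hY h])
  have hAm : ∀ i s, MeasurableSet {x | ((x, i), s) ∈ {η : Dart X | η.1 ∈ Y.E ∧ η ∉ Y.Pr}} :=
    fun i s => (hM.mE i).inter (hM.mPr i s).compl
  have h3 : ∫⁻ x, ∑' k : ℕ × Bool, secI ((x, k.1) ∈ Y.E ∧ ((x, k.1), k.2) ∉ Y.Pr) * 1 ∂μ ≤
      2 * size μ Y.E := by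
    simp only [mul_one]
    have := dsize_eq_lint (μ := μ) {η : Dart X | η.1 ∈ Y.E ∧ η ∉ Y.Pr} hAm
    have h4 := dsize_le_size (μ := μ) (B := {η : Dart X | η.1 ∈ Y.E ∧ η ∉ Y.Pr}) (E := Y.E)
      (fun η h => h.1)
    rw [this] at h4
    exact h4
  have hfin : ∫⁻ x, ∑' k : ℕ × Bool, secI (((x, k.1), k.2) ∈ B) *
      ((Y.val ((x, k.1), k.2) : ℝ≥0∞) * 1) ∂μ ≠ ⊤ := by
    refine ne_top_of_le_ne_top ?_ (h1.trans h3)
    exact ENNReal.mul_ne_top (by simp) hE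
  have hmeas : Measurable fun x => ∑' k : ℕ × Bool, secI (((x, k.1), k.2) ∈ B) *
      ((Y.val ((x, k.1), k.2) : ℝ≥0∞) * 1) :=
    Measurable.ennreal_tsum fun k => (secI_meas (hBm k.1 k.2)).mul
      ((val_meas hS hY hM k).mul measurable_const)
  have hae := ae_lt_top hmeas hfin
  rw [dsize_eq_lint B hBm, Vfin_eq hS hY hM]
  refine le_trans (le_of_eq ?_) h2
  refine lintegral_congr_ae ?_
  filter_upwards [hae] with x hx
  refine tsum_congr fun k => ?_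
  by_cases hk : ((x, k.1), k.2) ∈ B
  · have h5 : (Y.val ((x, k.1), k.2) : ℝ≥0∞) ≠ ⊤ := by
      have := (ENNReal.le_tsum k).trans_lt hx
      rw [secI_pos hk, one_mul, mul_one] at this
      exact this.ne
    have h6 : (Y.val ((x, k.1), k.2) : ℝ≥0∞) ≠ 0 := val_ne_zero hY (hBa _ hk).1
    rw [secI_pos hk, one_mul, ENNReal.mul_inv_cancel h6 h5]
  · rw [secI_neg hk, zero_mul]

/-- chunk R2a.  A measurable set of aux darts meeting every aux vertex, of measure at most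
`Vfin + δ`.  Let `φ : X × ℕ × Bool → [0,1)` be measurable injective and
`B_N = {aux η | ∀ ζ, V η ζ → ⌊2^N φ η⌋ ≤ ⌊2^N φ ζ⌋}`: decreasing in `N`, meets every class, and the
intersection has at most one point in each class. -/
theorem exists_section (hS : Sp D X μ) (Y : Sys Γ X m) (hY : Y.Ax D) (hM : Y.Meas)
    (hE : size μ Y.E ≠ ⊤) (δ : ℝ≥0∞) (hδ : δ ≠ 0) :
    ∃ B : Set (Dart X), (∀ i s, MeasurableSet {x | ((x, i), s) ∈ B}) ∧
      (∀ η ∈ B, η.1 ∈ Y.E ∧ η ∉ Y.Pr) ∧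
      (∀ η, η.1 ∈ Y.E → η ∉ Y.Pr → ∃ ζ ∈ B, Y.V η ζ) ∧
      dsize μ B ≤ Y.Vfin μ + δ := by
  obtain ⟨c, hcm, hc2, hcs⟩ := exists_levels hS
  set B : ℕ → Set (Dart X) := fun N =>
    {η | η.1 ∈ Y.E ∧ η ∉ Y.Pr ∧ ∀ ζ, Y.V η ζ → c N η ≤ c N ζ} with hB
  have hBm : ∀ N i s, MeasurableSet {x | ((x, i), s) ∈ B N} := by
    intro N i s
    have e : {x | ((x, i), s) ∈ B N} = ({x | (x, i) ∈ Y.E} ∩ {x | ((x, i), s) ∈ Y.Pr}ᶜ) ∩
        ⋂ g : Γ, ⋂ l : ℕ × Bool, ({x : X | Y.V ((x, i), s) ((g • x, l.1), l.2)}ᶜ ∪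
          {x | c N ((x, i), s) ≤ c N ((g • x, l.1), l.2)}) := by
      ext x
      simp only [hB, Set.mem_ofPred_eq, Set.mem_inter_iff, Set.mem_compl_iff, Set.mem_iInter,
        Set.mem_union]
      constructor
      · rintro ⟨h1, h2, h3⟩
        refine ⟨⟨h1, h2⟩, fun g l => ?_⟩
        by_cases h : Y.V ((x, i), s) ((g • x, l.1), l.2)
        · exact Or.inr (h3 _ h)
        · exact Or.inl h
      · rintro ⟨⟨h1, h2⟩, h3⟩
        refine ⟨h1, h2, fun ζ hζ => ?_⟩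
        obtain ⟨g, hg⟩ := V_orbit_sec hY hζ
        simp only at hg
        have e : ζ = ((g • x, ζ.1.2), ζ.2) := by rw [← hg]
        rw [e] at hζ ⊢
        rcases h3 g (ζ.1.2, ζ.2) with h | h
        · exact absurd hζ h
        · exact h
    rw [e]
    exact ((hM.mE i).inter (hM.mPr i s).compl).inter (MeasurableSet.iInter fun g =>
      MeasurableSet.iInter fun l => ((hM.mV g i l.1 s l.2).compl).union
        (measurableSet_le (hcm N i s) ((hcm N l.1 l.2).comp (hS.mp g).measurable)))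
  have hBa : ∀ N, ∀ η ∈ B N, η.1 ∈ Y.E ∧ η ∉ Y.Pr := fun N η hη => ⟨hη.1, hη.2.1⟩
  have hanti : Antitone B := by
    refine antitone_nat_of_succ_le fun N η hη => ⟨hη.1, hη.2.1, fun ζ hζ => ?_⟩
    rw [hc2 N η, hc2 N ζ]
    exact Nat.div_le_div_right (hη.2.2 ζ hζ)
  have hmeet : ∀ N, ∀ η : Dart X, η.1 ∈ Y.E → η ∉ Y.Pr → ∃ ζ ∈ B N, Y.V η ζ := by
    intro N η h1 h2
    obtain ⟨ζ, hζ, hmin⟩ := WellFounded.has_min (measure (c N)).wf {ζ | Y.V η ζ}
      ⟨η, hY.V_refl _ h1⟩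
    refine ⟨ζ, ⟨hY.V_E _ _ (hY.V_symm _ _ hζ), fun h3 => h2 ?_, fun ξ hξ => ?_⟩, hζ⟩
    · exact hY.Pr_V _ _ h3 (hY.V_symm _ _ hζ)
    · exact not_lt.1 (hmin ξ (hY.V_trans _ _ _ hζ hξ))
  have hfin : dsize μ (B 0) ≠ ⊤ :=
    ne_top_of_le_ne_top (ENNReal.mul_ne_top (by simp) hE) (dsize_le_size fun η hη => hη.1)
  have hlim := dsize_tendsto B hBm hanti hfin
  have hBim : ∀ i s, MeasurableSet {x | ((x, i), s) ∈ ⋂ N, B N} := by
    intro i s
    have : {x | ((x, i), s) ∈ ⋂ N, B N} = ⋂ N, {x | ((x, i), s) ∈ B N} := by ext x; simp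
    rw [this]
    exact MeasurableSet.iInter fun N => hBm N i s
  have hle : dsize μ (⋂ N, B N) ≤ Y.Vfin μ := by
    refine dsize_transversal_le hS hY hM hE hBim (fun η hη => hBa 0 η (Set.mem_iInter.1 hη 0)) ?_
    intro η ζ hη hζ h
    refine hcs η ζ fun N => le_antisymm ?_ ?_
    · exact (Set.mem_iInter.1 hη N).2.2 ζ h
    · exact (Set.mem_iInter.1 hζ N).2.2 η (hY.V_symm _ _ h)
  have hfin' : dsize μ (⋂ N, B N) ≠ ⊤ :=
    ne_top_of_le_ne_top hfin (dsize_mono (Set.iInter_subset _ 0))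
  have hlt : dsize μ (⋂ N, B N) < dsize μ (⋂ N, B N) + δ := ENNReal.lt_add_right hfin' hδ
  obtain ⟨N, hN⟩ := (hlim.eventually (gt_mem_nhds hlt)).exists
  refine ⟨B N, hBm N, hBa N, hmeet N, hN.le.trans ?_⟩
  gcongr

end Sys

end Crest.Agent.FP
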