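import Crest.Agent.FP.Rank
import Crest.Agent.FP.Section

/-! Row 191 (S0291), chunk R2b: application of the rank lemma to systems. -/
set_option autoImplicit false
set_option linter.unusedSectionVars false

open MeasureTheory
open scoped ENNReal

namespace Crest.Agent.FP

namespace Sys

variable {Γ : Type} [Group Γ] [Countable Γ] {m : ℕ} [NeZero m] {X : Type} [MulAction Γ X]
  [MeasurableSpace X] {D : GD Γ m} {μ : Measure X}

/-! ### measurable choice -/

omit [MulAction Γ X] in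
/-- measurable choice in a countable set -/
theorem exists_meas_choice {C : Type} [Countable C] [Nonempty C] (R : X → C → Prop)
    (hR : ∀ c, MeasurableSet {x | R x c}) :
    ∃ ch : X → C, (∀ c, MeasurableSet {x | ch x = c}) ∧ ∀ x, (∃ c, R x c) → R x (ch x) := by
  classical
  obtain ⟨f, hf⟩ := exists_surjective_nat C
  have hp : ∀ x, ∃ n, R x (f n) ∨ ∀ m, ¬ R x (f m) := by
    intro x
    by_cases h : ∃ m, R x (f m)
    · obtain ⟨m, hm⟩ := h
      exact ⟨m, Or.inl hm⟩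
    · push Not at h
      exact ⟨0, Or.inr h⟩
  have hm : ∀ n, MeasurableSet {x | R x (f n) ∨ ∀ m, ¬ R x (f m)} := by
    intro n
    have : {x | R x (f n) ∨ ∀ m, ¬ R x (f m)} = {x | R x (f n)} ∪ ⋂ m, {x | R x (f m)}ᶜ := by
      ext x; simp
    rw [this]
    exact (hR _).union (MeasurableSet.iInter fun m => (hR _).compl)
  have hmeas := measurable_find hp hm
  refine ⟨fun x => f (Nat.find (hp x)), fun c => ?_, fun x hx => ?_⟩
  · exact hmeas (t := {n | f n = c}) trivial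
  · rcases Nat.find_spec (hp x) with h | h
    · exact h
    · obtain ⟨c, hc⟩ := hx
      obtain ⟨n, rfl⟩ := hf c
      exact absurd hc (h n)

/-! ### walks from principal vertices -/

/-- absolute walk, reversed: `L` leads from a principal vertex to the vertex of `ζ` -/
def AW (Y : Sys Γ X m) : List (Dart X) → Dart X → Prop
  | [], ζ => ζ ∈ Y.Pr
  | p :: L, ζ => Y.V p ζ ∧ AW Y L (p.1, !p.2)

/-- relative walk, reversed -/
def RW (Y : Sys Γ X m) (x : X) : List ((Γ × ℕ) × Bool) → Dart X → Prop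
  | [], ζ => ζ ∈ Y.Pr
  | p :: L, ζ => Y.V ((p.1.1 • x, p.1.2), p.2) ζ ∧ RW Y x L ((p.1.1 • x, p.1.2), !p.2)

/-- the chain of a relative walk -/
noncomputable def chn : List ((Γ × ℕ) × Bool) → (Γ × ℕ →₀ ℤ)
  | [] => 0
  | p :: L => Finsupp.single p.1 (if p.2 then 1 else -1) + chn L

theorem exists_AW {Y : Sys Γ X m} (hY : Y.Ax D) (η : Dart X) (hη : η.1 ∈ Y.E) :
    ∃ L, Y.AW L η := by
  have h := hY.conn {ζ | ∃ L, Y.AW L ζ} ?_ ?_ ?_ η hη
  · exact h
  · rintro η ζ ⟨L, hL⟩ h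
    cases L with
    | nil => exact ⟨[], hY.Pr_V _ _ hL h⟩
    | cons p L => exact ⟨p :: L, hY.V_trans _ _ _ hL.1 h, hL.2⟩
  · rintro e he s ⟨L, hL⟩
    refine ⟨(e, !s) :: L, hY.V_refl _ he, ?_⟩
    simpa using hL
  · intro ζ hζ
    exact ⟨[], hζ⟩

theorem exists_RW_of_AW {Y : Sys Γ X m} (hY : Y.Ax D) (x : X) (L : List (Dart X)) :
    ∀ ζ : Dart X, (∃ g : Γ, ζ.1.1 = g • x) → Y.AW L ζ → ∃ L', Y.RW x L' ζ := by
  induction L with
  | nil => intro ζ _ h; exact ⟨[], h⟩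
  | cons p L ih =>
    rintro ζ ⟨g, hg⟩ ⟨h1, h2⟩
    obtain ⟨g', hg'⟩ := V_orbit_sec hY (hY.V_symm _ _ h1)
    have h3 : p.1.1 = (g' * g) • x := by rw [hg', hg, mul_smul]
    obtain ⟨L', hL'⟩ := ih (p.1, !p.2) ⟨g' * g, h3⟩ h2
    refine ⟨((g' * g, p.1.2), p.2) :: L', ?_, ?_⟩
    · simp only [← h3]; exact h1
    · simp only [← h3]; exact hL'

/-- every vertex is the end of a relative walk -/
theorem exists_RW {Y : Sys Γ X m} (hY : Y.Ax D) (η : Dart X) (hη : η.1 ∈ Y.E) :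
    ∃ L, Y.RW η.1.1 L η := by
  obtain ⟨L, hL⟩ := exists_AW hY η hη
  exact exists_RW_of_AW hY _ L η ⟨1, (one_smul _ _).symm⟩ hL

theorem RW_meas (hS : Sp D X μ) {Y : Sys Γ X m} (hM : Y.Meas) (L : List ((Γ × ℕ) × Bool)) :
    ∀ (g : Γ) (i : ℕ) (s : Bool), MeasurableSet {x : X | Y.RW x L ((g • x, i), s)} := by
  induction L with
  | nil =>
    intro g i s
    exact (hS.mp g).measurable (hM.mPr i s)
  | cons p L ih =>
    intro g i s
    have h1 : MeasurableSet {x : X | Y.V ((p.1.1 • x, p.1.2), p.2) ((g • x, i), s)} := by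
      have := (hS.mp p.1.1).measurable (hM.mV (g * p.1.1⁻¹) p.1.2 i p.2 s)
      have e : {x : X | Y.V ((p.1.1 • x, p.1.2), p.2) ((g • x, i), s)} =
          (fun x => p.1.1 • x) ⁻¹' {y : X | Y.V ((y, p.1.2), p.2) (((g * p.1.1⁻¹) • y, i), s)} := by
        ext x
        simp only [Set.mem_ofPred_eq, Set.mem_preimage, mul_smul, inv_smul_smul]
      rw [e]
      exact this
    exact h1.inter (ih p.1.1 p.1.2 (!p.2))

theorem chn_support {Y : Sys Γ X m} (hY : Y.Ax D) (x : X) (L : List ((Γ × ℕ) × Bool)) :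
    ∀ ζ, Y.RW x L ζ → ∀ p ∈ (chn L).support, (p.1 • x, p.2) ∈ Y.E := by
  classical
  induction L with
  | nil => intro ζ _ p hp; simp [chn] at hp
  | cons q L ih =>
    rintro ζ ⟨h1, h2⟩ p hp
    rcases Finset.mem_union.1 (Finsupp.support_add hp) with h | h
    · have h3 := Finset.mem_singleton.1 (Finsupp.support_single_subset h)
      rw [h3]
      exact hY.V_E _ _ h1
    · exact ih _ h2 p h

/-- telescoping along a walk -/
theorem chn_eval {Y : Sys Γ X m} (hY : Y.Ax D) {A : Type} [AddCommGroup A] (f : X × ℕ → A)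
    (g : Dart X → A) (hgV : ∀ η ζ, Y.V η ζ → g η = g ζ) (hgP : ∀ η ∈ Y.Pr, g η = 0)
    (hfg : ∀ e ∈ Y.E, f e = g (e, true) - g (e, false)) (x : X) (L : List ((Γ × ℕ) × Bool)) :
    ∀ ζ, Y.RW x L ζ → (chn L).sum (fun p n => n • f (p.1 • x, p.2)) = g ζ := by
  classical
  induction L with
  | nil => intro ζ h; simp [chn, hgP ζ h]
  | cons q L ih =>
    rintro ζ ⟨h1, h2⟩
    have hE := hY.V_E _ _ h1
    rw [chn, Finsupp.sum_add_index' (by simp) (by intros; rw [add_smul]), ih _ h2,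
      Finsupp.sum_single_index (by simp), hfg _ hE, ← hgV _ _ h1]
    obtain ⟨q1, d⟩ := q
    cases d <;> simp

/-! ### the two kernels -/

/-- index set of `Z = I + Fs + B` -/
abbrev KZ : Type := (ℕ ⊕ ℕ) ⊕ (ℕ × Bool)

/-- the set `Z` in terms of `KZ` -/
def Zk (Y : Sys Γ X m) (B : Set (Dart X)) (x : X) : KZ → Prop
  | Sum.inl (Sum.inl i) => (x, i) ∈ Y.I
  | Sum.inl (Sum.inr j) => (x, j) ∈ Y.Fs
  | Sum.inr (i, s) => ((x, i), s) ∈ B

/-- the kernel `S` in terms of `KZ` -/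
noncomputable def Sk (D : GD Γ m) (Y : Sys Γ X m) (sc : ℕ × Bool → X → (Γ × ℕ →₀ ℤ)) (x : X) :
    KZ → (Γ × ℕ →₀ ℤ)
  | Sum.inl (Sum.inl i) => Y.J (x, i)
  | Sum.inl (Sum.inr j) => ∑ k : ZMod m, Finsupp.single (D.h k, Y.fe (x, j) k) 1
  | Sum.inr (i, s) => sc (i, s) x

theorem Zk_meas {Y : Sys Γ X m} (hM : Y.Meas) {B : Set (Dart X)}
    (hB : ∀ i s, MeasurableSet {x | ((x, i), s) ∈ B}) (k : KZ) :
    MeasurableSet {x : X | Y.Zk B x k} := by
  rcases k with (i | j) | ⟨i, s⟩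
  · exact hM.mI i
  · exact hM.mF j
  · exact hB i s

theorem Sk_meas {Y : Sys Γ X m} (hM : Y.Meas) {sc : ℕ × Bool → X → (Γ × ℕ →₀ ℤ)}
    (hsc : ∀ k c, MeasurableSet {x | sc k x = c}) (k : KZ) (c : Γ × ℕ →₀ ℤ) :
    MeasurableSet {x : X | Y.Sk D sc x k = c} := by
  rcases k with (i | j) | ⟨i, s⟩
  · exact hM.mJ i c
  · have : {x : X | Y.Sk D sc x (Sum.inl (Sum.inr j)) = c} =
        ⋃ r ∈ {r : ZMod m → ℕ | ∑ k : ZMod m, Finsupp.single (D.h k, r k) (1 : ℤ) = c},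
          ⋂ k : ZMod m, {x | Y.fe (x, j) k = r k} := by
      ext x
      simp only [Set.mem_ofPred_eq, Set.mem_iUnion, Set.mem_iInter, exists_prop, Sk]
      constructor
      · intro h
        exact ⟨fun k => Y.fe (x, j) k, h, fun k => rfl⟩
      · rintro ⟨r, h1, h2⟩
        rw [← h1]
        exact Finset.sum_congr rfl fun k _ => by rw [h2 k]
    rw [this]
    exact MeasurableSet.biUnion (Set.to_countable _) fun r _ =>
      MeasurableSet.iInter fun k => hM.mfe j k (r k)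
  · exact hsc (i, s) c

/-- size of `Z` -/
theorem tsum_Zk {Y : Sys Γ X m} (B : Set (Dart X)) :
    ∑' k : KZ, μ {x : X | Y.Zk B x k} = size μ Y.I + size μ Y.Fs + dsize μ B := by
  rw [Summable.tsum_sum ENNReal.summable ENNReal.summable,
    Summable.tsum_sum ENNReal.summable ENNReal.summable, dsize_eq_tsum]
  rfl

/-- relative evaluation -/
theorem eval_rel {A : Type} [AddCommGroup A] (Q : (Γ × ℕ →₀ ℤ) →+ A)
    (f : X × ℕ → A) (x : X) (hf : ∀ (g : Γ) (j : ℕ), f (g • x, j) = Q (Finsupp.single (g, j) 1))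
    (g : Γ) (c : Γ × ℕ →₀ ℤ) :
    c.sum (fun p n => n • f (p.1 • g • x, p.2)) =
      Q (c.mapDomain fun p => (p.1 * g, p.2)) := by
  classical
  have h1 : c.mapDomain (fun p => (p.1 * g, p.2)) =
      c.sum fun p n => n • Finsupp.single ((p.1 * g, p.2) : Γ × ℕ) (1 : ℤ) := by
    rw [Finsupp.mapDomain]
    refine Finsupp.sum_congr fun p _ => ?_
    rw [Finsupp.smul_single, smul_eq_mul, mul_one]
  rw [h1, map_finsuppSum]
  refine Finsupp.sum_congr fun p _ => ?_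
  rw [map_zsmul, ← hf, mul_smul]

open Classical in
/-- function supported on one orbit -/
noncomputable def orbF {A : Type} [AddCommGroup A] (Q : (Γ × ℕ →₀ ℤ) →+ A) (x : X)
    (e : X × ℕ) : A :=
  if h : ∃ g : Γ, g • x = e.1 then Q (Finsupp.single (h.choose, e.2) 1) else 0

theorem orbF_mem (hS : Sp D X μ) {A : Type} [AddCommGroup A] (Q : (Γ × ℕ →₀ ℤ) →+ A) (x : X)
    (g : Γ) (j : ℕ) : orbF Q x (g • x, j) = Q (Finsupp.single (g, j) 1) := by
  have h : ∃ g' : Γ, g' • x = g • x := ⟨g, rfl⟩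
  unfold orbF
  rw [dif_pos h]
  have h1 := h.choose_spec
  have h2 : (g⁻¹ * h.choose) • x = x := by rw [mul_smul, h1, inv_smul_smul]
  have h3 := hS.free _ _ h2
  have h4 : h.choose = g := by
    have := congrArg (fun u => g * u) h3
    simpa using this
  rw [h4]

theorem orbF_not {A : Type} [AddCommGroup A] (Q : (Γ × ℕ →₀ ℤ) →+ A) (x : X) (y : X)
    (hy : ¬ ∃ g : Γ, g • x = y) (g : Γ) (j : ℕ) : orbF Q x (g • y, j) = 0 := by
  unfold orbF
  rw [dif_neg]
  rintro ⟨g', hg'⟩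
  apply hy
  refine ⟨g⁻¹ * g', ?_⟩
  rw [mul_smul, hg']
  exact inv_smul_smul _ _

/-- coefficients -/
theorem exists_coeff (Z : Set (X × ℕ)) (S : X × ℕ → (Γ × ℕ →₀ ℤ)) (x : X) (v : Γ × ℕ →₀ ℤ)
    (hv : v ∈ AddSubgroup.closure {v | ∃ p : Γ × ℕ, (p.1 • x, p.2) ∈ Z ∧
      v = (S (p.1 • x, p.2)).mapDomain fun p' => (p'.1 * p.1, p'.2)}) :
    ∃ a : Γ × ℕ →₀ ℤ, (∀ p ∈ a.support, (p.1 • x, p.2) ∈ Z) ∧
      (a.sum fun p n => n • (S (p.1 • x, p.2)).mapDomain fun p' => (p'.1 * p.1, p'.2)) = v := by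
  classical
  induction hv using AddSubgroup.closure_induction with
  | mem v hv =>
    obtain ⟨p, hp, rfl⟩ := hv
    refine ⟨Finsupp.single p 1, ?_, ?_⟩
    · intro q hq
      rw [Finset.mem_singleton.1 (Finsupp.support_single_subset hq)]
      exact hp
    · rw [Finsupp.sum_single_index (by simp), one_smul]
  | zero => exact ⟨0, by simp, by simp⟩
  | add v w _ _ ihv ihw =>
    obtain ⟨a, ha, rfl⟩ := ihv
    obtain ⟨b, hb, rfl⟩ := ihw
    refine ⟨a + b, ?_, ?_⟩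
    · intro p hp
      rcases Finset.mem_union.1 (Finsupp.support_add hp) with h | h
      · exact ha p h
      · exact hb p h
    · rw [Finsupp.sum_add_index' (by simp) (by intros; rw [add_smul])]
  | neg v _ ihv =>
    obtain ⟨a, ha, rfl⟩ := ihv
    refine ⟨-a, ?_, ?_⟩
    · intro p hp
      rw [Finsupp.support_neg] at hp
      exact ha p hp
    · rw [Finsupp.sum_neg_index (by simp)]
      simp only [neg_smul]
      rw [Finsupp.sum_neg]

/-- duality -/
theorem rank_dual (hS : Sp D X μ) {Y : Sys Γ X m} (hY : Y.Ax D) {B : Set (Dart X)}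
    (hBm : ∀ η, η.1 ∈ Y.E → η ∉ Y.Pr → ∃ ζ ∈ B, Y.V η ζ)
    {sc : ℕ × Bool → X → (Γ × ℕ →₀ ℤ)}
    (hsc : ∀ i s x, ((x, i), s) ∈ B → ∃ L, Y.RW x L ((x, i), s) ∧ chn L = sc (i, s) x)
    {A : Type} [AddCommGroup A] (Q : (Γ × ℕ →₀ ℤ) →+ A) (x : X)
    (hQ : ∀ (g : Γ) (k : KZ), Y.Zk B (g • x) k →
      Q ((Y.Sk D sc (g • x) k).mapDomain fun p' => (p'.1 * g, p'.2)) = 0)
    (i : ℕ) (he : (x, i) ∈ Y.E) : Q (Finsupp.single (1, i) 1) = 0 := by
  classical
  set f : X × ℕ → A := orbF Q x with hf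
  have key : ∀ (y : X) (k : KZ), Y.Zk B y k →
      (Y.Sk D sc y k).sum (fun p n => n • f (p.1 • y, p.2)) = 0 := by
    intro y k hk
    by_cases hy : ∃ g : Γ, g • x = y
    · obtain ⟨g, rfl⟩ := hy
      rw [eval_rel Q f x (fun g j => orbF_mem hS Q x g j) g]
      exact hQ g k hk
    · refine Finset.sum_eq_zero fun p _ => ?_
      simp only [hf]
      rw [orbF_not Q x y hy, smul_zero]
  have hI : ∀ i ∈ Y.I, Y.Jev f i = 0 := by
    rintro ⟨y, l⟩ hi
    exact key y (Sum.inl (Sum.inl l)) hi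
  have hF : ∀ q ∈ Y.Fs, ∑ k : ZMod m, f (Y.fed D q k) = 0 := by
    rintro ⟨y, j⟩ hq
    have h1 := key y (Sum.inl (Sum.inr j)) hq
    rw [Sk, ← Finsupp.sum_finsetSum_index (by simp) (by intros; rw [add_smul])] at h1
    rw [← h1]
    refine Finset.sum_congr rfl fun k _ => ?_
    rw [Finsupp.sum_single_index (by simp), one_smul]
    rfl
  obtain ⟨g, hgV, hgP, hfg⟩ := hY.ex A f hI hF
  have hgB : ∀ ζ ∈ B, g ζ = 0 := by
    rintro ⟨⟨y, j⟩, s⟩ hζ
    obtain ⟨L, hL, hc⟩ := hsc j s y hζ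
    have h1 := key y (Sum.inr (j, s)) hζ
    have h2 := chn_eval hY f g hgV hgP hfg y L _ hL
    rw [hc] at h2
    rw [← h2]
    exact h1
  have hg0 : ∀ s, g ((x, i), s) = 0 := by
    intro s
    by_cases h : ((x, i), s) ∈ Y.Pr
    · exact hgP _ h
    · obtain ⟨ζ, hζ, hV⟩ := hBm ((x, i), s) he h
      rw [hgV _ _ hV, hgB ζ hζ]
  have h1 := hfg _ he
  rw [hg0, hg0, sub_zero] at h1
  have h2 := orbF_mem hS Q x 1 i
  rw [one_smul] at h2
  rw [← h2]
  exact h1

/-- chunk R2b: with `Z = I + Fs + B` (coded in `X × ℕ`); `S = J`, face boundaries, and for `b ∈ B` a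
chosen walk from `P` to `b`; `A e` = (a chosen expression of `e - s(b(e⁺)) + s(b(e⁻))` in the span of the
`J i` and face boundaries; exists by `ex` applied to `A = (X × ℕ →₀ ℤ) ⧸ span`) `+ b(e⁺) - b(e⁻)`.
Choices are made by least code in a countable set of relative chains, hence measurable. -/
theorem rank_ineq (hS : Sp D X μ) (Y : Sys Γ X m) (hY : Y.Ax D) (hM : Y.Meas)
    (hE : size μ Y.E ≠ ⊤) :
    size μ Y.E ≤ Y.Vfin μ + size μ Y.Fs + size μ Y.I := by
  classical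
  have := hS.prob
  by_cases hFfin : size μ Y.Fs = ⊤
  · rw [hFfin]; simp
  by_cases hIfin : size μ Y.I = ⊤
  · rw [hIfin]; simp
  refine ENNReal.le_of_forall_pos_le_add fun δ hδ _ => ?_
  obtain ⟨B, hBmeas, hBa, hBm, hBs⟩ := exists_section hS Y hY hM hE (δ : ℝ≥0∞)
    (by exact_mod_cast hδ.ne')
  -- the chosen chains
  have hex : ∀ k : ℕ × Bool, ∃ ch : X → (Γ × ℕ →₀ ℤ), (∀ c, MeasurableSet {x | ch x = c}) ∧
      ∀ x, (∃ c, ∃ L, Y.RW x L ((x, k.1), k.2) ∧ chn L = c) →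
        ∃ L, Y.RW x L ((x, k.1), k.2) ∧ chn L = ch x := by
    intro k
    refine exists_meas_choice (fun x c => ∃ L, Y.RW x L ((x, k.1), k.2) ∧ chn L = c) fun c => ?_
    have e : {x : X | ∃ L, Y.RW x L ((x, k.1), k.2) ∧ chn L = c} =
        ⋃ L ∈ {L : List ((Γ × ℕ) × Bool) | chn L = c},
          {x : X | Y.RW x L (((1 : Γ) • x, k.1), k.2)} := by
      ext x
      simp only [Set.mem_ofPred_eq, Set.mem_iUnion, exists_prop, one_smul]
      exact ⟨fun ⟨L, h1, h2⟩ => ⟨L, h2, h1⟩, fun ⟨L, h1, h2⟩ => ⟨L, h2, h1⟩⟩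
    rw [e]
    exact MeasurableSet.biUnion (Set.to_countable _) fun L _ => RW_meas hS hM L 1 k.1 k.2
  choose sc hscm hsc' using hex
  have hsc : ∀ i s x, ((x, i), s) ∈ B → ∃ L, Y.RW x L ((x, i), s) ∧ chn L = sc (i, s) x := by
    intro i s x hx
    obtain ⟨L, hL⟩ := exists_RW hY ((x, i), s) (hBa _ hx).1
    exact hsc' (i, s) x ⟨_, L, hL, rfl⟩
  -- coding
  obtain ⟨co⟩ : Nonempty (KZ ≃ ℕ) := nonempty_equiv_of_countable
  set Z : Set (X × ℕ) := {z | Y.Zk B z.1 (co.symm z.2)} with hZ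
  set S : X × ℕ → (Γ × ℕ →₀ ℤ) := fun z => Y.Sk D sc z.1 (co.symm z.2) with hSdef
  have hZm : ∀ i, MeasurableSet {x | (x, i) ∈ Z} := fun i => Zk_meas hM hBmeas (co.symm i)
  have hSm : ∀ i c, MeasurableSet {x | S (x, i) = c} := fun i c => Sk_meas hM hscm (co.symm i) c
  have hZsize : size μ Z = size μ Y.I + size μ Y.Fs + dsize μ B := by
    rw [← tsum_Zk B]
    exact co.symm.tsum_eq (fun k => μ {x : X | Y.Zk B x k})
  have hBfin : dsize μ B ≠ ⊤ :=
    ne_top_of_le_ne_top (ENNReal.mul_ne_top (by simp) hE) (dsize_le_size fun η hη => (hBa η hη).1)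
  have hZfin : size μ Z ≠ ⊤ := by
    rw [hZsize]
    exact ENNReal.add_ne_top.2 ⟨ENNReal.add_ne_top.2 ⟨hIfin, hFfin⟩, hBfin⟩
  -- the kernel `A`
  let _ : MeasurableSpace (Γ × ℕ →₀ ℤ) := ⊤
  have _ : DiscreteMeasurableSpace (Γ × ℕ →₀ ℤ) := ⟨fun _ => trivial⟩
  have hSm' : ∀ i, Measurable fun x => S (x, i) := fun i =>
    measurable_to_countable' fun c => hSm i c
  have hexA : ∀ i : ℕ, ∃ ch : X → (Γ × ℕ →₀ ℤ), (∀ c, MeasurableSet {x | ch x = c}) ∧
      ∀ x, (∃ a : Γ × ℕ →₀ ℤ, (∀ p ∈ a.support, (p.1 • x, p.2) ∈ Z) ∧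
        (a.sum fun p n => n • (S (p.1 • x, p.2)).mapDomain fun p' => (p'.1 * p.1, p'.2)) =
          Finsupp.single (1, i) 1) →
        (∀ p ∈ (ch x).support, (p.1 • x, p.2) ∈ Z) ∧
        ((ch x).sum fun p n => n • (S (p.1 • x, p.2)).mapDomain fun p' => (p'.1 * p.1, p'.2)) =
          Finsupp.single (1, i) 1 := by
    intro i
    refine exists_meas_choice (C := Γ × ℕ →₀ ℤ) (fun x a => (∀ p ∈ a.support, (p.1 • x, p.2) ∈ Z) ∧
        (a.sum fun p n => n • (S (p.1 • x, p.2)).mapDomain fun p' => (p'.1 * p.1, p'.2)) =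
          Finsupp.single (1, i) 1) fun a => ?_
    have h1 : MeasurableSet {x : X | ∀ p ∈ a.support, (p.1 • x, p.2) ∈ Z} := by
      have e : {x : X | ∀ p ∈ a.support, (p.1 • x, p.2) ∈ Z} =
          ⋂ p ∈ a.support, (fun x => p.1 • x) ⁻¹' {x | (x, p.2) ∈ Z} := by
        ext x; simp
      rw [e]
      exact MeasurableSet.biInter (Set.to_countable _) fun p _ =>
        (hS.mp p.1).measurable (hZm p.2)
    have h2 : Measurable fun x : X =>
        (a.sum fun p n => n • (S (p.1 • x, p.2)).mapDomain fun p' => (p'.1 * p.1, p'.2)) := by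
      unfold Finsupp.sum
      refine Finset.measurable_sum _ fun p _ => ?_
      have h3 : Measurable fun c : Γ × ℕ →₀ ℤ =>
        a p • (c.mapDomain fun p' => (p'.1 * p.1, p'.2)) := Measurable.of_discrete
      exact h3.comp ((hSm' p.2).comp (hS.mp p.1).measurable)
    exact h1.inter (h2 (measurableSet_singleton _))
  choose sA hsAm hsA using hexA
  have hAex : ∀ e ∈ Y.E, (∀ p ∈ (sA e.2 e.1).support, (p.1 • e.1, p.2) ∈ Z) ∧
        ((sA e.2 e.1).sum fun p n => n •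
          (S (p.1 • e.1, p.2)).mapDomain fun p' => (p'.1 * p.1, p'.2)) =
          Finsupp.single (1, e.2) 1 := by
    rintro ⟨x, i⟩ he
    refine hsA i x (exists_coeff Z S x _ ?_)
    set N := AddSubgroup.closure {v | ∃ p : Γ × ℕ, (p.1 • x, p.2) ∈ Z ∧
      v = (S (p.1 • x, p.2)).mapDomain fun p' => (p'.1 * p.1, p'.2)} with hN
    have h1 := rank_dual hS hY hBm hsc (QuotientAddGroup.mk' N) x (fun g k hk => ?_) i he
    · rwa [QuotientAddGroup.mk'_apply, QuotientAddGroup.eq_zero_iff] at h1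
    · rw [QuotientAddGroup.mk'_apply, QuotientAddGroup.eq_zero_iff]
      refine AddSubgroup.subset_closure ⟨(g, co k), ?_, ?_⟩
      · simp only [hZ, Set.mem_ofPred_eq, Equiv.symm_apply_apply]
        exact hk
      · simp only [hSdef, Equiv.symm_apply_apply]
  have hSE : ∀ z ∈ Z, ∀ p ∈ (S z).support, (p.1 • z.1, p.2) ∈ Y.E := by
    rintro ⟨x, n⟩ hz p hp
    have hz' : Y.Zk B x (co.symm n) := hz
    have hp' : p ∈ (Y.Sk D sc x (co.symm n)).support := hp
    generalize co.symm n = k at hz' hp'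
    rcases k with (i | j) | ⟨i, s⟩
    · exact hY.J_E (x, i) hz' p hp'
    · have h1 := Finsupp.support_finsetSum hp'
      rw [Finset.mem_biUnion] at h1
      obtain ⟨k, -, hk⟩ := h1
      rw [Finset.mem_singleton.1 (Finsupp.support_single_subset hk)]
      exact hY.V_E _ _ (hY.F_V (x, j) hz' k)
    · obtain ⟨L, hL, hc⟩ := hsc i s x hz'
      have hp2 : p ∈ (sc (i, s) x).support := hp'
      rw [← hc] at hp2
      exact chn_support hY x L _ hL p hp2
  have hfinal := rank_le hS.mp Y.E Z hM.mE hZm hE hZfin (fun e => sA e.2 e.1) S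
    (fun i c => hsAm i c) hSm (fun e he => (hAex e he).1) hSE (fun e he => (hAex e he).2)
  calc size μ Y.E ≤ size μ Z := hfinal
    _ = size μ Y.I + size μ Y.Fs + dsize μ B := hZsize
    _ ≤ size μ Y.I + size μ Y.Fs + (Y.Vfin μ + δ) := by gcongr
    _ = Y.Vfin μ + size μ Y.Fs + size μ Y.I + δ := by ring

end Sys

end Crest.Agent.FP
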