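import Crest.Agent.FP.AddAx
import Crest.Agent.FP.AddRun
import Crest.Agent.FP.DiscDet

/-! Row 191 (S0291), chunk AD3: one round shortens. -/
set_option autoImplicit false
set_option linter.unusedSectionVars false

namespace Crest.Agent.FP

namespace Sys

variable {Γ : Type} [Group Γ] {m : ℕ} {X : Type} [MulAction Γ X] {D : GD Γ m}

section ad3

variable [NeZero m]

theorem ad3_walk_split (Y : Sys Γ X m) (hY : Y.DDV) {η ζ : Dart X} {A B : List (Dart X)}
    (h : Y.IsWalk η (A ++ B) ζ) : ∃ u, Y.IsWalk η A u ∧ Y.IsWalk u B ζ := by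
  induction A generalizing η with
  | nil =>
    refine ⟨η, ?_, h⟩
    have : η.1 ∈ Y.E := by
      cases B with
      | nil => exact hY.V_E _ _ h
      | cons p B => exact hY.V_E _ _ h.1
    exact hY.V_refl _ this
  | cons p A ih =>
    obtain ⟨u, h1, h2⟩ := ih h.2
    exact ⟨u, ⟨h.1, h1⟩, h2⟩

/-- projection to `K/T` -/
def ad3pr (p : Dart X) : X × Bool := (p.1.1, p.2)

theorem ad3_KWalk (Y : Sys Γ X m) (hY : Y.Ax D) {η ζ : Dart X} {L : List (Dart X)}
    (h : Y.IsWalk η L ζ) {x y : X} (hx : D.SameT x (D.pos η)) (hy : D.SameT (D.pos ζ) y) :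
    D.KWalk x (L.map ad3pr) y := by
  induction L generalizing η x with
  | nil => exact dd_sameT_trans hx (dd_sameT_trans (hY.V_T _ _ h) hy)
  | cons p L ih => exact ⟨dd_sameT_trans hx (hY.V_T _ _ h.1), ih h.2 (dd_sameT_refl _)⟩

theorem ad3_get (Y : Sys Γ X m) {u v : Dart X} {R : List (Dart X)} (h : Y.IsWalk u R v) (j : ℕ)
    (hj : j + 1 < R.length) : Y.V (R[j]) ((R[j + 1]).1, !(R[j + 1]).2) := by
  induction R generalizing u j with
  | nil => simp at hj
  | cons p R ih =>
    cases j with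
    | zero =>
      cases R with
      | nil => simp at hj
      | cons p' R => exact h.2.1
    | succ j => exact ih h.2 j (by simpa using hj)

theorem ad3_first (Y : Sys Γ X m) {u v : Dart X} {R : List (Dart X)} (h : Y.IsWalk u R v)
    (hj : 0 < R.length) : Y.V u ((R[0]).1, !(R[0]).2) := by
  cases R with
  | nil => simp at hj
  | cons p R => exact h.1

theorem ad3_last (Y : Sys Γ X m) {u v : Dart X} {R : List (Dart X)} (h : Y.IsWalk u R v)
    (j : ℕ) (hj : j + 1 = R.length) : Y.V (R[j]) v := by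
  induction R generalizing u j with
  | nil => simp at hj
  | cons p R ih =>
    cases j with
    | zero =>
      cases R with
      | nil => exact h.2
      | cons p' R => simp at hj
    | succ j => exact ih h.2 j (by simpa using hj)

theorem ad3_mem (Y : Sys Γ X m) (hY : Y.DDV) {u v : Dart X} {R : List (Dart X)}
    (h : Y.IsWalk u R v) {p : Dart X} (hp : p ∈ R) : p.1 ∈ Y.E := by
  induction R generalizing u with
  | nil => simp at hp
  | cons p' R ih =>
    rcases List.mem_cons.1 hp with rfl | hp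
    · have : (p.1, !p.2).1 ∈ Y.E := hY.V_E _ _ (hY.V_symm _ _ h.1)
      exact this
    · exact ih h.2 hp

/-- the two corners of a run, to be joined by the missing edge -/
def ad3c (D : GD Γ m) (k : ZMod m) (q : X) (r : ZMod m → ℕ) (s : Bool) : Dart X :=
  if s then ((D.h (k + 1) • q, r (k + 1)), false) else ((D.h (k - 1) • q, r (k - 1)), true)

theorem ad3_core (hm : 4 ≤ m) (Y : Sys Γ X m) (hY : Y.Ax D) (hF : Y.Folded) {k : ZMod m} {q : X}
    {r : ZMod m → ℕ} (hr : Y.IsRun D k q r) {η ζ u v : Dart X} {A B : List (Dart X)} (d : Bool)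
    (hA : Y.IsWalk η A u) (hB : Y.IsWalk v B ζ) (h1 : Y.V u (ad3c D k q r (!d)))
    (h2 : Y.V (ad3c D k q r d) v) {x : X} (hη : η ∈ Y.Pr) (hζ : ζ ∈ Y.Pr)
    (hx : D.SameT x (D.pos η)) (hy : D.SameT (D.a • x) (D.pos ζ))
    (hn : Y.dist D x = A.length + (m - 1) + B.length) :
    (Y.addF D k (Y.Wall D k) (Y.rr D k)).dist D x < Y.dist D x := by
  have hV := dd_DDV Y hY
  have hm3 : 3 ≤ m := by omega
  -- the run is open
  have hopen : (q, r (k + 1)) ∈ Y.Wall D k := by
    refine ⟨r, hr, rfl, ?_⟩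
    rintro ⟨i, h3, h4⟩
    have h5 : ∀ s, Y.V (ad3c D k q r s) ((D.h k • q, i), s) := by
      intro s
      cases s
      · exact h3
      · exact hY.V_symm _ _ h4
    have h6 : Y.IsWalk η (A ++ ([((D.h k • q, i), d)] ++ B)) ζ := by
      apply dd_walk_append Y hV hA
      refine dd_walk_append Y hV ⟨hY.V_trans _ _ _ h1 (h5 (!d)), ?_⟩ hB
      exact hY.V_trans _ _ _ (hY.V_symm _ _ (h5 d)) h2
    have h7 : Y.dist D x ≤ (A ++ ([((D.h k • q, i), d)] ++ B)).length :=
      Nat.sInf_le ⟨_, ⟨η, ζ, hη, hζ, hx, hy, h6⟩, rfl⟩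
    simp only [List.length_append, List.length_cons, List.length_nil] at h7
    omega
  set Y' := Y.addF D k (Y.Wall D k) (Y.rr D k) with hY'
  have hR := Wall_runOK hm3 Y hY hF k (Y.Wall D k) subset_rfl
  have hax : Y'.Ax D := addF_ax hm3 Y hY k _ _ hR
  have hV' := dd_DDV Y' hax
  have hrr1 : Y.rr D k (q, r (k + 1)) (k + 1) = r (k + 1) :=
    rr_spec hm3 Y hY hF k q _ r hr rfl _ (ad1_one_ne hm3 k)
  have hrr2 : Y.rr D k (q, r (k + 1)) (k - 1) = r (k - 1) :=
    rr_spec hm3 Y hY hF k q _ r hr rfl _ (ad1_sub_ne hm3 k)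
  have hodd : (D.h k • q, 2 * r (k + 1) + 1).2 % 2 = 1 := by simp
  have hdiv : (2 * r (k + 1) + 1) / 2 = r (k + 1) := by omega
  have hanc : ∀ s, anc D k (Y.rr D k) ((D.h k • q, 2 * r (k + 1) + 1), s) = ad3c D k q r s := by
    intro s
    cases s
    · rw [ad1_anc_odd_false k (Y.rr D k) hodd]
      simp only [inv_smul_smul, hdiv, hrr2]
      rfl
    · rw [ad1_anc_odd_true k (Y.rr D k) hodd]
      simp only [inv_smul_smul, hdiv, hrr1]
      rfl
  have hmem : (D.h k • q, 2 * r (k + 1) + 1) ∈ Y.addE D k (Y.Wall D k) := by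
    right
    refine ⟨hodd, ?_⟩
    simp only [inv_smul_smul, hdiv]
    exact hopen
  have hA' : Y'.IsWalk (ad1L η) (A.map ad1L) (ad1L u) := ad1_isWalk Y hY k _ _ A η u hA
  have hB' : Y'.IsWalk (ad1L v) (B.map ad1L) (ad1L ζ) := ad1_isWalk Y hY k _ _ B v ζ hB
  have hu : u.1 ∈ Y.E := hY.V_E _ _ h1
  have hv : v.1 ∈ Y.E := hY.V_E _ _ (hY.V_symm _ _ h2)
  have h3 : Y'.V (ad1L u) ((D.h k • q, 2 * r (k + 1) + 1), !d) := by
    refine ⟨ad1_L_mem k _ hu, hmem, ?_⟩
    rw [ad1_anc_L, hanc]
    exact h1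
  have h4 : Y'.V ((D.h k • q, 2 * r (k + 1) + 1), d) (ad1L v) := by
    refine ⟨hmem, ad1_L_mem k _ hv, ?_⟩
    rw [ad1_anc_L, hanc]
    exact h2
  have h6 : Y'.IsWalk (ad1L η) (A.map ad1L ++ ([((D.h k • q, 2 * r (k + 1) + 1), d)] ++
      B.map ad1L)) (ad1L ζ) := by
    apply dd_walk_append Y' hV' hA'
    exact dd_walk_append Y' hV' ⟨h3, h4⟩ hB'
  have h7 : Y'.dist D x ≤ (A.map ad1L ++ ([((D.h k • q, 2 * r (k + 1) + 1), d)] ++
      B.map ad1L)).length := by
    refine Nat.sInf_le ⟨_, ⟨ad1L η, ad1L ζ, ?_, ?_, hx, hy, h6⟩, rfl⟩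
    · refine ⟨ad1_L_mem k _ (hY.Pr_E _ hη), ?_⟩
      rw [ad1_anc_L]; exact hη
    · refine ⟨ad1_L_mem k _ (hY.Pr_E _ hζ), ?_⟩
      rw [ad1_anc_L]; exact hζ
  simp only [List.length_append, List.length_cons, List.length_nil, List.length_map] at h7
  omega

theorem ad3_val {n : ℕ} (hn : n < m) : ((n : ZMod m)).val = n := by
  rw [ZMod.val_natCast, Nat.mod_eq_of_lt hn]

theorem ad3_flat {α : Type} (f : ℕ → α) (l : List ℕ) :
    (l.map (fun x => [f x])).flatten = l.map f := by
  induction l with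
  | nil => rfl
  | cons a l ih => simp [ih]

theorem ad3_fwdRun (q : X) (k : ZMod m) : D.fwdRun q k =
    (List.range (m - 1)).map (fun j : ℕ => (D.h (k + 1 + (j : ZMod m)) • q, true)) := by
  simp [GD.fwdRun, List.flatMap, List.map_map, Function.comp_def, ad3_flat]

theorem ad3_bwdRun (q : X) (k : ZMod m) : D.bwdRun q k =
    (List.range (m - 1)).map (fun j : ℕ => (D.h (k - 1 - (j : ZMod m)) • q, false)) := by
  simp [GD.bwdRun, List.flatMap, List.map_map, Function.comp_def, ad3_flat]

end ad3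

/-- One round shortens: if `x ∉ AP` then for some `k₀` adding all faces with index `k₀` missing
shortens the distance from `[x]` to `[a x]`.  Take a shortest walk `L`; its projection to `K/T` is a
`KWalk`; by the Dehn property it is `[(x,true)]` (then `x ∈ AP`), or has a backtrack
(then by foldedness the walk is not shortest), or has a run of `m - 1` edges of a face. The run is
not closed since `L` is shortest (`m ≥ 4`: `1 < m - 1`), so it is in `Wall`; replace it by the new
edge. -/
theorem short [NeZero m] (hm : 4 ≤ m) (hD : D.DehnOn X)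
    (hfree : ∀ (g : Γ) (x : X), g • x = x → g = 1) (Y : Sys Γ X m) (hY : Y.Ax D)
    (hF : Y.Folded) (x : X) (hx : x ∉ Y.AP) (hL : ∃ L, Y.PW D x L (D.a • x)) :
    ∃ k₀, (Y.addF D k₀ (Y.Wall D k₀) (Y.rr D k₀)).dist D x < Y.dist D x := by
  have hV := dd_DDV Y hY
  have hm3 : 3 ≤ m := by omega
  have hne : {n | ∃ L, Y.PW D x L (D.a • x) ∧ L.length = n}.Nonempty := by
    obtain ⟨L, hL⟩ := hL
    exact ⟨_, L, hL, rfl⟩
  obtain ⟨L, ⟨η, ζ, hη, hζ, hxη, hyζ, hw⟩, hn⟩ := Nat.sInf_mem hne
  change L.length = Y.dist D x at hn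
  have hmin : ∀ L', Y.IsWalk η L' ζ → Y.dist D x ≤ L'.length := fun L' hL' =>
    Nat.sInf_le ⟨L', ⟨η, ζ, hη, hζ, hxη, hyζ, hL'⟩, rfl⟩
  have hK := ad3_KWalk Y hY hw hxη (dd_sameT_symm hyζ)
  rcases hD x _ hK with h | ⟨A, B, y, d, h⟩ | ⟨A, B, q, k, h⟩ | ⟨A, B, q, k, h⟩
  · -- one edge
    exfalso
    obtain ⟨p, rfl, h1⟩ := List.map_eq_singleton_iff.1 h
    obtain ⟨⟨x', i⟩, s⟩ := p
    simp only [ad3pr, Prod.mk.injEq] at h1
    obtain ⟨rfl, rfl⟩ := h1
    exact hx ⟨i, hY.Pr_V _ _ hζ (hY.V_symm _ _ hw.2), hY.Pr_V _ _ hη hw.1⟩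
  · -- backtrack
    exfalso
    obtain ⟨A', L1, rfl, -, h1⟩ := List.map_eq_append_iff.1 h
    obtain ⟨p, L2, rfl, h2, h3⟩ := List.map_eq_cons_iff.1 h1
    obtain ⟨p', B', rfl, h4, -⟩ := List.map_eq_cons_iff.1 h3
    obtain ⟨u, h5, h6⟩ := ad3_walk_split Y hV hw
    obtain ⟨⟨y1, i⟩, s⟩ := p
    obtain ⟨⟨y2, j⟩, s'⟩ := p'
    simp only [ad3pr, Prod.mk.injEq] at h2 h4
    obtain ⟨rfl, rfl⟩ := h2
    obtain ⟨rfl, rfl⟩ := h4
    have h7 : i = j := by
      apply hF y2 i j s
      have := h6.2.1
      simpa using this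
    subst h7
    have h8 := hmin _ (dd_walk_append Y hV h5 (dd_walk_left Y hV h6.1 h6.2.2))
    rw [← hn] at h8
    simp at h8
  · -- forward run
    rw [List.append_assoc] at h
    obtain ⟨A', L1, rfl, -, h1⟩ := List.map_eq_append_iff.1 h
    obtain ⟨R, B', rfl, h2, -⟩ := List.map_eq_append_iff.1 h1
    obtain ⟨u, h5, h6⟩ := ad3_walk_split Y hV hw
    obtain ⟨v, h7, h8⟩ := ad3_walk_split Y hV h6
    have hlen : R.length = m - 1 := by
      have := congrArg List.length h2
      simpa [ad3_fwdRun] using this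
    have hget : ∀ (n : ℕ) (hn : n < R.length),
        (R[n]).1.1 = D.h (k + 1 + (n : ZMod m)) • q ∧ (R[n]).2 = true := by
      intro n hn
      have h9 : (R.map ad3pr)[n]'(by simpa using hn) = (D.fwdRun q k)[n]'(by
        rw [← h2]; simpa using hn) := by
        simp only [h2]
      simp only [List.getElem_map, ad3_fwdRun, List.getElem_range, ad3pr, Prod.mk.injEq] at h9
      exact h9
    let r : ZMod m → ℕ := fun k' => (R.map fun p => p.1.2).getD (k' - k - 1).val 0
    have hrv : ∀ (n : ℕ) (hn : n < R.length), r (k + 1 + (n : ZMod m)) = (R[n]).1.2 := by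
      intro n hn
      have h10 : (k + 1 + (n : ZMod m) - k - 1) = (n : ZMod m) := by ring
      simp only [r, h10]
      rw [ad3_val (by omega), List.getD_eq_getElem _ _ (by simpa using hn)]
      simp
    have hdart : ∀ (n : ℕ) (hn : n < R.length),
        R[n] = ((D.h (k + 1 + (n : ZMod m)) • q, r (k + 1 + (n : ZMod m))), true) := by
      intro n hn
      obtain ⟨h11, h12⟩ := hget n hn
      rw [hrv n hn, ← h11, ← h12]
    have hrun : Y.IsRun D k q r := by
      constructor
      · intro k' hk'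
        obtain ⟨n, hn', rfl⟩ := ad2_index hm3 hk'
        have hn2 : n < R.length := by omega
        have h13 := ad3_mem Y hV h7 (List.getElem_mem hn2)
        rw [hdart n hn2] at h13
        exact h13
      · intro k' hk' hk1
        obtain ⟨n, hn', rfl⟩ := ad2_index hm3 hk'
        have h14 : n + 1 ≠ m - 1 := by
          intro h
          apply hk1
          have : ((n : ZMod m)) = ((m - 1 : ℕ) : ZMod m) - 1 := by rw [← h]; push_cast; ring
          rw [this, Nat.cast_sub (by omega), ZMod.natCast_self]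
          push_cast
          ring
        have hn2 : n < R.length := by omega
        have hn3 : n + 1 < R.length := by omega
        have h15 := ad3_get Y h7 n hn3
        rw [hdart n hn2, hdart (n + 1) hn3] at h15
        simp only [Bool.not_true] at h15
        have h16 : k + 1 + (n : ZMod m) + 1 = k + 1 + ((n + 1 : ℕ) : ZMod m) := by
          push_cast; ring
        rw [h16]
        exact h15
    refine ⟨k, ad3_core hm Y hY hF hrun false h5 h8 ?_ ?_ hη hζ hxη hyζ ?_⟩
    · have h17 := ad3_first Y h7 (by omega)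
      rw [hdart 0 (by omega)] at h17
      simp only [Nat.cast_zero, add_zero, Bool.not_true] at h17
      exact h17
    · have h18 := ad3_last Y h7 (m - 2) (by omega)
      rw [hdart (m - 2) (by omega)] at h18
      have h19 : k + 1 + ((m - 2 : ℕ) : ZMod m) = k - 1 := by
        rw [Nat.cast_sub (by omega), ZMod.natCast_self]
        push_cast
        ring
      rw [h19] at h18
      exact h18
    · rw [← hn]
      simp only [List.length_append, hlen]
      omega
  · -- backward run
    rw [List.append_assoc] at h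
    obtain ⟨A', L1, rfl, -, h1⟩ := List.map_eq_append_iff.1 h
    obtain ⟨R, B', rfl, h2, -⟩ := List.map_eq_append_iff.1 h1
    obtain ⟨u, h5, h6⟩ := ad3_walk_split Y hV hw
    obtain ⟨v, h7, h8⟩ := ad3_walk_split Y hV h6
    have hlen : R.length = m - 1 := by
      have := congrArg List.length h2
      simpa [ad3_bwdRun] using this
    have hget : ∀ (n : ℕ) (hn : n < R.length),
        (R[n]).1.1 = D.h (k - 1 - (n : ZMod m)) • q ∧ (R[n]).2 = false := by
      intro n hn
      have h9 : (R.map ad3pr)[n]'(by simpa using hn) = (D.bwdRun q k)[n]'(by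
        rw [← h2]; simpa using hn) := by
        simp only [h2]
      simp only [List.getElem_map, ad3_bwdRun, List.getElem_range, ad3pr, Prod.mk.injEq] at h9
      exact h9
    let r : ZMod m → ℕ := fun k' => (R.map fun p => p.1.2).getD (k - 1 - k').val 0
    have hrv : ∀ (n : ℕ) (hn : n < R.length), r (k - 1 - (n : ZMod m)) = (R[n]).1.2 := by
      intro n hn
      have h10 : (k - 1 - (k - 1 - (n : ZMod m))) = (n : ZMod m) := by ring
      simp only [r, h10]
      rw [ad3_val (by omega), List.getD_eq_getElem _ _ (by simpa using hn)]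
      simp
    have hdart : ∀ (n : ℕ) (hn : n < R.length),
        R[n] = ((D.h (k - 1 - (n : ZMod m)) • q, r (k - 1 - (n : ZMod m))), false) := by
      intro n hn
      obtain ⟨h11, h12⟩ := hget n hn
      rw [hrv n hn, ← h11, ← h12]
    have hidx : ∀ k' : ZMod m, k' ≠ k → ∃ n < m - 1, k' = k - 1 - (n : ZMod m) := by
      intro k' hk'
      obtain ⟨n, hn', h10⟩ := ad2_index hm3 (k₀ := -k) (k := -k') (by
        intro h; exact hk' (neg_injective h))
      exact ⟨n, hn', by linear_combination -h10⟩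
    have hrun : Y.IsRun D k q r := by
      constructor
      · intro k' hk'
        obtain ⟨n, hn', rfl⟩ := hidx k' hk'
        have hn2 : n < R.length := by omega
        have h13 := ad3_mem Y hV h7 (List.getElem_mem hn2)
        rw [hdart n hn2] at h13
        exact h13
      · intro k' hk' hk1
        obtain ⟨n, hn', rfl⟩ := hidx k' hk'
        have h14 : n ≠ 0 := by
          rintro rfl
          apply hk1
          simp
        obtain ⟨n, rfl⟩ := Nat.exists_eq_succ_of_ne_zero h14
        simp only [Nat.succ_eq_add_one] at hn' hk' hk1 ⊢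
        have hn2 : n < R.length := by omega
        have hn3 : n + 1 < R.length := by omega
        have h15 := ad3_get Y h7 n hn3
        rw [hdart n hn2, hdart (n + 1) hn3] at h15
        simp only [Bool.not_false] at h15
        have h16 : k - 1 - ((n + 1 : ℕ) : ZMod m) + 1 = k - 1 - (n : ZMod m) := by
          push_cast; ring
        rw [h16]
        exact hY.V_symm _ _ h15
    refine ⟨k, ad3_core hm Y hY hF hrun true h5 h8 ?_ ?_ hη hζ hxη hyζ ?_⟩
    · have h17 := ad3_first Y h7 (by omega)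
      rw [hdart 0 (by omega)] at h17
      simp only [Nat.cast_zero, sub_zero, Bool.not_false] at h17
      exact h17
    · have h18 := ad3_last Y h7 (m - 2) (by omega)
      rw [hdart (m - 2) (by omega)] at h18
      have h19 : k - 1 - ((m - 2 : ℕ) : ZMod m) = k + 1 := by
        rw [Nat.cast_sub (by omega), ZMod.natCast_self]
        push_cast
        ring
      rw [h19] at h18
      exact h18
    · rw [← hn]
      simp only [List.length_append, hlen]
      omega

end Sys

end Crest.Agent.FP
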