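import Crest.Agent.FP.Defs
import Crest.Agent.FP.Bern

/-! Row 191 (S0291): the free part of the Bernoulli shift as a space satisfying `Sp`. -/
set_option autoImplicit false

open MeasureTheory
open scoped ENNReal symmDiff

namespace Crest.Agent.FP

variable {Γ : Type} [Group Γ]

open Classical in
theorem bern_fix [Infinite Γ] (g : Γ) (hg : g ≠ 1) : bern Γ {x | sh g x = x} = 0 := by
  -- the pair functions
  set P : Γ → Finset Γ := fun γ => {γ, g⁻¹ * γ} with hP
  have hfib : ∀ γ γ' : Γ, P γ = P γ' → γ' = γ ∨ γ' = g⁻¹ * γ := by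
    intro γ γ' h
    have : γ' ∈ P γ' := by simp [hP]
    rw [← h] at this
    simpa [hP] using this
  have hinf : (Set.range P).Infinite := by
    intro hfin
    have h1 : (Set.univ : Set Γ).Finite := by
      have h2 : (Set.univ : Set Γ) ⊆ ⋃ S ∈ Set.range P, (S : Set Γ) := by
        intro γ _
        refine Set.mem_biUnion (Set.mem_range_self γ) ?_
        simp [hP]
      exact (hfin.biUnion fun S _ => S.finite_toSet).subset h2
    exact Set.infinite_univ h1
  have hne1 : ∀ γ : Γ, γ ≠ g⁻¹ * γ := by
    intro γ h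
    apply hg
    have := mul_right_cancel (a := (1 : Γ)) (b := γ) (c := g⁻¹) (by rw [one_mul]; exact h)
    exact (inv_eq_one.1 this.symm)
  have hone : ∀ x : Γ → Bool, sh g x = x → ∀ γ, wal (P γ) x = 1 := by
    intro x hx γ
    have h1 : x (g⁻¹ * γ) = x γ := congrFun hx γ
    unfold wal
    rw [hP, Finset.prod_pair (hne1 γ), h1]
    split_ifs <;> norm_num
  have key : ∀ n : ℕ, 0 < n → (bern Γ).real {x | sh g x = x} ≤ 1 / n := by
    intro n hn
    obtain ⟨t, ht, htc⟩ := hinf.exists_subset_card_eq n
    set c : Finset Γ →₀ ℝ := ∑ S ∈ t, Finsupp.single S 1 with hc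
    have hcS : ∀ S, c S = if S ∈ t then 1 else 0 := by
      intro S
      rw [hc, Finsupp.finsetSum_apply]
      simp [Finsupp.single_apply]
    have hsupp : c.support = t := by
      ext S
      rw [Finsupp.mem_support_iff, hcS]
      simp
    have h1 : ∫ x, ev c x ^ 2 ∂(bern Γ) = n := by
      rw [integral_ev_sq, hsupp, ← htc]
      rw [Finset.sum_congr rfl (fun S hS => by rw [hcS, if_pos hS])]
      simp
    have h2 : ∀ x ∈ {x | sh g x = x}, ev c x = n := by
      intro x hx
      rw [hc, ev_sum]
      rw [Finset.sum_congr rfl (fun S hS => ?_), Finset.sum_const, htc, nsmul_eq_mul, mul_one]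
      rw [ev_single, one_mul]
      obtain ⟨γ, rfl⟩ := ht hS
      exact hone x hx γ
    have hm : MeasurableSet {x : Γ → Bool | ev c x = n} :=
      measurableSet_eq_fun (ev_meas c) measurable_const
    have h3 : (n : ℝ) ^ 2 * (bern Γ).real {x : Γ → Bool | ev c x = n} ≤ n := by
      have h4 : ∫ x, ({x : Γ → Bool | ev c x = n}).indicator (fun _ => (n : ℝ) ^ 2) x ∂(bern Γ) =
          (n : ℝ) ^ 2 * (bern Γ).real {x : Γ → Bool | ev c x = n} := by
        rw [integral_indicator_const _ hm, smul_eq_mul, mul_comm]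
      rw [← h4]
      refine le_trans ?_ h1.le
      refine integral_mono_of_nonneg ?_ (ev_sq_int c) ?_
      · exact Filter.Eventually.of_forall fun x =>
          Set.indicator_nonneg (fun _ _ => by positivity) x
      · refine Filter.Eventually.of_forall fun x => ?_
        simp only
        by_cases hx : x ∈ {x : Γ → Bool | ev c x = n}
        · rw [Set.indicator_of_mem hx]
          have : ev c x = n := hx
          rw [this]
        · rw [Set.indicator_of_notMem hx]; positivity
    have h5 : (bern Γ).real {x | sh g x = x} ≤ (bern Γ).real {x : Γ → Bool | ev c x = n} :=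
      measureReal_mono h2
    have hn' : (0 : ℝ) < n := Nat.cast_pos.2 hn
    rw [le_div_iff₀ hn']
    have h6 : (n : ℝ) * ((bern Γ).real {x | sh g x = x} * n) ≤ n * 1 := by nlinarith
    exact le_of_mul_le_mul_left h6 hn'
  have h0 : (bern Γ).real {x | sh g x = x} ≤ 0 := by
    have h1 : Filter.Tendsto (fun n : ℕ => (1 : ℝ) / n) Filter.atTop (nhds 0) :=
      tendsto_one_div_atTop_nhds_zero_nat
    refine ge_of_tendsto h1 ?_
    filter_upwards [Filter.eventually_gt_atTop 0] with n hn using key n hn
  have h1 := le_antisymm h0 measureReal_nonneg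
  rwa [measureReal_eq_zero_iff] at h1

variable (Γ) in
/-- free part of the Bernoulli shift -/
abbrev FreePt : Type := {x : Γ → Bool // ∀ g : Γ, g ≠ 1 → sh g x ≠ x}

variable (Γ) in
/-- the set of free points -/
def freeSet : Set (Γ → Bool) := {x | ∀ g : Γ, g ≠ 1 → sh g x ≠ x}

theorem freeSet_meas [Countable Γ] : MeasurableSet (freeSet Γ) := by
  have : freeSet Γ = ⋂ g : Γ, ⋂ _ : g ≠ 1, {x | sh g x = x}ᶜ := by
    ext x
    simp [freeSet]
  rw [this]
  refine MeasurableSet.iInter fun g => MeasurableSet.iInter fun _ => ?_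
  exact (measurableSet_eq_fun (sh_meas g) measurable_id).compl

instance [Countable Γ] : StandardBorelSpace (FreePt Γ) := (freeSet_meas (Γ := Γ)).standardBorel

instance : MulAction Γ (FreePt Γ) where
  smul g x := ⟨sh g x.1, fun h hh heq => by
    refine x.2 (g⁻¹ * h * g) ?_ ?_
    · intro h1
      apply hh
      have : h = g * (g⁻¹ * h * g) * g⁻¹ := by group
      rw [this, h1]; group
    · rw [sh_mul, sh_mul, heq, ← sh_mul, inv_mul_cancel, sh_one]⟩
  one_smul x := Subtype.ext (sh_one x.1)
  mul_smul g h x := Subtype.ext (sh_mul g h x.1)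

theorem smul_val (g : Γ) (x : FreePt Γ) : (g • x).1 = sh g x.1 := rfl

variable (Γ) in
/-- the measure on the free part -/
noncomputable def fbern : Measure (FreePt Γ) := (bern Γ).comap Subtype.val

theorem freeSet_compl [Countable Γ] [Infinite Γ] : bern Γ (freeSet Γ)ᶜ = 0 := by
  have : (freeSet Γ)ᶜ = ⋃ g : Γ, ⋃ _ : g ≠ 1, {x | sh g x = x} := by
    ext x
    simp [freeSet]
  rw [this]
  refine measure_iUnion_null fun g => measure_iUnion_null fun hg => bern_fix g hg

theorem fbern_apply [Countable Γ] (A : Set (FreePt Γ)) :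
    fbern Γ A = bern Γ (Subtype.val '' A) :=
  comap_subtype_coe_apply freeSet_meas _ _

/-- a measurable set of the free part, transported: the measure of the set of `x` in the shift space with
`x ∈ B` equals the measure of its trace on the free part -/
theorem fbern_preimage [Countable Γ] [Infinite Γ] (B : Set (Γ → Bool)) :
    fbern Γ (Subtype.val ⁻¹' B) = bern Γ B := by
  rw [fbern_apply]
  have h1 : (Subtype.val '' (Subtype.val ⁻¹' B : Set (FreePt Γ))) = B ∩ freeSet Γ := by
    ext x
    constructor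
    · rintro ⟨y, hy, rfl⟩
      exact ⟨hy, y.2⟩
    · rintro ⟨hx, hx'⟩
      exact ⟨⟨x, hx'⟩, hx, rfl⟩
  rw [h1]
  exact measure_inter_conull freeSet_compl

theorem fsmul_meas (g : Γ) : Measurable (fun x : FreePt Γ => g • x) := by
  refine Measurable.subtype_mk ?_
  exact (sh_meas g).comp measurable_subtype_coe

instance [Countable Γ] [Infinite Γ] : IsProbabilityMeasure (fbern Γ) := by
  constructor
  have := fbern_preimage (Γ := Γ) Set.univ
  rw [Set.preimage_univ] at this
  rw [this, measure_univ]

theorem exists_val_preimage (A : Set (FreePt Γ)) (hA : MeasurableSet A) :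
    ∃ B : Set (Γ → Bool), MeasurableSet B ∧ Subtype.val ⁻¹' B = A := hA

theorem fsmul_mp [Countable Γ] [Infinite Γ] (g : Γ) :
    MeasurePreserving (fun x : FreePt Γ => g • x) (fbern Γ) (fbern Γ) := by
  refine ⟨fsmul_meas g, ?_⟩
  ext A hA
  rw [Measure.map_apply (fsmul_meas g) hA]
  obtain ⟨B, hB, rfl⟩ := exists_val_preimage A hA
  have : (fun x : FreePt Γ => g • x) ⁻¹' (Subtype.val ⁻¹' B) =
      (Subtype.val ⁻¹' ((sh g) ⁻¹' B) : Set (FreePt Γ)) := rfl
  rw [this, fbern_preimage, fbern_preimage, (sh_mp g).measure_preimage hB.nullMeasurableSet]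

open Classical in
theorem bern_cyl (D : Finset Γ) (y : Γ → Bool) :
    bern Γ {x | ∀ γ ∈ D, x γ = y γ} = (2⁻¹ : ℝ≥0∞) ^ D.card := by
  have h := Measure.infinitePi_pi (μ := fun _ : Γ => coin) (s := D) (t := fun γ => {y γ})
    (fun γ _ => MeasurableSet.singleton _)
  have h1 : {x : Γ → Bool | ∀ γ ∈ D, x γ = y γ} = Set.pi (D : Set Γ) (fun γ => {y γ}) := by
    ext x; simp [Set.pi]
  rw [h1]
  unfold bern
  rw [h]
  simp [coin_singleton]

theorem sp_freePt [Countable Γ] (D : GD Γ 50) (φ : FreeGroup (Fin 49) →* Γ)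
    (hφ : Function.Injective φ) (hD : ∀ k : Fin 49, D.h ((k : ℕ) + 1 : ℕ) = φ (FreeGroup.of k)) :
    Sp D (FreePt Γ) (fbern Γ) := by
  have hinf : Infinite Γ := Infinite.of_injective φ hφ
  refine ⟨inferInstance, fsmul_mp, ?_, ?_, ?_, ?_⟩
  · intro g x hgx
    by_contra hg
    exact x.2 g hg (congrArg Subtype.val hgx)
  · obtain ⟨f, hf⟩ := MeasureTheory.exists_measurableEmbedding_real (FreePt Γ)
    exact ⟨f, hf.measurable, hf.injective⟩
  · intro δ hδ
    obtain ⟨n, hn⟩ : ∃ n : ℕ, (2⁻¹ : ℝ≥0∞) ^ n ≤ δ := by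
      have h1 : Filter.Tendsto (fun n : ℕ => (2⁻¹ : ℝ≥0∞) ^ n) Filter.atTop (nhds 0) :=
        ENNReal.tendsto_pow_atTop_nhds_zero_of_lt_one (by norm_num)
      exact ((h1.eventually (ge_mem_nhds (pos_iff_ne_zero.2 hδ))).exists)
    obtain ⟨E, hE⟩ := Infinite.exists_subset_card_eq Γ n
    classical
    let e := Fintype.equivFin (E → Bool)
    refine ⟨Fintype.card (E → Bool), fun i => {x : FreePt Γ | ∀ γ : E, x.1 γ = e.symm i γ}, ?_, ?_, ?_⟩
    · intro i
      simp only [Set.ofPred_forall]
      refine MeasurableSet.iInter fun γ => ?_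
      exact measurableSet_eq_fun ((measurable_pi_apply _).comp measurable_subtype_coe)
        measurable_const
    · rw [Set.eq_univ_iff_forall]
      intro x
      refine Set.mem_iUnion.2 ⟨e (fun γ => x.1 γ), ?_⟩
      intro γ
      simp
    · intro i
      let y : Γ → Bool := fun γ => if h : γ ∈ E then e.symm i ⟨γ, h⟩ else true
      have h1 : {x : FreePt Γ | ∀ γ : E, x.1 γ = e.symm i γ} =
          Subtype.val ⁻¹' {x : Γ → Bool | ∀ γ ∈ E, x γ = y γ} := by
        ext x
        constructor
        · intro h γ hγ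
          have := h ⟨γ, hγ⟩
          simp only [y, dif_pos hγ]
          exact this
        · intro h γ
          have := h γ.1 γ.2
          simp only [y, dif_pos γ.2] at this
          exact this
      change fbern Γ {x : FreePt Γ | ∀ γ : E, x.1 γ = e.symm i γ} ≤ δ
      rw [h1, fbern_preimage, bern_cyl, hE]
      exact hn
  · intro A hA
    obtain ⟨B, hB, rfl⟩ := exists_val_preimage A hA
    have h1 : {x : FreePt Γ | ∀ k : ZMod 50, D.h k • x ∈ (Subtype.val ⁻¹' B : Set (FreePt Γ))} ⊆
        Subtype.val ⁻¹' (all50 φ B) := by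
      intro x hx
      refine ⟨?_, fun k => ?_⟩
      · have := hx 0
        rw [D.h_zero, one_smul] at this
        exact this
      · have := hx (((k : ℕ) + 1 : ℕ))
        rw [hD] at this
        exact this
    refine (measure_mono h1).trans ?_
    rw [fbern_preimage, fbern_preimage]
    exact bern_spec φ hφ B hB

end Crest.Agent.FP
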