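import Crest.Agent.FP.Group
import Crest.Agent.FP.Space

/-! Row 191 (S0291), chunk S: the measured space: free part of the Bernoulli shift. -/
set_option autoImplicit false

open MeasureTheory
open scoped ENNReal symmDiff

namespace Crest.Agent.FP

section mixing

variable {Γ : Type} [Group Γ]

theorem spx_coord_mem (γ : Γ) : {x : Γ → Bool | x γ = true} ∈ cylA Γ := by
  refine ⟨Finsupp.single ∅ (1 / 2) + Finsupp.single {γ} (-(1 / 2)), fun x => ?_⟩
  rw [ev_add, ev_single, ev_single, wal_empty]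
  have h1 : wal {γ} x = if x γ = true then -1 else 1 := by simp [wal]
  rw [h1]
  rcases hx : x γ with _ | _
  · simp [hx, Set.indicator]
  · simp [hx, Set.indicator]; norm_num

theorem spx_cyl_mem (E : Finset Γ) : {x : Γ → Bool | ∀ γ ∈ E, x γ = true} ∈ cylA Γ := by
  classical
  induction E using Finset.induction_on with
  | empty => simpa using (cylA_alg (Γ := Γ)).univ_mem
  | insert a E ha ih =>
    have : {x : Γ → Bool | ∀ γ ∈ insert a E, x γ = true} =
        {x : Γ → Bool | x a = true} ∩ {x : Γ → Bool | ∀ γ ∈ E, x γ = true} := by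
      ext x; simp
    rw [this]
    exact (cylA_alg (Γ := Γ)).inter_mem (spx_coord_mem a) ih

/-- mixing for finite Walsh sums -/
theorem spx_mixing (c d : Finset Γ →₀ ℝ) : ∃ K : Set Γ, K.Finite ∧ ∀ t ∉ K,
    ∫ x, ev c x * ev d (sh t x) ∂(bern Γ) = c ∅ * d ∅ := by
  classical
  refine ⟨⋃ S ∈ c.support, ⋃ S' ∈ d.support, ⋃ s ∈ S, ⋃ s' ∈ S', {s' * s⁻¹}, ?_, ?_⟩
  · refine Set.Finite.biUnion c.support.finite_toSet fun S _ =>
      Set.Finite.biUnion d.support.finite_toSet fun S' _ =>
      Set.Finite.biUnion S.finite_toSet fun s _ =>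
      Set.Finite.biUnion S'.finite_toSet fun s' _ => Set.finite_singleton _
  · intro t ht
    have hne : ∀ S ∈ c.support, ∀ S' ∈ d.support, S = tr t⁻¹ S' → S = ∅ ∧ S' = ∅ := by
      intro S hS S' hS' h
      rcases S'.eq_empty_or_nonempty with h0 | ⟨s', hs'⟩
      · subst h0
        refine ⟨?_, rfl⟩
        rw [h]; simp [tr]
      · exfalso
        apply ht
        have h1 : t⁻¹ * s' ∈ S := by
          rw [h, mem_tr]; simpa using hs'
        simp only [Set.mem_iUnion]
        refine ⟨S, hS, S', hS', t⁻¹ * s', h1, s', hs', ?_⟩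
        simp
    have h1 : ∀ x, ev c x * ev d (sh t x) =
        ∑ S ∈ c.support, ∑ S' ∈ d.support, c S * d S' * (wal S x * wal (tr t⁻¹ S') x) := by
      intro x
      unfold ev Finsupp.sum
      rw [Finset.sum_mul_sum]
      refine Finset.sum_congr rfl fun S _ => Finset.sum_congr rfl fun S' _ => ?_
      simp only
      rw [wal_sh]; ring
    have hi : ∀ S S' : Finset Γ,
        Integrable (fun x => c S * d S' * (wal S x * wal (tr t⁻¹ S') x)) (bern Γ) := by
      intro S S'
      refine Integrable.const_mul ?_ _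
      simp only [wal_mul]
      exact wal_int _
    simp only [h1]
    rw [integral_finsetSum _ fun S _ => integrable_finsetSum _ fun S' _ => hi S S']
    have h2 : ∀ S ∈ c.support, ∫ x, (∑ S' ∈ d.support, c S * d S' * (wal S x * wal (tr t⁻¹ S') x))
        ∂(bern Γ) = if S = ∅ then c ∅ * d ∅ else 0 := by
      intro S hS
      rw [integral_finsetSum _ fun S' _ => hi S S']
      have h3 : ∀ S' ∈ d.support, ∫ x, c S * d S' * (wal S x * wal (tr t⁻¹ S') x) ∂(bern Γ) =
          if S = ∅ ∧ S' = ∅ then c ∅ * d ∅ else 0 := by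
        intro S' hS'
        rw [integral_const_mul, integral_wal_mul]
        by_cases h : S = tr t⁻¹ S'
        · rw [if_pos h, if_pos (hne S hS S' hS' h), (hne S hS S' hS' h).1, (hne S hS S' hS' h).2]
          ring
        · rw [if_neg h, if_neg, mul_zero]
          rintro ⟨rfl, rfl⟩
          exact h (by simp [tr])
      rw [Finset.sum_congr rfl h3]
      by_cases hS0 : S = ∅
      · simp only [hS0, true_and, if_true]
        rw [Finset.sum_ite_eq']
        split_ifs with h
        · rfl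
        · rw [Finsupp.notMem_support_iff.1 h, mul_zero]
      · simp [hS0]
    rw [Finset.sum_congr rfl h2, Finset.sum_ite_eq']
    split_ifs with h
    · rfl
    · rw [Finsupp.notMem_support_iff.1 h, zero_mul]

theorem spx_recur (T : Subgroup Γ) [Infinite T] [Countable Γ] (B : Set (Γ → Bool))
    (hB : B ∈ cylA Γ) (hBp : bern Γ B ≠ 0) :
    bern Γ {x | ∀ t ∈ T, sh t x ∉ B} = 0 := by
  set D : Set (Γ → Bool) := {x | ∀ t ∈ T, sh t x ∉ B} with hD
  have hBm : MeasurableSet B := cylA_dense.measurable B hB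
  have hDm : MeasurableSet D := by
    have : D = ⋂ t : T, (sh t.1 ⁻¹' B)ᶜ := by
      ext x; simp [hD]
    rw [this]
    exact MeasurableSet.iInter fun t => (sh_meas _ hBm).compl
  obtain ⟨d, hd⟩ := hB
  have key : ∀ η : ℝ, 0 < η → ((bern Γ).real D - η) * (bern Γ).real B ≤ η := by
    intro η hη
    obtain ⟨C, hC, hDC⟩ := cylA_dense.approx D hDm (measure_ne_top _ _) η hη
    have hCm : MeasurableSet C := cylA_dense.measurable C hC
    obtain ⟨c, hc⟩ := hC
    obtain ⟨K, hK, hmix⟩ := spx_mixing c d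
    obtain ⟨t, htT, htK⟩ : ∃ t ∈ T, t ∉ K := by
      by_contra hcon
      push Not at hcon
      have : (T : Set Γ).Finite := hK.subset hcon
      exact Set.infinite_coe_iff.1 (inferInstanceAs (Infinite T)) this
    have h1 := hmix t htK
    have hcC : c ∅ = (bern Γ).real C := by
      rw [← integral_ev c]
      simp only [hc]
      rw [integral_indicator_one hCm]
    have hdB : d ∅ = (bern Γ).real B := by
      rw [← integral_ev d]
      simp only [hd]
      rw [integral_indicator_one hBm]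
    have h2 : ∫ x, ev c x * ev d (sh t x) ∂(bern Γ) = (bern Γ).real (C ∩ sh t ⁻¹' B) := by
      have : ∀ x, ev c x * ev d (sh t x) = (C ∩ sh t ⁻¹' B).indicator 1 x := by
        intro x
        rw [hc, hd]
        by_cases h : x ∈ C <;> by_cases h' : sh t x ∈ B <;> simp [h, h']
      simp only [this]
      rw [integral_indicator_one (hCm.inter (sh_meas _ hBm))]
    rw [h2, hcC, hdB] at h1
    have h3 : C ∩ sh t ⁻¹' B ⊆ D ∆ C := by
      rintro x ⟨hx, hx'⟩
      by_cases h : x ∈ D
      · exact absurd hx' (h t htT)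
      · exact Or.inr ⟨hx, h⟩
    have hsd : (bern Γ).real (D ∆ C) ≤ η := by
      have := ENNReal.toReal_mono ENNReal.ofReal_ne_top hDC.le
      rwa [ENNReal.toReal_ofReal hη.le] at this
    have h4 : (bern Γ).real (C ∩ sh t ⁻¹' B) ≤ η := (measureReal_mono h3).trans hsd
    have h5 : (bern Γ).real D - η ≤ (bern Γ).real C := by
      have h6 : D ⊆ C ∪ (D ∆ C) := by
        intro x hx
        by_cases h : x ∈ C
        · exact Or.inl h
        · exact Or.inr (Or.inl ⟨hx, h⟩)
      have := (measureReal_mono (μ := bern Γ) h6).trans (measureReal_union_le _ _)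
      linarith
    have h7 := mul_le_mul_of_nonneg_right h5 (measureReal_nonneg (μ := bern Γ) (s := B))
    linarith
  have hBpos : 0 < (bern Γ).real B := by
    rw [measureReal_def]
    exact ENNReal.toReal_pos hBp (measure_ne_top _ _)
  have h0 : (bern Γ).real D * (bern Γ).real B ≤ 0 := by
    have h1 : Filter.Tendsto (fun η : ℝ => η - ((bern Γ).real D - η) * (bern Γ).real B)
        (nhdsWithin 0 (Set.Ioi 0)) (nhds (0 - ((bern Γ).real D - 0) * (bern Γ).real B)) := by
      apply Filter.Tendsto.mono_left _ nhdsWithin_le_nhds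
      apply Continuous.tendsto
      fun_prop
    have h2 := ge_of_tendsto h1 (Filter.eventually_of_mem self_mem_nhdsWithin
      fun η hη => sub_nonneg.2 (key η hη))
    simp only [sub_zero] at h2
    linarith
  have h1 : (bern Γ).real D = 0 := by
    have := measureReal_nonneg (μ := bern Γ) (s := D)
    nlinarith
  rwa [measureReal_eq_zero_iff] at h1

theorem spx_recur_free [Countable Γ] [Infinite Γ] (T : Subgroup Γ) [Infinite T] (δ : ℝ≥0∞)
    (hδ : δ ≠ 0) : ∃ B : Set (FreePt Γ), MeasurableSet B ∧ fbern Γ B ≤ δ ∧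
      ∀ᵐ x ∂(fbern Γ), ∃ t ∈ T, t • x ∈ B := by
  obtain ⟨n, hn⟩ : ∃ n : ℕ, (2⁻¹ : ℝ≥0∞) ^ n ≤ δ := by
    have h1 : Filter.Tendsto (fun n : ℕ => (2⁻¹ : ℝ≥0∞) ^ n) Filter.atTop (nhds 0) :=
      ENNReal.tendsto_pow_atTop_nhds_zero_of_lt_one (by norm_num)
    exact ((h1.eventually (ge_mem_nhds (pos_iff_ne_zero.2 hδ))).exists)
  obtain ⟨E, hE⟩ := Infinite.exists_subset_card_eq Γ n
  set B : Set (Γ → Bool) := {x | ∀ γ ∈ E, x γ = true} with hB
  have hBm : bern Γ B = (2⁻¹ : ℝ≥0∞) ^ n := by
    rw [hB, bern_cyl E (fun _ => true), hE]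
  refine ⟨Subtype.val ⁻¹' B, measurable_subtype_coe
    (cylA_dense.measurable B (spx_cyl_mem E)), ?_, ?_⟩
  · rw [fbern_preimage, hBm]; exact hn
  · have h1 := spx_recur T B (spx_cyl_mem E) (by rw [hBm]; simp)
    rw [ae_iff]
    have h2 : {x : FreePt Γ | ¬ ∃ t ∈ T, t • x ∈ (Subtype.val ⁻¹' B : Set (FreePt Γ))} =
        Subtype.val ⁻¹' {x | ∀ t ∈ T, sh t x ∉ B} := by
      ext x
      change (¬ ∃ t ∈ T, sh t x.1 ∈ B) ↔ ∀ t ∈ T, sh t x.1 ∉ B
      push Not
      rfl
    rw [h2, fbern_preimage]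
    exact h1

end mixing

/-- the free subgroup of rank 49 -/
def spx_ix (k : Fin 49) : Ix 50 := ⟨((k : ℕ) + 1 : ℕ), by
  intro h
  rw [ZMod.natCast_eq_zero_iff] at h
  have := Nat.le_of_dvd (by omega) h
  omega⟩

theorem spx_ix_inj : Function.Injective spx_ix := by
  intro k l h
  have h1 : (((k : ℕ) + 1 : ℕ) : ZMod 50) = (((l : ℕ) + 1 : ℕ) : ZMod 50) := congrArg Subtype.val h
  rw [ZMod.natCast_eq_natCast_iff'] at h1
  ext
  have := k.2
  have := l.2
  omega

/-- the injection -/
def spx_phi : FreeGroup (Fin 49) →* Gam 50 := (ii 50).comp (FreeGroup.map spx_ix)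

theorem spx_phi_inj : Function.Injective spx_phi := by
  intro a b h
  exact FreeGroup.map_injective spx_ix_inj (SemidirectProduct.inr_injective h)

theorem exists_space :
    ∃ (X : Type) (_ : MeasurableSpace X) (_ : StandardBorelSpace X) (μ : Measure X)
      (_ : MulAction (Gam 50) X), Sp (DD 50 (by norm_num)) X μ ∧
      ∀ δ : ℝ≥0∞, δ ≠ 0 → ∃ B, MeasurableSet B ∧ μ B ≤ δ ∧
        ∀ᵐ x ∂μ, ∃ t ∈ (DD 50 (by norm_num)).T, t • x ∈ B := by
  have hinf : Infinite (Gam 50) := Infinite.of_injective spx_phi spx_phi_inj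
  have hT : Infinite (TT 50) := TT_infinite 50 (by norm_num)
  refine ⟨FreePt (Gam 50), inferInstance, inferInstance, fbern (Gam 50), inferInstance, ?_, ?_⟩
  · refine sp_freePt _ spx_phi spx_phi_inj fun k => ?_
    change ii 50 (hh 50 (((k : ℕ) + 1 : ℕ) : ZMod 50)) = spx_phi (FreeGroup.of k)
    have h1 : hh 50 (((k : ℕ) + 1 : ℕ) : ZMod 50) = FreeGroup.of (spx_ix k) := by
      unfold hh
      exact dif_neg (spx_ix k).2
    rw [h1]
    simp [spx_phi]
  · intro δ hδ
    exact spx_recur_free (TT 50) δ hδ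

end Crest.Agent.FP
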