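import Mathlib

/-! Row 191 (S0291), spectral package, part 1: the `2 √n` bound for `n` free generators, in
coefficient form. -/
set_option autoImplicit false

open scoped ENNReal

namespace Crest.Agent.FP

section abstractBound

variable {S : Type*} {n : ℕ}

/-- abstract form of the `2 √n` bound: `c` is a function on `S`, `σ k` permutations, and
`P k` pairwise disjoint, `N k` pairwise disjoint, `s ∉ P k → σ k ⁻¹ s ∈ N k`. -/
theorem tsum_sq_sum_perm_le (σ : Fin n → Equiv.Perm S) (P N : Fin n → Set S)
    (hP : ∀ k l s, s ∈ P k → s ∈ P l → k = l) (hN : ∀ k l s, s ∈ N k → s ∈ N l → k = l)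
    (c : S → ℝ) (hPN : ∀ k s, c ((σ k).symm s) ≠ 0 → s ∉ P k → (σ k).symm s ∈ N k) :
    ∑' s, ENNReal.ofReal ((∑ k, c ((σ k).symm s)) ^ 2) ≤
      4 * n * ∑' s, ENNReal.ofReal (c s ^ 2) := by
  classical
  set A : S → ℝ := fun s => ∑ k, if s ∈ P k then c ((σ k).symm s) else 0 with hA
  set B : S → ℝ := fun s => ∑ k, if s ∈ P k then 0 else c ((σ k).symm s) with hB
  have hAB : ∀ s, ∑ k, c ((σ k).symm s) = A s + B s := by
    intro s
    simp only [hA, hB, ← Finset.sum_add_distrib]
    refine Finset.sum_congr rfl fun k _ => ?_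
    split_ifs <;> simp
  -- bound for A
  have hA2 : ∀ s, A s ^ 2 ≤ ∑ k, c ((σ k).symm s) ^ 2 := by
    intro s
    by_cases h : ∃ k, s ∈ P k
    · obtain ⟨k, hk⟩ := h
      have : A s = c ((σ k).symm s) := by
        simp only [hA]
        rw [Finset.sum_eq_single k]
        · simp [hk]
        · intro l _ hl
          rw [if_neg]
          intro h'
          exact hl (hP l k s h' hk)
        · simp
      rw [this]
      exact Finset.single_le_sum (f := fun k => c ((σ k).symm s) ^ 2) (fun _ _ => sq_nonneg _)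
        (Finset.mem_univ k)
    · have : A s = 0 := by
        simp only [hA]
        refine Finset.sum_eq_zero fun k _ => ?_
        rw [if_neg]
        intro h'
        exact h ⟨k, h'⟩
      rw [this]
      simpa using Finset.sum_nonneg (fun k _ => sq_nonneg (c ((σ k).symm s)))
  have hB2 : ∀ s, B s ^ 2 ≤ n * ∑ k, if (σ k).symm s ∈ N k then c ((σ k).symm s) ^ 2 else 0 := by
    intro s
    simp only [hB]
    have h1 := sq_sum_le_card_mul_sum_sq (s := (Finset.univ : Finset (Fin n)))
      (f := fun k => if s ∈ P k then 0 else c ((σ k).symm s))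
    rw [Finset.card_univ, Fintype.card_fin] at h1
    refine h1.trans (mul_le_mul_of_nonneg_left ?_ (Nat.cast_nonneg n))
    refine Finset.sum_le_sum fun k _ => ?_
    by_cases h : s ∈ P k
    · rw [if_pos h]
      split_ifs
      · simpa using sq_nonneg _
      · simp
    · rw [if_neg h]
      by_cases h0 : c ((σ k).symm s) = 0
      · rw [h0]; split_ifs <;> simp
      · rw [if_pos (hPN k s h0 h)]
  have hsumA : ∑' s, ENNReal.ofReal (∑ k, c ((σ k).symm s) ^ 2) =
      n * ∑' s, ENNReal.ofReal (c s ^ 2) := by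
    have : ∀ s, ENNReal.ofReal (∑ k, c ((σ k).symm s) ^ 2) =
        ∑ k, ENNReal.ofReal (c ((σ k).symm s) ^ 2) := fun s =>
      ENNReal.ofReal_sum_of_nonneg fun _ _ => sq_nonneg _
    simp only [this]
    rw [Summable.tsum_finsetSum (fun _ _ => ENNReal.summable)]
    have : ∀ k, ∑' s, ENNReal.ofReal (c ((σ k).symm s) ^ 2) = ∑' s, ENNReal.ofReal (c s ^ 2) :=
      fun k => (σ k).symm.tsum_eq (fun s => ENNReal.ofReal (c s ^ 2))
    simp [this]
  have hsumB : ∑' s, ENNReal.ofReal
      (∑ k, if (σ k).symm s ∈ N k then c ((σ k).symm s) ^ 2 else 0) ≤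
      ∑' s, ENNReal.ofReal (c s ^ 2) := by
    have : ∀ s, ENNReal.ofReal (∑ k, if (σ k).symm s ∈ N k then c ((σ k).symm s) ^ 2 else 0) =
        ∑ k, ENNReal.ofReal (if (σ k).symm s ∈ N k then c ((σ k).symm s) ^ 2 else 0) := fun s =>
      ENNReal.ofReal_sum_of_nonneg fun _ _ => by split_ifs <;> positivity
    simp only [this]
    rw [Summable.tsum_finsetSum (fun _ _ => ENNReal.summable)]
    have h2 : ∀ k, ∑' s, ENNReal.ofReal (if (σ k).symm s ∈ N k then c ((σ k).symm s) ^ 2 else 0) =
        ∑' s, ENNReal.ofReal (if s ∈ N k then c s ^ 2 else 0) :=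
      fun k => (σ k).symm.tsum_eq (fun s => ENNReal.ofReal (if s ∈ N k then c s ^ 2 else 0))
    simp only [h2]
    rw [← Summable.tsum_finsetSum (fun _ _ => ENNReal.summable)]
    refine ENNReal.tsum_le_tsum fun s => ?_
    by_cases h : ∃ k, s ∈ N k
    · obtain ⟨k, hk⟩ := h
      rw [Finset.sum_eq_single k]
      · rw [if_pos hk]
      · intro l _ hl
        rw [if_neg, ENNReal.ofReal_zero]
        intro h'
        exact hl (hN l k s h' hk)
      · simp
    · rw [Finset.sum_eq_zero]
      · exact bot_le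
      · intro k _
        rw [if_neg, ENNReal.ofReal_zero]
        intro h'
        exact h ⟨k, h'⟩
  calc ∑' s, ENNReal.ofReal ((∑ k, c ((σ k).symm s)) ^ 2)
      ≤ ∑' s, (2 * ENNReal.ofReal (∑ k, c ((σ k).symm s) ^ 2) + 2 * (n * ENNReal.ofReal
          (∑ k, if (σ k).symm s ∈ N k then c ((σ k).symm s) ^ 2 else 0))) := by
        refine ENNReal.tsum_le_tsum fun s => ?_
        rw [hAB]
        have h1 : (A s + B s) ^ 2 ≤ 2 * (∑ k, c ((σ k).symm s) ^ 2) +
            2 * (n * ∑ k, if (σ k).symm s ∈ N k then c ((σ k).symm s) ^ 2 else 0) := by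
          have := hA2 s
          have := hB2 s
          nlinarith [sq_nonneg (A s - B s)]
        refine (ENNReal.ofReal_le_ofReal h1).trans ?_
        rw [ENNReal.ofReal_add, ENNReal.ofReal_mul (by norm_num), ENNReal.ofReal_mul (by norm_num),
          ENNReal.ofReal_mul (Nat.cast_nonneg n)]
        · simp
        · exact mul_nonneg (by norm_num) (Finset.sum_nonneg fun _ _ => sq_nonneg _)
        · exact mul_nonneg (by norm_num) (mul_nonneg (Nat.cast_nonneg n)
            (Finset.sum_nonneg fun _ _ => by split_ifs <;> positivity))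
    _ = 2 * (n * ∑' s, ENNReal.ofReal (c s ^ 2)) + 2 * (n * ∑' s, ENNReal.ofReal
          (∑ k, if (σ k).symm s ∈ N k then c ((σ k).symm s) ^ 2 else 0)) := by
        rw [ENNReal.tsum_add, ENNReal.tsum_mul_left, ENNReal.tsum_mul_left, ENNReal.tsum_mul_left,
          hsumA]
    _ ≤ 2 * (n * ∑' s, ENNReal.ofReal (c s ^ 2)) + 2 * (n * ∑' s, ENNReal.ofReal (c s ^ 2)) := by
        gcongr
    _ = 4 * n * ∑' s, ENNReal.ofReal (c s ^ 2) := by ring

end abstractBound

section firstLetter

variable {n : ℕ} {Γ : Type} [Group Γ]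

/-- translation of finite subsets -/
def tr (g : Γ) (S : Finset Γ) : Finset Γ := S.map (Equiv.mulLeft g).toEmbedding

theorem mem_tr {g x : Γ} {S : Finset Γ} : x ∈ tr g S ↔ g⁻¹ * x ∈ S := by
  unfold tr
  rw [Finset.mem_map_equiv]
  simp

theorem tr_one (S : Finset Γ) : tr 1 S = S := by
  ext x; simp [mem_tr]

theorem tr_mul (g h : Γ) (S : Finset Γ) : tr (g * h) S = tr g (tr h S) := by
  ext x; simp [mem_tr, mul_assoc]

/-- translation as a permutation -/
def trPerm (g : Γ) : Equiv.Perm (Finset Γ) where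
  toFun := tr g
  invFun := tr g⁻¹
  left_inv S := by rw [← tr_mul, inv_mul_cancel, tr_one]
  right_inv S := by rw [← tr_mul, mul_inv_cancel, tr_one]

variable (φ : FreeGroup (Fin n) →* Γ) (hφ : Function.Injective φ)

include hφ in
theorem tr_free {g : FreeGroup (Fin n)} {S : Finset Γ} (hS : S.Nonempty)
    (h : tr (φ g) S = S) : g = 1 := by
  classical
  by_contra hg
  obtain ⟨x, hx⟩ := hS
  have h1 : ∀ k : ℕ, φ g ^ k * x ∈ S := by
    intro k
    induction k with
    | zero => simpa using hx
    | succ k ih =>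
      rw [← h, mem_tr]
      rw [pow_succ']
      simpa [mul_assoc] using ih
  have hinf : Set.Infinite (Set.range fun k : ℕ => φ g ^ k * x) := by
    refine Set.infinite_range_of_injective ?_
    intro a b hab
    simp only at hab
    have h2 : φ g ^ a = φ g ^ b := mul_right_cancel hab
    rw [← map_pow, ← map_pow] at h2
    have h3 := hφ h2
    have h4 : ¬ IsOfFinOrder g := not_isOfFinOrder_of_isMulTorsionFree hg
    exact (injective_pow_iff_not_isOfFinOrder.2 h4) h3
  refine hinf (S.finite_toSet.subset ?_)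
  rintro _ ⟨k, rfl⟩
  exact h1 k

/-- orbit relation of the free group on finite subsets -/
def trSetoid : Setoid (Finset Γ) where
  r S S' := ∃ g, S = tr (φ g) S'
  iseqv := {
    refl := fun S => ⟨1, by rw [map_one, tr_one]⟩
    symm := by
      rintro S S' ⟨g, rfl⟩
      exact ⟨g⁻¹, by rw [← tr_mul, ← map_mul, inv_mul_cancel, map_one, tr_one]⟩
    trans := by
      rintro S S' S'' ⟨g, rfl⟩ ⟨h, rfl⟩
      exact ⟨g * h, by rw [map_mul, tr_mul]⟩ }

/-- representative of the orbit -/
noncomputable def orep (S : Finset Γ) : Finset Γ :=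
  (Quotient.mk (trSetoid φ) S).out

theorem exists_orep (S : Finset Γ) : ∃ g, S = tr (φ g) (orep φ S) := by
  have : (trSetoid φ).r (orep φ S) S := Quotient.mk_out (s := trSetoid φ) S
  exact (trSetoid φ).iseqv.symm this

/-- the element of the free group carrying the representative to `S` -/
noncomputable def oel (S : Finset Γ) : FreeGroup (Fin n) := (exists_orep φ S).choose

theorem oel_spec (S : Finset Γ) : S = tr (φ (oel φ S)) (orep φ S) := (exists_orep φ S).choose_spec

theorem orep_tr (g : FreeGroup (Fin n)) (S : Finset Γ) : orep φ (tr (φ g) S) = orep φ S := by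
  unfold orep
  congr 1
  exact Quotient.sound (s := trSetoid φ) ⟨g, rfl⟩

include hφ in
theorem oel_tr (g : FreeGroup (Fin n)) {S : Finset Γ} (hS : S.Nonempty) :
    oel φ (tr (φ g) S) = g * oel φ S := by
  have h1 := oel_spec φ (tr (φ g) S)
  have h2 := oel_spec φ S
  rw [orep_tr] at h1
  have h3 : tr (φ g) S = tr (φ (g * oel φ S)) (orep φ S) := by
    rw [map_mul, tr_mul, ← h2]
  have hne : (orep φ S).Nonempty := by
    rw [Finset.nonempty_iff_ne_empty]
    intro h
    rw [h] at h2
    rw [h2] at hS
    simp [tr] at hS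
  have h4 : tr (φ ((g * oel φ S)⁻¹ * oel φ (tr (φ g) S))) (orep φ S) = orep φ S := by
    rw [map_mul, tr_mul, ← h1, h3, ← tr_mul, ← map_mul, inv_mul_cancel, map_one, tr_one]
  have h5 := tr_free φ hφ hne h4
  rw [inv_mul_eq_one] at h5
  exact h5.symm

/-- finite sets whose group element starts with the letter `(k, b)` -/
def startSet (b : Bool) (k : Fin n) : Set (Finset Γ) :=
  {S | (oel φ S).toWord.head? = some (k, b)}

theorem startSet_disj (b : Bool) (k l : Fin n) (S : Finset Γ) (h1 : S ∈ startSet φ b k)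
    (h2 : S ∈ startSet φ b l) : k = l := by
  have h1' : (oel φ S).toWord.head? = some (k, b) := h1
  have h2' : (oel φ S).toWord.head? = some (l, b) := h2
  rw [h1'] at h2'
  simpa using h2'

theorem head_mk_mul (k : Fin n) (b : Bool) (g : FreeGroup (Fin n)) :
    g.toWord.head? = some (k, !b) ∨ (FreeGroup.mk [(k, b)] * g).toWord.head? = some (k, b) := by
  by_cases h : g.toWord.head? = some (k, !b)
  · exact Or.inl h
  · right
    have h1 : (FreeGroup.mk [(k, b)] * g).toWord = FreeGroup.reduce ((k, b) :: g.toWord) := by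
      rw [FreeGroup.toWord_mul, FreeGroup.toWord_mk]
      rfl
    rw [h1, FreeGroup.reduce.cons, FreeGroup.reduce_toWord]
    rcases hw : g.toWord with _ | ⟨⟨l, b'⟩, L⟩
    · simp
    · rw [hw] at h
      simp only [List.head?_cons, Option.some.injEq, Prod.mk.injEq, not_and] at h
      simp only
      split_ifs with h2
      · exfalso
        refine h h2.1.symm ?_
        have h3 := h2.2
        revert h3
        cases b' <;> cases b <;> decide
      · simp

include hφ in
/-- the `2 √n` bound for translation of finitely supported (or arbitrary) coefficient functions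
vanishing at `∅`.  `b` = sign of the generators. -/
theorem tsum_sq_translate_le (b : Bool) (c : Finset Γ → ℝ) (h0 : c ∅ = 0) :
    ∑' S, ENNReal.ofReal ((∑ k : Fin n, c ((trPerm (φ (FreeGroup.mk [(k, b)]))).symm S)) ^ 2) ≤
      4 * n * ∑' S, ENNReal.ofReal (c S ^ 2) := by
  refine tsum_sq_sum_perm_le (fun k => trPerm (φ (FreeGroup.mk [(k, b)])))
    (startSet φ b) (startSet φ (!b)) (startSet_disj φ b) (startSet_disj φ (!b)) c ?_
  intro k S hc hS
  set g := FreeGroup.mk [(k, b)] with hg
  set S' := (trPerm (φ g)).symm S with hS'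
  have hne : S'.Nonempty := by
    rw [Finset.nonempty_iff_ne_empty]
    intro h
    rw [h] at hc
    exact hc h0
  have hSS' : S = tr (φ g) S' := ((trPerm (φ g)).apply_symm_apply S).symm
  have h1 := oel_tr φ hφ g hne
  rw [← hSS'] at h1
  rcases head_mk_mul k b (oel φ S') with h2 | h2
  · exact h2
  · exfalso
    apply hS
    show (oel φ S).toWord.head? = some (k, b)
    rw [h1]
    exact h2

end firstLetter

end Crest.Agent.FP
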