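import Crest.Agent.FP.Defs

/-! Row 191 (S0291), chunk G4. -/
set_option autoImplicit false

namespace Crest.Agent.FP

section transferAux

variable {Γ : Type} [Group Γ] {m : ℕ} (D : GD Γ m) {X : Type} [MulAction Γ X]

/-- orbit map on steps -/
def tr4 (x : X) (p : Γ × Bool) : X × Bool := (p.1 • x, p.2)

theorem tr4_sameT (hfree : ∀ (g : Γ) (x : X), g • x = x → g = 1) (x : X) (g g' : Γ)
    (h : D.SameT (g • x) (g' • x)) : D.SameT g g' := by
  obtain ⟨t, ht, h⟩ := h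
  refine ⟨t, ht, ?_⟩
  have h1 : (g'⁻¹ * (t * g)) • x = x := by
    rw [mul_smul, mul_smul, h, ← mul_smul, inv_mul_cancel, one_smul]
  have h2 := hfree _ _ h1
  rw [smul_eq_mul]
  exact (inv_mul_eq_one.mp h2).symm

theorem tr4_sameT_exists (x : X) (g : Γ) (y : X) (h : D.SameT (g • x) y) :
    ∃ g' : Γ, y = g' • x := by
  obtain ⟨t, ht, h⟩ := h
  exact ⟨t * g, by rw [mul_smul, h]⟩

theorem tr4_kpos (x : X) (p : Γ × Bool) : D.kpos (tr4 x p) = D.kpos p • x := by
  obtain ⟨g, s⟩ := p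
  cases s
  · simp [GD.kpos, tr4]
  · simp [GD.kpos, tr4, mul_smul]

theorem tr4_kpos_exists (x : X) (p : X × Bool) (g : Γ) (h : D.kpos p = g • x) :
    ∃ g' : Γ, p.1 = g' • x := by
  obtain ⟨y, s⟩ := p
  cases s
  · exact ⟨g, by simpa [GD.kpos] using h⟩
  · refine ⟨D.a⁻¹ * g, ?_⟩
    simp only [GD.kpos, if_true] at h
    rw [mul_smul, ← h, inv_smul_smul]

theorem tr4_lift (hfree : ∀ (g : Γ) (x : X), g • x = x → g = 1) (x : X) :
    ∀ (L : List (X × Bool)) (g g' : Γ), D.KWalk (g • x) L (g' • x) →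
      ∃ L' : List (Γ × Bool), L = L'.map (tr4 x) ∧ D.KWalk g L' g' := by
  intro L
  induction L with
  | nil =>
    intro g g' h
    exact ⟨[], rfl, tr4_sameT D hfree x g g' h⟩
  | cons p L ih =>
    intro g g' h
    obtain ⟨h1, h2⟩ := h
    obtain ⟨g1, hg1⟩ := tr4_sameT_exists D x g _ h1
    obtain ⟨g2, hg2⟩ := tr4_kpos_exists D x (p.1, !p.2) g1 hg1
    have hp : p = tr4 x (g2, p.2) := by
      ext1
      · exact hg2
      · rfl
    have hp' : ((p.1, !p.2) : X × Bool) = tr4 x (g2, !p.2) := by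
      ext1
      · exact hg2
      · rfl
    have h2' : D.KWalk (D.kpos (g2, p.2) • x) L (g' • x) := by
      rw [← tr4_kpos, ← hp]; exact h2
    obtain ⟨L', hL', hW⟩ := ih _ _ h2'
    refine ⟨(g2, p.2) :: L', ?_, ?_, hW⟩
    · rw [List.map_cons, ← hp, ← hL']
    · rw [hp', tr4_kpos] at h1
      exact tr4_sameT D hfree x _ _ h1

theorem tr4_fwd (x : X) (q : Γ) (k : ZMod m) :
    (D.fwdRun q k).map (tr4 x) = D.fwdRun (q • x) k := by
  simp [GD.fwdRun, List.map_map, Function.comp_def, tr4, mul_smul]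

theorem tr4_bwd (x : X) (q : Γ) (k : ZMod m) :
    (D.bwdRun q k).map (tr4 x) = D.bwdRun (q • x) k := by
  simp [GD.bwdRun, List.map_map, Function.comp_def, tr4, mul_smul]

end transferAux

/-- the Dehn property passes to any free action -/
theorem GD.DehnOn.transfer {Γ : Type} [Group Γ] {m : ℕ} (D : GD Γ m) (h : D.DehnOn Γ)
    (X : Type) [MulAction Γ X] (hfree : ∀ (g : Γ) (x : X), g • x = x → g = 1) :
    D.DehnOn X := by
  intro x L hL
  have hL' : D.KWalk ((1 : Γ) • x) L (D.a • x) := by rw [one_smul]; exact hL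
  obtain ⟨L', rfl, hW⟩ := tr4_lift D hfree x L 1 D.a hL'
  have hW' : D.KWalk (1 : Γ) L' (D.a • (1 : Γ)) := by simpa using hW
  rcases h 1 L' hW' with h | ⟨A, B, y, d, h⟩ | ⟨A, B, q, k, h⟩ | ⟨A, B, q, k, h⟩
  · left
    rw [h]; simp [tr4]
  · right; left
    refine ⟨A.map (tr4 x), B.map (tr4 x), y • x, d, ?_⟩
    rw [h]; simp [tr4]
  · right; right; left
    refine ⟨A.map (tr4 x), B.map (tr4 x), q • x, k, ?_⟩
    rw [h, ← tr4_fwd]; simp
  · right; right; right
    refine ⟨A.map (tr4 x), B.map (tr4 x), q • x, k, ?_⟩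
    rw [h, ← tr4_bwd]; simp

end Crest.Agent.FP
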